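import Vale.Agent.P230.Prod

/-! Correlation bounds and a soft Janson inequality. -/

namespace Vale.Agent.P230

open Finset
open scoped NNReal

variable {U : Type*} [DecidableEq U] {ι : Type*} (lam : U → ℝ≥0)

/-- indicator that all the sets `S j`, `j ∈ I`, are met -/
def allhit (I : Finset ι) (S : ι → Finset U) (s : Finset U) : ℝ := ∏ j ∈ I, hit (S j) s

theorem allhit_nonneg (I : Finset ι) (S : ι → Finset U) (s : Finset U) : 0 ≤ allhit I S s :=
  prod_nonneg fun _ _ => hit_nonneg _ _

theorem allhit_le_one (I : Finset ι) (S : ι → Finset U) (s : Finset U) : allhit I S s ≤ 1 :=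
  prod_le_one (fun _ _ => hit_nonneg _ _) fun _ _ => hit_le_one _ _

theorem allhit_mono (I : Finset ι) (S : ι → Finset U) : Monotone (allhit I S) :=
  fun _ _ h => prod_le_prod (fun _ _ => hit_nonneg _ _) fun _ _ => hit_mono _ h

theorem allhit_insert {I : Finset ι} {S : ι → Finset U} {u : U} (h : ∀ j ∈ I, u ∉ S j)
    (s : Finset U) : allhit I S (insert u s) = allhit I S s :=
  prod_congr rfl fun j hj => hit_insert (h j hj) s

theorem allhit_eq_one {I : Finset ι} {S : ι → Finset U} {s : Finset U}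
    (h : ∀ j ∈ I, ∃ u ∈ s, u ∈ S j) : allhit I S s = 1 :=
  prod_eq_one fun j hj => if_pos (h j hj)

theorem allhit_eq_zero {I : Finset ι} {S : ι → Finset U} {s : Finset U}
    (h : ¬ ∀ j ∈ I, ∃ u ∈ s, u ∈ S j) : allhit I S s = 0 := by
  push Not at h
  obtain ⟨j, hj, h⟩ := h
  exact prod_eq_zero hj (if_neg fun ⟨u, h1, h2⟩ => h u h1 h2)

theorem allhit_lower (V : Finset U) (I : Finset ι) (S : ι → Finset U) :
    ∏ j ∈ I, ex lam V (hit (S j)) ≤ ex lam V (allhit I S) := by
  classical
  induction I using Finset.induction_on with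
  | empty => simp only [prod_empty]; exact (ex_const lam V 1).ge
  | insert j I hj ih =>
    have e : allhit (insert j I) S = fun s => hit (S j) s * allhit I S s := by
      funext s; exact prod_insert hj
    rw [prod_insert hj, e]
    exact (mul_le_mul_of_nonneg_left ih (ex_nonneg lam (hit_nonneg _))).trans
      (harris lam V (hit_mono _) (allhit_mono I S))

theorem boost {V : Finset U} {I : Finset ι} {S : ι → Finset U} {β : ℝ} (h0 : 0 ≤ β) (h1 : β ≤ 1)
    (h : ∀ u, (∃ j ∈ I, u ∈ S j) → ∃ T, β ≤ ex lam V (hit T) ∧ ∀ j ∈ I, u ∈ S j → T ⊆ S j)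
    (ξ : Finset U) :
    β ^ ξ.card * ex lam V (fun s => allhit I S (ξ ∪ s)) ≤ ex lam V (allhit I S) := by
  induction ξ using Finset.induction_on with
  | empty => simp
  | insert u ξ hu ih =>
    refine le_trans ?_ ih
    rw [card_insert_of_notMem hu, pow_succ, mul_assoc]
    refine mul_le_mul_of_nonneg_left ?_ (by positivity)
    have hn : 0 ≤ ex lam V (fun s => allhit I S (insert u ξ ∪ s)) :=
      ex_nonneg lam fun s => allhit_nonneg _ _ _
    by_cases hu2 : ∃ j ∈ I, u ∈ S j
    · obtain ⟨T, hT1, hT2⟩ := h u hu2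
      refine (mul_le_mul_of_nonneg_right hT1 hn).trans ((harris lam V (hit_mono T)
        (fun s t hst => allhit_mono I S (union_subset_union_right hst))).trans
        (ex_mono lam fun s _ => ?_))
      by_cases a1 : ∃ v ∈ s, v ∈ T
      · by_cases a2 : ∀ j ∈ I, ∃ v ∈ insert u ξ ∪ s, v ∈ S j
        · rw [allhit_eq_one (s := ξ ∪ s)]
          · exact mul_le_one₀ (hit_le_one _ _) (allhit_nonneg _ _ _) (allhit_le_one _ _ _)
          · intro j hj
            by_cases a3 : u ∈ S j
            · obtain ⟨v, hv1, hv2⟩ := a1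
              exact ⟨v, mem_union_right _ hv1, hT2 j hj a3 hv2⟩
            · obtain ⟨v, hv1, hv2⟩ := a2 j hj
              rw [insert_union, mem_insert] at hv1
              exact ⟨v, hv1.resolve_left fun e => a3 (e ▸ hv2), hv2⟩
        · rw [allhit_eq_zero a2, mul_zero]; exact allhit_nonneg _ _ _
      · rw [hit, if_neg a1, zero_mul]; exact allhit_nonneg _ _ _
    · push Not at hu2
      simp only [insert_union, allhit_insert hu2] at hn ⊢
      exact mul_le_of_le_one_left hn h1

theorem half_le_one_sub_exp {x : ℝ} (h0 : 0 ≤ x) (h1 : x ≤ 1) : x / 2 ≤ 1 - Real.exp (-x) := by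
  have a1 := Real.add_one_le_exp x
  have a2 : Real.exp (-x) * Real.exp x = 1 := by rw [← Real.exp_add]; simp
  have a3 := Real.exp_pos (-x)
  have a4 : Real.exp (-x) * (x + 1) ≤ 1 := by nlinarith
  nlinarith

/-- the local property used to bound the effect of one extra point -/
def Local (V : Finset U) (I : Finset ι) (S : ι → Finset U) (π : ℝ) : Prop :=
  ∀ u, (∃ j ∈ I, u ∈ S j) → ∃ T, π ≤ ∑ v ∈ V ∩ T, (lam v : ℝ) ∧ ∀ j ∈ I, u ∈ S j → T ⊆ S j

theorem Local.sdiff {V W : Finset U} {I : Finset ι} {S : ι → Finset U} {π : ℝ} (h0 : 0 ≤ π)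
    (h1 : π ≤ 1) (h : Local lam V I S π) (hW : ∑ v ∈ W, (lam v : ℝ) ≤ π / 2) (u : U)
    (hu : ∃ j ∈ I, u ∈ S j) :
    ∃ T, π / 4 ≤ ex lam (V \ W) (hit T) ∧ ∀ j ∈ I, u ∈ S j → T ⊆ S j := by
  obtain ⟨T, h2, h3⟩ := h u hu
  refine ⟨T, ?_, h3⟩
  have a1 : ∑ v ∈ V ∩ T, (lam v : ℝ) ≤ ∑ v ∈ (V \ W) ∩ T, (lam v : ℝ) + ∑ v ∈ W, (lam v : ℝ) := by
    rw [← sum_union (disjoint_left.2 fun v hv => (mem_sdiff.1 (mem_inter.1 hv).1).2)]
    refine sum_le_sum_of_subset_of_nonneg (fun v hv => ?_) fun _ _ _ => by positivity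
    simp only [mem_union, mem_inter, mem_sdiff] at hv ⊢
    tauto
  have a2 := half_le_one_sub_exp (x := π / 2) (by linarith) (by linarith)
  have a3 : Real.exp (-∑ v ∈ (V \ W) ∩ T, (lam v : ℝ)) ≤ Real.exp (-(π / 2)) :=
    Real.exp_le_exp.2 (by linarith)
  rw [ex_hit]
  linarith

theorem pair_bound {V W : Finset U} (hWV : W ⊆ V) {I I' : Finset ι} {S S' : ι → Finset U} {π : ℝ}
    (h0 : 0 < π) (h1 : π ≤ 1) (h : Local lam V I S π) (h' : Local lam V I' S' π)
    (hW : ∑ v ∈ W, (lam v : ℝ) ≤ π ^ 2 / 32)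
    (hd : ∀ u ∈ V \ W, (∀ j ∈ I, u ∉ S j) ∨ (∀ j ∈ I', u ∉ S' j)) :
    ex lam V (fun s => allhit I S s * allhit I' S' s) ≤
      2 * (ex lam V (allhit I S) * ex lam V (allhit I' S')) := by
  have hW2 : ∑ v ∈ W, (lam v : ℝ) ≤ π / 2 := by nlinarith
  have e : V = W ∪ (V \ W) := (union_sdiff_of_subset hWV).symm
  have hm : ∀ {f : Finset U → ℝ}, Monotone f → ex lam (V \ W) f ≤ ex lam V f := by
    intro f hf
    conv_rhs => rw [e, ex_union lam sdiff_disjoint]
    rw [← ex_const lam W (ex lam (V \ W) f)]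
    exact ex_mono lam fun ξ _ => ex_mono lam fun s _ => hf subset_union_right
  have b1 := fun ξ => (boost lam (by linarith) (by linarith) (h.sdiff lam h0.le h1 hW2) ξ).trans
    (hm (allhit_mono I S))
  have b2 := fun ξ => (boost lam (by linarith) (by linarith) (h'.sdiff lam h0.le h1 hW2) ξ).trans
    (hm (allhit_mono I' S'))
  set P := ex lam V (allhit I S)
  set P' := ex lam V (allhit I' S')
  have hP : 0 ≤ P := ex_nonneg lam (allhit_nonneg _ _)
  have hP' : 0 ≤ P' := ex_nonneg lam (allhit_nonneg _ _)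
  calc _ = ex lam W (fun ξ => ex lam (V \ W)
        (fun s => allhit I S (ξ ∪ s) * allhit I' S' (ξ ∪ s))) := by
        conv_lhs => rw [e, ex_union lam sdiff_disjoint]
    _ ≤ ex lam W (fun ξ => P * P' * (16 / π ^ 2) ^ ξ.card) := by
        refine ex_mono lam fun ξ _ => ?_
        rw [ex_indep lam (f := fun s => allhit I S (ξ ∪ s)) (g := fun s => allhit I' S' (ξ ∪ s))
          fun u hu => (hd u hu).imp (fun h s => by rw [union_insert, allhit_insert h])
            (fun h s => by rw [union_insert, allhit_insert h])]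
        have c := mul_le_mul (b1 ξ) (b2 ξ) (mul_nonneg (by positivity)
          (ex_nonneg lam fun s => allhit_nonneg _ _ _)) hP
        have c2 : (π / 4) ^ ξ.card * (π / 4) ^ ξ.card * (16 / π ^ 2) ^ ξ.card = 1 := by
          rw [← mul_pow, ← mul_pow, show π / 4 * (π / 4) * (16 / π ^ 2) = 1 by field_simp; norm_num,
            one_pow]
        have c3 := mul_le_mul_of_nonneg_right c (by positivity : 0 ≤ (16 / π ^ 2) ^ ξ.card)
        refine le_trans (le_of_eq ?_) c3
        linear_combination (-(ex lam (V \ W) (fun s => allhit I S (ξ ∪ s)) *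
          ex lam (V \ W) (fun s => allhit I' S' (ξ ∪ s)))) * c2
    _ ≤ P * P' * 2 := by
        rw [ex_mul]
        refine mul_le_mul_of_nonneg_left ((ex_pow_card lam W (by positivity)).trans ?_)
          (mul_nonneg hP hP')
        have c1 : 16 / π ^ 2 * ∑ u ∈ W, (lam u : ℝ) ≤ 1 / 2 := by
          calc _ ≤ 16 / π ^ 2 * (π ^ 2 / 32) := by gcongr
            _ = _ := by field_simp; norm_num
        refine (Real.exp_le_exp.2 c1).trans ?_
        have c2 := Real.exp_one_lt_three
        have c3 : Real.exp (1 / 2) * Real.exp (1 / 2) = Real.exp 1 := by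
          rw [← Real.exp_add]; norm_num
        nlinarith [Real.exp_pos (1 / 2)]
    _ = _ := mul_comm _ _

theorem one_sub_sum_le_prod {κ : Type*} (L : Finset κ) {x : κ → ℝ} (h0 : ∀ l ∈ L, 0 ≤ x l)
    (h1 : ∀ l ∈ L, x l ≤ 1) : 1 - ∑ l ∈ L, x l ≤ ∏ l ∈ L, (1 - x l) := by
  classical
  induction L using Finset.induction_on with
  | empty => simp
  | insert l L hl ih =>
    rw [sum_insert hl, prod_insert hl]
    have a1 := ih (fun k hk => h0 k (mem_insert_of_mem hk)) fun k hk => h1 k (mem_insert_of_mem hk)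
    have a2 := h0 l (mem_insert_self _ _)
    have a3 := h1 l (mem_insert_self _ _)
    have a4 : 0 ≤ ∑ l ∈ L, x l := sum_nonneg fun k hk => h0 k (mem_insert_of_mem hk)
    nlinarith

theorem janson {V : Finset U} {A : ℕ → Finset U → ℝ} (hA0 : ∀ k s, 0 ≤ A k s)
    (hA1 : ∀ k s, A k s ≤ 1) (hA : ∀ k, Monotone (A k)) {p : ℝ} (hp : 0 < p) {M : ℕ}
    (hP : ∀ k < M, p ≤ ex lam V (A k)) (dep : ℕ → Finset ℕ)
    (hdep : ∀ k < M, 4 * p * (dep k).card ≤ 1)
    (hind : ∀ k < M, ∀ u ∈ V, (∀ s, A k (insert u s) = A k s) ∨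
      ∀ l < k, l ∉ dep k → ∀ s, A l (insert u s) = A l s)
    (hpair : ∀ k < M, ∀ l < k, ex lam V (fun s => A k s * A l s) ≤
      2 * (ex lam V (A k) * ex lam V (A l))) :
    ex lam V (fun s => ∏ k ∈ range M, (1 - p / ex lam V (A k) * A k s)) ≤
      Real.exp (-(M * p / 2)) := by
  induction M with
  | zero => simp [ex_const]
  | succ M ih =>
    have ih' := ih (fun k hk => hP k (by omega)) (fun k hk => hdep k (by omega))
      (fun k hk => hind k (by omega)) (fun k hk => hpair k (by omega))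
    set x : ℕ → Finset U → ℝ := fun k s => p / ex lam V (A k) * A k s with hx
    have hq0 : ∀ k ≤ M, 0 < ex lam V (A k) := fun k hk => hp.trans_le (hP k (by omega))
    have hx0 : ∀ k ≤ M, ∀ s, 0 ≤ x k s := fun k hk s =>
      mul_nonneg (div_pos hp (hq0 k hk)).le (hA0 k s)
    have hx1 : ∀ k ≤ M, ∀ s, x k s ≤ 1 := fun k hk s =>
      mul_le_one₀ ((div_le_one (hq0 k hk)).2 (hP k (by omega))) (hA0 k s) (hA1 k s)
    set Ld := (range M).filter (· ∈ dep M) with hLd
    set Li := (range M).filter (· ∉ dep M) with hLi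
    have hd : ∀ l ∈ Ld, l < M := fun l hl => mem_range.1 (mem_filter.1 hl).1
    have hi : ∀ l ∈ Li, l < M := fun l hl => mem_range.1 (mem_filter.1 hl).1
    set F : Finset U → ℝ := fun s => ∏ l ∈ Li, (1 - x l s) with hF
    have hF0 : ∀ s, 0 ≤ F s := fun s => prod_nonneg fun l hl => sub_nonneg.2 (hx1 l (hi l hl).le s)
    have hFa : Monotone fun s => -F s := fun s t hst => neg_le_neg
      (prod_le_prod (fun l hl => sub_nonneg.2 (hx1 l (hi l hl).le t)) fun l hl =>
        sub_le_sub_left (mul_le_mul_of_nonneg_left (hA l hst)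
          (div_pos hp (hq0 l (hi l hl).le)).le) _)
    have hsplit : ∀ s, ∏ l ∈ range M, (1 - x l s) = (∏ l ∈ Ld, (1 - x l s)) * F s := fun s =>
      (prod_filter_mul_prod_filter_not _ _ _).symm
    have a1 : ex lam V (fun s => A M s * F s) = ex lam V (A M) * ex lam V F :=
      ex_indep lam fun u hu => (hind M (by omega) u hu).imp id fun h s =>
        prod_congr rfl fun l hl => by simp only [hx, h l (hi l hl) (mem_filter.1 hl).2]
    have hE0 : 0 ≤ ex lam V F := ex_nonneg lam hF0
    have a2 : ∀ l ∈ Ld, ex lam V (fun s => x l s * (A M s * F s)) ≤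
        2 * p * (ex lam V (A M) * ex lam V F) := by
      intro l hl
      have b1 := harris lam V hFa (g := fun s => A M s * A l s)
        (fun s t hst => mul_le_mul (hA M hst) (hA l hst) (hA0 _ _) (hA0 _ _))
      have e1 : ex lam V (fun s => -F s) = -ex lam V F := by
        rw [← neg_one_mul, ← ex_mul]; simp
      have e2 : ex lam V (fun s => x l s * (A M s * F s)) =
          -(p / ex lam V (A l)) * ex lam V (fun s => -F s * (A M s * A l s)) := by
        rw [← ex_mul]; congr 1; funext s; simp only [hx]; ring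
      have b2 := mul_le_mul_of_nonneg_left (hpair M (by omega) l (hd l hl)) hE0
      have hl0 := hq0 l (hd l hl).le
      rw [e1] at b1
      rw [e2]
      calc _ ≤ p / ex lam V (A l) * (ex lam V F * (2 * (ex lam V (A M) * ex lam V (A l)))) := by
            rw [neg_mul, ← mul_neg]
            exact mul_le_mul_of_nonneg_left (by linarith) (div_pos hp hl0).le
        _ = _ := by field_simp
    have a3 : ex lam V (A M) * ex lam V F / 2 ≤
        ex lam V (fun s => A M s * ∏ l ∈ range M, (1 - x l s)) := by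
      have b1 : ex lam V (fun s => A M s * F s - ∑ l ∈ Ld, x l s * (A M s * F s)) ≤
          ex lam V (fun s => A M s * ∏ l ∈ range M, (1 - x l s)) := by
        refine ex_mono lam fun s _ => ?_
        rw [hsplit, ← sum_mul]
        have := mul_le_mul_of_nonneg_right (one_sub_sum_le_prod Ld
          (fun l hl => hx0 l (hd l hl).le s) fun l hl => hx1 l (hd l hl).le s)
          (mul_nonneg (hA0 M s) (hF0 s))
        linarith
      rw [ex_sub, ex_sum, a1] at b1
      have b2 := sum_le_sum a2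
      rw [sum_const, nsmul_eq_mul] at b2
      have b3 : (Ld.card : ℝ) ≤ (dep M).card := by
        exact_mod_cast card_le_card fun l hl => (mem_filter.1 hl).2
      have b4 := hdep M (by omega)
      have b5 : 0 ≤ ex lam V (A M) * ex lam V F := mul_nonneg (hq0 M le_rfl).le hE0
      have b6 : 4 * p * Ld.card ≤ 1 := le_trans (by gcongr) b4
      nlinarith
    have a4 : ex lam V (fun s => ∏ l ∈ range M, (1 - x l s)) ≤ ex lam V F := by
      refine ex_mono lam fun s _ => ?_
      rw [hsplit]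
      exact mul_le_of_le_one_left (hF0 s) (prod_le_one
        (fun l hl => sub_nonneg.2 (hx1 l (hd l hl).le s))
        fun l hl => sub_le_self _ (hx0 l (hd l hl).le s))
    have e3 : ex lam V (fun s => ∏ k ∈ range (M + 1), (1 - x k s)) =
        ex lam V (fun s => ∏ l ∈ range M, (1 - x l s)) -
          p / ex lam V (A M) * ex lam V (fun s => A M s * ∏ l ∈ range M, (1 - x l s)) := by
      rw [← ex_mul, ← ex_sub]; congr 1; funext s; rw [prod_range_succ]; simp only [hx]; ring
    have a5 : p / 2 * ex lam V (fun s => ∏ l ∈ range M, (1 - x l s)) ≤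
        p / ex lam V (A M) * ex lam V (fun s => A M s * ∏ l ∈ range M, (1 - x l s)) := by
      have hM := hq0 M le_rfl
      calc _ ≤ p / 2 * ex lam V F := by gcongr
        _ = p / ex lam V (A M) * (ex lam V (A M) * ex lam V F / 2) := by field_simp
        _ ≤ _ := by gcongr
    have a6 := Real.add_one_le_exp (-(p / 2))
    have a7 : 0 ≤ ex lam V (fun s => ∏ l ∈ range M, (1 - x l s)) :=
      ex_nonneg lam fun s => prod_nonneg fun l hl => sub_nonneg.2 (hx1 l (mem_range.1 hl).le s)
    rw [e3, show -(((M + 1 : ℕ) : ℝ) * p / 2) = -(p / 2) + -(M * p / 2) by push_cast; ring,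
      Real.exp_add]
    calc _ ≤ (-(p / 2) + 1) * ex lam V (fun s => ∏ l ∈ range M, (1 - x l s)) := by linarith
      _ ≤ Real.exp (-(p / 2)) * ex lam V (fun s => ∏ l ∈ range M, (1 - x l s)) := by gcongr
      _ ≤ _ := by gcongr

end Vale.Agent.P230
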