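import Vale.Agent.P230.Geom
import Vale.Agent.P230.Janson

/-! Discretisation of the Poisson process of half spaces into coloured atoms. -/

namespace Vale.Agent.P230

open MeasureTheory ProbabilityTheory Set
open scoped ENNReal NNReal RealInnerProductSpace Classical

variable {E : Type*} [NormedAddCommGroup E] [InnerProductSpace ℝ E]

noncomputable def sig (Zs : Finset E) (t : ℝ) (g : E) : Finset E := Zs.filter fun z => t ≤ ⟪z, g⟫

theorem mem_sig {Zs : Finset E} {t : ℝ} {g z : E} (hz : z ∈ Zs) : z ∈ sig Zs t g ↔ t ≤ ⟪z, g⟫ := by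
  simp [sig, hz]

variable [MeasurableSpace E] (Zs : Finset E) (t : ℝ) (ν : Measure E)

noncomputable def atoms : Finset (Finset E) :=
  Zs.powerset.filter fun σ => ν (sig Zs t ⁻¹' {σ}) ≠ 0

noncomputable def cw (D : ℕ) (c : Option (Fin D)) : ℝ≥0 := c.elim (1 / 2) fun _ => 1 / (2 * D)

noncomputable def lam (D : ℕ) (Λ : ℝ≥0) (v : Option (Fin D) × Finset E) : ℝ≥0 :=
  cw D v.1 * Λ * (ν (sig Zs t ⁻¹' {v.2})).toNNReal

noncomputable def VV (D : ℕ) : Finset (Option (Fin D) × Finset E) := Finset.univ ×ˢ atoms Zs t ν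

theorem sum_cw {D : ℕ} (hD : 0 < D) : ∑ c, (cw D c : ℝ) = 1 := by
  have : (0 : ℝ) < D := by exact_mod_cast hD
  rw [Fintype.sum_option]
  simp [cw]
  field_simp
  norm_num

theorem sum_VV {D : ℕ} (hD : 0 < D) (Λ : ℝ≥0) (f : Finset E → ℝ) :
    ∑ v ∈ VV Zs t ν D, (lam Zs t ν D Λ v : ℝ) * f v.2 =
      Λ * ∑ σ ∈ atoms Zs t ν, ν.real (sig Zs t ⁻¹' {σ}) * f σ := by
  rw [VV, Finset.sum_product]
  simp only [lam, NNReal.coe_mul, mul_assoc, ← Finset.mul_sum]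
  rw [← Finset.sum_mul, sum_cw hD, one_mul]
  rfl

variable [BorelSpace E]

theorem measurableSet_sig (σ : Finset E) : MeasurableSet (sig Zs t ⁻¹' {σ}) := by
  have e : sig Zs t ⁻¹' {σ} = {_g | σ ⊆ Zs} ∩ ⋂ z ∈ Zs, {g | z ∈ σ ↔ t ≤ ⟪z, g⟫} := by
    ext g
    simp only [mem_preimage, mem_singleton_iff, mem_inter_iff, mem_ofPred_eq, mem_iInter]
    constructor
    · rintro rfl
      exact ⟨Finset.filter_subset _ _, fun z hz => mem_sig hz⟩
    · rintro ⟨h1, h2⟩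
      ext z
      exact ⟨fun h => (h2 z (Finset.mem_filter.1 h).1).2 (Finset.mem_filter.1 h).2,
        fun h => (mem_sig (h1 h)).2 ((h2 z (h1 h)).1 h)⟩
  rw [e]
  exact (MeasurableSet.const _).inter (Finset.measurableSet_biInter _ fun z _ =>
    (MeasurableSet.const _).iff (measurableSet_half z t))

variable [IsFiniteMeasure ν]

theorem sum_atoms (P : Finset E → Prop) :
    ∑ σ ∈ (atoms Zs t ν).filter P, ν.real (sig Zs t ⁻¹' {σ}) = ν.real {g | P (sig Zs t g)} := by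
  have e : {g | P (sig Zs t g)} = sig Zs t ⁻¹' (Zs.powerset.filter P : Finset (Finset E)) := by
    ext g
    simp only [mem_ofPred_eq, mem_preimage, Finset.mem_coe, Finset.mem_filter, Finset.mem_powerset]
    exact ⟨fun h => ⟨Finset.filter_subset _ _, h⟩, fun h => h.2⟩
  rw [e, ← sum_measureReal_preimage_singleton _ fun σ _ => measurableSet_sig Zs t σ]
  refine Finset.sum_subset (Finset.filter_subset_filter _ (Finset.filter_subset _ _))
    fun σ h1 h2 => ?_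
  by_contra h
  refine h2 (Finset.mem_filter.2 ⟨Finset.mem_filter.2 ⟨(Finset.mem_filter.1 h1).1, fun h3 => h ?_⟩,
    (Finset.mem_filter.1 h1).2⟩)
  rw [measureReal_def, h3, ENNReal.toReal_zero]

theorem rate_col {D : ℕ} (Λ : ℝ≥0) (c : Option (Fin D)) (P : Finset E → Prop) :
    ∑ v ∈ (VV Zs t ν D).filter (fun v => v.1 = c ∧ P v.2), (lam Zs t ν D Λ v : ℝ) =
      cw D c * Λ * ν.real {g | P (sig Zs t g)} := by
  have e : (VV Zs t ν D).filter (fun v => v.1 = c ∧ P v.2) = {c} ×ˢ (atoms Zs t ν).filter P := by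
    ext v
    simp only [VV, Finset.mem_filter, Finset.mem_product, Finset.mem_univ, Finset.mem_singleton]
    tauto
  rw [e, Finset.sum_product, Finset.sum_singleton, ← sum_atoms, Finset.mul_sum]
  rfl

theorem rate_all {D : ℕ} (hD : 0 < D) (Λ : ℝ≥0) (P : Finset E → Prop) :
    ∑ v ∈ (VV Zs t ν D).filter (fun v => P v.2), (lam Zs t ν D Λ v : ℝ) =
      Λ * ν.real {g | P (sig Zs t g)} := by
  have := sum_VV Zs t ν hD Λ fun σ => if P σ then 1 else 0
  simp only [mul_ite, mul_one, mul_zero] at this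
  rw [Finset.sum_filter, this, ← sum_atoms, Finset.sum_filter]

theorem rate_col_le {D : ℕ} (Λ : ℝ≥0) (c : Option (Fin D)) (P : Finset E → Prop)
    {T : Finset (Option (Fin D) × Finset E)} (h : ∀ v ∈ VV Zs t ν D, v.1 = c → P v.2 → v ∈ T) :
    cw D c * Λ * ν.real {g | P (sig Zs t g)} ≤
      ∑ v ∈ VV Zs t ν D ∩ T, (lam Zs t ν D Λ v : ℝ) := by
  rw [← rate_col]
  refine Finset.sum_le_sum_of_subset_of_nonneg (fun v hv => ?_) fun _ _ _ => by positivity
  have := Finset.mem_filter.1 hv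
  exact Finset.mem_inter.2 ⟨this.1, h v this.1 this.2.1 this.2.2⟩

theorem rate_all_ex {D : ℕ} (hD : 0 < D) (Λ : ℝ≥0) (P : Finset E → Prop) :
    ∃ W ⊆ VV Zs t ν D, (∀ v ∈ VV Zs t ν D, P v.2 → v ∈ W) ∧
      ∑ v ∈ W, (lam Zs t ν D Λ v : ℝ) = Λ * ν.real {g | P (sig Zs t g)} :=
  ⟨_, Finset.filter_subset _ _, fun _ h1 h2 => Finset.mem_filter.2 ⟨h1, h2⟩, rate_all Zs t ν hD Λ P⟩

theorem exists_rep {h : E → ℝ} (hh : Integrable h ν) (h0 : ∀ g, 0 ≤ h g) {Q : Set E}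
    (hQ : ∀ᵐ g ∂ν, g ∈ Q) :
    ∃ rep : Finset E → E, (∀ σ ∈ atoms Zs t ν, rep σ ∈ Q ∧ sig Zs t (rep σ) = σ) ∧
      ∑ σ ∈ atoms Zs t ν, ν.real (sig Zs t ⁻¹' {σ}) * h (rep σ) ≤ ∫ g, h g ∂ν := by
  have h1 : ∀ σ, ∃ g, σ ∈ atoms Zs t ν → (g ∈ Q ∧ sig Zs t g = σ) ∧
      ν.real (sig Zs t ⁻¹' {σ}) * h g ≤ ∫ g in sig Zs t ⁻¹' {σ}, h g ∂ν := by
    intro σ
    by_cases hσ : σ ∈ atoms Zs t ν
    · have a0 := (Finset.mem_filter.1 hσ).2
      have a1 := measure_le_setAverage_pos a0 (measure_ne_top _ _) hh.integrableOn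
      obtain ⟨g, hg1, hg2⟩ := Measure.exists_mem_of_measure_ne_zero_of_ae a1.ne'
        (ae_restrict_of_ae hQ)
      refine ⟨g, fun _ => ⟨⟨hg2, hg1.1⟩, ?_⟩⟩
      have a2 : 0 < ν.real (sig Zs t ⁻¹' {σ}) := ENNReal.toReal_pos a0 (measure_ne_top _ _)
      have a3 := hg1.2
      rw [setAverage_eq, smul_eq_mul, le_inv_mul_iff₀ a2] at a3
      exact a3
    · exact ⟨0, fun h => absurd h hσ⟩
  choose rep hrep using h1
  refine ⟨rep, fun σ hσ => (hrep σ hσ).1, (Finset.sum_le_sum fun σ hσ => (hrep σ hσ).2).trans ?_⟩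
  rw [← integral_biUnion_finset _ (fun σ _ => measurableSet_sig Zs t σ)
    (pairwiseDisjoint_fiber _ _) fun _ _ => hh.integrableOn]
  exact setIntegral_le_integral hh (ae_of_all _ h0)

end Vale.Agent.P230
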