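import Mathlib

/-! Greedy choice of test points and averaging over windows. -/

namespace Vale.Agent.P230

open MeasureTheory Set Metric
open scoped ENNReal NNReal Classical

theorem greedy {X : Type*} [MeasurableSpace X] [Nonempty X] {μ : Measure X} {G : Set X}
    {near dp : X → Set X} {v₁ v₂ d : ℝ≥0∞} (hd0 : d ≠ 0) (hd1 : d ≠ ⊤)
    (h1 : ∀ y, μ (near y) ≤ v₁) (h2 : ∀ y, μ (dp y) ≤ v₂) (hm : ∀ y, MeasurableSet (dp y)) {M : ℕ}
    (h : M * v₁ + M * v₂ / d < μ G) :
    ∃ y : ℕ → X, ∀ k < M, y k ∈ G ∧ (∀ j < k, y k ∉ near (y j)) ∧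
      (((Finset.range k).filter fun j => y k ∈ dp (y j)).card : ℝ≥0∞) ≤ d := by
  induction M with
  | zero => exact ⟨fun _ => Classical.arbitrary X, fun k hk => absurd hk (Nat.not_lt_zero k)⟩
  | succ M ih =>
    have hM : (M : ℝ≥0∞) ≤ (M + 1 : ℕ) := by exact_mod_cast Nat.le_succ M
    have h' : M * v₁ + M * v₂ / d < μ G := lt_of_le_of_lt (by gcongr) h
    obtain ⟨y, hy⟩ := ih h'
    have b1 : μ (⋃ j ∈ Finset.range M, near (y j)) ≤ M * v₁ :=
      (measure_biUnion_finset_le _ _).trans ((Finset.sum_le_sum fun j _ => h1 _).trans (by simp))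
    have hf : Measurable fun x => ∑ j ∈ Finset.range M, (dp (y j)).indicator (1 : X → ℝ≥0∞) x :=
      Finset.measurable_sum _ fun j _ => measurable_one.indicator (hm _)
    have b2 : μ {x | d ≤ ∑ j ∈ Finset.range M, (dp (y j)).indicator (1 : X → ℝ≥0∞) x} ≤
        M * v₂ / d := by
      refine (meas_ge_le_lintegral_div hf.aemeasurable hd0 hd1).trans ?_
      rw [lintegral_finsetSum _ fun j _ => measurable_one.indicator (hm _)]
      gcongr
      refine (Finset.sum_le_sum fun j _ => (lintegral_indicator_one (hm _)).le.trans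
        (h2 _)).trans (by simp)
    obtain ⟨x, hx1, hx2⟩ := not_subset.1 fun hs => absurd h' (not_lt.2
      ((measure_mono hs).trans ((measure_union_le _ _).trans (add_le_add b1 b2))))
    simp only [mem_union, mem_iUnion, not_or, not_exists, mem_ofPred_eq, not_le,
      Finset.mem_range] at hx2
    refine ⟨fun k => if k < M then y k else x, fun k hk => ?_⟩
    by_cases hkM : k < M
    · obtain ⟨a1, a2, a3⟩ := hy k hkM
      refine ⟨by simpa [hkM] using a1, fun j hj => by simpa [hkM, hj.trans hkM] using a2 j hj, ?_⟩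
      rw [Finset.filter_congr (q := fun j => y k ∈ dp (y j))
        fun j hj => by simp [hkM, (Finset.mem_range.1 hj).trans hkM]]
      exact a3
    · obtain rfl : k = M := by omega
      refine ⟨by simpa using hx1, fun j hj => by simpa [hj] using hx2.1 j hj, ?_⟩
      rw [Finset.filter_congr (q := fun j => x ∈ dp (y j))
        fun j hj => by simp [Finset.mem_range.1 hj]]
      refine le_trans (le_of_eq ?_) hx2.2.le
      rw [Finset.card_filter, Nat.cast_sum]
      exact Finset.sum_congr rfl fun j _ => by simp [indicator]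

variable {E : Type*} [NormedAddCommGroup E] [InnerProductSpace ℝ E] [FiniteDimensional ℝ E]
  [MeasurableSpace E] [BorelSpace E]

theorem exists_window (X : Finset E) {Q : Set E} (hQ : MeasurableSet Q) {φ : E → ℝ≥0∞}
    (hφ : Measurable φ) (h : X.card * ∫⁻ z, φ z < volume Q) :
    ∃ c ∈ Q, ∑ x ∈ X, φ (c - x) < 1 := by
  by_contra hc
  push Not at hc
  refine absurd h (not_lt.2 ?_)
  calc volume Q = ∫⁻ _ in Q, 1 := by simp
    _ ≤ ∫⁻ c in Q, ∑ x ∈ X, φ (c - x) := setLIntegral_mono' hQ hc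
    _ ≤ ∫⁻ c, ∑ x ∈ X, φ (c - x) := setLIntegral_le_lintegral _ _
    _ = _ := by
      rw [lintegral_finsetSum (f := fun x c => φ (c - x)) _ fun x _ => by fun_prop]
      simp [lintegral_sub_right_eq_self]

noncomputable def psi (N : ℝ) (D l : ℕ) (s : ℝ) (z : E) : ℝ≥0∞ :=
  (∑ m ∈ Finset.range l, (closedBall (0 : E) (1 + (s - m) / N)).indicator 1 z) / D +
    (closedBall (0 : E) (1 + (s - l) / N)).indicator 1 z

omit [InnerProductSpace ℝ E] [FiniteDimensional ℝ E] in
theorem measurable_psi (N : ℝ) (D l : ℕ) (s : ℝ) : Measurable (psi (E := E) N D l s) :=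
  ((Finset.measurable_sum _ fun _ _ => measurable_one.indicator measurableSet_closedBall).div_const
    _).add (measurable_one.indicator measurableSet_closedBall)

omit [InnerProductSpace ℝ E] [FiniteDimensional ℝ E] [MeasurableSpace E] [BorelSpace E] in
theorem psi_le {N : ℝ} (D l : ℕ) {z w : E} (h : ‖z - w‖ ≤ 1 / N) :
    psi N D l 1 w ≤ psi N D l 2 z := by
  have key : ∀ m : ℝ, (closedBall (0 : E) (1 + (1 - m) / N)).indicator (1 : E → ℝ≥0∞) w ≤
      (closedBall (0 : E) (1 + (2 - m) / N)).indicator 1 z := by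
    intro m
    by_cases hw : w ∈ closedBall (0 : E) (1 + (1 - m) / N)
    · rw [indicator_of_mem hw, indicator_of_mem]
      · exact le_rfl
      · rw [mem_closedBall_zero_iff] at hw ⊢
        have := norm_sub_norm_le z w
        have e : (2 - m) / N = (1 - m) / N + 1 / N := by ring
        linarith
    · rw [indicator_of_notMem hw]; exact zero_le
  exact add_le_add (ENNReal.div_le_div_right (Finset.sum_le_sum fun (m : ℕ) _ => key m) _) (key l)

theorem vol_ball_le {n : ℕ} (hn : Module.finrank ℝ E = n) (hn0 : 0 < n) {x : ℝ}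
    (h : 0 ≤ 1 + x / n) :
    volume (closedBall (0 : E) (1 + x / n)) ≤
      ENNReal.ofReal (Real.exp x) * volume (closedBall (0 : E) 1) := by
  rw [Measure.addHaar_closedBall' _ _ h, hn]
  gcongr
  have h1 : (0 : ℝ) < n := by exact_mod_cast hn0
  calc _ ≤ Real.exp (x / n) ^ n := by gcongr; linarith [Real.add_one_le_exp (x / n)]
    _ = _ := by rw [← Real.exp_nat_mul]; congr 1; field_simp

theorem lintegral_psi {n D l : ℕ} (hn : Module.finrank ℝ E = n) (hn0 : 0 < n) (hl : l ≤ n)
    (hD : 0 < D) : ∫⁻ z, psi (E := E) n D l 2 z ≤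
      ENNReal.ofReal (18 / D + Real.exp (2 - l)) * volume (closedBall (0 : E) 1) := by
  have h1 : (0 : ℝ) < n := by exact_mod_cast hn0
  have h2 : ∀ m ≤ l, (0 : ℝ) ≤ 1 + (2 - (m : ℕ)) / n := fun m hm => by
    have : (m : ℝ) ≤ n := by exact_mod_cast hm.trans hl
    rw [one_add_div h1.ne']
    exact div_nonneg (by linarith) h1.le
  have hm : ∀ r, Measurable ((closedBall (0 : E) r).indicator (1 : E → ℝ≥0∞)) := fun r =>
    measurable_one.indicator measurableSet_closedBall
  unfold psi
  rw [lintegral_add_right _ (hm _), lintegral_indicator_one measurableSet_closedBall]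
  simp_rw [div_eq_mul_inv _ (D : ℝ≥0∞)]
  rw [lintegral_mul_const _ (Finset.measurable_sum _ fun _ _ => hm _),
    lintegral_finsetSum _ fun _ _ => hm _, ENNReal.ofReal_add (by positivity) (by positivity),
    add_mul]
  refine add_le_add ?_ (vol_ball_le hn hn0 (h2 l le_rfl))
  simp_rw [lintegral_indicator_one measurableSet_closedBall]
  have b1 : ∑ m ∈ Finset.range l, volume (closedBall (0 : E) (1 + (2 - (m : ℕ)) / n)) ≤
      ENNReal.ofReal 18 * volume (closedBall (0 : E) 1) := by
    refine (Finset.sum_le_sum fun m hm => vol_ball_le hn hn0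
      (h2 m (Finset.mem_range.1 hm).le)).trans ?_
    rw [← Finset.sum_mul, ← ENNReal.ofReal_sum_of_nonneg fun _ _ => (Real.exp_pos _).le]
    gcongr
    have c1 : ∀ m : ℕ, Real.exp (2 - m) ≤ 9 * (1 / 2) ^ m := by
      intro m
      have c2 : Real.exp (-1) ≤ 1 / 2 := by
        rw [Real.exp_neg, ← one_div]
        exact one_div_le_one_div_of_le two_pos (by linarith [Real.add_one_le_exp (1 : ℝ)])
      have c3 : Real.exp 2 ≤ 9 := by
        rw [show (2 : ℝ) = 1 + 1 by norm_num, Real.exp_add]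
        nlinarith [Real.exp_one_lt_three, Real.exp_pos 1]
      rw [show (2 : ℝ) - m = 2 + m * (-1) by ring, Real.exp_add, Real.exp_nat_mul]
      gcongr
    refine (Finset.sum_le_sum fun m _ => c1 m).trans ?_
    rw [← Finset.mul_sum]
    linarith [sum_geometric_two_le l]
  rw [ENNReal.ofReal_div_of_pos (by exact_mod_cast hD), ENNReal.ofReal_natCast, div_eq_mul_inv,
    mul_right_comm]
  gcongr

omit [InnerProductSpace ℝ E] [FiniteDimensional ℝ E] [MeasurableSpace E] [BorelSpace E] in
theorem good_point {N : ℝ} (hN : 0 < N) {D l : ℕ} (hD : 0 < D) (hl : 0 < l) (X : Finset E) (y : E)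
    (h : ∑ x ∈ X, psi N D l 1 (y - x) < 1) :
    ∃ (I : Finset E) (k : E → ℝ), (∀ x ∈ X, ‖y - x‖ ≤ 1 + 1 / N → y - x ∈ I) ∧
      (∀ z ∈ I, ∃ x ∈ X, z = y - x) ∧
      (∀ z ∈ I, 1 ≤ k z ∧ k z ≤ l ∧ 1 - k z / N ≤ ‖z‖ ∧ ‖z‖ ≤ 1 + 1 / N) ∧ ∑ z ∈ I, k z ≤ D := by
  let F : E → Finset ℕ := fun z => (Finset.range l).filter fun m => ‖z‖ ≤ 1 + (1 - (m : ℕ)) / N
  have hF : ∀ z, ∑ m ∈ Finset.range l, (closedBall (0 : E) (1 + (1 - (m : ℕ)) / N)).indicator
      (1 : E → ℝ≥0∞) z = (F z).card := fun z => by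
    rw [Finset.card_filter, Nat.cast_sum]
    exact Finset.sum_congr rfl fun j _ => by simp [indicator]
  refine ⟨(X.filter fun x => ‖y - x‖ ≤ 1 + 1 / N).image fun x => y - x, fun z => (F z).card,
    fun x hx h1 => Finset.mem_image_of_mem _ (Finset.mem_filter.2 ⟨hx, h1⟩), fun z hz => ?_,
    fun z hz => ?_, ?_⟩
  · obtain ⟨x, hx, rfl⟩ := Finset.mem_image.1 hz
    exact ⟨x, (Finset.mem_filter.1 hx).1, rfl⟩
  · obtain ⟨x, hx, rfl⟩ := Finset.mem_image.1 hz
    obtain ⟨hx, h1⟩ := Finset.mem_filter.1 hx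
    have a1 : (F (y - x)).card ≤ l := (Finset.card_filter_le _ _).trans (by simp)
    refine ⟨?_, Nat.cast_le.2 a1, ?_, h1⟩
    · have : 0 < (F (y - x)).card :=
        Finset.card_pos.2 ⟨0, Finset.mem_filter.2 ⟨by simpa, by simpa using h1⟩⟩
      exact Nat.one_le_cast.2 this
    · by_contra hc
      have a2 : ∀ m ≤ (F (y - x)).card, ‖y - x‖ ≤ 1 + (1 - (m : ℕ)) / N := fun m hm => by
        have b1 : (m : ℝ) / N ≤ (F (y - x)).card / N := by gcongr
        have b2 : 0 < 1 / N := by positivity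
        rw [sub_div]; linarith [not_le.1 hc]
      rcases a1.lt_or_eq with a3 | a3
      · have := Finset.card_le_card (s := Finset.range ((F (y - x)).card + 1)) (t := F (y - x))
          fun m hm => Finset.mem_filter.2 ⟨by simp at hm ⊢; omega, a2 m (by simp at hm; omega)⟩
        simp at this
      · have b1 := (Finset.single_le_sum (f := fun x => psi N D l 1 (y - x))
          (fun _ _ => zero_le) hx).trans_lt h
        rw [psi, indicator_of_mem (mem_closedBall_zero_iff.2 (a2 l a3.ge))] at b1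
        exact absurd b1 (not_lt.2 le_add_self)
  · rw [Finset.sum_image fun _ _ _ _ h => sub_right_injective h]
    have b1 : ∑ x ∈ X, ((F (y - x)).card : ℝ≥0∞) / D < 1 :=
      lt_of_le_of_lt (Finset.sum_le_sum fun x _ => by rw [psi, hF]; exact le_self_add) h
    simp_rw [div_eq_mul_inv] at b1
    rw [← Finset.sum_mul, ← div_eq_mul_inv, ENNReal.div_lt_iff (Or.inl (by exact_mod_cast hD.ne'))
      (Or.inl (ENNReal.natCast_ne_top _)), one_mul] at b1
    have b2 : ∑ x ∈ X, (F (y - x)).card ≤ D := by exact_mod_cast b1.le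
    have b3 := Finset.sum_le_sum_of_subset (f := fun x => (F (y - x)).card)
      (Finset.filter_subset (fun x => ‖y - x‖ ≤ 1 + 1 / N) X)
    exact_mod_cast b3.trans b2

end Vale.Agent.P230
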