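import Vale.Agent.P230.Core
import Vale.Agent.P230.Greedy

/-! The random body and its covering property. -/

namespace Vale.Agent.P230

open MeasureTheory ProbabilityTheory Set Metric
open scoped ENNReal NNReal RealInnerProductSpace Classical

theorem card_small {α : Type*} (t : Finset α) (N₀ : ℕ) :
    (t.powerset.filter fun X => X.card ≤ N₀).card ≤ (N₀ + 1) * (t.card + 1) ^ N₀ := by
  have h : (t.powerset.filter fun X => X.card ≤ N₀) ⊆
      (Finset.range (N₀ + 1)).biUnion fun i => t.powersetCard i := by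
    intro X hX
    simp only [Finset.mem_filter, Finset.mem_powerset] at hX
    exact Finset.mem_biUnion.2 ⟨X.card, Finset.mem_range.2 (by omega),
      Finset.mem_powersetCard.2 ⟨hX.1, rfl⟩⟩
  refine (Finset.card_le_card h).trans (Finset.card_biUnion_le.trans ?_)
  refine (Finset.sum_le_card_nsmul _ _ ((t.card + 1) ^ N₀) fun i hi => ?_).trans (by simp)
  rw [Finset.card_powersetCard]
  exact (Nat.choose_le_pow _ _).trans ((Nat.pow_le_pow_left (Nat.le_succ _) _).trans
    (Nat.pow_le_pow_right (Nat.succ_pos _) (by simpa [Nat.lt_succ_iff] using hi)))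

variable {E : Type*} [NormedAddCommGroup E] [InnerProductSpace ℝ E] [FiniteDimensional ℝ E]
  [MeasurableSpace E] [BorelSpace E]

theorem cross_volume (X : Finset E) {N₀ : ℕ} (hX : X.card ≤ N₀) {δ : ℝ} (hδ : 0 ≤ δ) (y : E) :
    volume (⋃ q ∈ X ×ˢ X, closedBall (y + q.1 - q.2) δ) ≤
      ENNReal.ofReal (N₀ ^ 2 * δ ^ Module.finrank ℝ E) * volume (closedBall (0 : E) 1) := by
  refine (measure_biUnion_finset_le _ _).trans ?_
  simp_rw [Measure.addHaar_closedBall' _ _ hδ]
  rw [Finset.sum_const, nsmul_eq_mul, Finset.card_product, ← mul_assoc,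
    ENNReal.ofReal_mul (by positivity), ENNReal.ofReal_pow (p := N₀) (by positivity),
    ENNReal.ofReal_natCast, Nat.cast_mul, sq]
  gcongr

omit [InnerProductSpace ℝ E] [FiniteDimensional ℝ E] [MeasurableSpace E] [BorelSpace E] in
theorem cross_far {X : Finset E} {δ : ℝ} {y y' x x' : E} (hx : x ∈ X) (hx' : x' ∈ X)
    (h : y ∉ ⋃ q ∈ X ×ˢ X, closedBall (y' + q.1 - q.2) δ) : δ ≤ ‖y - x - (y' - x')‖ := by
  by_contra hc
  refine h (mem_iUnion₂.2 ⟨(x, x'), Finset.mem_product.2 ⟨hx, hx'⟩, ?_⟩)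
  rw [mem_closedBall_iff_norm, show y - (y' + x - x') = y - x - (y' - x') by abel]
  exact (not_le.1 hc).le

theorem exists_body {n l D N₀ M : ℕ} {A τ R δ : ℝ} {Λ : ℝ≥0} (hn : Module.finrank ℝ E = n)
    (hP : Par E n A τ (τ + 2 * R / n) R l D Λ) (hR : 0 < R) (t : Finset E) (hδ : 0 ≤ δ)
    (hδ2 : 600000 * (l : ℝ) / n ≤ δ ^ 2) (H1 : 8 * M * (N₀ ^ 2 * δ ^ n) ≤ 1)
    (H2 : 32 * Real.exp (-(33 * A * D)) * M * (N₀ ^ 2 * (1 / 16) ^ n) ≤ 1)
    (H3 : (N₀ + 1) * (t.card + 1) ^ N₀ * Real.exp (-(M * Real.exp (-(33 * A * D)) / 2)) < 1 / 4) :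
    ∃ K : Set E, IsCompact K ∧ Convex ℝ K ∧ (interior K).Nonempty ∧ K ⊆ closedBall 0 1 ∧
      -K = K ∧ volume (closedBall (0 : E) 1) ≤ 3 * volume K ∧
      ∀ X ⊆ t, X.card ≤ N₀ → volume (closedBall (0 : E) 1) ≤
        2 * volume {y ∈ closedBall (0 : E) 1 | ∑ x ∈ X, psi n D l 1 (y - x) < 1} →
        ∃ y ∈ closedBall (0 : E) 1, ∀ x ∈ X, ∀ κ ∈ K, 1 / n < ‖y - x - κ‖ := by
  set p := Real.exp (-(33 * A * D)) with hp
  have hp0 : 0 < p := Real.exp_pos _
  set ω := volume (closedBall (0 : E) 1) with hω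
  have hω0 : ω ≠ 0 := (measure_closedBall_pos _ _ one_pos).ne'
  have hω1 : ω ≠ ⊤ := measure_closedBall_lt_top.ne
  have hN : (0 : ℝ) < n := by linarith [hP.hN]
  have hτ : 0 < τ := by linarith [hP.h0]
  have hl : 0 < l := by exact_mod_cast (by linarith [hP.hl] : (0 : ℝ) < l)
  set 𝒞 := t.powerset.filter fun X => X.card ≤ N₀ ∧
    ω ≤ 2 * volume {y ∈ closedBall (0 : E) 1 | ∑ x ∈ X, psi n D l 1 (y - x) < 1} with h𝒞
  have hg : ∀ X ∈ 𝒞, ∃ y : ℕ → E, ∀ k < M,
      y k ∈ {y ∈ closedBall (0 : E) 1 | ∑ x ∈ X, psi n D l 1 (y - x) < 1} ∧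
      (∀ j < k, y k ∉ ⋃ q ∈ X ×ˢ X, closedBall (y j + q.1 - q.2) δ) ∧
      (((Finset.range k).filter fun j =>
        y k ∈ ⋃ q ∈ X ×ˢ X, closedBall (y j + q.1 - q.2) (1 / 16)).card : ℝ≥0∞) ≤
        ENNReal.ofReal (1 / (4 * p)) := by
    intro X hX
    obtain ⟨h1, h2⟩ := (Finset.mem_filter.1 hX).2
    refine greedy (by simp [hp0]) ENNReal.ofReal_ne_top (cross_volume X h1 hδ)
      (cross_volume X h1 (by norm_num))
      (fun y => Finset.measurableSet_biUnion _ fun _ _ => measurableSet_closedBall) ?_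
    rw [hn, ← hω, ← ENNReal.mul_lt_mul_iff_right two_ne_zero ENNReal.ofNat_ne_top]
    refine lt_of_lt_of_le ?_ h2
    have e : 2 * (M * (ENNReal.ofReal (N₀ ^ 2 * δ ^ n) * ω) +
        M * (ENNReal.ofReal (N₀ ^ 2 * (1 / 16) ^ n) * ω) / ENNReal.ofReal (1 / (4 * p))) =
        ENNReal.ofReal (2 * (M * (N₀ ^ 2 * δ ^ n) + 4 * p * M * (N₀ ^ 2 * (1 / 16) ^ n))) * ω := by
      rw [one_div (4 * p), ENNReal.ofReal_inv_of_pos (by positivity), div_eq_mul_inv, inv_inv,
        ENNReal.ofReal_mul (p := 2) (by norm_num), ENNReal.ofReal_add (by positivity)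
        (by positivity), ENNReal.ofReal_mul (p := M) (by positivity),
        ENNReal.ofReal_mul (p := 4 * p * M) (by positivity),
        ENNReal.ofReal_mul (p := 4 * p) (by positivity), ENNReal.ofReal_natCast,
        ENNReal.ofReal_ofNat]
      ring
    rw [e]
    conv_rhs => rw [← one_mul ω]
    exact ENNReal.mul_lt_mul_left hω0 hω1 (ENNReal.ofReal_lt_one.2 (by linarith))
  choose! y hy using hg
  choose! I kk hI1 hI2 hI3 hI4 using fun X (hX : X ∈ 𝒞) k (hk : k < M) =>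
    good_point hN hP.hD hl X (y X k) (hy X hX k hk).1.2
  obtain ⟨Γ, hΓ1, hΓ2, hΓ3⟩ := hP.core 𝒞 M I kk (fun X k => (Finset.range k).filter fun j =>
    y X k ∈ ⋃ q ∈ X ×ˢ X, closedBall (y X j + q.1 - q.2) (1 / 16)) hI3 hI4
    (fun X hX k hk j hj z hz z' hz' => by
      obtain ⟨x, hx, rfl⟩ := hI2 X hX k hk z hz
      obtain ⟨x', hx', rfl⟩ := hI2 X hX j (by omega) z' hz'
      have := cross_far hx hx' ((hy X hX k hk).2.1 j hj)
      exact hδ2.trans (by gcongr))
    (fun X hX k hk j hj hj2 z hz z' hz' => by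
      obtain ⟨x, hx, rfl⟩ := hI2 X hX k hk z hz
      obtain ⟨x', hx', rfl⟩ := hI2 X hX j (by omega) z' hz'
      exact cross_far hx hx' fun h => hj2 (Finset.mem_filter.2 ⟨Finset.mem_range.2 hj, h⟩))
    (fun X hX k hk => by
      have := (hy X hX k hk).2.2
      rw [← ENNReal.ofReal_natCast, ENNReal.ofReal_le_ofReal_iff (by positivity),
        le_div_iff₀ (by positivity), mul_comm] at this
      exact this)
    (by
      refine lt_of_le_of_lt (mul_le_mul_of_nonneg_right ?_ (Real.exp_pos _).le) H3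
      have : 𝒞.card ≤ (N₀ + 1) * (t.card + 1) ^ N₀ := by
        refine le_trans (Finset.card_le_card fun X hX => ?_) (card_small t N₀)
        exact Finset.mem_filter.2 ⟨(Finset.mem_filter.1 hX).1, (Finset.mem_filter.1 hX).2.1⟩
      exact_mod_cast this)
  set K := closedBall (0 : E) 1 ∩ ⋂ g ∈ Γ, {z | |⟪z, g⟫| ≤ τ} with hK
  have hmem : ∀ z, z ∈ K ↔ ‖z‖ ≤ 1 ∧ ∀ g ∈ Γ, |⟪z, g⟫| ≤ τ := fun z => by simp [hK]
  refine ⟨K, (isCompact_closedBall _ _).inter_right (isClosed_biInter fun g _ =>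
    isClosed_le (by fun_prop) continuous_const), (convex_closedBall _ _).inter
    (convex_iInter₂ fun g _ => ?_), ⟨0, ?_⟩, inter_subset_left, ?_, ?_, fun X hX h1 h2 => ?_⟩
  · have e : {z : E | |⟪z, g⟫| ≤ τ} = innerSL ℝ g ⁻¹' Icc (-τ) τ := by
      ext z; simp [abs_le, real_inner_comm]
    rw [e]
    exact (convex_Icc _ _).is_linear_preimage (innerSL ℝ g).isLinear
  · refine mem_interior.2 ⟨ball 0 (min 1 (τ / R)), fun z hz => ?_, isOpen_ball,
      mem_ball_self (by positivity)⟩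
    rw [mem_ball_zero_iff, lt_min_iff, lt_div_iff₀ hR] at hz
    refine (hmem z).2 ⟨hz.1.le, fun g hg => (abs_real_inner_le_norm z g).trans ?_⟩
    exact le_trans (by gcongr; exact hΓ1 g hg) hz.2.le
  · ext z; simp [hmem]
  · set S := closedBall (0 : E) 1 ∩ {z | ∃ g ∈ Γ, τ < ⟪z, g⟫} with hS
    have a1 : closedBall (0 : E) 1 ⊆ K ∪ (S ∪ -S) := by
      intro z hz
      by_cases h : ∀ g ∈ Γ, |⟪z, g⟫| ≤ τ
      · exact Or.inl ((hmem z).2 ⟨by simpa using hz, h⟩)
      · simp only [not_forall, not_le, lt_abs] at h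
        obtain ⟨g, hg, h | h⟩ := h
        · exact Or.inr (Or.inl ⟨hz, g, hg, h⟩)
        · exact Or.inr (Or.inr ⟨by simpa using hz, g, hg, by simpa using h⟩)
    have hKf : volume K ≠ ⊤ := ne_top_of_le_ne_top hω1 (measure_mono inter_subset_left)
    have hSf : volume S ≠ ⊤ := ne_top_of_le_ne_top hω1 (measure_mono inter_subset_left)
    have a2 := (measure_mono (μ := volume) a1).trans ((measure_union_le _ _).trans
      (add_le_add le_rfl (measure_union_le _ _)))
    rw [Measure.measure_neg] at a2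
    have a3 := ENNReal.toReal_mono (by finiteness) a2
    rw [ENNReal.toReal_add hKf (by finiteness), ENNReal.toReal_add hSf hSf] at a3
    rw [← ENNReal.toReal_le_toReal hω1 (by finiteness), ENNReal.toReal_mul, ENNReal.toReal_ofNat]
    simp only [measureReal_def] at hΓ2
    linarith
  · have hX' : X ∈ 𝒞 := Finset.mem_filter.2 ⟨Finset.mem_powerset.2 hX, h1, h2⟩
    obtain ⟨k, hk, h3⟩ := hΓ3 X hX'
    refine ⟨y X k, (hy X hX' k hk).1.1, fun x hx κ hκ => ?_⟩
    by_contra hc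
    rw [not_lt] at hc
    obtain ⟨b1, b2⟩ := (hmem κ).1 hκ
    obtain ⟨g, hg, h4⟩ := h3 _ (hI1 X hX' k hk x hx (by linarith [norm_sub_norm_le (y X k - x) κ]))
    have b3 := real_inner_le_norm (y X k - x - κ) g
    have b4 : ‖y X k - x - κ‖ * ‖g‖ ≤ 1 / n * R := by gcongr; exact hΓ1 g hg
    rw [inner_sub_left] at b3
    have b5 := (abs_le.1 (b2 g hg)).2
    have b6 : 0 < 1 / n * R := by positivity
    have e : 2 * R / n = 2 * (1 / n * R) := by ring
    linarith

theorem window {n l D N₀ : ℕ} (hn : Module.finrank ℝ E = n) (hn0 : 0 < n) (hl : l ≤ n)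
    (hD : 0 < D) (hN₀ : 0 < N₀) {t : Finset E} (ht : ∀ x : E, ‖x‖ ≤ 2 → ∃ e ∈ t, ‖x - e‖ ≤ 1 / n)
    {K : Set E} (hK1 : K ⊆ closedBall 0 1)
    (hK : ∀ X ⊆ t, X.card ≤ N₀ → volume (closedBall (0 : E) 1) ≤
        2 * volume {y ∈ closedBall (0 : E) 1 | ∑ x ∈ X, psi n D l 1 (y - x) < 1} →
        ∃ y ∈ closedBall (0 : E) 1, ∀ x ∈ X, ∀ κ ∈ K, 1 / n < ‖y - x - κ‖)
    (X : Finset E) {Q : Set E} (hQ : MeasurableSet Q)
    (h : X.card * (ENNReal.ofReal (2 ^ n / N₀ + 2 * (18 / D + Real.exp (2 - l))) *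
      volume (closedBall (0 : E) 1)) < volume Q) :
    ∃ c ∈ Q, ∃ y ∈ closedBall (0 : E) 1, ∀ x ∈ X, c + y - x ∉ K := by
  set ω := volume (closedBall (0 : E) 1) with hω
  have hω0 : ω ≠ 0 := (measure_closedBall_pos _ _ one_pos).ne'
  have hω1 : ω ≠ ⊤ := measure_closedBall_lt_top.ne
  have hm := measurable_psi (E := E) n D l 2
  have hm2 : Measurable fun z : E => ∫⁻ y in closedBall (0 : E) 1, psi n D l 2 (z + y) :=
    Measurable.lintegral_prod_right' (f := fun q : E × E => psi n D l 2 (q.1 + q.2)) (by fun_prop)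
  have hm3 : Measurable ((closedBall (0 : E) 2).indicator (1 : E → ℝ≥0∞)) :=
    measurable_one.indicator measurableSet_closedBall
  obtain ⟨c, hc, h1⟩ := exists_window X hQ (φ := fun z =>
    (closedBall (0 : E) 2).indicator 1 z / N₀ +
      2 / ω * ∫⁻ y in closedBall (0 : E) 1, psi n D l 2 (z + y))
    ((hm3.div_const _).add (hm2.const_mul _)) (by
      refine lt_of_le_of_lt (mul_le_mul_right ?_ _) h
      rw [lintegral_add_left (hm3.div_const _), lintegral_const_mul _ hm2,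
        ENNReal.ofReal_add (by positivity) (by positivity), add_mul]
      refine add_le_add (le_of_eq ?_) ?_
      · simp_rw [div_eq_mul_inv _ (N₀ : ℝ≥0∞)]
        rw [lintegral_mul_const _ hm3, lintegral_indicator_one measurableSet_closedBall,
          Measure.addHaar_closedBall' _ _ zero_le_two, hn,
          ENNReal.ofReal_div_of_pos (by exact_mod_cast hN₀), ENNReal.ofReal_natCast,
          div_eq_mul_inv, mul_right_comm]
      · rw [lintegral_lintegral_swap (by fun_prop)]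
        simp_rw [lintegral_add_right_eq_self]
        rw [setLIntegral_const, ← hω, mul_comm _ ω, ← mul_assoc, ENNReal.div_mul_cancel hω0 hω1,
          ENNReal.ofReal_mul zero_le_two, ENNReal.ofReal_ofNat, mul_assoc]
        exact mul_le_mul_right (lintegral_psi hn hn0 hl hD) _)
  rw [Finset.sum_add_distrib] at h1
  choose! rd hrd1 hrd2 using ht
  set X' := X.filter fun x => ‖x - c‖ ≤ 2 with hX'
  have a1 : X'.card ≤ N₀ := by
    have b1 := le_self_add.trans_lt h1
    simp_rw [div_eq_mul_inv] at b1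
    rw [← Finset.sum_mul, ← div_eq_mul_inv, ENNReal.div_lt_iff (Or.inl (by exact_mod_cast hN₀.ne'))
      (Or.inl (ENNReal.natCast_ne_top _)), one_mul] at b1
    have b2 : (X'.card : ℝ≥0∞) = ∑ x ∈ X, (closedBall (0 : E) 2).indicator 1 (c - x) := by
      rw [hX', Finset.card_filter, Nat.cast_sum]
      exact Finset.sum_congr rfl fun x _ => by simp [indicator, norm_sub_rev]
    exact_mod_cast (b2.le.trans b1.le)
  have hf : Measurable fun y : E => ∑ x ∈ X, psi n D l 2 (c - x + y) :=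
    Finset.measurable_sum _ fun _ _ => by fun_prop
  have a2 : 2 * (volume.restrict (closedBall (0 : E) 1))
      {y | 1 ≤ ∑ x ∈ X, psi n D l 2 (c - x + y)} ≤ ω := by
    have b1 := (le_add_self.trans_lt h1).le
    rw [← Finset.mul_sum, ← lintegral_finsetSum (f := fun x y => psi n D l 2 (c - x + y)) _
      fun _ _ => by fun_prop] at b1
    have b2 := mul_meas_ge_le_lintegral₀ (μ := volume.restrict (closedBall (0 : E) 1))
      hf.aemeasurable 1
    rw [one_mul] at b2
    calc _ ≤ 2 * ∫⁻ y in closedBall (0 : E) 1, ∑ x ∈ X, psi n D l 2 (c - x + y) := by gcongr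
      _ = ω * (2 / ω * ∫⁻ y in closedBall (0 : E) 1, ∑ x ∈ X, psi n D l 2 (c - x + y)) := by
        rw [← mul_assoc, ENNReal.mul_div_cancel hω0 hω1]
      _ ≤ ω * 1 := by gcongr
      _ = ω := mul_one _
  obtain ⟨y, hy, h2⟩ := hK (X'.image fun x => rd (x - c)) (fun e he => by
      obtain ⟨x, hx, rfl⟩ := Finset.mem_image.1 he
      exact hrd1 _ (Finset.mem_filter.1 hx).2) (Finset.card_image_le.trans a1) (by
      have b1 : closedBall (0 : E) 1 ⊆ {y ∈ closedBall (0 : E) 1 |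
          ∑ x ∈ X'.image fun x => rd (x - c), psi n D l 1 (y - x) < 1} ∪
          ({y | 1 ≤ ∑ x ∈ X, psi n D l 2 (c - x + y)} ∩ closedBall 0 1) := by
        intro y hy
        by_cases h3 : 1 ≤ ∑ x ∈ X, psi n D l 2 (c - x + y)
        · exact Or.inr ⟨h3, hy⟩
        · refine Or.inl ⟨hy, lt_of_le_of_lt ?_ (not_le.1 h3)⟩
          refine (Finset.sum_image_le_of_nonneg fun _ _ => zero_le).trans
            (le_trans (Finset.sum_le_sum fun x hx => psi_le D l ?_)
              (Finset.sum_le_sum_of_subset (Finset.filter_subset _ X)))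
          rw [show c - x + y - (y - rd (x - c)) = -(x - c - rd (x - c)) by abel, norm_neg]
          exact hrd2 _ (Finset.mem_filter.1 hx).2
      have b2 := (measure_mono (μ := volume) b1).trans (measure_union_le _ _)
      rw [← Measure.restrict_apply' measurableSet_closedBall] at b2
      have b3 := ((mul_le_mul_right b2 2).trans_eq (mul_add _ _ _)).trans (add_le_add le_rfl a2)
      rw [two_mul] at b3
      exact (ENNReal.add_le_add_iff_right hω1).1 b3)
  refine ⟨c, hc, y, hy, fun x hx hκ => ?_⟩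
  have b1 : ‖x - c‖ ≤ 2 := by
    have c1 := mem_closedBall_zero_iff.1 (hK1 hκ)
    have c2 := mem_closedBall_zero_iff.1 hy
    have c3 := norm_sub_le y (c + y - x)
    rw [show y - (c + y - x) = x - c by abel] at c3
    linarith
  have b2 := h2 _ (Finset.mem_image_of_mem _ (Finset.mem_filter.2 ⟨hx, b1⟩)) _ hκ
  rw [show y - rd (x - c) - (c + y - x) = x - c - rd (x - c) by abel] at b2
  exact absurd (hrd2 _ b1) (not_le.2 b2)

end Vale.Agent.P230
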