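import Vale.Agent.P230.Event

/-! Existence of a good finite family of half spaces. -/

namespace Vale.Agent.P230

open MeasureTheory ProbabilityTheory Set Metric
open scoped ENNReal NNReal RealInnerProductSpace Classical

theorem ex_sum_mem {U : Type*} [DecidableEq U] (lam : U → ℝ≥0) (V : Finset U) (f : U → ℝ) :
    ex lam V (fun s => ∑ v ∈ s, f v) = ∑ v ∈ V, pr lam v * f v := by
  induction V using Finset.induction_on with
  | empty => simp
  | insert u V hu ih =>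
    have e : ex lam V (fun s => ∑ v ∈ insert u s, f v) = f u + ex lam V (fun s => ∑ v ∈ s, f v) := by
      rw [← ex_const lam V (f u), ← ex_add]
      refine le_antisymm (ex_mono lam fun s hs => ?_) (ex_mono lam fun s hs => ?_) <;>
        rw [Finset.sum_insert fun h => hu (hs h)]
    rw [ex_insert _ hu, e, ih, Finset.sum_insert hu]
    ring

variable {E : Type*} [NormedAddCommGroup E] [InnerProductSpace ℝ E] [FiniteDimensional ℝ E]
  [MeasurableSpace E] [BorelSpace E]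

theorem cut_volume {τ : ℝ} (h0 : 0 < τ) :
    Integrable (fun g : E => volume.real (closedBall (0 : E) 1 ∩ {z | τ < ⟪z, g⟫}))
      (stdGaussian E) ∧
    ∫ g, volume.real (closedBall (0 : E) 1 ∩ {z | τ < ⟪z, g⟫}) ∂(stdGaussian E) ≤
      tail τ * volume.real (closedBall (0 : E) 1) := by
  set μ := (volume : Measure E).restrict (closedBall 0 1) with hμ
  have : IsFiniteMeasure μ := isFiniteMeasure_restrict.2 measure_closedBall_lt_top.ne
  have hT : MeasurableSet {p : E × E | τ < ⟪p.1, p.2⟫} :=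
    (isOpen_lt continuous_const (by fun_prop)).measurableSet
  have e : ∀ g : E, volume.real (closedBall (0 : E) 1 ∩ {z | τ < ⟪z, g⟫}) =
      (μ ((fun z => (z, g)) ⁻¹' {p : E × E | τ < ⟪p.1, p.2⟫})).toReal := by
    intro g
    rw [hμ, Measure.restrict_apply' measurableSet_closedBall, inter_comm]
    rfl
  have hm := measurable_measure_prodMk_right (μ := μ) hT
  have h1 : ∫⁻ g, μ ((fun z => (z, g)) ⁻¹' {p : E × E | τ < ⟪p.1, p.2⟫}) ∂(stdGaussian E) ≤
      ENNReal.ofReal (tail τ) * μ univ := by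
    rw [← Measure.prod_apply_symm hT, Measure.prod_apply hT, ← lintegral_const]
    refine lintegral_mono_ae ?_
    filter_upwards [ae_restrict_mem measurableSet_closedBall] with z hz
    rw [ENNReal.le_ofReal_iff_toReal_le (measure_ne_top _ _) (tail_nonneg _)]
    refine le_trans (measureReal_mono (μ := stdGaussian E) (s₂ := {g | τ ≤ ⟪z, g⟫})
      fun g (hg : τ < ⟪z, g⟫) => hg.le) (half_le h0 ?_)
    exact mul_le_of_le_one_right h0.le (by simpa using hz)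
  have h2 : ENNReal.ofReal (tail τ) * μ univ ≠ ⊤ :=
    ENNReal.mul_ne_top ENNReal.ofReal_ne_top (measure_ne_top _ _)
  simp_rw [e]
  refine ⟨integrable_toReal_of_lintegral_ne_top hm.aemeasurable (ne_top_of_le_ne_top h2 h1), ?_⟩
  rw [integral_toReal hm.aemeasurable (ae_of_all _ fun g => measure_lt_top _ _)]
  refine (ENNReal.toReal_mono h2 h1).trans (le_of_eq ?_)
  rw [ENNReal.toReal_mul, ENNReal.toReal_ofReal (tail_nonneg _), hμ, Measure.restrict_apply_univ]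
  rfl

variable {N A τ t R l : ℝ} {D : ℕ} {Λ : ℝ≥0}

theorem Par.overlap (hP : Par E N A τ t R l D Λ) {Zs I I' : Finset E} (hI : I ⊆ Zs) (hI' : I' ⊆ Zs)
    (hc : (I.card : ℝ) ≤ D) (hc' : (I'.card : ℝ) ≤ D) (hn : ∀ z ∈ I, ‖z‖ ≤ 1 + 1 / N)
    (hn' : ∀ z ∈ I', ‖z‖ ≤ 1 + 1 / N)
    (hd : ∀ z ∈ I, ∀ z' ∈ I', 600000 * l / N ≤ ‖z - z'‖ ^ 2) :
    Λ * ((stdGaussian E).restrict (closedBall 0 R)).real
      {g | ∃ z ∈ I, ∃ z' ∈ I', z ∈ sig Zs t g ∧ z' ∈ sig Zs t g} ≤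
      Real.exp (-(35000 * A * l)) ^ 2 / 32 := by
  have hA := hP.hA
  have hl := hP.hl
  have hN : 0 < N := by linarith [hP.hN]
  have b3 : {g | ∃ z ∈ I, ∃ z' ∈ I', z ∈ sig Zs t g ∧ z' ∈ sig Zs t g} ⊆
      ⋃ q ∈ I ×ˢ I', {g | t ≤ ⟪q.1, g⟫ ∧ t ≤ ⟪q.2, g⟫} := by
    rintro g ⟨z, hz, z', hz', h1, h2⟩
    exact mem_iUnion₂.2 ⟨(z, z'), Finset.mem_product.2 ⟨hz, hz'⟩, (mem_sig (hI hz)).1 h1,
      (mem_sig (hI' hz')).1 h2⟩
  have b2 : ∀ q ∈ I ×ˢ I', (stdGaussian E).real {g | t ≤ ⟪q.1, g⟫ ∧ t ≤ ⟪q.2, g⟫} ≤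
      Real.exp (-(A * (70002 * l))) * tail τ := by
    intro q hq
    rw [Finset.mem_product] at hq
    refine overlap_upper (by linarith [hP.hN]) (by linarith [hP.h0]) hP.hτ hP.h1 (by linarith)
      (hn _ hq.1) (hn' _ hq.2) (le_trans ?_ (hd _ hq.1 _ hq.2))
    gcongr; linarith
  have b4 := (nu_le R _).trans ((measureReal_mono (μ := stdGaussian E) b3 (measure_ne_top _ _)).trans
    ((measureReal_biUnion_finset_le _ _).trans (Finset.sum_le_sum b2)))
  rw [Finset.sum_const, nsmul_eq_mul, Finset.card_product, Nat.cast_mul] at b4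
  have b5 : (I.card : ℝ) * I'.card ≤ Real.exp l / 8 * (Real.exp l / 8) :=
    mul_le_mul (by linarith [hP.hD2]) (by linarith [hP.hD2]) (by positivity) (by positivity)
  have ht := tail_nonneg τ
  calc _ ≤ Λ * (Real.exp l / 8 * (Real.exp l / 8) *
        (Real.exp (-(A * (70002 * l))) * tail τ)) :=
        mul_le_mul_of_nonneg_left (b4.trans (by gcongr)) Λ.2
    _ = Real.exp (l + l + -(A * (70002 * l))) / 64 * (Λ * tail τ) := by
        rw [Real.exp_add, Real.exp_add]; ring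
    _ ≤ _ := by
        rw [hP.hΛ, sq, ← Real.exp_add]
        have : Real.exp (l + l + -(A * (70002 * l))) ≤
            Real.exp (-(35000 * A * l) + -(35000 * A * l)) := Real.exp_le_exp.2 (by nlinarith)
        linarith [Real.exp_pos (l + l + -(A * (70002 * l)))]

theorem Par.core (hP : Par E N A τ t R l D Λ) {C : Type*} (𝒞 : Finset C) (M : ℕ)
    (I : C → ℕ → Finset E) (kk : C → ℕ → E → ℝ) (dep : C → ℕ → Finset ℕ)
    (hk : ∀ c ∈ 𝒞, ∀ k < M, ∀ z ∈ I c k,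
      1 ≤ kk c k z ∧ kk c k z ≤ l ∧ 1 - kk c k z / N ≤ ‖z‖ ∧ ‖z‖ ≤ 1 + 1 / N)
    (hs : ∀ c ∈ 𝒞, ∀ k < M, ∑ z ∈ I c k, kk c k z ≤ D)
    (hnear : ∀ c ∈ 𝒞, ∀ k < M, ∀ j < k, ∀ z ∈ I c k, ∀ z' ∈ I c j,
      600000 * l / N ≤ ‖z - z'‖ ^ 2)
    (hfar : ∀ c ∈ 𝒞, ∀ k < M, ∀ j < k, j ∉ dep c k → ∀ z ∈ I c k, ∀ z' ∈ I c j,
      1 / 16 ≤ ‖z - z'‖)
    (hdep : ∀ c ∈ 𝒞, ∀ k < M, 4 * Real.exp (-(33 * A * D)) * (dep c k).card ≤ 1)
    (hcard : 𝒞.card * Real.exp (-(M * Real.exp (-(33 * A * D)) / 2)) < 1 / 4) :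
    ∃ Γ : Finset E, (∀ g ∈ Γ, ‖g‖ ≤ R) ∧
      volume.real (closedBall (0 : E) 1 ∩ {z | ∃ g ∈ Γ, τ < ⟪z, g⟫}) ≤
        volume.real (closedBall (0 : E) 1) / 3 ∧
      ∀ c ∈ 𝒞, ∃ k < M, ∀ z ∈ I c k, ∃ g ∈ Γ, t ≤ ⟪z, g⟫ := by
  set ν := (stdGaussian E).restrict (closedBall 0 R) with hν
  set Zs := 𝒞.biUnion fun c => (Finset.range M).biUnion (I c) with hZs
  set V := VV Zs t ν D with hV
  set L := lam Zs t ν D Λ with hL
  set p := Real.exp (-(33 * A * D)) with hp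
  set ω := volume.real (closedBall (0 : E) 1) with hω
  have hω0 : 0 < ω := ENNReal.toReal_pos (measure_closedBall_pos _ _ one_pos).ne'
    measure_closedBall_lt_top.ne
  have hτ0 : 0 < τ := by linarith [hP.h0]
  have hIZ : ∀ c ∈ 𝒞, ∀ k < M, I c k ⊆ Zs := fun c hc k hk z hz =>
    Finset.mem_biUnion.2 ⟨c, hc, Finset.mem_biUnion.2 ⟨k, Finset.mem_range.2 hk, hz⟩⟩
  have hcd : ∀ c ∈ 𝒞, ∀ k < M, ((I c k).card : ℝ) ≤ D := fun c hc k hk' => by
    refine le_trans ?_ (hs c hc k hk')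
    rw [Finset.card_eq_sum_ones, Nat.cast_sum]
    exact Finset.sum_le_sum fun z hz => by simpa using (hk c hc k hk' z hz).1
  choose! S hS0 hS1 hS2 using fun c (hc : c ∈ 𝒞) k (hk' : k < M) =>
    hP.event (hIZ c hc k hk') (kk c k) (hk c hc k hk') (hs c hc k hk')
  obtain ⟨hi, hv⟩ := cut_volume (E := E) hτ0
  set h : E → ℝ := fun g => volume.real (closedBall (0 : E) 1 ∩ {z | τ < ⟪z, g⟫}) with hh
  have h0 : ∀ g, 0 ≤ h g := fun g => measureReal_nonneg
  obtain ⟨rep, hrep, hsum⟩ := exists_rep Zs t ν hi.restrict h0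
    (ae_restrict_mem (measurableSet_closedBall (x := (0 : E)) (ε := R)))
  have hrepV : ∀ v ∈ V, ‖rep v.2‖ ≤ R ∧ sig Zs t (rep v.2) = v.2 := fun v hv => by
    simpa using hrep v.2 (Finset.mem_product.1 hv).2
  have hJ : ∀ c ∈ 𝒞, ex L V (fun s => ∏ k ∈ Finset.range M,
      (1 - p / ex L V (allhit (I c k) (S c k)) * allhit (I c k) (S c k) s)) ≤
      Real.exp (-(M * p / 2)) := by
    intro c hc
    refine janson L (A := fun k => allhit (I c k) (S c k)) (fun k s => allhit_nonneg _ _ _)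
      (fun k s => allhit_le_one _ _ _) (fun k => allhit_mono _ _) (Real.exp_pos _) (hS1 c hc)
      (dep c) (hdep c hc) (fun k hk' u hu => ?_) fun k hk' j hj => ?_
    · by_cases hu2 : ∀ z ∈ I c k, u ∉ S c k z
      · exact Or.inl (allhit_insert hu2)
      · refine Or.inr fun j hj hj2 => allhit_insert fun z' hz' hu3 => hu2 fun z hz hu4 => ?_
        have a1 := hS0 c hc k hk' z hz u hu4
        have a2 := hS0 c hc j (by omega) z' hz' u hu3
        rw [← (hrepV u hu).2] at a1 a2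
        exact far_false hP.hN hτ0 hP.h1 hP.hR (hk c hc k hk' z hz).2.2.2
          (hk c hc j (by omega) z' hz').2.2.2 (hfar c hc k hk' j hj hj2 z hz z' hz')
          (hrepV u hu).1 ((mem_sig (hIZ c hc k hk' hz)).1 a1)
          ((mem_sig (hIZ c hc j (by omega) hz')).1 a2)
    · have hj' : j < M := by omega
      obtain ⟨W, hW1, hW2, a1⟩ := rate_all_ex Zs t ν hP.hD Λ
        fun σ => ∃ z ∈ I c k, ∃ z' ∈ I c j, z ∈ σ ∧ z' ∈ σ
      refine pair_bound L hW1 (Real.exp_pos _)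
        (Real.exp_le_one_iff.2 (by nlinarith [hP.hA, hP.hl])) (hS2 c hc k hk') (hS2 c hc j hj')
        (a1.le.trans (hP.overlap (hIZ c hc k hk') (hIZ c hc j hj') (hcd c hc k hk')
          (hcd c hc j hj') (fun z hz => (hk c hc k hk' z hz).2.2.2)
          (fun z hz => (hk c hc j hj' z hz).2.2.2) (hnear c hc k hk' j hj))) fun u hu => ?_
      by_contra hn
      simp only [not_or, not_forall, not_not] at hn
      obtain ⟨⟨z, hz, h1⟩, z', hz', h2⟩ := hn
      rw [Finset.mem_sdiff] at hu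
      exact hu.2 (hW2 u hu.1
        ⟨z, hz, z', hz', hS0 c hc k hk' z hz u h1, hS0 c hc j hj' z' hz' u h2⟩)
  have hvol : ex L V (fun s => ∑ v ∈ s, h (rep v.2)) ≤ ω / 4 := by
    rw [ex_sum_mem]
    calc _ ≤ ∑ v ∈ V, (L v : ℝ) * h (rep v.2) :=
          Finset.sum_le_sum fun v _ => mul_le_mul_of_nonneg_right (pr_le L v) (h0 _)
      _ ≤ Λ * (tail τ * ω) := by
          rw [sum_VV Zs t ν hP.hD Λ fun σ => h (rep σ)]
          exact mul_le_mul_of_nonneg_left (hsum.trans ((setIntegral_le_integral hi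
            (ae_of_all _ h0)).trans hv)) Λ.2
      _ = _ := by rw [← mul_assoc, hP.hΛ]; ring
  obtain ⟨s, hsV, hs1⟩ := exists_lt_of_ex L (V := V) (c := 1) (f := fun s =>
    ∑ c ∈ 𝒞, ∏ k ∈ Finset.range M,
      (1 - p / ex L V (allhit (I c k) (S c k)) * allhit (I c k) (S c k) s) +
      3 / ω * ∑ v ∈ s, h (rep v.2)) (by
    rw [ex_add, ex_sum, ex_mul]
    have a1 := Finset.sum_le_sum hJ
    rw [Finset.sum_const, nsmul_eq_mul] at a1
    have a2 : 3 / ω * ex L V (fun s => ∑ v ∈ s, h (rep v.2)) ≤ 3 / ω * (ω / 4) := by gcongr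
    have a3 : 3 / ω * (ω / 4) = 3 / 4 := by field_simp
    linarith)
  have hnn : ∀ c ∈ 𝒞, 0 ≤ ∏ k ∈ Finset.range M,
      (1 - p / ex L V (allhit (I c k) (S c k)) * allhit (I c k) (S c k) s) := fun c hc =>
    Finset.prod_nonneg fun k hk' => sub_nonneg.2 (mul_le_one₀
      ((div_le_one ((Real.exp_pos _).trans_le (hS1 c hc k (Finset.mem_range.1 hk')))).2
        (hS1 c hc k (Finset.mem_range.1 hk'))) (allhit_nonneg _ _ _) (allhit_le_one _ _ _))
  have hsn : 0 ≤ ∑ v ∈ s, h (rep v.2) := Finset.sum_nonneg fun _ _ => h0 _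
  refine ⟨s.image fun v => rep v.2, fun g hg => ?_, ?_, fun c hc => ?_⟩
  · obtain ⟨v, hv, rfl⟩ := Finset.mem_image.1 hg
    exact (hrepV v (hsV hv)).1
  · have a1 : closedBall (0 : E) 1 ∩ {z | ∃ g ∈ s.image fun v => rep v.2, τ < ⟪z, g⟫} ⊆
        ⋃ v ∈ s, closedBall (0 : E) 1 ∩ {z | τ < ⟪z, rep v.2⟫} := by
      rintro z ⟨hz, g, hg, h1⟩
      obtain ⟨v, hv, rfl⟩ := Finset.mem_image.1 hg
      exact mem_iUnion₂.2 ⟨v, hv, hz, h1⟩
    have a2 := (measureReal_mono (μ := volume) a1 (ne_top_of_le_ne_top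
      (measure_closedBall_lt_top (x := (0 : E)) (r := 1)).ne
      (measure_mono (iUnion₂_subset fun _ _ => inter_subset_left)))).trans
      (measureReal_biUnion_finset_le _ _)
    have a3 := Finset.sum_nonneg hnn
    have a4 : 3 / ω * ∑ v ∈ s, h (rep v.2) ≤ 1 := by linarith
    rw [div_mul_eq_mul_div, div_le_one hω0] at a4
    exact a2.trans (by linarith)
  · by_contra hn
    have a1 := Finset.single_le_sum hnn hc
    rw [Finset.prod_eq_one fun k hk' => ?_] at a1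
    · have : 0 ≤ 3 / ω * ∑ v ∈ s, h (rep v.2) := by positivity
      linarith
    · rw [allhit_eq_zero, mul_zero, sub_zero]
      refine fun h2 => hn ⟨k, Finset.mem_range.1 hk', fun z hz => ?_⟩
      obtain ⟨v, hv, h3⟩ := h2 z hz
      have a2 := hS0 c hc k (Finset.mem_range.1 hk') z hz v h3
      rw [← (hrepV v (hsV hv)).2] at a2
      exact ⟨_, Finset.mem_image_of_mem _ hv,
        (mem_sig (hIZ c hc k (Finset.mem_range.1 hk') hz)).1 a2⟩

end Vale.Agent.P230
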