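import Mathlib

/-! Covering densities of convex bodies. -/

namespace Vale.Agent.P230

open MeasureTheory Filter
open scoped Pointwise

/-- Euclidean space of dimension `n`. -/
abbrev Sp (n : ℕ) : Type := EuclideanSpace ℝ (Fin n)

/-- The cube `[-R, R]^n`. -/
def cube (n : ℕ) (R : ℝ) : Set (Sp n) := {x | ∀ i, |x i| ≤ R}

/-- Convex bodies: compact convex sets with nonempty interior. -/
def IsBody {n : ℕ} (K : Set (Sp n)) : Prop :=
  IsCompact K ∧ Convex ℝ K ∧ (interior K).Nonempty

/-- Translative covering density. -/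
noncomputable def thetaT {n : ℕ} (K : Set (Sp n)) : ENNReal :=
  ⨅ (X : Set (Sp n)) (_ : ∀ S : Set (Sp n), Bornology.IsBounded S → (X ∩ S).Finite)
    (_ : K + X = Set.univ),
    volume K * limsup
      (fun R : ℝ => ((X ∩ cube n R).encard : ENNReal) / ENNReal.ofReal ((2 * R) ^ n)) atTop

/-- Lattice covering density. -/
noncomputable def thetaL {n : ℕ} (K : Set (Sp n)) : ENNReal :=
  ⨅ (L : Submodule ℤ (Sp n)) (_ : DiscreteTopology L) (_ : IsZLattice ℝ L)
    (_ : K + (L : Set (Sp n)) = Set.univ), volume K / ENNReal.ofReal (ZLattice.covolume L)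

/-- Worst-case translative covering density in dimension `n`. -/
noncomputable def ThetaT (n : ℕ) : ENNReal := ⨆ (K : Set (Sp n)) (_ : IsBody K), thetaT K

/-- Worst-case lattice covering density in dimension `n`. -/
noncomputable def ThetaL (n : ℕ) : ENNReal := ⨆ (K : Set (Sp n)) (_ : IsBody K), thetaL K

end Vale.Agent.P230
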