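import Vale.Agent.P230.Atoms

/-! The killing event attached to one test point. -/

namespace Vale.Agent.P230

open MeasureTheory ProbabilityTheory Set Metric
open scoped ENNReal NNReal RealInnerProductSpace Classical

variable {E : Type*} [NormedAddCommGroup E] [InnerProductSpace ℝ E] [FiniteDimensional ℝ E]
  [MeasurableSpace E] [BorelSpace E]

structure Par (E : Type*) [NormedAddCommGroup E] [InnerProductSpace ℝ E] [FiniteDimensional ℝ E]
    [MeasurableSpace E] (N A τ t R l : ℝ) (D : ℕ) (Λ : ℝ≥0) : Prop where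
  hN : 10000 ≤ N
  hA : 63 ≤ A
  hτ : τ ^ 2 = A * N
  h0 : 2 ≤ τ
  hR : R ^ 2 ≤ (1 + 1 / 2000) * τ ^ 2
  h1 : τ ≤ t
  h2 : t ≤ τ * (1 + 4 / N)
  hl : 1 ≤ l
  hl2 : 36000 * A * l ≤ N
  hD : 0 < D
  hD2 : 8 * (D : ℝ) ≤ Real.exp l
  hT : (stdGaussian E).real {g | R < ‖g‖} ≤ Real.exp (-N) * tail τ
  hΛ : Λ * tail τ = 1 / 4

theorem nu_ge (R : ℝ) (S : Set E) : (stdGaussian E).real S - (stdGaussian E).real {g | R < ‖g‖} ≤
    ((stdGaussian E).restrict (closedBall 0 R)).real S := by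
  rw [measureReal_restrict_apply' measurableSet_closedBall, sub_le_iff_le_add]
  refine le_trans (measureReal_mono fun g hg => ?_) (measureReal_union_le _ _)
  by_cases h : R < ‖g‖
  · exact Or.inr h
  · exact Or.inl ⟨hg, by simpa using h⟩

theorem nu_le (R : ℝ) (S : Set E) :
    ((stdGaussian E).restrict (closedBall 0 R)).real S ≤ (stdGaussian E).real S := by
  rw [measureReal_restrict_apply' measurableSet_closedBall]
  exact measureReal_mono inter_subset_left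

theorem exp_gap {a b c : ℝ} (h : a + c ≤ b + 1) (hc : 0 < c) :
    Real.exp (-b) ≤ 1 / c * Real.exp (-a) := by
  have h1 := Real.add_one_le_exp (b - a)
  rw [one_div, le_inv_mul_iff₀ hc, show -a = (b - a) + -b by ring, Real.exp_add]
  gcongr; linarith

variable {N A τ t R l : ℝ} {D : ℕ} {Λ : ℝ≥0}

theorem Par.single (hP : Par E N A τ t R l D Λ) {I : Finset E} (hc : (I.card : ℝ) ≤ D)
    (hI : ∀ z ∈ I, ‖z‖ ≤ 1 + 1 / N) {z : E} (hz : z ∈ I) {k : ℝ} (h1 : 1 ≤ k) (h2 : k ≤ l)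
    (h3 : 1 - k / N ≤ ‖z‖) :
    1 / 4 * Real.exp (-(32 * A * k)) * tail τ ≤ ((stdGaussian E).restrict (closedBall 0 R)).real
      {g | t ≤ ⟪z, g⟫ ∧ ∀ z' ∈ I, ¬ ‖z - z'‖ ^ 2 ≤ 300 * l / N → ¬ t ≤ ⟪z', g⟫} := by
  have hA := hP.hA
  have hl := hP.hl
  have hl2 := hP.hl2
  have hN : 0 < N := by linarith [hP.hN]
  have ht := tail_nonneg τ
  have hAl : 63 ≤ A * l := by nlinarith
  refine le_trans ?_ (nu_ge R _)
  have b1 := kill_lower (z := z) hP.h0 hP.hτ hP.h2 h1 (by nlinarith) h3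
  have b2 : ∀ z' ∈ I.filter (fun z' => ¬ ‖z - z'‖ ^ 2 ≤ 300 * l / N),
      (stdGaussian E).real {g | t ≤ ⟪z, g⟫ ∧ t ≤ ⟪z', g⟫} ≤ Real.exp (-(A * (36 * l))) * tail τ := by
    intro z' hz'
    rw [Finset.mem_filter, not_le] at hz'
    refine overlap_upper (by linarith [hP.hN]) (by linarith [hP.h0]) hP.hτ hP.h1 (by linarith)
      (hI z hz) (hI z' hz'.1) (le_trans ?_ hz'.2.le)
    gcongr; linarith
  have b3 : {g : E | t ≤ ⟪z, g⟫} ⊆
      {g | t ≤ ⟪z, g⟫ ∧ ∀ z' ∈ I, ¬ ‖z - z'‖ ^ 2 ≤ 300 * l / N → ¬ t ≤ ⟪z', g⟫} ∪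
      ⋃ z' ∈ I.filter (fun z' => ¬ ‖z - z'‖ ^ 2 ≤ 300 * l / N),
        {g | t ≤ ⟪z, g⟫ ∧ t ≤ ⟪z', g⟫} := by
    intro g hg
    by_cases h : ∀ z' ∈ I, ¬ ‖z - z'‖ ^ 2 ≤ 300 * l / N → ¬ t ≤ ⟪z', g⟫
    · exact Or.inl ⟨hg, h⟩
    · simp only [not_forall, not_not] at h
      obtain ⟨z', h1, h2, h3⟩ := h
      exact Or.inr (mem_iUnion₂.2 ⟨z', Finset.mem_filter.2 ⟨h1, h2⟩, hg, h3⟩)
  have b4 := (measureReal_mono (μ := stdGaussian E) b3).trans ((measureReal_union_le _ _).trans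
    (add_le_add le_rfl ((measureReal_biUnion_finset_le _ _).trans (Finset.sum_le_sum b2))))
  rw [Finset.sum_const, nsmul_eq_mul] at b4
  have b5 : ((I.filter (fun z' => ¬ ‖z - z'‖ ^ 2 ≤ 300 * l / N)).card : ℝ) ≤ Real.exp l / 8 := by
    have : ((I.filter (fun z' => ¬ ‖z - z'‖ ^ 2 ≤ 300 * l / N)).card : ℝ) ≤ I.card := by
      exact_mod_cast Finset.card_filter_le _ _
    linarith [hP.hD2]
  have hk : A * k ≤ A * l := by gcongr
  have b6 : Real.exp l / 8 * (Real.exp (-(A * (36 * l))) * tail τ) ≤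
      1 / 8 * Real.exp (-(32 * A * k)) * tail τ := by
    rw [← mul_assoc, div_mul_eq_mul_div, ← Real.exp_add, one_div, inv_mul_eq_div]
    gcongr
    nlinarith
  have b7 := mul_le_mul_of_nonneg_right b5
    (by positivity : 0 ≤ Real.exp (-(A * (36 * l))) * tail τ)
  have b8 := mul_le_mul_of_nonneg_right
    (exp_gap (a := 32 * A * k) (b := N) (c := 8) (by linarith) (by norm_num)) ht
  linarith [hP.hT]

theorem Par.common (hP : Par E N A τ t R l D Λ) {I : Finset E} (hc : (I.card : ℝ) ≤ D)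
    (hI : ∀ z ∈ I, 1 - l / N ≤ ‖z‖ ∧ ‖z‖ ≤ 1 + 1 / N) {z : E} (hz : z ∈ I) :
    Real.exp (-(35000 * A * l)) ≤ 1 / (2 * D) * Λ *
      ((stdGaussian E).restrict (closedBall 0 R)).real
      {g | ∀ z' ∈ I, ‖z - z'‖ ^ 2 ≤ 300 * l / N → t ≤ ⟪z', g⟫} := by
  have hA := hP.hA
  have hl := hP.hl
  have hl2 := hP.hl2
  have ht := tail_nonneg τ
  have hAl : 63 ≤ A * l := by nlinarith
  have hD : (0 : ℝ) < D := by exact_mod_cast hP.hD
  have b0 : ((I.filter (fun z' => ‖z - z'‖ ^ 2 ≤ 300 * l / N)).card : ℝ) ≤ I.card := by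
    exact_mod_cast Finset.card_filter_le _ _
  have b1 := common_lower (I.filter (fun z' => ‖z - z'‖ ^ 2 ≤ 300 * l / N)) id (z := z)
    (by linarith) hP.h0 hP.hτ hP.h1 hP.h2 hl (by nlinarith) (by linarith [hP.hD2]) (hI z hz).1
    (hI z hz).2 (fun j hj => (hI j (Finset.mem_filter.1 hj).1).1)
    (fun j hj => (Finset.mem_filter.1 hj).2)
  simp only [Finset.mem_filter, and_imp, id] at b1
  have b2 := nu_ge R {g | ∀ z' ∈ I, ‖z - z'‖ ^ 2 ≤ 300 * l / N → t ≤ ⟪z', g⟫}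
  have b8 := mul_le_mul_of_nonneg_right
    (exp_gap (a := 34000 * A * l) (b := N) (c := 8) (by linarith) (by norm_num)) ht
  have b3 : 1 / 8 * Real.exp (-(34000 * A * l)) * tail τ ≤
      ((stdGaussian E).restrict (closedBall 0 R)).real
      {g | ∀ z' ∈ I, ‖z - z'‖ ^ 2 ≤ 300 * l / N → t ≤ ⟪z', g⟫} := by linarith [hP.hT]
  refine le_trans ?_ (mul_le_mul_of_nonneg_left b3 (by positivity))
  have e : 1 / (2 * D) * Λ * (1 / 8 * Real.exp (-(34000 * A * l)) * tail τ) =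
      1 / 8 * Real.exp (-(34000 * A * l)) / (8 * D) := by
    rw [show 1 / (2 * D) * Λ * (1 / 8 * Real.exp (-(34000 * A * l)) * tail τ) =
      1 / (2 * D) * (1 / 8 * Real.exp (-(34000 * A * l))) * (Λ * tail τ) by ring, hP.hΛ]
    field_simp; norm_num
  rw [e, le_div_iff₀ (by positivity)]
  refine (mul_le_mul_of_nonneg_left hP.hD2 (Real.exp_pos _).le).trans ?_
  rw [← Real.exp_add, show -(35000 * A * l) + l = -(35000 * A * l - l) by ring]
  exact exp_gap (by nlinarith) (by norm_num)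

theorem Par.event (hP : Par E N A τ t R l D Λ) {Zs I : Finset E} (hI : I ⊆ Zs) (k : E → ℝ)
    (hk : ∀ z ∈ I, 1 ≤ k z ∧ k z ≤ l ∧ 1 - k z / N ≤ ‖z‖ ∧ ‖z‖ ≤ 1 + 1 / N)
    (hs : ∑ z ∈ I, k z ≤ D) :
    ∃ S : E → Finset (Option (Fin D) × Finset E), (∀ z ∈ I, ∀ v ∈ S z, z ∈ v.2) ∧
      Real.exp (-(33 * A * D)) ≤ ex (lam Zs t ((stdGaussian E).restrict (closedBall 0 R)) D Λ)
        (VV Zs t ((stdGaussian E).restrict (closedBall 0 R)) D) (allhit I S) ∧
      Local (lam Zs t ((stdGaussian E).restrict (closedBall 0 R)) D Λ)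
        (VV Zs t ((stdGaussian E).restrict (closedBall 0 R)) D) I S
        (Real.exp (-(35000 * A * l))) := by
  set ν := (stdGaussian E).restrict (closedBall 0 R) with hν
  set V := VV Zs t ν D with hV
  have hA := hP.hA
  have hN : 0 < N := by linarith [hP.hN]
  have hc : (I.card : ℝ) ≤ D := by
    refine le_trans ?_ hs
    rw [Finset.card_eq_sum_ones, Nat.cast_sum]
    exact Finset.sum_le_sum fun z hz => by simpa using (hk z hz).1
  obtain ⟨col, hcol⟩ : ∃ col : E → Fin D, InjOn col I := by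
    have : Nonempty (Fin D) := ⟨⟨0, hP.hD⟩⟩
    rw [exists_injOn_iff_injective]
    obtain ⟨f⟩ := Function.Embedding.nonempty_of_card_le (α := (I : Set E)) (β := Fin D)
      (by simpa using (by exact_mod_cast hc : I.card ≤ D))
    exact ⟨f, f.injective⟩
  let cl : E → E → Prop := fun a b => ‖a - b‖ ^ 2 ≤ 300 * l / N
  let T : E → Finset (Option (Fin D) × Finset E) := fun z =>
    V.filter fun v => v.1 = some (col z) ∧ ∀ z' ∈ I, cl z z' → z' ∈ v.2
  let S : E → Finset (Option (Fin D) × Finset E) := fun z =>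
    V.filter fun v => (v.1 = none ∧ z ∈ v.2 ∧ ∀ z' ∈ I, ¬ cl z z' → z' ∉ v.2) ∨
      ∃ z' ∈ I, cl z' z ∧ v ∈ T z'
  have hS0 : ∀ z ∈ I, ∀ v ∈ S z, z ∈ v.2 := by
    intro z hz v hv
    rcases (Finset.mem_filter.1 hv).2 with h | ⟨z', -, h1, h2⟩
    · exact h.2.1
    · exact (Finset.mem_filter.1 h2).2.2 z hz h1
  refine ⟨S, hS0, le_trans ?_ (allhit_lower _ _ _ _), ?_⟩
  · calc _ ≤ ∏ z ∈ I, Real.exp (-(33 * A * k z)) := by
          rw [← Real.exp_sum, Finset.sum_neg_distrib, ← Finset.mul_sum]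
          gcongr
      _ ≤ _ := by
          refine Finset.prod_le_prod (fun _ _ => (Real.exp_pos _).le) fun z hz => ?_
          obtain ⟨k1, k2, k3, -⟩ := hk z hz
          have b1 := hP.single hc (fun z hz => (hk z hz).2.2.2) hz k1 k2 k3
          have b2 := rate_col_le Zs t ν Λ (D := D) none
            (fun σ => z ∈ σ ∧ ∀ z' ∈ I, ¬ cl z z' → z' ∉ σ) (T := S z)
            fun v hv h1 h2 => Finset.mem_filter.2 ⟨hv, Or.inl ⟨h1, h2⟩⟩
          have e : {g | z ∈ sig Zs t g ∧ ∀ z' ∈ I, ¬ cl z z' → z' ∉ sig Zs t g} =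
              {g | t ≤ ⟪z, g⟫ ∧ ∀ z' ∈ I, ¬ ‖z - z'‖ ^ 2 ≤ 300 * l / N → ¬ t ≤ ⟪z', g⟫} := by
            ext g
            exact and_congr (mem_sig (hI hz)) (forall₂_congr fun z' hz' =>
              imp_congr_right fun _ => not_congr (mem_sig (hI hz')))
          rw [e] at b2
          have b3 : 1 / 32 * Real.exp (-(32 * A * k z)) ≤
              ∑ v ∈ V ∩ S z, (lam Zs t ν D Λ v : ℝ) := by
            refine le_trans ?_ b2
            have := mul_le_mul_of_nonneg_left b1 (by positivity : (0 : ℝ) ≤ 1 / 2 * Λ)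
            rw [show 1 / 2 * Λ * (1 / 4 * Real.exp (-(32 * A * k z)) * tail τ) =
              1 / 8 * Real.exp (-(32 * A * k z)) * (Λ * tail τ) by ring, hP.hΛ] at this
            simp only [cw, Option.elim, NNReal.coe_div, NNReal.coe_one, NNReal.coe_ofNat]
            linarith
          have hAk : 63 ≤ A * k z := by nlinarith
          have b4 : Real.exp (-(32 * A * k z)) ≤ 1 := Real.exp_le_one_iff.2 (by linarith)
          have b5 := half_le_one_sub_exp (x := 1 / 32 * Real.exp (-(32 * A * k z)))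
            (by positivity) (by linarith)
          have b6 := Real.exp_le_exp.2 (neg_le_neg b3)
          have b7 := exp_gap (a := 32 * A * k z) (b := 33 * A * k z) (c := 64) (by linarith)
            (by norm_num)
          rw [ex_hit]
          linarith
  · have hT : ∀ z ∈ I, Real.exp (-(35000 * A * l)) ≤ ∑ v ∈ V ∩ T z, (lam Zs t ν D Λ v : ℝ) := by
      intro z hz
      have b1 := hP.common hc (fun z hz => ⟨le_trans (by gcongr; exact (hk z hz).2.1)
        (hk z hz).2.2.1, (hk z hz).2.2.2⟩) hz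
      have b2 := rate_col_le Zs t ν Λ (D := D) (some (col z))
        (fun σ => ∀ z' ∈ I, cl z z' → z' ∈ σ) (T := T z)
        fun v hv h1 h2 => Finset.mem_filter.2 ⟨hv, h1, h2⟩
      have e : {g | ∀ z' ∈ I, cl z z' → z' ∈ sig Zs t g} =
          {g | ∀ z' ∈ I, ‖z - z'‖ ^ 2 ≤ 300 * l / N → t ≤ ⟪z', g⟫} := by
        ext g
        exact forall₂_congr fun z' hz' => imp_congr_right fun _ => mem_sig (hI hz')
      rw [e] at b2
      refine b1.trans (le_trans (le_of_eq ?_) b2)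
      simp [cw, hν]
    have hTS : ∀ z ∈ I, ∀ j, cl z j → T z ⊆ S j := fun z hz j hj v hv =>
      Finset.mem_filter.2 ⟨(Finset.mem_filter.1 hv).1, Or.inr ⟨z, hz, hj, hv⟩⟩
    rintro u ⟨z, hz, hu⟩
    rcases (Finset.mem_filter.1 hu).2 with h | ⟨z', hz', h1, h2⟩
    · refine ⟨T z, hT z hz, fun j hj hu' => hTS z hz j ?_⟩
      by_contra hn
      exact h.2.2 j hj hn (hS0 j hj u hu')
    · refine ⟨T z', hT z' hz', fun j hj hu' => hTS z' hz' j ?_⟩
      have c1 := (Finset.mem_filter.1 h2).2.1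
      rcases (Finset.mem_filter.1 hu').2 with h | ⟨z'', hz'', h3, h4⟩
      · rw [h.1] at c1; exact absurd c1 (by simp)
      · have c2 := (Finset.mem_filter.1 h4).2.1
        rw [c1] at c2
        rwa [hcol hz' hz'' (Option.some.inj c2)]

end Vale.Agent.P230
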