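import Vale.Agent.P230.Tail

/-! Gaussian measure of sets of killing half spaces. -/

namespace Vale.Agent.P230

open MeasureTheory ProbabilityTheory Set
open scoped ENNReal NNReal RealInnerProductSpace

theorem lev_le {A N τ x : ℝ} (hN : 0 < N) (h0 : 0 < τ) (hτ : τ ^ 2 = A * N) (hx : 0 ≤ x) :
    tail (τ * (1 + x / N)) ≤ Real.exp (-(A * x)) * tail τ := by
  rw [mul_add, mul_one]
  refine (tail_le τ (by positivity)).trans (mul_le_mul_of_nonneg_right ?_ (tail_nonneg _))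
  have e : τ * (τ * (x / N)) = A * x := by rw [← mul_assoc, ← sq, hτ]; field_simp
  rw [e]
  exact Real.exp_le_exp.2 (by nlinarith [sq_nonneg (τ * (x / N))])

theorem lev_ge {A N τ x : ℝ} (hN : 0 < N) (h0 : 2 ≤ τ) (hτ : τ ^ 2 = A * N) (hx : 0 ≤ x)
    (hx2 : x ≤ N) : 1 / 2 * Real.exp (-(4 * A * x)) * tail τ ≤ tail (τ * (1 + x / N)) := by
  rw [mul_add, mul_one]
  have h1 : 0 ≤ τ * (x / N) := by positivity
  refine le_trans ?_ (tail_ge (by linarith) h1)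
  have e : τ * (τ * (x / N)) = A * x := by rw [← mul_assoc, ← sq, hτ]; field_simp
  have h2 : τ * (x / N) ≤ τ := mul_le_of_le_one_right (by linarith) ((div_le_one hN).2 hx2)
  have := tail_nonneg τ
  gcongr
  nlinarith

variable {E : Type*} [NormedAddCommGroup E] [InnerProductSpace ℝ E]

theorem norm_add_sq_le {z z' : E} {N : ℝ} (hN : 1 ≤ N) (hz : ‖z‖ ≤ 1 + 1 / N)
    (hz' : ‖z'‖ ≤ 1 + 1 / N) : ‖z + z'‖ ^ 2 ≤ 4 + 12 / N - ‖z - z'‖ ^ 2 := by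
  have h1 := parallelogram_law_with_norm ℝ z z'
  have h2 : 1 / N ≤ 1 := (div_le_one (by linarith)).2 hN
  have h3 : 0 ≤ 1 / N := by positivity
  have h4 : ‖z‖ ^ 2 ≤ (1 + 1 / N) ^ 2 := by gcongr
  have h5 : ‖z'‖ ^ 2 ≤ (1 + 1 / N) ^ 2 := by gcongr
  have e : 12 / N = 12 * (1 / N) := by ring
  nlinarith

theorem far_false {z z' g : E} {N τ τ' R : ℝ} (hN : 10000 ≤ N) (h0 : 0 < τ) (h1 : τ ≤ τ')
    (hR : R ^ 2 ≤ (1 + 1 / 2000) * τ ^ 2) (hz : ‖z‖ ≤ 1 + 1 / N) (hz' : ‖z'‖ ≤ 1 + 1 / N)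
    (hd : 1 / 16 ≤ ‖z - z'‖) (hg : ‖g‖ ≤ R) (a : τ' ≤ ⟪z, g⟫) (a' : τ' ≤ ⟪z', g⟫) : False := by
  have b1 := norm_add_sq_le (by linarith) hz hz'
  have b2 : (1 / 16) ^ 2 ≤ ‖z - z'‖ ^ 2 := by gcongr
  have b3 : 12 / N ≤ 12 / 10000 := by gcongr
  have b4 : 2 * τ ≤ ‖z + z'‖ * ‖g‖ := by
    have := real_inner_le_norm (z + z') g
    rw [inner_add_left] at this
    linarith
  have b5 : (2 * τ) ^ 2 ≤ (‖z + z'‖ * ‖g‖) ^ 2 := by gcongr
  have b6 : ‖g‖ ^ 2 ≤ R ^ 2 := by gcongr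
  have b7 : ‖z + z'‖ ^ 2 * ‖g‖ ^ 2 ≤ (4 - 4 / 2000) * ((1 + 1 / 2000) * τ ^ 2) :=
    mul_le_mul (by linarith) (b6.trans hR) (by positivity) (by norm_num)
  rw [mul_pow, mul_pow] at b5
  nlinarith [sq_pos_of_pos h0]

theorem norm_two_sub {z w : E} {u : ℝ} (h0 : 0 ≤ u) (a1 : u ≤ 1 / 8500) (hz : 1 - u ≤ ‖z‖)
    (hz2 : ‖z‖ ≤ 1 + u) (hw : 1 - u ≤ ‖w‖) (c2 : ‖z - w‖ ^ 2 ≤ 300 * u) :
    ‖z + (z - w)‖ ≤ ‖z‖ * (1 + 1210 * u) := by
  have c1 := parallelogram_law_with_norm ℝ z (z - w)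
  rw [sub_sub_cancel] at c1
  have c3 : (1 - u) ^ 2 ≤ ‖w‖ ^ 2 := by gcongr; linarith
  have c4 : ‖z‖ ^ 2 ≤ (1 + u) ^ 2 := by gcongr
  have c5 : (1 / 2) ^ 2 ≤ ‖z‖ ^ 2 := by gcongr; linarith
  have c6 : ‖z + (z - w)‖ ^ 2 ≤ (‖z‖ * (1 + 1210 * u)) ^ 2 := by
    rw [mul_pow]
    nlinarith [mul_nonneg (sq_nonneg ‖z‖) (sq_nonneg u)]
  exact (abs_le_of_sq_le_sq' c6 (by positivity)).2

theorem aux_ineq {u τ τ' κ s r : ℝ} (h0 : 0 ≤ u) (a1 : u ≤ 1 / 8500) (h1 : 0 ≤ τ) (hr : r ≤ 2)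
    (hs1 : s * r = τ' + κ) (hτκ : τ' + κ ≤ τ * (1 + 8474 * u)) (hκ : κ = 8470 * u * τ) :
    (s + 1210 * u * τ) * (r * (1 + 1210 * u)) ≤ τ' + 2 * κ := by
  have d1 : r * (1 + 1210 * u) ≤ 4 := by nlinarith
  have d2 : τ' + κ ≤ 3 * τ := by nlinarith
  have d3 : (τ' + κ) * (1210 * u) ≤ 3 * τ * (1210 * u) := by gcongr
  have d4 : 1210 * u * τ * (r * (1 + 1210 * u)) ≤ 1210 * u * τ * 4 := by gcongr
  calc _ = (τ' + κ) * (1 + 1210 * u) + 1210 * u * τ * (r * (1 + 1210 * u)) := by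
        rw [← hs1]; ring
    _ ≤ _ := by linarith

variable [FiniteDimensional ℝ E] [MeasurableSpace E] [BorelSpace E]

theorem half_ge {v : E} {s t : ℝ} (hv : 0 < ‖v‖) (h : s ≤ t * ‖v‖) :
    tail t ≤ (stdGaussian E).real {g | s ≤ ⟪v, g⟫} := by
  rw [half_eq (norm_pos_iff.1 hv)]
  exact tail_anti ((div_le_iff₀ hv).2 h)

theorem kill_lower {z : E} {A N τ τ' k : ℝ} (h0 : 2 ≤ τ) (hτ : τ ^ 2 = A * N)
    (h1 : τ' ≤ τ * (1 + 4 / N)) (hk : 1 ≤ k) (hk2 : 16 * k ≤ N) (hz : 1 - k / N ≤ ‖z‖) :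
    1 / 2 * Real.exp (-(32 * A * k)) * tail τ ≤ (stdGaussian E).real {g | τ' ≤ ⟪z, g⟫} := by
  have hN : 0 < N := by linarith
  have a1 : k / N ≤ 1 / 16 := by rw [div_le_iff₀ hN]; linarith
  have a2 : 1 / N ≤ k / N := by gcongr
  have a3 : 0 < 1 / N := by positivity
  have := lev_ge hN h0 hτ (x := 8 * k) (by linarith) (by linarith)
  rw [show 4 * A * (8 * k) = 32 * A * k by ring] at this
  refine this.trans (half_ge (by linarith) (h1.trans ?_))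
  rw [mul_assoc]
  refine mul_le_mul_of_nonneg_left ?_ (by linarith)
  have e1 : 4 / N = 4 * (1 / N) := by ring
  have e2 : 8 * k / N = 8 * (k / N) := by ring
  rw [e1, e2]
  nlinarith

theorem overlap_upper {z z' : E} {A N τ τ' x : ℝ} (hN : 1 ≤ N) (h0 : 0 < τ) (hτ : τ ^ 2 = A * N)
    (h1 : τ ≤ τ') (hx : 0 ≤ x) (hz : ‖z‖ ≤ 1 + 1 / N) (hz' : ‖z'‖ ≤ 1 + 1 / N)
    (hd : (8 * x + 12) / N ≤ ‖z - z'‖ ^ 2) :
    (stdGaussian E).real {g | τ' ≤ ⟪z, g⟫ ∧ τ' ≤ ⟪z', g⟫} ≤ Real.exp (-(A * x)) * tail τ := by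
  have hN0 : 0 < N := by linarith
  refine le_trans (measureReal_mono (s₂ := {g | 2 * τ ≤ ⟪z + z', g⟫}) fun g hg => ?_)
    ((half_le (by linarith) ?_).trans (lev_le hN0 h0 hτ hx))
  · simp only [mem_ofPred_eq, inner_add_left] at hg ⊢
    linarith [hg.1, hg.2]
  · have b1 := norm_add_sq_le hN hz hz'
    have e : (8 * x + 12) / N = 8 * (x / N) + 12 / N := by ring
    have b2 : 0 ≤ x / N := by positivity
    have b3 : ((1 + x / N) * ‖z + z'‖) ^ 2 ≤ 2 ^ 2 := by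
      rw [mul_pow]
      have : (1 + x / N) ^ 2 * ‖z + z'‖ ^ 2 ≤ (1 + x / N) ^ 2 * (4 - 8 * (x / N)) := by
        gcongr; linarith
      nlinarith [mul_nonneg b2 (mul_nonneg b2 b2), mul_nonneg b2 b2]
    have b4 := abs_le_of_sq_le_sq' b3 zero_le_two
    rw [mul_assoc, mul_comm 2]
    exact mul_le_mul_of_nonneg_left b4.2 h0.le

theorem common_lower {ι : Type*} (J : Finset ι) (w : ι → E) {z : E} {A N τ τ' l : ℝ} (hA : 1 ≤ A)
    (h0 : 2 ≤ τ) (hτ : τ ^ 2 = A * N) (h1 : τ ≤ τ') (h2 : τ' ≤ τ * (1 + 4 / N)) (hl : 1 ≤ l)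
    (hl2 : 8500 * l ≤ N) (hJ : 2 * (J.card : ℝ) ≤ Real.exp l) (hz : 1 - l / N ≤ ‖z‖)
    (hz2 : ‖z‖ ≤ 1 + 1 / N) (hw : ∀ j ∈ J, 1 - l / N ≤ ‖w j‖)
    (hd : ∀ j ∈ J, ‖z - w j‖ ^ 2 ≤ 300 * l / N) :
    1 / 4 * Real.exp (-(34000 * A * l)) * tail τ ≤
      (stdGaussian E).real {g | ∀ j ∈ J, τ' ≤ ⟪w j, g⟫} := by
  have hN : 0 < N := by linarith
  set u := l / N with hu
  have a1 : u ≤ 1 / 8500 := by rw [hu, div_le_iff₀ hN]; linarith
  have a2 : 1 / N ≤ u := by rw [hu]; gcongr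
  have a3 : 0 < 1 / N := by positivity
  have e1 : 4 / N = 4 * (1 / N) := by ring
  rw [e1] at h2
  have hz0 : 0 < ‖z‖ := by linarith
  set κ := 8470 * u * τ with hκ
  have hκ0 : 0 ≤ κ := by rw [hκ]; nlinarith
  set s := (τ' + κ) / ‖z‖ with hs
  have hs1 : s * ‖z‖ = τ' + κ := div_mul_cancel₀ _ hz0.ne'
  have hs2 : τ / 2 ≤ s := by
    rw [hs, le_div_iff₀ hz0]; nlinarith
  have hτκ : τ' + κ ≤ τ * (1 + 8474 * u) := by rw [hκ]; nlinarith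
  have b1 : 1 / 2 * Real.exp (-(34000 * A * l)) * tail τ ≤ tail s := by
    have := lev_ge hN h0 hτ (x := 8500 * l) (by linarith) hl2
    rw [show 4 * A * (8500 * l) = 34000 * A * l by ring] at this
    refine this.trans (tail_anti ?_)
    rw [hs, div_le_iff₀ hz0, mul_div_assoc, ← hu, mul_assoc]
    refine hτκ.trans (mul_le_mul_of_nonneg_left ?_ (by linarith))
    nlinarith
  have b2 : ∀ j ∈ J, (stdGaussian E).real {g | τ' + 2 * κ ≤ ⟪z + (z - w j), g⟫} ≤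
      Real.exp (-l) * tail s := by
    intro j hj
    have c0 : 0 ≤ 1210 * u * τ := by nlinarith
    refine (half_le (t := s + 1210 * u * τ) (by linarith) ?_).trans ((tail_le s c0).trans
      (mul_le_mul_of_nonneg_right (Real.exp_le_exp.2 ?_) (tail_nonneg _)))
    · have c7 := norm_two_sub (z := z) (w := w j) (by linarith) a1 hz (by linarith) (hw j hj)
        (by rw [hu, ← mul_div_assoc]; exact hd j hj)
      refine (mul_le_mul_of_nonneg_left c7 (by linarith)).trans ?_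
      exact aux_ineq (by linarith) a1 (by linarith) (by linarith) hs1 hτκ hκ
    · have c1 : τ / 2 * (1210 * u * τ) ≤ s * (1210 * u * τ) := by gcongr
      have c2 : τ / 2 * (1210 * u * τ) = 605 * A * l := by
        rw [show τ / 2 * (1210 * u * τ) = 605 * u * τ ^ 2 by ring, hτ, hu]; field_simp
      nlinarith [sq_nonneg (1210 * u * τ)]
  have b3 : {g : E | τ' + κ ≤ ⟪z, g⟫} ⊆ {g | ∀ j ∈ J, τ' ≤ ⟪w j, g⟫} ∪
      ⋃ j ∈ J, {g | τ' + 2 * κ ≤ ⟪z + (z - w j), g⟫} := by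
    intro g hg
    by_cases h : ∀ j ∈ J, τ' ≤ ⟪w j, g⟫
    · exact Or.inl h
    · push Not at h
      obtain ⟨j, hj, h⟩ := h
      refine Or.inr (mem_iUnion₂.2 ⟨j, hj, ?_⟩)
      simp only [mem_ofPred_eq, inner_add_left, inner_sub_left] at hg ⊢
      linarith
  have b4 := (measureReal_mono (μ := stdGaussian E) b3).trans ((measureReal_union_le _ _).trans
    (add_le_add le_rfl ((measureReal_biUnion_finset_le _ _).trans (Finset.sum_le_sum b2))))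
  rw [half_eq (norm_pos_iff.1 hz0), ← hs, Finset.sum_const, nsmul_eq_mul] at b4
  have b5 : (J.card : ℝ) * Real.exp (-l) ≤ 1 / 2 := by
    rw [Real.exp_neg, ← div_eq_mul_inv, div_le_iff₀ (Real.exp_pos _)]; linarith
  have b6 := mul_le_mul_of_nonneg_right b5 (tail_nonneg s)
  linarith

end Vale.Agent.P230
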