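import Vale.Agent.P230.Lower

/-! A lattice covering is a translative covering of the same density. -/

namespace Vale.Agent.P230

open MeasureTheory Set Metric Filter Topology
open scoped ENNReal NNReal Pointwise

theorem lattice_finite {n : ℕ} (L : Submodule ℤ (Sp n)) [DiscreteTopology L] {S : Set (Sp n)}
    (hS : Bornology.IsBounded S) : ((L : Set (Sp n)) ∩ S).Finite := by
  rw [inter_comm]
  refine Metric.finite_isBounded_inter_isClosed DiscreteTopology.isDiscrete hS ?_
  rw [← Submodule.coe_toAddSubgroup]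
  exact AddSubgroup.isClosed_of_discrete

theorem lattice_count {n : ℕ} (L : Submodule ℤ (Sp n)) [DiscreteTopology L] [IsZLattice ℝ L] :
    ∃ r : ℝ, 0 ≤ r ∧ ∀ R : ℝ, 0 ≤ R → (((L : Set (Sp n)) ∩ cube n R).encard : ℝ≥0∞) *
      ENNReal.ofReal (ZLattice.covolume L) ≤ ENNReal.ofReal ((2 * (R + r)) ^ n) := by
  classical
  have hF := ZLattice.isAddFundamentalDomain (Module.Free.chooseBasis ℤ L) (volume : Measure (Sp n))
  set F := ZSpan.fundamentalDomain ((Module.Free.chooseBasis ℤ L).ofZLatticeBasis ℝ L) with hFd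
  have hb : Bornology.IsBounded F := ZSpan.fundamentalDomain_isBounded _
  have hm : MeasurableSet F := ZSpan.fundamentalDomain_measurableSet _
  obtain ⟨r, hr0, hr⟩ := hb.subset_closedBall_lt 0 0
  refine ⟨r, hr0.le, fun R hR => ?_⟩
  have hv : ENNReal.ofReal (ZLattice.covolume L) = volume F := by
    rw [ZLattice.covolume_eq_measure_fundamentalDomain L volume hF, measureReal_def,
      ENNReal.ofReal_toReal hb.measure_lt_top.ne]
  have hfin : (Subtype.val ⁻¹' cube n R : Set L).Finite :=
    ((lattice_finite L (isBounded_cube n R)).preimage Subtype.val_injective.injOn).subset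
      fun x hx => ⟨x.2, hx⟩
  have hc : ((L : Set (Sp n)) ∩ cube n R).encard = hfin.toFinset.card := by
    rw [← hfin.encard_eq_coe_toFinset_card, ← Subtype.val_injective.encard_image]
    congr 1
    ext x
    simp [and_comm]
  rw [hc, hv, ← volume_cube n (by positivity)]
  calc ((hfin.toFinset.card : ℕ∞) : ℝ≥0∞) * volume F
      = ∑ g ∈ hfin.toFinset, volume (g +ᵥ F) := by
        have h : ∀ g : L, volume (g +ᵥ F) = volume F :=
          fun g => measure_vadd (volume : Measure (Sp n)) (g : Sp n) F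
        simp [h]
    _ = volume (⋃ g ∈ hfin.toFinset, g +ᵥ F) :=
        (measure_biUnion_finset₀ (fun a _ b _ hab => hF.aedisjoint hab)
          fun g _ => (hm.const_vadd g).nullMeasurableSet).symm
    _ ≤ _ := by
        refine measure_mono (iUnion₂_subset fun g hg => ?_)
        rintro _ ⟨y, hy, rfl⟩ i
        have h1 : |(g : Sp n) i| ≤ R := (hfin.mem_toFinset.1 hg) i
        have h2 : |y i| ≤ r :=
          (PiLp.norm_apply_le y i).trans (mem_closedBall_zero_iff.1 (hr hy))
        exact (abs_add_le ((g : Sp n) i) (y i)).trans (add_le_add h1 h2)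

theorem thetaT_le_thetaL {n : ℕ} (K : Set (Sp n)) : thetaT K ≤ thetaL K := by
  refine le_iInf fun L => le_iInf fun _ => le_iInf fun _ => le_iInf fun hc => ?_
  unfold thetaT
  refine iInf_le_of_le (L : Set (Sp n)) <| iInf_le_of_le (fun S hS => lattice_finite L hS) <|
    iInf_le_of_le hc ?_
  rw [div_eq_mul_inv]
  gcongr
  obtain ⟨r, hr0, hr⟩ := lattice_count L
  have hp := ZLattice.covolume_pos L volume
  set c := ENNReal.ofReal (ZLattice.covolume L)
  have c0 : c ≠ 0 := by simpa [c] using hp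
  have c1 : c ≠ ⊤ := ENNReal.ofReal_ne_top
  have t1 : Tendsto (fun R : ℝ => (1 + r / R) ^ n) atTop (𝓝 1) := by
    simpa using ((tendsto_const_nhds (x := (1 : ℝ))).add
      ((tendsto_const_nhds (x := r)).div_atTop tendsto_id)).pow n
  have t2 : Tendsto (fun R : ℝ => ENNReal.ofReal ((1 + r / R) ^ n) * c⁻¹) atTop (𝓝 c⁻¹) := by
    simpa using ENNReal.Tendsto.mul_const (b := c⁻¹) (ENNReal.tendsto_ofReal t1) (by simp)
  rw [← t2.limsup_eq]
  refine limsup_le_limsup ?_
  filter_upwards [eventually_gt_atTop 0] with R hR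
  have e : (2 * (R + r)) ^ n = (1 + r / R) ^ n * (2 * R) ^ n := by
    rw [← mul_pow]; congr 1; field_simp
  have h := hr R hR.le
  rw [e, ENNReal.ofReal_mul (by positivity)] at h
  rw [ENNReal.div_le_iff (by simpa using by positivity) ENNReal.ofReal_ne_top, mul_right_comm,
    ← div_eq_mul_inv, ENNReal.le_div_iff_mul_le (Or.inl c0) (Or.inl c1)]
  exact h

theorem ThetaT_le_ThetaL (n : ℕ) : ThetaT n ≤ ThetaL n :=
  iSup₂_mono fun K _ => thetaT_le_thetaL K

theorem lower_ThetaT : ∀ᶠ n : ℕ in atTop,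
    ENNReal.ofReal (1 / 10 ^ 11 * n * Real.log n) ≤ ThetaT n :=
  lower_bound.mono fun _ ⟨K, h1, _, h3⟩ => h3.trans (le_iSup₂_of_le K h1 le_rfl)

end Vale.Agent.P230
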