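import Vale.Agent.P230.Params
import Vale.Agent.P230.Defs

/-! The lower bound for the translative covering density. -/

namespace Vale.Agent.P230

open MeasureTheory Set Metric Filter
open scoped ENNReal NNReal Pointwise

theorem cube_eq (n : ℕ) (R : ℝ) :
    cube n R = WithLp.ofLp ⁻¹' (Icc (fun _ => -R) (fun _ => R) : Set (Fin n → ℝ)) := by
  ext x
  simp only [cube, mem_ofPred_eq, mem_preimage, mem_Icc, Pi.le_def, abs_le, forall_and]

theorem measurableSet_cube (n : ℕ) (R : ℝ) : MeasurableSet (cube n R) := by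
  rw [cube_eq]
  exact (PiLp.volume_preserving_ofLp (Fin n)).measurable measurableSet_Icc

theorem volume_cube (n : ℕ) {R : ℝ} (hR : 0 ≤ R) :
    volume (cube n R) = ENNReal.ofReal ((2 * R) ^ n) := by
  rw [cube_eq, (PiLp.volume_preserving_ofLp (Fin n)).measure_preimage
    measurableSet_Icc.nullMeasurableSet, Real.volume_Icc_pi, ENNReal.ofReal_pow (by positivity)]
  simp [two_mul]

theorem isBounded_cube (n : ℕ) (R : ℝ) : Bornology.IsBounded (cube n R) := by
  refine (isBounded_closedBall (x := (0 : Sp n)) (r := Real.sqrt (n * R ^ 2))).subset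
    fun x hx => ?_
  rw [mem_closedBall_zero_iff, EuclideanSpace.norm_eq]
  refine Real.sqrt_le_sqrt ((Finset.sum_le_card_nsmul _ _ (R ^ 2) fun i _ => ?_).trans (by simp))
  have := hx i
  rw [Real.norm_eq_abs]
  gcongr

theorem pow_shift {n : ℕ} {R : ℝ} (hR : 4 * n + 3 ≤ R) :
    (2 * R) ^ n ≤ 2 * (2 * (R - 2)) ^ n := by
  have h0 : (0 : ℝ) ≤ n := by positivity
  have h1 : 0 < R - 2 := by linarith
  have e : 2 * R = (1 + 2 / (R - 2)) * (2 * (R - 2)) := by field_simp; ring
  rw [e, mul_pow]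
  gcongr
  calc _ ≤ Real.exp (2 / (R - 2)) ^ n := by gcongr; linarith [Real.add_one_le_exp (2 / (R - 2))]
    _ ≤ Real.exp (1 / 2) := by
        rw [← Real.exp_nat_mul, ← mul_div_assoc]
        exact Real.exp_le_exp.2 (by rw [div_le_iff₀ h1]; linarith)
    _ ≤ 2 := by
        have c2 := Real.exp_one_lt_three
        have c3 : Real.exp (1 / 2) * Real.exp (1 / 2) = Real.exp 1 := by
          rw [← Real.exp_add]; norm_num
        nlinarith [Real.exp_pos (1 / 2)]

theorem lower_bound : ∀ᶠ n : ℕ in atTop, ∃ K : Set (Sp n), IsBody K ∧ -K = K ∧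
    ENNReal.ofReal (1 / 10 ^ 11 * n * Real.log n) ≤ thetaT K := by
  have h1 : ∀ᶠ n : ℕ in atTop, 5 * 10 ^ 12 ≤ Real.log n :=
    (Real.tendsto_log_atTop.comp tendsto_natCast_atTop_atTop).eventually_ge_atTop _
  have h2 : ∀ᶠ n : ℕ in atTop, (n : ℝ) ^ 4 / (4 / 3) ^ n ≤ 1 / 64 :=
    (tendsto_pow_const_div_const_pow_of_one_lt 4 (by norm_num)).eventually_le_const (by norm_num)
  filter_upwards [h1, h2] with n h1 h2
  rw [div_le_iff₀ (by positivity)] at h2
  obtain ⟨K, D, k1, k2, k3, k4, k5, k6, d2, k7⟩ := exists_body' (E := Sp n) (by simp) h1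
    (by linarith)
  refine ⟨K, ⟨k1, k2, k3⟩, k5, le_iInf fun X => le_iInf fun hX => le_iInf fun hc => ?_⟩
  have hn0 : (0 : ℝ) < n := by
    rcases Nat.eq_zero_or_pos n with h | h
    · rw [h] at h1; norm_num at h1
    · exact_mod_cast h
  have d3 : (0 : ℝ) < D := lt_of_lt_of_le (by have : 0 < Real.log n := by linarith
                                              positivity) d2
  set ω := volume (closedBall (0 : Sp n) 1) with hω
  have hω0 : ω ≠ 0 := (measure_closedBall_pos _ _ one_pos).ne'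
  have hω1 : ω ≠ ⊤ := measure_closedBall_lt_top.ne
  by_contra hlt
  rw [not_le] at hlt
  have a1 : limsup (fun R : ℝ => ((X ∩ cube n R).encard : ℝ≥0∞) / ENNReal.ofReal ((2 * R) ^ n))
      atTop < ENNReal.ofReal (D / 80) / ω := by
    rw [ENNReal.lt_div_iff_mul_lt (Or.inl hω0) (Or.inl hω1), mul_comm]
    refine lt_of_le_of_lt (mul_le_mul_left k6 _) ?_
    rw [mul_assoc]
    refine lt_of_lt_of_le (ENNReal.mul_lt_mul_right (by norm_num) (by norm_num) hlt) ?_
    rw [← ENNReal.ofReal_ofNat 3, ← ENNReal.ofReal_mul (by norm_num)]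
    refine ENNReal.ofReal_le_ofReal ?_
    norm_num at d2 ⊢
    have : 0 ≤ n * Real.log n := by have : 0 < Real.log n := by linarith
                                    positivity
    linarith
  obtain ⟨R, hR1, hR2⟩ := ((eventually_lt_of_limsup_lt a1).and
    (eventually_ge_atTop (4 * (n : ℝ) + 3))).exists
  have hfin := hX _ (isBounded_cube n R)
  obtain ⟨c, hc1, y, hy, h3⟩ := k7 hfin.toFinset (cube n (R - 2)) (measurableSet_cube _ _) (by
    rw [hfin.encard_eq_coe_toFinset_card, ENat.toENNReal_coe, ENNReal.div_lt_iff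
      (Or.inl (ENNReal.ofReal_pos.2 (pow_pos (by linarith) n)).ne')
      (Or.inl ENNReal.ofReal_ne_top)] at hR1
    have b1 : ENNReal.ofReal (40 / D) * ω ≠ 0 := mul_ne_zero (by simp [d3]) hω0
    refine lt_of_lt_of_le (ENNReal.mul_lt_mul_left b1
      (ENNReal.mul_ne_top ENNReal.ofReal_ne_top hω1) hR1) ?_
    rw [volume_cube n (by linarith), show ENNReal.ofReal (D / 80) / ω *
      ENNReal.ofReal ((2 * R) ^ n) * (ENNReal.ofReal (40 / D) * ω) =
      ENNReal.ofReal (D / 80) / ω * ω * ENNReal.ofReal (40 / D) * ENNReal.ofReal ((2 * R) ^ n) by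
        ring, ENNReal.div_mul_cancel hω0 hω1, ← ENNReal.ofReal_mul (by positivity),
      ← ENNReal.ofReal_mul (by positivity)]
    refine ENNReal.ofReal_le_ofReal ?_
    rw [show (D : ℝ) / 80 * (40 / D) = 1 / 2 by field_simp; norm_num]
    linarith [pow_shift hR2])
  obtain ⟨κ, hκ, x, hx, h4⟩ : c + y ∈ K + X := hc ▸ mem_univ _
  have e : c + y - x = κ := by rw [← h4]; simp
  refine h3 x (hfin.mem_toFinset.2 ⟨hx, fun i => ?_⟩) (e ▸ hκ)
  have b1 : |y i| ≤ 1 := (PiLp.norm_apply_le y i).trans (mem_closedBall_zero_iff.1 hy)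
  have b2 : |κ i| ≤ 1 := (PiLp.norm_apply_le κ i).trans (mem_closedBall_zero_iff.1 (k4 hκ))
  have b3 := hc1 i
  have b4 : x i = c i + y i - κ i := by rw [← e]; simp
  rw [b4, abs_le] at *
  constructor <;> linarith [b1.1, b1.2, b2.1, b2.2, b3.1, b3.2]

end Vale.Agent.P230
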