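import Vale.Agent.P230.Body

/-! Choice of the parameters. -/

namespace Vale.Agent.P230

open MeasureTheory ProbabilityTheory Set Metric
open scoped ENNReal NNReal RealInnerProductSpace Classical

variable {E : Type*} [NormedAddCommGroup E] [InnerProductSpace ℝ E] [FiniteDimensional ℝ E]
  [MeasurableSpace E] [BorelSpace E]

theorem trunc_small {n : ℕ} (hn : Module.finrank ℝ E = n) (hN : (10000 : ℝ) ≤ n) {τ : ℝ}
    (h0 : 0 < τ) (hτ : τ ^ 2 = 1000000 * n) :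
    (stdGaussian E).real {g | τ * (1 + 1 / 5000) < ‖g‖} ≤ Real.exp (-n) * tail τ := by
  refine (norm_tail (ε := 1 / 8000) (by norm_num) (by norm_num) (by positivity)).trans
    (le_trans ?_ (mul_le_mul_of_nonneg_left (tail_lower h0.le) (Real.exp_pos _).le))
  have h1 : Real.sqrt (1 / (1 / 8000)) ≤ Real.exp 5 := by
    rw [Real.sqrt_le_left (Real.exp_pos _).le, ← Real.exp_nat_mul]
    have := Real.pow_div_factorial_le_exp (x := 10) (by norm_num) 10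
    norm_num [Nat.factorial] at this ⊢
    have h3 := Real.pow_div_factorial_le_exp (x := 5) (by norm_num) 5
    have h4 := Real.sum_le_exp_of_nonneg (x := 10) (by norm_num) 12
    norm_num [Finset.sum_range_succ, Nat.factorial] at h4
    linarith
  have h2 : τ ≤ 10 * n := abs_le_of_sq_le_sq' (by rw [hτ]; nlinarith) (by linarith) |>.2
  have h3 : Real.exp (-3) ≤ 1 / 4 := by
    rw [Real.exp_neg, ← one_div]
    exact one_div_le_one_div_of_le (by norm_num) (by linarith [Real.add_one_le_exp (3 : ℝ)])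
  calc _ ≤ Real.exp (-((1 - 1 / 8000) / 2 * (τ * (1 + 1 / 5000)) ^ 2)) * Real.exp 5 ^ n := by
        rw [hn]; gcongr
    _ ≤ Real.exp (-n) * (Real.exp (-3) * Real.exp (-(2 * τ + τ ^ 2 / 2))) := by
        rw [← Real.exp_nat_mul, ← Real.exp_add, ← Real.exp_add, ← Real.exp_add, mul_pow, hτ]
        exact Real.exp_le_exp.2 (by linarith)
    _ ≤ _ := by gcongr

theorem aux_H1 {n : ℕ} {L l D M p N₀ : ℝ} (hn0 : (0 : ℝ) < n) (hexp : Real.exp L = n)
    (e4 : 10 ^ 12 * L ≤ Real.exp (2 * L / 3)) (l0 : 0 ≤ l) (l2 : l ≤ 4 * L)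
    (d1 : D ≤ n * L / (2 * 10 ^ 8)) (hp : p = Real.exp (-(33 * 1000000 * D)))
    (m2 : M * p ≤ 2 * 3 ^ n) (n1 : N₀ ^ 2 ≤ 4 ^ n * n ^ 4)
    (h2 : 64 * (n : ℝ) ^ 4 ≤ (4 / 3) ^ n) :
    8 * M * (N₀ ^ 2 * Real.sqrt (600000 * l / n) ^ n) ≤ 1 := by
  have p0 : 0 < p := hp ▸ Real.exp_pos _
  have a0 := Real.sqrt_nonneg (600000 * l / n)
  have a1 : M ≤ 2 * 3 ^ n * Real.exp (L / 6) ^ n := by
    rw [← le_div_iff₀ p0, hp, Real.exp_neg, div_inv_eq_mul] at m2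
    refine m2.trans ?_
    rw [← Real.exp_nat_mul]
    have : 0 ≤ n * L := by nlinarith
    have : 33 * 1000000 * D ≤ n * (L / 6) := by linarith
    gcongr
  have a2 : 16 * Real.exp (L / 6) * Real.sqrt (600000 * l / n) ≤ 1 := by
    refine abs_le_of_sq_le_sq' ?_ zero_le_one |>.2
    have e : (n : ℝ) = Real.exp (2 * L / 3) * Real.exp (L / 6) ^ 2 := by
      rw [← Real.exp_nat_mul, ← Real.exp_add, ← hexp]; congr 1; push_cast; ring
    rw [mul_pow, mul_pow, Real.sq_sqrt (by positivity), ← mul_div_assoc, one_pow, div_le_one hn0]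
    have : 0 ≤ Real.exp (L / 6) ^ 2 := by positivity
    nlinarith
  calc _ ≤ 8 * (2 * 3 ^ n * Real.exp (L / 6) ^ n) *
        (4 ^ n * n ^ 4 * Real.sqrt (600000 * l / n) ^ n) := by gcongr
    _ = 16 * n ^ 4 * (3 * 4 * Real.exp (L / 6) * Real.sqrt (600000 * l / n)) ^ n := by
        simp only [mul_pow]; ring
    _ ≤ (4 / 3) ^ n * (3 * 4 * Real.exp (L / 6) * Real.sqrt (600000 * l / n)) ^ n := by
        gcongr; linarith [pow_pos hn0 4]
    _ ≤ 1 := by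
        rw [← mul_pow]
        exact pow_le_one₀ (by positivity) (by linarith)

theorem aux_H3 {n l N₀ c : ℕ} {x : ℝ} (hn : 0 < n) (hl : 0 < l) (hl2 : l ≤ n)
    (hc : c ≤ (5 ^ n) ^ l) (a2 : (N₀ : ℝ) ≤ 2 ^ n * n ^ 2) (m1 : 3 ^ n ≤ x)
    (h2 : 64 * (n : ℝ) ^ 4 ≤ (4 / 3) ^ n) :
    (N₀ + 1) * (c + 1) ^ N₀ * Real.exp (-(x / 2)) < 1 / 4 := by
  have a1 : (c : ℝ) + 1 ≤ Real.exp (2 * (n * l)) := by
    have b1 : c + 1 ≤ 6 ^ (n * l) := by
      rw [← pow_mul] at hc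
      exact Nat.succ_le_of_lt (hc.trans_lt (Nat.pow_lt_pow_left (by norm_num)
        (Nat.mul_pos hn hl).ne'))
    have b2 : (6 : ℝ) ≤ Real.exp 2 := by
      have h4 := Real.sum_le_exp_of_nonneg (x := 2) (by norm_num) 4
      norm_num [Finset.sum_range_succ, Nat.factorial] at h4
      linarith
    calc (c : ℝ) + 1 ≤ 6 ^ (n * l) := by exact_mod_cast b1
      _ ≤ Real.exp 2 ^ (n * l) := by gcongr
      _ = _ := by rw [← Real.exp_nat_mul]; push_cast; ring_nf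
  have hn1 : (1 : ℝ) ≤ n := by exact_mod_cast hn
  have hl1 : (l : ℝ) ≤ n := by exact_mod_cast hl2
  have a3 : 64 * (n : ℝ) ^ 4 * 2 ^ n ≤ 3 ^ n := by
    calc 64 * (n : ℝ) ^ 4 * 2 ^ n ≤ (4 / 3) ^ n * 2 ^ n := by gcongr
      _ = (4 / 3 * 2) ^ n := by rw [← mul_pow]
      _ ≤ _ := by gcongr; norm_num
  have a4 : 1 + 2 * (n * l) ≤ 3 * (n : ℝ) ^ 2 := by nlinarith
  have a5 : N₀ * (1 + 2 * (n * l)) ≤ 2 ^ n * n ^ 2 * (3 * (n : ℝ) ^ 2) := by gcongr
  have a6 : (1 : ℝ) ≤ n ^ 4 * 2 ^ n :=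
    one_le_mul_of_one_le_of_one_le (one_le_pow₀ hn1) (one_le_pow₀ (by norm_num))
  calc _ ≤ Real.exp N₀ * Real.exp (2 * (n * l)) ^ N₀ * Real.exp (-(x / 2)) := by
        gcongr; exact Real.add_one_le_exp _
    _ ≤ Real.exp (-4) := by
        rw [← Real.exp_nat_mul, ← Real.exp_add, ← Real.exp_add]
        exact Real.exp_le_exp.2 (by linarith)
    _ < _ := by
        rw [Real.exp_neg, ← one_div]
        exact one_div_lt_one_div_of_lt (by norm_num) (by linarith [Real.add_one_le_exp (4 : ℝ)])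

theorem aux_beta {n l D : ℕ} (d3 : (0 : ℝ) < D) (d5 : 8 * (D : ℝ) ≤ Real.exp l) :
    (2 : ℝ) ^ n / ((2 ^ n * D : ℕ) : ℝ) + 2 * (18 / D + Real.exp (2 - l)) ≤ 40 / D := by
  have a1 : Real.exp (2 - l) ≤ 9 / (8 * D) := by
    have c3 : Real.exp 2 ≤ 9 := by
      rw [show (2 : ℝ) = 1 + 1 by norm_num, Real.exp_add]
      nlinarith [Real.exp_one_lt_three, Real.exp_pos 1]
    rw [Real.exp_sub]
    gcongr
  have e : (2 : ℝ) ^ n / ((2 ^ n * D : ℕ) : ℝ) = 1 / D := by push_cast; field_simp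
  have e1 : (18 : ℝ) / D = 18 * (1 / D) := by ring
  have e2 : (40 : ℝ) / D = 40 * (1 / D) := by ring
  have e3 : (9 : ℝ) / (8 * D) = 9 / 8 * (1 / D) := by field_simp
  have : (0 : ℝ) < 1 / D := by positivity
  rw [e, e1, e2]
  linarith

theorem exists_par {n : ℕ} (hn : Module.finrank ℝ E = n) {l D : ℕ} (hN : (10000 : ℝ) ≤ n)
    (hl : 0 < l) (hl2 : 36000 * 1000000 * (l : ℝ) ≤ n) (hD : 0 < D)
    (d5 : 8 * (D : ℝ) ≤ Real.exp l) :
    ∃ (τ R : ℝ) (Λ : ℝ≥0), 0 < R ∧ Par E n 1000000 τ (τ + 2 * R / n) R l D Λ := by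
  have hn0 : (0 : ℝ) < n := by linarith
  obtain ⟨τ, t1, t2⟩ : ∃ τ : ℝ, τ ^ 2 = 1000000 * n ∧ 2 ≤ τ := by
    have : 1 ≤ Real.sqrt n := Real.one_le_sqrt.2 (by linarith)
    exact ⟨1000 * Real.sqrt n, by rw [mul_pow, Real.sq_sqrt hn0.le]; norm_num, by linarith⟩
  have t3 := tail_pos (by linarith : 0 ≤ τ)
  refine ⟨τ, τ * (1 + 1 / 5000), (1 / (4 * tail τ)).toNNReal, by positivity,
    { hN := hN
      hA := by norm_num
      hτ := t1
      h0 := t2
      hR := by rw [mul_pow, t1]; linarith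
      h1 := le_add_of_nonneg_right (by positivity)
      h2 := by
        rw [mul_add τ 1 (4 / n), mul_one, ← mul_div_assoc]
        exact add_le_add le_rfl (div_le_div_of_nonneg_right (by linarith) hn0.le)
      hl := by exact_mod_cast hl
      hl2 := hl2
      hD := hD
      hD2 := d5
      hT := trunc_small hn hN (by linarith) t1
      hΛ := by rw [Real.coe_toNNReal _ (by positivity)]; field_simp }⟩

theorem exists_body' {n : ℕ} (hn : Module.finrank ℝ E = n) (h1 : 5 * 10 ^ 12 ≤ Real.log n)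
    (h2 : 64 * (n : ℝ) ^ 4 ≤ (4 / 3) ^ n) :
    ∃ (K : Set E) (D : ℕ), IsCompact K ∧ Convex ℝ K ∧ (interior K).Nonempty ∧
      K ⊆ closedBall 0 1 ∧ -K = K ∧ volume (closedBall (0 : E) 1) ≤ 3 * volume K ∧
      n * Real.log n / (4 * 10 ^ 8) ≤ D ∧ ∀ (X : Finset E) (Q : Set E), MeasurableSet Q →
        X.card * (ENNReal.ofReal (40 / D) * volume (closedBall (0 : E) 1)) < volume Q →
        ∃ c ∈ Q, ∃ y ∈ closedBall (0 : E) 1, ∀ x ∈ X, c + y - x ∉ K := by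
  have hn0 : (0 : ℝ) < n := by
    rcases Nat.eq_zero_or_pos n with h | h
    · rw [h] at h1; norm_num at h1
    · exact_mod_cast h
  have hexp := Real.exp_log hn0
  generalize Real.log n = L at *
  have hL0 : 0 < L := by linarith
  have e4 : 10 ^ 12 * L ≤ Real.exp (2 * L / 3) := by
    have := Real.pow_div_factorial_le_exp (x := 2 * L / 3) (by positivity) 2
    norm_num [Nat.factorial] at this
    nlinarith
  have e2 : 10 ^ 12 * L ≤ n := by
    rw [← hexp]; exact e4.trans (Real.exp_le_exp.2 (by linarith))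
  have hN : (10 : ℝ) ^ 12 ≤ n := by linarith
  obtain ⟨l, l1, l2⟩ : ∃ l : ℕ, 3 * L ≤ l ∧ (l : ℝ) ≤ 4 * L :=
    ⟨_, Nat.le_ceil _, by linarith [Nat.ceil_lt_add_one (by positivity : 0 ≤ 3 * L)]⟩
  have d0 : 4 * 10 ^ 8 ≤ n * L := by nlinarith
  obtain ⟨D, d1, d2⟩ : ∃ D : ℕ, (D : ℝ) ≤ n * L / (2 * 10 ^ 8) ∧ n * L / (4 * 10 ^ 8) ≤ D := by
    refine ⟨_, Nat.floor_le (by positivity), ?_⟩
    have := Nat.lt_floor_add_one (n * L / (2 * 10 ^ 8))
    norm_num at this d0 ⊢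
    linarith
  have d3 : (0 : ℝ) < D := lt_of_lt_of_le (by positivity) d2
  have d4 : (D : ℝ) ≤ n ^ 2 := by nlinarith
  have d5 : 8 * (D : ℝ) ≤ Real.exp l := by
    have : Real.exp (3 * L) = n ^ 3 := by rw [← hexp, ← Real.exp_nat_mul]; norm_num
    have := Real.exp_le_exp.2 l1
    nlinarith
  have hl0 : 0 < l := by exact_mod_cast (by linarith : (0 : ℝ) < l)
  have hln : l ≤ n := by exact_mod_cast (by linarith : (l : ℝ) ≤ n)
  have hn1 : 0 < n := by exact_mod_cast hn0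
  obtain ⟨τ, R, Λ, hR, hP⟩ := exists_par hn (by linarith) hl0 (by linarith)
    (by exact_mod_cast d3) d5
  obtain ⟨t, ht1, ht2⟩ := P309.cover_pow E two_pos l
  rw [hn] at ht1
  have p0 := Real.exp_pos (-(33 * 1000000 * D))
  obtain ⟨M, m1, m2⟩ : ∃ M : ℕ, 3 ^ n ≤ M * Real.exp (-(33 * 1000000 * D)) ∧
      M * Real.exp (-(33 * 1000000 * D)) ≤ 2 * 3 ^ n := by
    refine ⟨_, (div_le_iff₀ p0).1 (Nat.le_ceil _), ?_⟩
    have p1 : Real.exp (-(33 * 1000000 * D)) ≤ 1 := Real.exp_le_one_iff.2 (by linarith)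
    have a1 := Nat.ceil_lt_add_one (by positivity : 0 ≤ 3 ^ n / Real.exp (-(33 * 1000000 * D)))
    have a2 : (1 : ℝ) ≤ 3 ^ n := one_le_pow₀ (by norm_num)
    have a3 := mul_le_mul_of_nonneg_right a1.le p0.le
    rw [add_mul, div_mul_cancel₀ _ p0.ne'] at a3
    exact a3.trans (by linarith)
  have n0 : ((2 ^ n * D : ℕ) : ℝ) ≤ 2 ^ n * n ^ 2 := by push_cast; gcongr
  have n1 : ((2 ^ n * D : ℕ) : ℝ) ^ 2 ≤ 4 ^ n * n ^ 4 := by
    calc _ ≤ (2 ^ n * (n : ℝ) ^ 2) ^ 2 := by gcongr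
      _ = _ := by rw [show (4 : ℝ) = 2 * 2 by norm_num, mul_pow 2 2]; ring
  obtain ⟨K, k1, k2, k3, k4, k5, k6, k7⟩ := exists_body (N₀ := 2 ^ n * D) (M := M)
    (δ := Real.sqrt (600000 * l / n)) hn hP hR t (Real.sqrt_nonneg _)
    (Real.sq_sqrt (by positivity)).ge
    (aux_H1 hn0 hexp e4 (by positivity) l2 d1 rfl m2 n1 h2)
    (by
      calc _ = 32 * (M * Real.exp (-(33 * 1000000 * D))) *
            (((2 ^ n * D : ℕ) : ℝ) ^ 2 * (1 / 16) ^ n) := by ring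
        _ ≤ 32 * (2 * 3 ^ n) * (4 ^ n * n ^ 4 * (1 / 16) ^ n) := by gcongr
        _ = 64 * n ^ 4 * (3 * 4 * (1 / 16)) ^ n := by simp only [mul_pow]; ring
        _ ≤ (4 / 3) ^ n * (3 * 4 * (1 / 16)) ^ n := by gcongr
        _ = 1 := by rw [← mul_pow]; norm_num)
    (aux_H3 hn1 hl0 hln ht1 n0 m1 h2)
  refine ⟨K, D, k1, k2, k3, k4, k5, k6, d2, fun X Q hQ h => ?_⟩
  refine window hn hn1 hln hP.hD (Nat.mul_pos (by positivity) hP.hD) (fun x hx => ?_) k4 k7 X hQ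
    (lt_of_le_of_lt ?_ h)
  · obtain ⟨e, he, h3⟩ := ht2 x hx
    refine ⟨e, he, h3.trans ?_⟩
    rw [div_le_div_iff₀ (by positivity) hn0, one_mul]
    have a1 : (2 : ℝ) ^ l = Real.exp (l * Real.log 2) := by
      rw [Real.exp_nat_mul, Real.exp_log two_pos]
    have a2 : Real.exp (2 * L) = n ^ 2 := by rw [← hexp, ← Real.exp_nat_mul]; norm_num
    have a4 : 3 * L * (2 / 3) ≤ l * Real.log 2 := by gcongr; linarith [Real.log_two_gt_d9]
    have a3 : Real.exp (2 * L) ≤ Real.exp (l * Real.log 2) := Real.exp_le_exp.2 (by linarith)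
    have a5 : 2 * (n : ℝ) ≤ n * n := by gcongr; linarith
    linarith
  · gcongr
    exact aux_beta d3 d5

end Vale.Agent.P230
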