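import Mathlib

/-! Random subsets of a finite set with independent inclusions. -/

namespace Vale.Agent.P230

open Finset
open scoped NNReal

variable {U : Type*} [DecidableEq U]

noncomputable def pr (lam : U → ℝ≥0) (u : U) : ℝ := 1 - Real.exp (-(lam u : ℝ))

omit [DecidableEq U] in
theorem pr_nonneg (lam : U → ℝ≥0) (u : U) : 0 ≤ pr lam u := by
  have : Real.exp (-(lam u : ℝ)) ≤ 1 := Real.exp_le_one_iff.2 (by simp)
  unfold pr; linarith

omit [DecidableEq U] in
theorem pr_le_one (lam : U → ℝ≥0) (u : U) : 0 ≤ 1 - pr lam u := by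
  have := Real.exp_pos (-(lam u : ℝ))
  unfold pr; linarith

omit [DecidableEq U] in
theorem pr_le (lam : U → ℝ≥0) (u : U) : pr lam u ≤ lam u := by
  have := Real.add_one_le_exp (-(lam u : ℝ))
  unfold pr; linarith

noncomputable def ex (lam : U → ℝ≥0) (V : Finset U) (f : Finset U → ℝ) : ℝ :=
  ∑ s ∈ V.powerset, (∏ u ∈ s, pr lam u) * (∏ u ∈ V \ s, (1 - pr lam u)) * f s

variable (lam : U → ℝ≥0)

@[simp] theorem ex_empty (f : Finset U → ℝ) : ex lam ∅ f = f ∅ := by simp [ex]

theorem ex_insert {V : Finset U} {u : U} (hu : u ∉ V) (f : Finset U → ℝ) :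
    ex lam (insert u V) f =
      (1 - pr lam u) * ex lam V f + pr lam u * ex lam V (fun s => f (insert u s)) := by
  unfold ex
  rw [sum_powerset_insert hu, mul_sum, mul_sum]
  congr 1
  · refine sum_congr rfl fun s hs => ?_
    have h1 : u ∉ s := fun h => hu (mem_powerset.1 hs h)
    rw [insert_sdiff_of_notMem _ h1, prod_insert (by simp [hu])]
    ring
  · refine sum_congr rfl fun s hs => ?_
    have h1 : u ∉ s := fun h => hu (mem_powerset.1 hs h)
    rw [prod_insert h1, insert_sdiff_insert, sdiff_insert_of_notMem hu]
    ring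

theorem ex_const (V : Finset U) (c : ℝ) : ex lam V (fun _ => c) = c := by
  induction V using Finset.induction_on with
  | empty => simp
  | insert u V hu ih => rw [ex_insert _ hu, ih]; ring

theorem ex_add (V : Finset U) (f g : Finset U → ℝ) :
    ex lam V (fun s => f s + g s) = ex lam V f + ex lam V g := by
  simp only [ex, mul_add, sum_add_distrib]

theorem ex_sub (V : Finset U) (f g : Finset U → ℝ) :
    ex lam V (fun s => f s - g s) = ex lam V f - ex lam V g := by
  simp only [ex, mul_sub, sum_sub_distrib]

theorem ex_mul (V : Finset U) (c : ℝ) (f : Finset U → ℝ) :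
    ex lam V (fun s => c * f s) = c * ex lam V f := by
  simp only [ex, mul_sum]
  exact sum_congr rfl fun _ _ => by ring

theorem ex_sum {ι : Type*} (V : Finset U) (I : Finset ι) (f : ι → Finset U → ℝ) :
    ex lam V (fun s => ∑ i ∈ I, f i s) = ∑ i ∈ I, ex lam V (f i) := by
  simp only [ex, mul_sum]
  exact sum_comm

theorem ex_mono {V : Finset U} {f g : Finset U → ℝ} (h : ∀ s ⊆ V, f s ≤ g s) :
    ex lam V f ≤ ex lam V g :=
  sum_le_sum fun s hs => mul_le_mul_of_nonneg_left (h s (mem_powerset.1 hs))
    (mul_nonneg (prod_nonneg fun u _ => pr_nonneg lam u) (prod_nonneg fun u _ => pr_le_one lam u))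

theorem ex_nonneg {V : Finset U} {f : Finset U → ℝ} (h : ∀ s, 0 ≤ f s) : 0 ≤ ex lam V f := by
  rw [← ex_const lam V 0]; exact ex_mono lam fun s _ => h s

theorem exists_lt_of_ex {V : Finset U} {f : Finset U → ℝ} {c : ℝ} (h : ex lam V f < c) :
    ∃ s ⊆ V, f s < c := by
  by_contra hc
  push Not at hc
  have := ex_mono lam (f := fun _ => c) hc
  rw [ex_const] at this
  linarith

theorem mono_insert {f : Finset U → ℝ} (hf : Monotone f) (u : U) :
    Monotone fun s => f (insert u s) := fun _ _ h => hf (insert_subset_insert u h)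

theorem harris (V : Finset U) {f g : Finset U → ℝ} (hf : Monotone f) (hg : Monotone g) :
    ex lam V f * ex lam V g ≤ ex lam V (fun s => f s * g s) := by
  induction V using Finset.induction_on generalizing f g with
  | empty => simp
  | insert u V hu ih =>
    rw [ex_insert _ hu, ex_insert _ hu, ex_insert _ hu]
    have h0 := ih hf hg
    have h1 := ih (mono_insert hf u) (mono_insert hg u)
    have a1 : ex lam V f ≤ ex lam V (fun s => f (insert u s)) :=
      ex_mono lam fun s _ => hf (subset_insert u s)
    have a2 : ex lam V g ≤ ex lam V (fun s => g (insert u s)) :=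
      ex_mono lam fun s _ => hg (subset_insert u s)
    have p0 := pr_nonneg lam u
    have p1 := pr_le_one lam u
    have b0 := mul_le_mul_of_nonneg_left h0 p1
    have b1 := mul_le_mul_of_nonneg_left h1 p0
    have b2 := mul_nonneg (mul_nonneg p0 p1) (mul_nonneg (sub_nonneg.2 a1) (sub_nonneg.2 a2))
    nlinarith

theorem ex_indep {V : Finset U} {f g : Finset U → ℝ}
    (h : ∀ u ∈ V, (∀ s, f (insert u s) = f s) ∨ (∀ s, g (insert u s) = g s)) :
    ex lam V (fun s => f s * g s) = ex lam V f * ex lam V g := by
  induction V using Finset.induction_on generalizing f g with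
  | empty => simp
  | insert u V hu ih =>
    rw [ex_insert _ hu, ex_insert _ hu, ex_insert _ hu]
    have h0 := ih (f := f) (g := g) fun v hv => h v (mem_insert_of_mem hv)
    have h1 := ih (f := fun s => f (insert u s)) (g := fun s => g (insert u s)) fun v hv =>
      (h v (mem_insert_of_mem hv)).imp (fun h s => by rw [Finset.insert_comm, h])
        (fun h s => by rw [Finset.insert_comm, h])
    rw [h0, h1]
    rcases h u (mem_insert_self u V) with h2 | h2 <;> simp only [h2] <;> ring

theorem ex_union {V W : Finset U} (h : Disjoint V W) (f : Finset U → ℝ) :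
    ex lam (W ∪ V) f = ex lam W (fun ξ => ex lam V (fun s => f (ξ ∪ s))) := by
  induction W using Finset.induction_on generalizing f with
  | empty => simp
  | insert u W hu ih =>
    rw [disjoint_insert_right] at h
    rw [insert_union, ex_insert _ (by simp [hu, h.1]), ex_insert _ hu, ih h.2, ih h.2]
    simp only [insert_union]

theorem ex_pow_card (W : Finset U) {x : ℝ} (hx : 0 ≤ x) :
    ex lam W (fun ξ => x ^ ξ.card) ≤ Real.exp (x * ∑ u ∈ W, (lam u : ℝ)) := by
  induction W using Finset.induction_on with
  | empty => simp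
  | insert u W hu ih =>
    have e : ex lam W (fun s => x ^ (insert u s).card) = x * ex lam W (fun ξ => x ^ ξ.card) := by
      rw [← ex_mul]
      refine le_antisymm (ex_mono lam fun s hs => ?_) (ex_mono lam fun s hs => ?_) <;>
        rw [card_insert_of_notMem fun h => hu (hs h), pow_succ']
    rw [ex_insert _ hu, e, sum_insert hu, mul_add, Real.exp_add]
    have p0 := pr_nonneg lam u
    have p1 := pr_le lam u
    have a0 : 0 ≤ ex lam W (fun ξ => x ^ ξ.card) := ex_nonneg lam fun s => by positivity
    have a1 := Real.add_one_le_exp (x * lam u)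
    calc _ = (1 - pr lam u + pr lam u * x) * ex lam W (fun ξ => x ^ ξ.card) := by ring
      _ ≤ _ := by
        apply mul_le_mul _ ih a0 (Real.exp_pos _).le
        nlinarith

/-- indicator that the random set meets `S` -/
def hit (S s : Finset U) : ℝ := if ∃ u ∈ s, u ∈ S then 1 else 0

theorem hit_nonneg (S s : Finset U) : 0 ≤ hit S s := by unfold hit; split_ifs <;> norm_num

theorem hit_le_one (S s : Finset U) : hit S s ≤ 1 := by unfold hit; split_ifs <;> norm_num

theorem hit_mono (S : Finset U) : Monotone (hit S) := by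
  intro s t h
  unfold hit
  split_ifs with h1 h2
  · exact le_rfl
  · exact absurd (h1.imp fun u hu => ⟨h hu.1, hu.2⟩) h2
  · norm_num
  · exact le_rfl

theorem hit_insert {S : Finset U} {u : U} (h : u ∉ S) (s : Finset U) :
    hit S (insert u s) = hit S s := by
  simp [hit, h]

theorem ex_hit (V S : Finset U) :
    ex lam V (hit S) = 1 - Real.exp (-∑ u ∈ V ∩ S, (lam u : ℝ)) := by
  induction V using Finset.induction_on with
  | empty => simp [hit]
  | insert u V hu ih =>
    rw [ex_insert _ hu, ih]
    by_cases h : u ∈ S
    · have : (fun s => hit S (insert u s)) = fun _ => 1 := by funext s; simp [hit, h]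
      rw [this, ex_const, insert_inter_of_mem h, sum_insert (by simp [hu]), neg_add, Real.exp_add,
        pr]
      ring
    · simp only [hit_insert h]
      rw [ih, insert_inter_of_notMem h]
      ring

end Vale.Agent.P230
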