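import Vale.Agent.P309.Region

/-! Gaussian tail comparisons. -/

namespace Vale.Agent.P230

open MeasureTheory ProbabilityTheory Set
open scoped ENNReal NNReal RealInnerProductSpace

noncomputable def tail (s : ℝ) : ℝ := (gaussianReal 0 1).real (Ici s)

theorem tail_nonneg (s : ℝ) : 0 ≤ tail s := measureReal_nonneg

theorem tail_anti {s t : ℝ} (h : s ≤ t) : tail t ≤ tail s :=
  measureReal_mono (Ici_subset_Ici.2 h)

theorem real_eq_integral (A : Set ℝ) :
    (gaussianReal 0 1).real A = ∫ x in A, gaussianPDFReal 0 1 x := by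
  rw [measureReal_def, gaussianReal_apply_eq_integral _ one_ne_zero,
    ENNReal.toReal_ofReal (integral_nonneg fun x => gaussianPDFReal_nonneg _ _ _)]

theorem tail_shift (s δ : ℝ) : tail (s + δ) = ∫ x in Ici s, gaussianPDFReal 0 1 (x + δ) := by
  rw [tail, real_eq_integral, ← (measurePreserving_add_right volume δ).setIntegral_preimage_emb
    (measurableEmbedding_addRight δ), preimage_add_const_Ici, add_sub_cancel_right]

theorem pdf_shift (x δ : ℝ) :
    gaussianPDFReal 0 1 (x + δ) = Real.exp (-(x * δ + δ ^ 2 / 2)) * gaussianPDFReal 0 1 x := by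
  simp only [gaussianPDFReal, NNReal.coe_one, mul_one, sub_zero]
  rw [mul_left_comm, ← Real.exp_add]
  congr 2; ring

theorem tail_le (s : ℝ) {δ : ℝ} (hδ : 0 ≤ δ) :
    tail (s + δ) ≤ Real.exp (-(s * δ + δ ^ 2 / 2)) * tail s := by
  rw [tail_shift, tail, real_eq_integral, ← integral_const_mul]
  refine setIntegral_mono_on ((integrable_gaussianPDFReal 0 1).comp_add_right δ).integrableOn
    ((integrable_gaussianPDFReal 0 1).const_mul _).integrableOn measurableSet_Ici fun x hx => ?_
  rw [pdf_shift]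
  have := gaussianPDFReal_nonneg 0 1 x
  have : s * δ ≤ x * δ := mul_le_mul_of_nonneg_right hx hδ
  gcongr

theorem tail_ge {s δ : ℝ} (hs : 0 ≤ s) (hδ : 0 ≤ δ) :
    1 / 2 * Real.exp (-((s + 2) * δ + δ ^ 2 / 2)) * tail s ≤ tail (s + δ) := by
  have h1 : tail (s + 2) ≤ 1 / 2 * tail s := by
    refine (tail_le s zero_le_two).trans (mul_le_mul_of_nonneg_right ?_ (tail_nonneg s))
    have a1 := Real.add_one_le_exp (s * 2 + 2 ^ 2 / 2)
    rw [Real.exp_neg, ← one_div]
    exact one_div_le_one_div_of_le two_pos (by linarith)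
  have h2 : tail s ≤ (gaussianReal 0 1).real (Ico s (s + 2)) + tail (s + 2) := by
    rw [tail, ← Ico_union_Ici_eq_Ici (by linarith : s ≤ s + 2)]
    exact measureReal_union_le _ _
  have hi := ((integrable_gaussianPDFReal 0 1).comp_add_right δ)
  calc _ ≤ Real.exp (-((s + 2) * δ + δ ^ 2 / 2)) * (gaussianReal 0 1).real (Ico s (s + 2)) := by
        rw [mul_right_comm, mul_comm]
        exact mul_le_mul_of_nonneg_left (by linarith) (Real.exp_pos _).le
    _ ≤ ∫ x in Ico s (s + 2), gaussianPDFReal 0 1 (x + δ) := by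
        rw [real_eq_integral, ← integral_const_mul]
        refine setIntegral_mono_on ((integrable_gaussianPDFReal 0 1).const_mul _).integrableOn
          hi.integrableOn measurableSet_Ico fun x hx => ?_
        rw [pdf_shift]
        have := gaussianPDFReal_nonneg 0 1 x
        have : x * δ ≤ (s + 2) * δ := mul_le_mul_of_nonneg_right hx.2.le hδ
        gcongr
    _ ≤ _ := by
        rw [tail_shift]
        exact setIntegral_mono_set hi.integrableOn
          (ae_of_all _ fun x => gaussianPDFReal_nonneg _ _ _) Ico_subset_Ici_self.eventuallyLE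

theorem tail_zero : 1 / 2 ≤ tail 0 := by
  have h1 : (gaussianReal 0 1).real (Iic 0) = tail 0 := by
    have := gaussianReal_map_neg (μ := 0) (v := 1)
    rw [neg_zero] at this
    rw [tail]
    conv_rhs => rw [← this, map_measureReal_apply (by fun_prop) measurableSet_Ici]
    congr 1; ext x; simp
  have h2 := measureReal_union_le (μ := gaussianReal 0 1) (Iic 0) (Ici 0)
  rw [Iic_union_Ici, probReal_univ, h1] at h2
  change 1 ≤ tail 0 + tail 0 at h2
  linarith

theorem tail_lower {s : ℝ} (hs : 0 ≤ s) : 1 / 4 * Real.exp (-(2 * s + s ^ 2 / 2)) ≤ tail s := by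
  have h := tail_ge le_rfl hs
  rw [zero_add, zero_add] at h
  have := mul_le_mul_of_nonneg_left tail_zero
    (by positivity : 0 ≤ 1 / 2 * Real.exp (-(2 * s + s ^ 2 / 2)))
  linarith

theorem tail_pos {s : ℝ} (hs : 0 ≤ s) : 0 < tail s :=
  lt_of_lt_of_le (by positivity) (tail_lower hs)

theorem exp_sq_moment {ε : ℝ} (hε : 0 < ε) :
    ∫⁻ x, ENNReal.ofReal (Real.exp ((1 - ε) / 2 * x ^ 2)) ∂(gaussianReal 0 1) =
      ENNReal.ofReal (Real.sqrt (1 / ε)) := by
  rw [gaussianReal_of_var_ne_zero _ one_ne_zero,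
    lintegral_withDensity_eq_lintegral_mul _ (measurable_gaussianPDF _ _) (by fun_prop)]
  have e : ∀ x : ℝ, (gaussianPDF 0 1 * fun x => ENNReal.ofReal (Real.exp ((1 - ε) / 2 * x ^ 2))) x =
      ENNReal.ofReal ((Real.sqrt (2 * Real.pi))⁻¹ * Real.exp (-(ε / 2) * x ^ 2)) := by
    intro x
    simp only [Pi.mul_apply, gaussianPDF, gaussianPDFReal, NNReal.coe_one, mul_one, sub_zero]
    rw [← ENNReal.ofReal_mul (by positivity), mul_assoc, ← Real.exp_add]
    congr 3; ring
  simp_rw [e]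
  rw [← ofReal_integral_eq_lintegral_ofReal
    ((integrable_exp_neg_mul_sq (by positivity)).const_mul _) (ae_of_all _ fun x => by positivity),
    integral_const_mul, integral_gaussian, ← Real.sqrt_inv, ← Real.sqrt_mul (by positivity)]
  congr 2
  have := Real.pi_pos
  field_simp

variable {E : Type*} [NormedAddCommGroup E] [InnerProductSpace ℝ E] [FiniteDimensional ℝ E]
  [MeasurableSpace E] [BorelSpace E]

omit [FiniteDimensional ℝ E] in
theorem measurableSet_half (v : E) (s : ℝ) : MeasurableSet {g : E | s ≤ ⟪v, g⟫} :=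
  (isClosed_le continuous_const (by fun_prop)).measurableSet

theorem half_eq {v : E} (hv : v ≠ 0) (s : ℝ) :
    (stdGaussian E).real {g | s ≤ ⟪v, g⟫} = tail (s / ‖v‖) := by
  have h0 : 0 < ‖v‖ := norm_pos_iff.2 hv
  have h1 := P309.map_inner (‖v‖⁻¹ • v)
  rw [norm_smul, norm_inv, norm_norm, inv_mul_cancel₀ h0.ne', one_pow, Real.toNNReal_one] at h1
  rw [tail, ← h1, map_measureReal_apply (by fun_prop) measurableSet_Ici]
  congr 1
  ext g
  simp only [mem_ofPred_eq, mem_preimage, mem_Ici, real_inner_smul_left]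
  rw [div_le_iff₀ h0, inv_mul_eq_div, div_mul_cancel₀ _ h0.ne']

theorem half_le {v : E} {s t : ℝ} (hs : 0 < s) (h : t * ‖v‖ ≤ s) :
    (stdGaussian E).real {g | s ≤ ⟪v, g⟫} ≤ tail t := by
  rcases eq_or_ne v 0 with rfl | hv
  · simp [hs.not_ge, tail_nonneg]
  · rw [half_eq hv]
    exact tail_anti ((le_div_iff₀ (norm_pos_iff.2 hv)).2 h)

theorem norm_tail {ε R : ℝ} (hε : 0 < ε) (hε1 : ε ≤ 1) (hR : 0 ≤ R) :
    (stdGaussian E).real {g | R < ‖g‖} ≤
      Real.exp (-((1 - ε) / 2 * R ^ 2)) * Real.sqrt (1 / ε) ^ Module.finrank ℝ E := by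
  have h1 : ∫⁻ g, ENNReal.ofReal (Real.exp ((1 - ε) / 2 * ‖g‖ ^ 2)) ∂(stdGaussian E) =
      ENNReal.ofReal (Real.sqrt (1 / ε) ^ Module.finrank ℝ E) := by
    rw [stdGaussian, lintegral_map (by fun_prop) (by fun_prop), ENNReal.ofReal_pow (by positivity),
      ← exp_sq_moment hε, ← P309.lintegral_pi_prod _ (by fun_prop)]
    refine lintegral_congr fun x => ?_
    rw [← ENNReal.ofReal_prod_of_nonneg fun _ _ => (Real.exp_pos _).le, ← Real.exp_sum,
      ← Finset.mul_sum, ← (stdOrthonormalBasis ℝ E).sum_sq_inner_right]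
    congr 3
    refine Finset.sum_congr rfl fun i _ => ?_
    rw [(stdOrthonormalBasis ℝ E).orthonormal.inner_right_fintype]
  have h2 := mul_meas_ge_le_lintegral₀ (μ := stdGaussian E)
    (f := fun g => ENNReal.ofReal (Real.exp ((1 - ε) / 2 * ‖g‖ ^ 2))) (by fun_prop)
    (ENNReal.ofReal (Real.exp ((1 - ε) / 2 * R ^ 2)))
  rw [h1] at h2
  have h3 : {g : E | R < ‖g‖} ⊆ {g | ENNReal.ofReal (Real.exp ((1 - ε) / 2 * R ^ 2)) ≤
      ENNReal.ofReal (Real.exp ((1 - ε) / 2 * ‖g‖ ^ 2))} := by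
    intro g hg
    have : R < ‖g‖ := hg
    have : 0 ≤ (1 - ε) / 2 := by linarith
    exact ENNReal.ofReal_le_ofReal (by gcongr)
  have h4 := ENNReal.toReal_mono ENNReal.ofReal_ne_top
    ((mul_le_mul_right (measure_mono h3) _).trans h2)
  rw [ENNReal.toReal_mul, ENNReal.toReal_ofReal (Real.exp_pos _).le,
    ENNReal.toReal_ofReal (by positivity)] at h4
  rw [Real.exp_neg, le_inv_mul_iff₀ (Real.exp_pos _)]
  exact h4

end Vale.Agent.P230
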