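import Mathlib

/-! A discrete Young inequality with an exponential gain. -/

namespace Vale.Agent.P230.Up

open Finset

theorem yg_amgm {r a b c : ℝ} (ha : 0 ≤ a) (hb : 0 ≤ b) (hc : 0 ≤ c) (h : r ^ 3 = a * b * c) :
    r ≤ (a + b + c) / 3 - (√a - √b) ^ 2 / 3 := by
  have h1 := Real.sq_sqrt ha
  have h2 := Real.sq_sqrt hb
  have h3 : 0 ≤ √a * √b := by positivity
  have e : (a + b + c) / 3 - (√a - √b) ^ 2 / 3 = (2 * (√a * √b) + c) / 3 := by
    linear_combination -h1 / 3 - h2 / 3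
  have e2 : r ^ 3 = (√a * √b) ^ 2 * c := by rw [mul_pow, h1, h2, h]
  rw [e]
  generalize √a * √b = p at *
  refine le_of_pow_le_pow_left₀ three_ne_zero (by positivity) ?_
  rw [e2]
  nlinarith [mul_nonneg (sq_nonneg (p - c)) (show 0 ≤ 8 * p + c by positivity)]

theorem yg_test {ι : Type} (P : Finset ι) {a b c r : ι → ℝ} (ha : ∀ i, 0 ≤ a i) (hb : ∀ i, 0 ≤ b i)
    (hc : ∀ i, 0 ≤ c i) (h : ∀ i, r i ^ 3 = a i * b i * c i) (sa : ∑ i ∈ P, a i = 1)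
    (sb : ∑ i ∈ P, b i = 1) (sc : ∑ i ∈ P, c i = 1) (hr : 1 - 1 / 192 < ∑ i ∈ P, r i)
    {w : ι → ℂ} (hw : ∀ i, ‖w i‖ = 1) :
    ‖∑ i ∈ P, (a i : ℂ) * w i - ∑ i ∈ P, (b i : ℂ) * w i‖ ≤ 1 / 4 - 0 ∧
      ∑ i ∈ P, |a i - b i| < 1 / 4 ∧
      ‖∑ i ∈ P, (a i : ℂ) * w i - ∑ i ∈ P, (b i : ℂ) * w i‖ ≤ ∑ i ∈ P, |a i - b i| := by
  have h1 := sum_le_sum fun i (_ : i ∈ P) => yg_amgm (ha i) (hb i) (hc i) (h i)
  simp only [sum_sub_distrib, ← sum_div, sum_add_distrib, sa, sb, sc] at h1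
  have h2 := sum_mul_sq_le_sq_mul_sq P (fun i => |√(a i) - √(b i)|) fun i => √(a i) + √(b i)
  have h3 : ∑ i ∈ P, (√(a i) + √(b i)) ^ 2 ≤ 4 := by
    refine (sum_le_sum (g := fun i => 2 * a i + 2 * b i) fun i _ => ?_).trans_eq ?_
    · nlinarith [Real.sq_sqrt (ha i), Real.sq_sqrt (hb i), sq_nonneg (√(a i) - √(b i))]
    · rw [sum_add_distrib, ← mul_sum, ← mul_sum, sa, sb]; norm_num
  have h4 : ∀ i, |√(a i) - √(b i)| * (√(a i) + √(b i)) = |a i - b i| := fun i => by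
    rw [← abs_of_nonneg (show 0 ≤ √(a i) + √(b i) by positivity), ← abs_mul]
    congr 1
    linear_combination Real.sq_sqrt (ha i) - Real.sq_sqrt (hb i)
  simp only [h4, sq_abs] at h2
  have h5 : 0 ≤ ∑ i ∈ P, (√(a i) - √(b i)) ^ 2 := sum_nonneg fun _ _ => sq_nonneg _
  have h6 : ∑ i ∈ P, |a i - b i| < 1 / 4 := by
    refine lt_of_pow_lt_pow_left₀ 2 (by norm_num) ?_
    nlinarith
  have h7 : ‖∑ i ∈ P, (a i : ℂ) * w i - ∑ i ∈ P, (b i : ℂ) * w i‖ ≤ ∑ i ∈ P, |a i - b i| := by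
    rw [← sum_sub_distrib]
    refine (norm_sum_le _ _).trans_eq (sum_congr rfl fun i _ => ?_)
    rw [← sub_mul, norm_mul, hw, mul_one, ← Complex.ofReal_sub, Complex.norm_real, Real.norm_eq_abs]
  exact ⟨by linarith, h6, h7⟩

theorem yg_shift {f : ℤ → ℂ} {J I : Finset ℤ} (hf : ∀ z ∉ J, f z = 0) {x : ℤ}
    (h : ∀ z ∈ J, z - x ∈ I) : ∑ y ∈ I, f (x + y) = ∑ z ∈ J, f z := by
  rw [← sum_image (s := I) (g := fun y => x + y) (f := f) fun _ _ _ _ h => add_left_cancel h]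
  refine (sum_subset (fun z hz => mem_image.2 ⟨_, h z hz, by ring⟩) fun z _ hz => hf z hz).symm

/-- character -/
noncomputable def ygE (t : ℝ) (x : ℤ) : ℂ := Complex.exp ((t * x : ℝ) * Complex.I)

theorem ygE_norm (t : ℝ) (x : ℤ) : ‖ygE t x‖ = 1 := Complex.norm_exp_ofReal_mul_I _

theorem ygE_mul (s t : ℝ) (x y : ℤ) : ygE s x * ygE t y = ygE (s - t) x * ygE t (x + y) := by
  simp only [ygE, ← Complex.exp_add]
  congr 1
  push_cast
  ring

/-- characteristic function -/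
noncomputable def ygP (J : Finset ℤ) (F : ℤ → ℝ) (t : ℝ) : ℂ := ∑ x ∈ J, (F x : ℂ) * ygE t x

theorem ygP_neg (J : Finset ℤ) (F : ℤ → ℝ) (t : ℝ) : ‖ygP J F (-t)‖ = ‖ygP J F t‖ := by
  rw [← Complex.norm_conj, ygP, ygP, map_sum]
  congr 1
  refine sum_congr rfl fun x _ => ?_
  simp [ygE, ← Complex.exp_conj]

theorem ygP_zero (J : Finset ℤ) (F : ℤ → ℝ) : ygP J F 0 = (∑ x ∈ J, F x : ℝ) := by
  simp [ygP, ygE]

theorem yg_prod {J I : Finset ℤ} (hI : J ⊆ I) {F G : ℤ → ℝ} (hF : ∀ z ∉ J, F z = 0)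
    (hG : ∀ z ∉ J, G z = 0) (s t : ℝ) :
    ∑ p ∈ I ×ˢ I, ((F p.1 * G p.2 : ℝ) : ℂ) * (ygE s p.1 * ygE t p.2) = ygP J F s * ygP J G t := by
  rw [ygP, ygP, sum_subset hI fun z _ hz => by simp [hF z hz],
    sum_subset hI fun z _ hz => by simp [hG z hz], sum_mul_sum, sum_product]
  refine sum_congr rfl fun x _ => sum_congr rfl fun y _ => ?_
  push_cast
  ring

theorem yg_conv {J I : Finset ℤ} (hI : J ⊆ I) (hI' : ∀ z ∈ J, ∀ x ∈ J, z - x ∈ I) {F H : ℤ → ℝ}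
    (hF : ∀ z ∉ J, F z = 0) (hH : ∀ z ∉ J, H z = 0) (s t : ℝ) :
    ∑ x ∈ I, ∑ y ∈ I, ((F x * H (x + y) : ℝ) : ℂ) * (ygE s x * ygE t y) =
      ygP J F (s - t) * ygP J H t := by
  rw [← sum_subset hI fun z _ hz => by simp [hF z hz], ygP, sum_mul]
  refine sum_congr rfl fun x hx => ?_
  rw [ygP, ← yg_shift (f := fun z => (H z : ℂ) * ygE t z) (fun z hz => by simp [hH z hz])
    fun z hz => hI' z hz x hx, mul_sum]
  refine sum_congr rfl fun y _ => ?_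
  rw [ygE_mul]
  push_cast
  ring

/-- the flip -/
def ygF (a : ℤ) : ℤ := if Even a then a + 1 else a - 1

theorem ygF_ygF (a : ℤ) : ygF (ygF a) = a := by
  unfold ygF
  by_cases h : Even a <;> simp [h, parity_simps]

theorem yg_one {J I : Finset ℤ} (hI : J ⊆ I) (hI' : ∀ z ∈ J, ∀ x ∈ J, z - x ∈ I) {F G H : ℤ → ℝ}
    (F0 : ∀ z, 0 ≤ F z) (G0 : ∀ z, 0 ≤ G z) (H0 : ∀ z, 0 ≤ H z)
    (hF : ∀ z ∉ J, F z = 0) (hG : ∀ z ∉ J, G z = 0) (hH : ∀ z ∉ J, H z = 0)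
    (sF : ∑ z ∈ J, F z = 1) (sG : ∑ z ∈ J, G z = 1) (sH : ∑ z ∈ J, H z = 1)
    (hf : ∀ z, F (ygF z) = F z) :
    ∑ p ∈ I ×ˢ I, (F p.1 * G p.2 * H (p.1 + p.2)) ^ (2 / 3 : ℝ) ≤ 1 - 1 / 192 := by
  by_contra! hr
  have eb : ∀ s t, ∑ p ∈ I ×ˢ I, ((F p.1 * H (p.1 + p.2) : ℝ) : ℂ) * (ygE s p.1 * ygE t p.2) =
      ygP J F (s - t) * ygP J H t := fun s t => by rw [sum_product, yg_conv hI hI' hF hH]
  have ec : ∀ s t, ∑ p ∈ I ×ˢ I, ((G p.2 * H (p.1 + p.2) : ℝ) : ℂ) * (ygE s p.1 * ygE t p.2) =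
      ygP J G (t - s) * ygP J H s := fun s t => by
    rw [sum_product_right, ← yg_conv hI hI' hG hH]
    simp only [add_comm, mul_comm]
  have ea := yg_prod hI hF hG
  have z : ∀ K : ℤ × ℤ → ℝ, ∑ p ∈ I ×ˢ I, (K p : ℂ) * (ygE 0 p.1 * ygE 0 p.2) = 1 →
      ∑ p ∈ I ×ˢ I, K p = 1 := fun K h => by
    simp only [ygE, zero_mul, Complex.ofReal_zero, Complex.exp_zero, mul_one] at h
    exact_mod_cast h
  have sa := z _ ((ea 0 0).trans (by simp [ygP_zero, sF, sG]))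
  have sb := z _ ((eb 0 0).trans (by simp [ygP_zero, sF, sH]))
  have sc := z _ ((ec 0 0).trans (by simp [ygP_zero, sG, sH]))
  have cube : ∀ p : ℤ × ℤ, ((F p.1 * G p.2 * H (p.1 + p.2)) ^ (2 / 3 : ℝ)) ^ 3 =
      (F p.1 * G p.2 * H (p.1 + p.2)) ^ 2 := fun p => by
    rw [← Real.rpow_natCast, ← Real.rpow_mul (mul_nonneg (mul_nonneg (F0 _) (G0 _)) (H0 _))]
    norm_num
  have t1 := fun s t => yg_test (I ×ˢ I) (fun p => mul_nonneg (F0 p.1) (G0 p.2))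
    (fun p => mul_nonneg (F0 p.1) (H0 (p.1 + p.2))) (fun p => mul_nonneg (G0 p.2) (H0 (p.1 + p.2)))
    (fun p => (cube p).trans (by ring)) sa sb sc hr
    (w := fun p => ygE s p.1 * ygE t p.2) fun p => by rw [norm_mul, ygE_norm, ygE_norm, mul_one]
  have t2 := fun s t => yg_test (I ×ˢ I) (fun p => mul_nonneg (F0 p.1) (G0 p.2))
    (fun p => mul_nonneg (G0 p.2) (H0 (p.1 + p.2))) (fun p => mul_nonneg (F0 p.1) (H0 (p.1 + p.2)))
    (fun p => (cube p).trans (by ring)) sa sc sb hr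
    (w := fun p => ygE s p.1 * ygE t p.2) fun p => by rw [norm_mul, ygE_norm, ygE_norm, mul_one]
  simp only [ea, eb, ec] at t1 t2
  have hpi : ygP J F Real.pi = 0 := by
    rw [ygP, ← sum_filter_of_ne (p := fun x => F x ≠ 0) fun x _ h h' => h (by simp [h'])]
    refine sum_involution (fun x _ => ygF x) (fun x _ => ?_) (fun x _ _ => ?_) (fun x hx => ?_)
      fun x _ => ygF_ygF x
    · rw [hf, ← mul_add, ygF]
      refine mul_eq_zero_of_right _ ?_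
      split_ifs <;>
        simp [ygE, mul_add, mul_sub, add_mul, sub_mul, Complex.exp_add, Complex.exp_sub, div_neg]
    · unfold ygF
      split_ifs <;> omega
    · have := (mem_filter.1 hx).2
      rw [← hf] at this
      exact mem_filter.2 ⟨by_contra fun h => this (hF _ h), this⟩
  obtain ⟨t, -, ht⟩ := intermediate_value_Icc' Real.pi_pos.le (f := fun t => ‖ygP J F t‖)
    (by unfold ygP ygE; fun_prop) (show 1 / 2 ∈ _ by
      rw [hpi, ygP_zero, sF]; norm_num)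
  obtain ⟨-, k0, k1⟩ := t1 t t
  obtain ⟨-, -, k2⟩ := t1 0 t
  obtain ⟨-, k4, k3⟩ := t2 t 0
  simp only [sub_self, ygP_zero, sF, sG, Complex.ofReal_one, one_mul, mul_one, zero_sub] at k1 k2 k3
  have j1 := norm_sub_norm_le (ygP J H t) (ygP J F t * ygP J G t)
  have j2 := norm_sub_norm_le (ygP J G t) (ygP J F (-t) * ygP J H t)
  have j3 := norm_sub_norm_le (ygP J F t) (ygP J G (-t) * ygP J H t)
  rw [norm_sub_rev] at k1
  simp only [norm_mul, ygP_neg] at j1 j2 j3 ht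
  rw [ht] at j1 j2 j3
  have g1 : ‖ygP J G t‖ < 1 / 2 := by linarith
  have g2 : ‖ygP J H t‖ < 1 / 2 := by linarith
  nlinarith [norm_nonneg (ygP J G t), norm_nonneg (ygP J H t)]

theorem yg_one' {J I : Finset ℤ} (hI : J ⊆ I) (hI' : ∀ z ∈ J, ∀ x ∈ J, z - x ∈ I) {F G H : ℤ → ℝ}
    (F0 : ∀ z, 0 ≤ F z) (G0 : ∀ z, 0 ≤ G z) (H0 : ∀ z, 0 ≤ H z)
    (hF : ∀ z ∉ J, F z = 0) (hG : ∀ z ∉ J, G z = 0) (hH : ∀ z ∉ J, H z = 0)
    (hf : ∀ z, F (ygF z) = F z) :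
    ∑ p ∈ I ×ˢ I, (F p.1 * G p.2 * H (p.1 + p.2)) ^ (2 / 3 : ℝ) ≤
      (1 - 1 / 192) * ((∑ z ∈ J, F z) * (∑ z ∈ J, G z) * ∑ z ∈ J, H z) ^ (2 / 3 : ℝ) := by
  have z : ∀ K : ℤ → ℝ, (∀ z, 0 ≤ K z) → (∀ z ∉ J, K z = 0) → K = 0 ∨ 0 < ∑ z ∈ J, K z :=
    fun K h h' => (sum_nonneg fun z _ => h z).eq_or_lt.imp_left fun e => funext fun z =>
      (em (z ∈ J)).elim ((sum_eq_zero_iff_of_nonneg fun z _ => h z).1 e.symm z) (h' z)
  rcases z F F0 hF with rfl | a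
  · simp
  rcases z G G0 hG with rfl | b
  · simp
  rcases z H H0 hH with rfl | c
  · simp
  have := yg_one hI hI' (F := fun z => F z / ∑ z ∈ J, F z) (G := fun z => G z / ∑ z ∈ J, G z)
    (H := fun z => H z / ∑ z ∈ J, H z) (fun z => div_nonneg (F0 z) a.le)
    (fun z => div_nonneg (G0 z) b.le) (fun z => div_nonneg (H0 z) c.le)
    (fun z h => by simp [hF z h]) (fun z h => by simp [hG z h]) (fun z h => by simp [hH z h])
    (by rw [← sum_div, div_self a.ne']) (by rw [← sum_div, div_self b.ne'])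
    (by rw [← sum_div, div_self c.ne']) fun z => by rw [hf]
  rw [← div_le_iff₀ (by positivity), sum_div]
  refine le_trans (le_of_eq (sum_congr rfl fun p _ => ?_)) this
  rw [div_mul_div_comm, div_mul_div_comm,
    Real.div_rpow (mul_nonneg (mul_nonneg (F0 _) (G0 _)) (H0 _)) (by positivity)]

/-- slice at the first coordinate -/
noncomputable def ygS {n : ℕ} (S : Finset (Fin (n + 1) → ℤ)) (a : ℤ) : Finset (Fin n → ℤ) :=
  S.preimage (fun x => (Fin.cons a x : Fin (n + 1) → ℤ))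
    (Fin.cons_right_injective (α := fun _ => ℤ) a).injOn

theorem mem_ygS {n : ℕ} {S : Finset (Fin (n + 1) → ℤ)} {a : ℤ} {x : Fin n → ℤ} :
    x ∈ ygS S a ↔ (Fin.cons a x : Fin (n + 1) → ℤ) ∈ S := mem_preimage

theorem ygS_card {n : ℕ} {S : Finset (Fin (n + 1) → ℤ)} {J : Finset ℤ} (h : ∀ x ∈ S, x 0 ∈ J) :
    ∑ a ∈ J, ((ygS S a).card : ℝ) = S.card := by
  rw [card_eq_sum_card_fiberwise (f := fun x : Fin (n + 1) → ℤ => x 0) (s := S) (t := J)
    (fun x hx => h x hx), Nat.cast_sum]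
  refine sum_congr rfl fun a _ => congrArg _ (card_nbij' (fun x => Fin.cons a x) Fin.tail
    (fun x hx => by simpa using mem_ygS.1 hx) (fun x hx => ?_) (fun x _ => by simp) fun x hx => ?_)
  · obtain ⟨h1, rfl⟩ := mem_filter.1 hx
    exact mem_ygS.2 (by rwa [Fin.cons_self_tail])
  · obtain ⟨-, rfl⟩ := mem_filter.1 hx
    exact Fin.cons_self_tail x

theorem ygS_zero {n : ℕ} {S : Finset (Fin (n + 1) → ℤ)} {J : Finset ℤ} (h : ∀ x ∈ S, x 0 ∈ J) :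
    ∀ a ∉ J, ((ygS S a).card : ℝ) = 0 := fun a ha => by
  rw [Nat.cast_eq_zero, card_eq_zero]
  exact eq_empty_of_forall_notMem fun x hx => ha (h _ (mem_ygS.1 hx))

theorem yg_main (n : ℕ) : ∀ S T U : Finset (Fin n → ℤ),
    (∀ x ∈ S, ∀ l, Function.update x l (ygF (x l)) ∈ S) →
    (((S ×ˢ T).filter fun p => p.1 + p.2 ∈ U).card : ℝ) ≤
      (1 - 1 / 192) ^ n * ((S.card : ℝ) * T.card * U.card) ^ (2 / 3 : ℝ) := by
  induction n with
  | zero =>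
    intro S T U _
    rcases ((S ×ˢ T).filter fun p => p.1 + p.2 ∈ U).eq_empty_or_nonempty with h | ⟨p, hp⟩
    · rw [h, card_empty, Nat.cast_zero]
      positivity
    · obtain ⟨h1, h2⟩ := mem_filter.1 hp
      obtain ⟨h1, h3⟩ := mem_product.1 h1
      have e : ∀ {α : Type} [Subsingleton α] (X : Finset α) (x : α), x ∈ X → X.card = 1 :=
        fun X x hx => card_eq_one.2 ⟨x, eq_singleton_iff_unique_mem.2
          ⟨hx, fun _ _ => Subsingleton.elim _ _⟩⟩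
      rw [e _ _ hp, e _ _ h1, e _ _ h2, e _ _ h3]
      simp
  | succ n ih =>
    intro S T U hS
    let J := (S ∪ T ∪ U).image fun x => x 0
    have jS : ∀ x ∈ S, x 0 ∈ J := fun x hx => mem_image_of_mem _ (by simp [hx])
    have jT : ∀ x ∈ T, x 0 ∈ J := fun x hx => mem_image_of_mem _ (by simp [hx])
    have jU : ∀ x ∈ U, x 0 ∈ J := fun x hx => mem_image_of_mem _ (by simp [hx])
    let I := J ∪ (J ×ˢ J).image fun p => p.1 - p.2
    have hI : J ⊆ I := subset_union_left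
    have fl : ∀ a x, x ∈ ygS S a → x ∈ ygS S (ygF a) := fun a x hx => by
      simpa [mem_ygS] using hS _ (mem_ygS.1 hx) 0
    have h1 := yg_one' hI (fun z hz x hx => mem_union_right _
      (mem_image.2 ⟨(z, x), mem_product.2 ⟨hz, hx⟩, rfl⟩)) (fun _ => Nat.cast_nonneg _)
      (fun _ => Nat.cast_nonneg _) (fun _ => Nat.cast_nonneg _) (ygS_zero jS) (ygS_zero jT)
      (ygS_zero jU) fun a => by
        rw [show ygS S (ygF a) = ygS S a from ext fun x =>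
          ⟨fun h => ygF_ygF a ▸ fl _ x h, fl a x⟩]
    rw [ygS_card jS, ygS_card jT, ygS_card jU] at h1
    rw [pow_succ, mul_assoc]
    refine le_trans ?_ (mul_le_mul_of_nonneg_left h1 (by positivity))
    rw [card_eq_sum_card_fiberwise (s := (S ×ˢ T).filter fun p => p.1 + p.2 ∈ U)
      (f := fun p => (p.1 0, p.2 0)) (t := I ×ˢ I) fun p hp => by
      obtain ⟨h1, h2⟩ := mem_product.1 (mem_filter.1 hp).1
      exact mem_product.2 ⟨hI (jS _ h1), hI (jT _ h2)⟩, Nat.cast_sum, mul_sum]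
    refine sum_le_sum fun q _ => le_trans (Nat.cast_le.2 ?_) (ih _ _ _ fun x hx l => ?_)
    · refine card_le_card_of_injOn (fun p => (Fin.tail p.1, Fin.tail p.2)) (fun p hp => ?_)
        fun p hp p' hp' e => ?_
      · obtain ⟨h1, rfl⟩ := mem_filter.1 hp
        obtain ⟨h1, h2⟩ := mem_filter.1 h1
        obtain ⟨h1, h3⟩ := mem_product.1 h1
        refine mem_filter.2 ⟨mem_product.2 ⟨mem_ygS.2 ?_, mem_ygS.2 ?_⟩, mem_ygS.2 ?_⟩
        · rwa [Fin.cons_self_tail]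
        · rwa [Fin.cons_self_tail]
        · exact (Fin.cons_self_tail (p.1 + p.2)).symm ▸ h2
      · obtain ⟨e1, e2⟩ := Prod.mk.inj e
        obtain ⟨e3, e4⟩ := Prod.mk.inj ((mem_filter.1 hp).2.trans (mem_filter.1 hp').2.symm)
        refine Prod.ext ?_ ?_
        · rw [← Fin.cons_self_tail p.1, e1, e3, Fin.cons_self_tail]
        · rw [← Fin.cons_self_tail p.2, e2, e4, Fin.cons_self_tail]
    · rw [mem_ygS, Fin.cons_update]
      exact hS _ (mem_ygS.1 hx) l.succ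

theorem young : ∃ c₀ : ℝ, 0 < c₀ ∧ c₀ < 1 ∧ ∀ (n : ℕ) (S T U : Finset (Fin n → ℤ)),
    (∀ x ∈ S, ∀ l, Function.update x l (if Even (x l) then x l + 1 else x l - 1) ∈ S) →
    T.card ≤ S.card → U.card ≤ S.card →
    (((S ×ˢ T).filter fun p => p.1 + p.2 ∈ U).card : ℝ) ≤ c₀ ^ n * (S.card : ℝ) ^ 2 := by
  refine ⟨1 - 1 / 192, by norm_num, by norm_num, fun n S T U hS hT hU =>
    (yg_main n S T U hS).trans (mul_le_mul_of_nonneg_left ?_ (by positivity))⟩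
  have h : (S.card : ℝ) * T.card * U.card ≤ (S.card : ℝ) ^ 3 := by
    rw [pow_succ, sq]
    gcongr
  refine (Real.rpow_le_rpow (by positivity) h (by norm_num)).trans_eq ?_
  rw [← Real.rpow_natCast, ← Real.rpow_mul (Nat.cast_nonneg _)]
  norm_num

end Vale.Agent.P230.Up
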