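import Vale.Agent.P230.UpCountA
import Vale.Agent.P230.UpYoung

/-! Counting linear dependencies among lifted lattice points. -/

namespace Vale.Agent.P230.Up

open Finset MeasureTheory ProbabilityTheory

lemma ct_caseB {n Q H : ℕ} {S : Finset (Fin n → ℤ)} {B : ℝ} (hB : 0 ≤ B)
    (hy : ∀ T U : Finset (Fin n → ℤ), T.card ≤ S.card → U.card ≤ S.card →
      (((S ×ˢ T).filter fun p => p.1 + p.2 ∈ U).card : ℝ) ≤ B)
    (hQ : 8 * H ^ 2 ≤ Q) (hS : ∀ x ∈ S, ∀ l, |x l| < H) {s t : ℤ} (hs : s.natAbs = 1)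
    (ht : t.natAbs = 1) (w : Option (Fin n) → ZMod Q) :
    (((S ×ˢ S ×ˢ S).filter fun p => lift Q p.2.2 =
      (t : ZMod Q) • lift Q p.2.1 + ((s : ZMod Q) • lift Q p.1 + w)).card : ℝ) ≤ B := by
  rcases ((S ×ˢ S ×ˢ S).filter fun p => lift Q p.2.2 =
    (t : ZMod Q) • lift Q p.2.1 + ((s : ZMod Q) • lift Q p.1 + w)).eq_empty_or_nonempty
    with h0 | ⟨p₀, hp₀⟩
  · rw [h0, card_empty, Nat.cast_zero]; exact hB
  have key : ∀ p ∈ (S ×ˢ S ×ˢ S).filter fun p => lift Q p.2.2 =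
      (t : ZMod Q) • lift Q p.2.1 + ((s : ZMod Q) • lift Q p.1 + w),
      p.2.2 + -t • p.2.1 = (p₀.2.2 - t • p₀.2.1 - s • p₀.1) + s • p.1 := by
    intro p hp
    funext l
    simp only [mem_filter, mem_product] at hp hp₀
    have e1 : (p.2.2 l : ZMod Q) = t * p.2.1 l + (s * p.1 l + w (some l)) :=
      congrFun hp.2 (some l)
    have e2 : (p₀.2.2 l : ZMod Q) = t * p₀.2.1 l + (s * p₀.1 l + w (some l)) :=
      congrFun hp₀.2 (some l)
    have e3 : (8 * (H : ℤ) ^ 2) ≤ Q := by exact_mod_cast hQ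
    have e4 : (H : ℤ) ≤ (H : ℤ) ^ 2 := by exact_mod_cast Nat.le_self_pow (by norm_num) H
    have := ct_zero (Q := Q) (t := p.2.2 l - t * p.2.1 l - s * p.1 l -
        (p₀.2.2 l - t * p₀.2.1 l - s * p₀.1 l)) (by push_cast; rw [e1, e2]; ring) (by
      have a1 := abs_lt.1 (hS _ hp.1.1 l)
      have a2 := abs_lt.1 (hS _ hp.1.2.1 l)
      have a3 := abs_lt.1 (hS _ hp.1.2.2 l)
      have a4 := abs_lt.1 (hS _ hp₀.1.1 l)
      have a5 := abs_lt.1 (hS _ hp₀.1.2.1 l)
      have a6 := abs_lt.1 (hS _ hp₀.1.2.2 l)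
      rw [abs_lt]
      rcases (by omega : s = 1 ∨ s = -1) with rfl | rfl <;>
        rcases (by omega : t = 1 ∨ t = -1) with rfl | rfl <;> constructor <;> linarith)
    simp only [Pi.add_apply, Pi.sub_apply, Pi.smul_apply, smul_eq_mul]
    linarith
  refine le_trans (Nat.cast_le.2 (card_le_card_of_injOn (fun p => (p.2.2, -t • p.2.1))
    (fun p hp => ?_) fun p hp p' hp' e => ?_)) (hy (S.image fun x => -t • x)
      (S.image fun x => (p₀.2.2 - t • p₀.2.1 - s • p₀.1) + s • x) card_image_le card_image_le)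
  · have h := key p hp
    simp only [coe_filter, mem_product, Set.mem_ofPred_eq] at hp ⊢
    exact ⟨⟨hp.1.2.2, mem_image_of_mem _ hp.1.2.1⟩, h ▸ mem_image_of_mem _ hp.1.1⟩
  · obtain ⟨e1, e2⟩ := Prod.ext_iff.1 e
    have e3 : p.2.1 = p'.2.1 := smul_right_injective _ (by omega : -t ≠ 0) e2
    have e4 : p.2.2 = p'.2.2 := e1
    have h := key p hp
    rw [e3, e4, key p' hp'] at h
    exact Prod.ext (smul_right_injective _ (by omega : s ≠ 0) (add_left_cancel h)).symm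
      (Prod.ext e3 e4)

open Classical in
/-- Number of admissible last points for given coefficients and given points. -/
noncomputable def ctN {n j : ℕ} (Q : ℕ) (S : Finset (Fin n → ℤ)) (c : Fin j → ZMod Q)
    (x : Fin j → Fin n → ℤ) : ℝ :=
  (S.filter fun e => (∀ i, x i ≠ e) ∧ lift Q e = ∑ i, c i • lift Q (x i)).card

lemma ctN_le {n j Q : ℕ} (S : Finset (Fin n → ℤ)) (c : Fin j → ZMod Q) (x : Fin j → Fin n → ℤ)
    (w : Option (Fin n) → ZMod Q) (hw : ∑ i, c i • lift Q (x i) = w) :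
    ctN Q S c x ≤ ∑ e ∈ S, if lift Q e = w then 1 else 0 := by
  rw [← Nat.cast_one, ← Nat.cast_zero, ← hw]
  simp only [← Nat.cast_ite, ← Nat.cast_sum, ← card_filter]
  exact Nat.cast_le.2 (card_le_card fun e he =>
    mem_filter.2 ⟨(mem_filter.1 he).1, (mem_filter.1 he).2.2⟩)

lemma ct_sign {Q : ℕ} {c : ZMod Q} {a b : ℤ} (h : CtMin c a b) (h1 : max a.natAbs b.natAbs ≤ 1)
    (hc : c ≠ 0) : ∃ s : ℤ, s.natAbs = 1 ∧ c = s := by
  have hb : b ≠ 0 := fun h' => h.ne (by simp [h'])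
  have h2 := h.2.1
  have h3 : c = (a * b : ℤ) := by
    rcases (by omega : b = 1 ∨ b = -1) with rfl | rfl <;> simp [h2]
  have ha : a ≠ 0 := fun h' => hc (by simp [h3, h'])
  refine ⟨a * b, ?_, h3⟩
  rw [Int.natAbs_mul, show a.natAbs = 1 by omega, show b.natAbs = 1 by omega]

lemma ct_one {n j Q H H₀ : ℕ} [Fact Q.Prime] (C : Finset (Fin n → ℤ)) {c₀ : ℝ} (hc₀ : 0 < c₀)
    (hy : ∀ T U : Finset (Fin n → ℤ), T.card ≤ (blk H₀ C).card → U.card ≤ (blk H₀ C).card →
      (((blk H₀ C ×ˢ T).filter fun p => p.1 + p.2 ∈ U).card : ℝ) ≤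
        c₀ ^ n * ((blk H₀ C).card : ℝ) ^ 2)
    (hH : 4 ≤ H₀) (hQ : 8 * H ^ 2 ≤ Q) (hS : ∀ x ∈ blk H₀ C, ∀ l, |x l| < H) (hj : 16 * j ≤ n)
    {a b : ZMod Q → ℤ} (h : ∀ c, CtMin c (a c) (b c)) (c : Fin j → ZMod Q) :
    ∑ x ∈ Fintype.piFinset fun _ => blk H₀ C, ctN Q (blk H₀ C) c x ≤
      (max c₀ (7 / 8)) ^ n * ((blk H₀ C).card : ℝ) ^ j *
        ∏ i, (min 1 (1 / ((max (a (c i)).natAbs (b (c i)).natAbs : ℕ) : ℝ) + 1 / H₀)) ^ 8 := by
  classical
  set S := blk H₀ C with hSd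
  set lam : ZMod Q → ℕ := fun c => max (a c).natAbs (b c).natAbs with hlam
  have hl1 : ∀ c, 1 ≤ lam c := fun c => by have := (h c).1; simp only [hlam]; omega
  have hpi : (Fintype.piFinset fun _ : Fin j => S).card = S.card ^ j := by simp
  rcases S.eq_empty_or_nonempty with h0 | h0
  · have : ∀ x, ctN Q S c x = 0 := fun x => by simp [ctN, h0]
    simp only [this, sum_const_zero]
    positivity
  have hS0 : (0 : ℝ) < S.card := by exact_mod_cast h0.card_pos
  by_cases hA : ∃ i, 2 ≤ lam (c i)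
  · obtain ⟨i₀, hi₀⟩ := hA
    obtain ⟨i, -, hi⟩ := exists_max_image univ (fun i => lam (c i)) ⟨i₀, mem_univ _⟩
    have h2 : 2 ≤ lam (c i) := hi₀.trans (hi _ (mem_univ _))
    set β : ℝ := 1 / (lam (c i) : ℝ) + 1 / H₀ with hβ
    have hβ0 : 0 ≤ β := by positivity
    have hβ1 : β ≤ 3 / 4 := by
      have e1 : 1 / (lam (c i) : ℝ) ≤ 1 / 2 :=
        one_div_le_one_div_of_le (by norm_num) (by exact_mod_cast h2)
      have e2 : 1 / (H₀ : ℝ) ≤ 1 / 4 :=
        one_div_le_one_div_of_le (by norm_num) (by exact_mod_cast hH)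
      linarith
    have h3 : S.card * ∑ x ∈ Fintype.piFinset fun _ => S, ctN Q S c x ≤
        S.card * (β ^ n * (S.card : ℝ) ^ j) := by
      rw [← ct_avg S i]
      refine (sum_le_card_nsmul _ _ (S.card * β ^ n) fun y _ => ?_).trans_eq
        (by rw [hpi, nsmul_eq_mul]; push_cast; ring)
      refine le_trans ?_ (ct_caseA (by omega) C hQ hS (h (c i)) h2
        (∑ k ∈ univ.erase i, c k • lift Q (y k)))
      rw [card_filter, sum_product]
      push_cast
      exact sum_le_sum fun x _ =>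
        ctN_le S c _ _ (ct_upd (fun k x => c k • lift Q x) (mem_univ i) y x)
    refine (le_of_mul_le_mul_left h3 hS0).trans ?_
    rw [mul_right_comm]
    refine mul_le_mul_of_nonneg_right ?_ (by positivity)
    obtain ⟨m, rfl⟩ : ∃ m, n = m + 8 * j := ⟨n - 8 * j, by omega⟩
    rw [pow_add β]
    refine mul_le_mul ?_ ?_ (by positivity) (by positivity)
    · calc β ^ m ≤ ((7 / 8) ^ 2) ^ m := pow_le_pow_left₀ hβ0 (by linarith) m
        _ ≤ (7 / 8) ^ (m + 8 * j) := by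
          rw [← pow_mul]; exact pow_le_pow_of_le_one (by norm_num) (by norm_num) (by omega)
        _ ≤ _ := pow_le_pow_left₀ (by norm_num) (le_max_right _ _) _
    · rw [pow_mul, ← Fin.prod_const]
      refine prod_le_prod (fun _ _ => by positivity) fun k _ =>
        pow_le_pow_left₀ hβ0 (le_min (by linarith) (add_le_add ?_ le_rfl)) 8
      exact one_div_le_one_div_of_le (by exact_mod_cast hl1 (c k))
        (by exact_mod_cast hi k (mem_univ _))
  have hA' : ∀ i, lam (c i) = 1 := fun i => by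
    have := hl1 (c i); have := not_exists.1 hA i; omega
  have hp : ∏ i, (min 1 (1 / (lam (c i) : ℝ) + 1 / H₀)) ^ 8 = 1 :=
    prod_eq_one fun i _ => by
      rw [hA' i, min_eq_left, one_pow]
      simp
  rw [hp, mul_one]
  by_cases hB : ∃ i k, i ≠ k ∧ c i ≠ 0 ∧ c k ≠ 0
  · obtain ⟨i, k, hik, hi, hk⟩ := hB
    obtain ⟨s, hs, hs'⟩ := ct_sign (h (c i)) (hA' i).le hi
    obtain ⟨t, ht, ht'⟩ := ct_sign (h (c k)) (hA' k).le hk
    have h3 : S.card * (S.card * ∑ x ∈ Fintype.piFinset fun _ => S, ctN Q S c x) ≤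
        S.card * (S.card * (c₀ ^ n * (S.card : ℝ) ^ j)) := by
      rw [← ct_avg S k, ← ct_avg S i]
      refine (sum_le_card_nsmul _ _ (c₀ ^ n * (S.card : ℝ) ^ 2) fun y _ => ?_).trans_eq
        (by rw [hpi, nsmul_eq_mul]; push_cast; ring)
      refine le_trans ?_ (ct_caseB (by positivity) hy hQ hS hs ht
        (∑ m ∈ (univ.erase k).erase i, c m • lift Q (y m)))
      rw [card_filter, sum_product]
      push_cast
      refine sum_le_sum fun x _ => ?_
      rw [sum_product]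
      refine sum_le_sum fun x' _ => ?_
      dsimp only
      refine ctN_le S c (Function.update (Function.update y i x) k x') _ ?_
      rw [ct_upd (fun k x => c k • lift Q x) (mem_univ k), ct_upd (fun k x => c k • lift Q x)
        (mem_erase.2 ⟨hik, mem_univ i⟩), hs', ht']
    refine (le_of_mul_le_mul_left (le_of_mul_le_mul_left h3 hS0) hS0).trans ?_
    exact mul_le_mul_of_nonneg_right (pow_le_pow_left₀ hc₀.le (le_max_left _ _) _) (by positivity)
  · refine (sum_eq_zero fun x hx => ?_).trans_le (by positivity)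
    rw [ctN, Nat.cast_eq_zero, card_eq_zero, filter_eq_empty_iff]
    rintro e he ⟨h1, h2⟩
    have h3 : (1 : ZMod Q) = ∑ i, c i := by
      have := congrFun h2 none
      simpa [lift, Finset.sum_apply] using this
    obtain ⟨i, -, hi⟩ := exists_ne_zero_of_sum_ne_zero (h3 ▸ one_ne_zero : ∑ i, c i ≠ 0)
    have h4 : ∀ k, k ≠ i → c k = 0 := fun k hk => by
      by_contra h5; exact hB ⟨k, i, hk, h5, hi⟩
    rw [Fintype.sum_eq_single i h4] at h3
    rw [Fintype.sum_eq_single i fun k hk => by rw [h4 k hk, zero_smul], ← h3, one_smul] at h2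
    exact h1 i (ct_inj hQ (hS _ he) (hS _ (Fintype.mem_piFinset.1 hx i)) h2).symm

open Classical in
theorem count_dep : ∃ c₁ C₁ : ℝ, 0 < c₁ ∧ c₁ < 1 ∧ 1 ≤ C₁ ∧
    ∀ (n j Q H H₀ : ℕ) [Fact Q.Prime] (C : Finset (Fin n → ℤ)),
      Even H₀ → 8 * H ^ 2 ≤ Q → 256 * Q ≤ H₀ ^ 8 → (∀ x ∈ blk H₀ C, ∀ l, |x l| < H) →
      16 * j ≤ n →
      ((((blk H₀ C).powersetCard j ×ˢ blk H₀ C).filter fun p => p.2 ∉ p.1 ∧
          lift Q p.2 ∈ Submodule.span (ZMod Q) (lift Q '' (p.1 : Set (Fin n → ℤ)))).card : ℝ)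
        ≤ c₁ ^ n * C₁ ^ j * ((blk H₀ C).card : ℝ) ^ j := by
  obtain ⟨c₀, h0, h1, hy⟩ := young
  refine ⟨max c₀ (7 / 8), 2305, by positivity, max_lt h1 (by norm_num), by norm_num, ?_⟩
  intro n j Q H H₀ _ C he hQ hH hS hj
  have hQ2 : 2 ≤ Q := (Fact.out : Q.Prime).two_le
  have hH4 : 4 ≤ H₀ := by
    have : 2 < H₀ := lt_of_pow_lt_pow_left₀ 8 (Nat.zero_le _) (by omega)
    obtain ⟨k, rfl⟩ := he
    omega
  choose a b hab using fun c : ZMod Q => ct_exists c
  have h2 : ((((blk H₀ C).powersetCard j ×ˢ blk H₀ C).filter fun p => p.2 ∉ p.1 ∧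
      lift Q p.2 ∈ Submodule.span (ZMod Q) (lift Q '' (p.1 : Set (Fin n → ℤ)))).card : ℝ) ≤
      ∑ c : Fin j → ZMod Q, ∑ x ∈ Fintype.piFinset fun _ => blk H₀ C, ctN Q (blk H₀ C) c x := by
    have h3 := card_le_card_of_surjOn
      (s := ((univ : Finset (Fin j → ZMod Q)) ×ˢ (Fintype.piFinset fun _ : Fin j => blk H₀ C) ×ˢ
        blk H₀ C).filter fun p => (∀ i, p.2.1 i ≠ p.2.2) ∧
          lift Q p.2.2 = ∑ i, p.1 i • lift Q (p.2.1 i))
      (t := ((blk H₀ C).powersetCard j ×ˢ blk H₀ C).filter fun p => p.2 ∉ p.1 ∧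
        lift Q p.2 ∈ Submodule.span (ZMod Q) (lift Q '' (p.1 : Set (Fin n → ℤ))))
      (fun p => (univ.image p.2.1, p.2.2)) (by
        rintro ⟨J, e⟩ hp
        simp only [coe_filter, mem_product, mem_powersetCard, Set.mem_ofPred_eq] at hp
        obtain ⟨⟨⟨hJ, hc⟩, heS⟩, heJ, hsp⟩ := hp
        let x : Fin j → Fin n → ℤ := fun i => ((J.equivFinOfCardEq hc).symm i : Fin n → ℤ)
        have hx : ∀ i, x i ∈ J := fun i => ((J.equivFinOfCardEq hc).symm i).2
        have hi : univ.image x = J := by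
          refine Subset.antisymm (image_subset_iff.2 fun i _ => hx i) fun y hy =>
            mem_image.2 ⟨J.equivFinOfCardEq hc ⟨y, hy⟩, mem_univ _, by simp [x]⟩
        rw [← hi, coe_image, coe_univ, Set.image_univ, ← Set.range_comp,
          Submodule.mem_span_range_iff_exists_fun] at hsp
        obtain ⟨c, hc⟩ := hsp
        refine ⟨(c, x, e), ?_, by simp [hi]⟩
        simp only [coe_filter, mem_product, Set.mem_ofPred_eq, Fintype.mem_piFinset]
        exact ⟨⟨mem_univ _, fun i => hJ (hx i), heS⟩, fun i h => heJ (h ▸ hx i), hc.symm⟩)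
    refine (Nat.cast_le.2 h3).trans_eq ?_
    rw [card_filter, sum_product]
    push_cast
    refine sum_congr rfl fun c _ => ?_
    rw [sum_product]
    refine sum_congr rfl fun x _ => ?_
    rw [ctN, card_filter]
    push_cast
    rfl
  refine h2.trans ((sum_le_sum fun c _ => ct_one C h0
    (fun T U => hy n _ T U (ct_flip (by omega) he C)) hH4 hQ hS hj hab c).trans ?_)
  rw [← mul_sum, mul_right_comm, ← Fintype.sum_pow
    (fun c => (min 1 (1 / ((max (a c).natAbs (b c).natAbs : ℕ) : ℝ) + 1 / H₀)) ^ 8)]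
  refine mul_le_mul_of_nonneg_right (mul_le_mul_of_nonneg_left
    (pow_le_pow_left₀ (by positivity) (ct_wt hH hab) j) (by positivity)) (by positivity)

end Vale.Agent.P230.Up
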