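import Vale.Agent.P230.UpBonf
import Vale.Agent.P230.UpCount

/-! The uncovered fraction for a random sublattice of prime power index. -/

namespace Vale.Agent.P230.Up

open Finset MeasureTheory ProbabilityTheory

lemma bs_alt {N r : ℕ} {p : ℝ} (hp0 : 0 ≤ p) (hp1 : p ≤ 1) (hr : 4 * (N * p) ≤ r) :
    ∑ j ∈ range (r + 1), (-1) ^ j * (N.choose j : ℝ) * p ^ j ≤ 2 * Real.exp (-(N * p)) := by
  have h1 : ∑ j ∈ range (r + 1 + N), (-1) ^ j * (N.choose j : ℝ) * p ^ j = (1 - p) ^ N := by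
    rw [sub_eq_neg_add, add_pow]
    symm
    refine sum_subset_zero_on_sdiff (range_subset_range.2 (by omega)) (fun j hj => ?_)
      fun j _ => by rw [neg_pow p]; ring
    rw [mem_sdiff, mem_range, mem_range] at hj
    rw [Nat.choose_eq_zero_of_lt (by omega)]
    simp
  have h2 : (1 - p) ^ N ≤ Real.exp (-(N * p)) := by
    rw [← mul_neg, Real.exp_nat_mul]
    exact pow_le_pow_left₀ (by linarith) (by linarith [Real.add_one_le_exp (-p)]) N
  have hNp : 0 ≤ N * p := by positivity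
  have h3 : ∑ j ∈ Ico (r + 1) (r + 1 + N), -((-1) ^ j * (N.choose j : ℝ) * p ^ j) ≤
      Real.exp (-(N * p)) := by
    calc _ ≤ ∑ j ∈ Ico (r + 1) (r + 1 + N),
          Real.exp (-r) * ((Real.exp 1 * (N * p)) ^ j / j.factorial) := by
          refine sum_le_sum fun j hj => ?_
          have e1 : -((-1) ^ j * (N.choose j : ℝ) * p ^ j) ≤ N.choose j * p ^ j := by
            have : 0 ≤ (N.choose j : ℝ) * p ^ j := by positivity
            rcases neg_one_pow_eq_or ℝ j with h | h <;> rw [h] <;> linarith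
          have e2 : (N.choose j : ℝ) ≤ (N : ℝ) ^ j / j.factorial := by
            exact_mod_cast Nat.choose_le_pow_div (α := ℝ) j N
          have e3 : 1 ≤ Real.exp (-r) * Real.exp 1 ^ j := by
            rw [← Real.exp_nat_mul, ← Real.exp_add]
            have : (r : ℝ) ≤ j := by exact_mod_cast (by have := (mem_Ico.1 hj).1; omega : r ≤ j)
            exact Real.one_le_exp (by linarith)
          calc _ ≤ (N : ℝ) ^ j / j.factorial * p ^ j :=
                e1.trans (mul_le_mul_of_nonneg_right e2 (by positivity))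
            _ ≤ Real.exp (-r) * Real.exp 1 ^ j * ((N : ℝ) ^ j / j.factorial * p ^ j) :=
                le_mul_of_one_le_left (by positivity) e3
            _ = _ := by rw [mul_pow, mul_pow]; ring
      _ ≤ Real.exp (-r) * Real.exp (Real.exp 1 * (N * p)) := by
          rw [← mul_sum]
          refine mul_le_mul_of_nonneg_left (le_trans ?_
            (Real.sum_le_exp_of_nonneg (by positivity) (r + 1 + N))) (by positivity)
          exact sum_le_sum_of_subset_of_nonneg (fun j hj => mem_range.2 (mem_Ico.1 hj).2)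
            fun _ _ _ => by positivity
      _ ≤ _ := by
          rw [← Real.exp_add]
          have := Real.exp_one_lt_d9
          exact Real.exp_le_exp.2 (by nlinarith)
  have h4 := sum_range_add_sum_Ico (fun j => (-1) ^ j * (N.choose j : ℝ) * p ^ j)
    (Nat.le_add_right (r + 1) N)
  rw [sum_neg_distrib] at h3
  linarith

lemma bs_err {c₁ C₁ Vm t : ℝ} {n r : ℕ} (h0 : 0 < c₁) (hC : 1 ≤ C₁) (hCn : C₁ ≤ n) (hV : 1 ≤ Vm)
    (hVn : Vm ≤ n) (hn : 1 ≤ Real.log n) (hr : r ≤ 6 * Vm) (ht0 : 0 ≤ t) (ht : t ≤ Vm)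
    (h : Vm * Real.log n ≤ -Real.log c₁ / 20 * n) :
    2 * ∑ j ∈ range (r + 1), c₁ ^ n * (C₁ * t) ^ j ≤ Real.exp (-t) := by
  have hn0 : (0 : ℝ) < n := by linarith
  have h1 : ∀ j ∈ range (r + 1), c₁ ^ n * (C₁ * t) ^ j ≤
      Real.exp (n * Real.log c₁) * Real.exp (r * (2 * Real.log n)) := by
    intro j hj
    rw [Real.exp_nat_mul, Real.exp_log h0, Real.exp_nat_mul, two_mul, Real.exp_add,
      Real.exp_log hn0]
    refine mul_le_mul_of_nonneg_left ((pow_le_pow_left₀ (by positivity)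
      (mul_le_mul hCn (ht.trans hVn) ht0 hn0.le) j).trans (pow_le_pow_right₀ (by nlinarith)
        (Nat.lt_succ_iff.1 (mem_range.1 hj)))) (by positivity)
  have h2 := sum_le_card_nsmul _ _ _ h1
  rw [card_range, nsmul_eq_mul] at h2
  push_cast at h2
  have h3 : 2 * ((r : ℝ) + 1) ≤ Real.exp 1 * Real.exp r :=
    mul_le_mul (by linarith [Real.add_one_le_exp 1]) (Real.add_one_le_exp _) (by positivity)
      (by positivity)
  calc _ ≤ 2 * ((r : ℝ) + 1) * (Real.exp (n * Real.log c₁) * Real.exp (r * (2 * Real.log n))) := by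
        linarith
    _ ≤ Real.exp 1 * Real.exp r *
        (Real.exp (n * Real.log c₁) * Real.exp (r * (2 * Real.log n))) :=
        mul_le_mul_of_nonneg_right h3 (by positivity)
    _ ≤ _ := by
        simp only [← Real.exp_add]
        refine Real.exp_le_exp.2 ?_
        have := mul_le_mul_of_nonneg_right hr (by linarith : 0 ≤ Real.log n)
        have := mul_le_mul_of_nonneg_left hn (by linarith : 0 ≤ Vm)
        linarith

theorem base : ∃ c : ℝ, 0 < c ∧ ∃ n₁ : ℕ, ∀ n ≥ n₁, ∀ (Q μ H H₀ : ℕ) [Fact Q.Prime]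
    (C : Finset (Fin n → ℤ)) (Vm : ℝ),
    Even H₀ → 8 * H ^ 2 ≤ Q → 256 * Q ≤ H₀ ^ 8 → (∀ x ∈ blk H₀ C, ∀ l, |x l| < H) →
    1 ≤ Vm → Vm * Real.log n ≤ c * n → ((blk H₀ C).card : ℝ) ≤ Vm * (Q : ℝ) ^ μ →
    ∑ A : Fin n → Fin μ → ZMod Q, ((univ.filter fun b : Fin μ → ZMod Q =>
        ∀ x ∈ blk H₀ C, pr (fun l => (x l : ZMod Q)) A ≠ b).card : ℝ)
      ≤ 3 * Real.exp (-(((blk H₀ C).card : ℝ) / (Q : ℝ) ^ μ)) * (Q : ℝ) ^ μ *
        Fintype.card (Fin n → Fin μ → ZMod Q) := by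
  obtain ⟨c₁, C₁, h0, h1, hC, hc⟩ := count_dep
  have hl := Real.log_neg h0 h1
  refine ⟨min (-Real.log c₁ / 20) (1 / 96), lt_min (by linarith) (by norm_num),
    max 3 ⌈C₁⌉₊, fun n hn Q μ H H₀ _ C Vm he hQ hH hS hV hVn hN => ?_⟩
  have hn3 : (3 : ℝ) ≤ n := by exact_mod_cast (le_max_left _ _).trans hn
  have hCn : C₁ ≤ n := Nat.ceil_le.1 ((le_max_right _ _).trans hn)
  have hlog : 1 ≤ Real.log n := by
    rw [Real.le_log_iff_exp_le (by linarith)]; linarith [Real.exp_one_lt_d9]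
  have hV1 := hVn.trans (mul_le_mul_of_nonneg_right (min_le_left _ _) (Nat.cast_nonneg n))
  have hV2 := hVn.trans (mul_le_mul_of_nonneg_right (min_le_right _ _) (Nat.cast_nonneg n))
  have hV3 := mul_le_mul_of_nonneg_left hlog (by linarith : 0 ≤ Vm)
  have hr1 : 4 * Vm ≤ (2 * ⌈2 * Vm⌉₊ : ℕ) := by push_cast; linarith [Nat.le_ceil (2 * Vm)]
  have hr2 : ((2 * ⌈2 * Vm⌉₊ : ℕ) : ℝ) ≤ 6 * Vm := by
    push_cast; linarith [Nat.ceil_lt_add_one (by linarith : 0 ≤ 2 * Vm)]
  have hr3 : Even (2 * ⌈2 * Vm⌉₊) := even_two_mul _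
  generalize 2 * ⌈2 * Vm⌉₊ = r at hr1 hr2 hr3
  have hr4 : 16 * r ≤ n := by
    have : (16 * r : ℝ) ≤ n := by linarith
    exact_mod_cast this
  have hQ1 : (1 : ℝ) ≤ (Q : ℝ) ^ μ :=
    one_le_pow₀ (by exact_mod_cast (Fact.out : Q.Prime).one_le)
  have hb := bonf (V := Fin μ → ZMod Q) (blk H₀ C) (lift Q) r hr3
    (fun j => c₁ ^ n * C₁ ^ j * ((blk H₀ C).card : ℝ) ^ j) fun j hj => le_trans
      (le_of_eq (congrArg _ (congrArg _ (by ext p; simp only [mem_filter]))))
      (hc n j Q H H₀ C he hQ hH hS (by omega))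
  have e1 : (Fintype.card (Fin μ → ZMod Q) : ℝ) = (Q : ℝ) ^ μ := by simp
  rw [e1, Fintype.card_eq_nat_card, Nat.card_congr Equiv.piOptionEquivProd, Nat.card_prod,
    Nat.card_eq_fintype_card, Nat.card_eq_fintype_card, Nat.cast_mul, e1] at hb
  have hp0 : 0 ≤ 1 / (Q : ℝ) ^ μ := by positivity
  have hp1 : 1 / (Q : ℝ) ^ μ ≤ 1 := by rwa [div_le_one (by linarith)]
  have ht : (blk H₀ C).card * (1 / (Q : ℝ) ^ μ) ≤ Vm := by
    rwa [mul_one_div, div_le_iff₀ (by linarith)]
  have h2 := bs_alt (N := (blk H₀ C).card) (r := r) hp0 hp1 (by linarith)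
  have h3 := bs_err h0 hC hCn hV (by linarith) hlog hr2 (by positivity) ht hV1
  simp only [mul_pow, ← mul_assoc] at h3
  refine le_trans (le_of_eq ?_) (hb.trans ?_)
  · rw [← Nat.cast_sum, Nat.cast_inj, ← card_sigma]
    refine card_nbij' (fun p o => o.elim (-p.2) p.1) (fun A => ⟨fun l => A (some l), -A none⟩)
      (fun p hp => ?_) (fun A hA => ?_) (fun p _ => by simp) fun A _ => ?_
    · simp only [mem_coe, mem_sigma, mem_filter, mem_univ, true_and] at hp ⊢
      intro x hx h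
      refine hp x hx ?_
      simp only [pr, lift, Fintype.sum_option, Option.elim, one_smul] at h ⊢
      exact (neg_add_eq_zero.1 h).symm
    · simp only [mem_coe, mem_sigma, mem_filter, mem_univ, true_and] at hA ⊢
      intro x hx h
      refine hA x hx ?_
      simp only [pr, lift, Fintype.sum_option, Option.elim, one_smul] at h ⊢
      rw [h, add_neg_cancel]
    · funext o; cases o <;> simp
  · rw [mul_one_div] at h2 h3
    rw [mul_assoc (3 * _), mul_comm (3 * _)]
    exact mul_le_mul_of_nonneg_left (by linarith) (by positivity)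

end Vale.Agent.P230.Up
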