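import Vale.Agent.P230.UpGaussA

/-! One-dimensional estimates for the two-point Gaussian weight. -/

namespace Vale.Agent.P230.Up

open Finset MeasureTheory ProbabilityTheory

lemma gg_half (v : ℝ) : gs v = gs 0 * Real.exp (-(1 / 2) * (v - 0) ^ 2) := by
  rw [gs_eq v]; congr 2; ring

lemma gg_quart (v : ℝ) :
    gs v * (1 + v ^ 4 / 4) ≤ 8 * (gs 0 * Real.exp (-(1 / 4) * (v - 0) ^ 2)) := by
  have h1 := Real.quadratic_le_exp_of_nonneg (x := v ^ 2 / 4) (by positivity)
  have h2 : gs 0 * Real.exp (-(1 / 4) * (v - 0) ^ 2) = gs v * Real.exp (v ^ 2 / 4) := by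
    rw [gs_eq v, mul_assoc, ← Real.exp_add]; congr 2; ring
  rw [h2, mul_left_comm]
  exact mul_le_mul_of_nonneg_left (by nlinarith [sq_nonneg v]) (gs_pos v).le

lemma gg_sq (v : ℝ) :
    gs v * (v ^ 2 / 2) ≤ 10 * (gs 0 * Real.exp (-(9 / 20) * (v - 0) ^ 2)) - 10 * gs v := by
  have h1 := Real.add_one_le_exp (v ^ 2 / 20)
  have h2 : gs 0 * Real.exp (-(9 / 20) * (v - 0) ^ 2) = gs v * Real.exp (v ^ 2 / 20) := by
    rw [gs_eq v, mul_assoc, ← Real.exp_add]; congr 2; ring
  rw [h2]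
  nlinarith [mul_le_mul_of_nonneg_left h1 (gs_pos v).le]

lemma gg_mul (s w : ℝ) :
    gs s * gs (s - w) =
      gs 0 * Real.exp (-w ^ 2 / 4) * (gs 0 * Real.exp (-1 * (s - w / 2) ^ 2)) := by
  rw [gs_eq s, gs_eq (s - w), mul_mul_mul_comm, mul_mul_mul_comm _ (Real.exp _), ← Real.exp_add,
    ← Real.exp_add]
  congr 2; ring

lemma gg_act {h : ℝ} {q : ℕ} [NeZero q] (hh : 21 ≤ h) (hq : h ^ 2 ≤ q) :
    open Classical in
    q / (8 * h * Real.exp (h ^ 2 / 8)) ≤ ∑ y ∈ univ.filter (Act h q), W1 h q y := by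
  classical
  have hh0 : 0 < h := by linarith
  have hq0 : (0 : ℝ) < q := by nlinarith
  set t : ℝ := q / h ^ 2 with ht
  have ht1 : 1 ≤ t := by rwa [ht, le_div_iff₀ (by positivity), one_mul]
  have ht2 : t ≤ q / 4 := div_le_div_of_nonneg_left hq0.le (by norm_num) (by nlinarith)
  have h1 := Nat.le_ceil (q / 2 - t)
  have h2 := Nat.ceil_lt_add_one (show 0 ≤ q / 2 - t by linarith)
  have h3 := Nat.le_ceil t
  have h4 := Nat.ceil_lt_add_one (show 0 ≤ t by linarith)
  generalize ⌈(q : ℝ) / 2 - t⌉₊ = k₀ at h1 h2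
  generalize ⌈t⌉₊ = m at h3 h4
  rw [sum_filter]
  unfold W1 Act
  rw [gg_val fun k => if |h / q * k - h / 2| ≤ 1 / h then
    h * (gs (h / q * k) + gs (h / q * k - h)) else 0]
  have key : ∀ k ∈ Ico k₀ (k₀ + m), (q : ℝ) / 2 - t ≤ k ∧ (k : ℝ) ≤ q / 2 + t := fun k hk => by
    have e1 : (k₀ : ℝ) ≤ k := by exact_mod_cast (mem_Ico.1 hk).1
    have e2 : (k : ℝ) + 1 ≤ k₀ + m := by exact_mod_cast (mem_Ico.1 hk).2
    constructor <;> linarith
  refine le_trans ?_ (sum_le_sum_of_subset_of_nonneg (s := Ico k₀ (k₀ + m)) (fun k hk => ?_)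
    fun k _ _ => ?_)
  · refine le_trans ?_ (card_nsmul_le_sum _ _ (h * gs (h / 2)) fun k hk => ?_)
    · rw [Nat.card_Ico, add_tsub_cancel_left, nsmul_eq_mul, gs_eq,
        show -(h / 2) ^ 2 / 2 = -(h ^ 2 / 8) by ring, Real.exp_neg]
      have e1 := gs_zero_bounds.1
      calc _ = t * (h * (1 / 8 * (Real.exp (h ^ 2 / 8))⁻¹)) := by rw [ht]; field_simp
        _ ≤ _ := by gcongr; linarith
    · have e1 : h / q * k - h / 2 = h / q * (k - q / 2) := by field_simp
      have e2 : h / q * t = 1 / h := by rw [ht]; field_simp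
      have e3 := key k hk
      have e4 : 0 ≤ h / q * k := by positivity
      have e5 : h / q * k ≤ h / q * q := mul_le_mul_of_nonneg_left (by linarith) (by positivity)
      rw [div_mul_cancel₀ _ hq0.ne'] at e5
      rw [if_pos (by
        rw [e1, abs_mul, abs_of_pos (by positivity), ← e2]
        exact mul_le_mul_of_nonneg_left (abs_le.2 ⟨by linarith, by linarith⟩) (by positivity))]
      refine mul_le_mul_of_nonneg_left ?_ hh0.le
      have e6 := le_abs_self (h / 2)
      rcases le_total (h / q * k) (h / 2) with e | e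
      · exact le_add_of_le_of_nonneg (gs_le_of_abs_le (abs_le.2 ⟨by linarith, by linarith⟩))
          (gs_pos _).le
      · exact le_add_of_nonneg_of_le (gs_pos _).le
          (gs_le_of_abs_le (abs_le.2 ⟨by linarith, by linarith⟩))
  · have e1 := (key k hk).2
    have : (k : ℝ) < q := by linarith
    exact mem_range.2 (by exact_mod_cast this)
  · have := gs_pos (h / q * k)
    have := gs_pos (h / q * k - h)
    split_ifs
    · positivity
    · exact le_rfl

lemma gg_sub {h η : ℝ} {q : ℕ} [NeZero q] (hq : η * q = h) (y a : ZMod q) :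
    gs (η * (y - a).val) + gs (η * (y - a).val - h) ≤ gs (η * y.val - (η * a.val + h)) +
      gs (η * y.val - η * a.val) + gs (η * y.val - (η * a.val - h)) := by
  have h1 := ZMod.val_add (y - a) a
  rw [sub_add_cancel] at h1
  have h2 := ZMod.val_lt (y - a)
  have h3 := ZMod.val_lt a
  have p1 := gs_pos (η * y.val - (η * a.val + h))
  have p2 := gs_pos (η * y.val - (η * a.val - h))
  rcases lt_or_ge ((y - a).val + a.val) q with h4 | h4
  · rw [Nat.mod_eq_of_lt h4] at h1
    have : ((y - a).val : ℝ) = y.val - a.val := by rw [h1]; push_cast; ring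
    rw [this, show η * (y.val - a.val) - h = η * y.val - (η * a.val + h) by ring, mul_sub]
    linarith
  · rw [Nat.mod_eq_sub_mod h4, Nat.mod_eq_of_lt (by omega)] at h1
    have : ((y - a).val : ℝ) = y.val - a.val + q := by
      rw [h1, Nat.cast_sub h4]; push_cast; ring
    rw [this, mul_add, hq, add_sub_cancel_right,
      show η * (y.val - a.val) + h = η * y.val - (η * a.val - h) by ring, mul_sub]
    linarith

lemma gg_conv {h : ℝ} {q : ℕ} [NeZero q] (hh : 0 < h) (hη1 : h / q ≤ 1) (a : ZMod q) :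
    ∑ y, W1 h q y * W1 h q (y - a) ≤ 0.7072 * (1 + h / q) * q * (h * gs 0) *
      (Real.exp (-(h / q * a.val) ^ 2 / 4) + Real.exp (-(h / q * a.val - h) ^ 2 / 4) +
        (Real.exp (-(h / q * a.val + h) ^ 2 / 4) + Real.exp (-(h / q * a.val - 2 * h) ^ 2 / 4))) := by
  have hq0 : (0 : ℝ) < q := by exact_mod_cast NeZero.pos q
  have hq : h / q * q = h := div_mul_cancel₀ _ hq0.ne'
  have hη : 0 < h / q := by positivity
  unfold W1
  generalize h / q = η at *
  set v := η * a.val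
  have key : ∀ w : ℝ, ∑ y : ZMod q, h * h * (gs (η * y.val) * gs (η * y.val - w) +
      gs (η * y.val - h) * gs (η * y.val - h - w)) ≤
      0.7072 * (1 + η) * q * (h * gs 0) * Real.exp (-w ^ 2 / 4) := by
    intro w
    have := mul_le_mul_of_nonneg_right (gg_two (α := 1) (B := 0.7072) hq one_pos le_rfl hη hη1
      (by norm_num) (by norm_num) (w / 2))
      (show 0 ≤ h * gs 0 * Real.exp (-w ^ 2 / 4) by have := gs_pos 0; positivity)
    rw [sum_mul] at this
    refine le_trans (le_of_eq (sum_congr rfl fun y _ => ?_)) (this.trans_eq (by ring))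
    rw [gg_mul, gg_mul]; ring
  have := add_le_add (add_le_add (key v) (key (v - h))) (add_le_add (key (v + h)) (key (v - 2 * h)))
  simp only [← sum_add_distrib] at this
  refine (sum_le_sum fun y _ => ?_).trans (this.trans_eq (by ring))
  have h1 := gg_sub hq y a
  rw [show η * y.val - h - (v - h) = η * y.val - v by ring,
    show η * y.val - h - (v - 2 * h) = η * y.val - (v - h) by ring,
    show η * y.val - h - v = η * y.val - (v + h) by ring]
  have p1 := gs_pos (η * y.val)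
  have p2 := gs_pos (η * y.val - h)
  have p3 := mul_pos p1 (gs_pos (η * y.val - (v - 2 * h)))
  have p4 := mul_pos p2 (gs_pos (η * y.val - h - (v + h)))
  have h2 := mul_le_mul_of_nonneg_left h1 (add_pos p1 p2).le
  rw [mul_mul_mul_comm, ← mul_add, ← mul_add, ← mul_add]
  exact mul_le_mul_of_nonneg_left (by linarith) (by positivity)

lemma gg_four {h v : ℝ} (h0 : 0 ≤ v) (h1 : v ≤ h) :
    (Real.exp (-v ^ 2 / 4) + Real.exp (-(v - h) ^ 2 / 4) +
      (Real.exp (-(v + h) ^ 2 / 4) + Real.exp (-(v - 2 * h) ^ 2 / 4))) ^ 2 ≤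
    Real.exp (-v ^ 2 / 2) + Real.exp (-(v - h) ^ 2 / 2) + 14 * Real.exp (-(h ^ 2 / 8)) := by
  have e1 : ∀ x : ℝ, Real.exp (-x ^ 2 / 2) = Real.exp (-x ^ 2 / 4) ^ 2 := fun x => by
    rw [sq (Real.exp _), ← Real.exp_add]; congr 1; ring
  have e2 : ∀ x : ℝ, Real.exp (-x ^ 2 / 4) ≤ 1 := fun x =>
    Real.exp_le_one_iff.2 (by nlinarith [sq_nonneg x])
  have e3 : Real.exp (-v ^ 2 / 4) * Real.exp (-(v - h) ^ 2 / 4) ≤ Real.exp (-(h ^ 2 / 8)) := by
    rw [← Real.exp_add]; exact Real.exp_le_exp.2 (by nlinarith [sq_nonneg (2 * v - h)])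
  have e4 : Real.exp (-(v + h) ^ 2 / 4) ≤ Real.exp (-(h ^ 2 / 8)) :=
    Real.exp_le_exp.2 (by nlinarith)
  have e5 : Real.exp (-(v - 2 * h) ^ 2 / 4) ≤ Real.exp (-(h ^ 2 / 8)) :=
    Real.exp_le_exp.2 (by nlinarith)
  rw [e1, e1]
  have a1 := e2 v
  have a2 := e2 (v - h)
  have a3 := e2 (v + h)
  have a4 := e2 (v - 2 * h)
  have a5 := Real.exp_pos (-(v + h) ^ 2 / 4)
  have a6 := Real.exp_pos (-(v - 2 * h) ^ 2 / 4)
  generalize Real.exp (-v ^ 2 / 4) = a at *
  generalize Real.exp (-(v - h) ^ 2 / 4) = b at *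
  generalize Real.exp (-(v + h) ^ 2 / 4) = c at *
  generalize Real.exp (-(v - 2 * h) ^ 2 / 4) = d at *
  nlinarith [mul_le_mul_of_nonneg_left (show 2 * a + 2 * b + (c + d) ≤ 6 by linarith)
    (add_pos a5 a6).le]

open Classical in
theorem gauss1 {h : ℝ} {q : ℕ} [NeZero q] (hh : 21 ≤ h) (hq : h * Real.exp (h ^ 2) ≤ q) :
    ((1 - 4 * Real.exp (-(0.4 * h ^ 2))) * q ≤ ∑ y, W1 h q y) ∧
    (∑ y, W1 h q y ≤ (1 + h / q) * q) ∧
    (∑ y, W1 h q y * (Real.log (W1 h q y) - Real.log (h * gs 0)) ^ 2 ≤ 40 * q) ∧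
    (∑ y, W1 h q y * (Real.log (h * gs 0) - Real.log (W1 h q y)) ≤ 0.58 * q) ∧
    (q / (8 * h * Real.exp (h ^ 2 / 8)) ≤ ∑ y ∈ univ.filter (Act h q), W1 h q y) ∧
    (∑ a, (∑ y, W1 h q y * W1 h q (y - a)) ^ 2 ≤ 0.51 * (h * gs 0) * (q : ℝ) ^ 3) := by
  have hh0 : 0 < h := by linarith
  have hq0 : (0 : ℝ) < q := by exact_mod_cast NeZero.pos q
  have hηq : h / q * q = h := div_mul_cancel₀ _ hq0.ne'
  have hη : 0 < h / q := by positivity
  have hε : Real.exp (-(0.4 * h ^ 2)) ≤ 1 / 2000 := by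
    rw [Real.exp_neg, ← one_div]
    have := Real.quadratic_le_exp_of_nonneg (x := 0.4 * h ^ 2) (by positivity)
    have : 441 ≤ h ^ 2 := by nlinarith
    exact one_div_le_one_div_of_le (by norm_num) (by nlinarith)
  have hη2 : (h + 1) * (h / q) ≤ Real.exp (-(0.4 * h ^ 2)) := by
    have e1 : h / q ≤ Real.exp (-h ^ 2) := by
      rwa [Real.exp_neg, div_le_iff₀ hq0, inv_mul_eq_div, le_div_iff₀ (Real.exp_pos _)]
    refine (mul_le_mul (Real.add_one_le_exp h) e1 hη.le (Real.exp_pos _).le).trans ?_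
    rw [← Real.exp_add]
    exact Real.exp_le_exp.2 (by nlinarith)
  have hη3 : h / q ≤ 1 / 2000 := by nlinarith
  have hη1 : h / q ≤ 1 := by linarith
  have g0 := gs_pos 0
  have A1 : (1 - 4 * Real.exp (-(0.4 * h ^ 2))) * q ≤ ∑ y : ZMod q, W1 h q y := by
    unfold W1
    rw [← mul_sum, gg_sum hηq gs]
    have e1 := gg_low hη hη1 hηq
    have e2 := gg_tail hh0.le
    have e3 := Real.add_one_le_exp (-((h + 1) * (h / q)))
    have e4 := mul_le_mul (show 1 - Real.exp (-(0.4 * h ^ 2)) ≤ _ from le_trans (by linarith) e3)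
      e2 (by linarith) (Real.exp_pos _).le
    refine (mul_le_mul_of_nonneg_right (le_trans ?_ (e4.trans e1)) hq0.le).trans_eq ?_
    · nlinarith [Real.exp_pos (-(0.4 * h ^ 2))]
    · rw [mul_right_comm, hηq]
  have A2 : ∑ y : ZMod q, W1 h q y ≤ (1 + h / q) * q := by
    have := gg_two (α := 1 / 2) (B := 1) hηq (by norm_num) (by norm_num) hη hη1 (by norm_num)
      (by norm_num) 0
    simpa only [← gg_half, one_mul, W1] using this
  refine ⟨A1, A2, ?_, ?_, gg_act hh (le_trans ?_ hq), ?_⟩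
  · have := mul_le_mul_of_nonneg_left (gg_two (α := 1 / 4) (B := 1.5) hηq (by norm_num)
      (by norm_num) hη hη1 (by norm_num) (by norm_num) 0) (show (0 : ℝ) ≤ 8 by norm_num)
    rw [mul_sum] at this
    refine (sum_le_sum fun y _ => ?_).trans (this.trans (by nlinarith))
    obtain ⟨e1, e2, e3⟩ := gg_log (a := h / q * y.val) (b := h / q * y.val - h) hh0
    have e4 := gg_quart (h / q * y.val)
    have e5 := gg_quart (h / q * y.val - h)
    have key : ∀ L x : ℝ, -1 ≤ L → L ≤ x ^ 2 / 2 → L ^ 2 ≤ 1 + x ^ 4 / 4 := fun L x h1 h2 => by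
      rcases le_total L 0 with h3 | h3
      · nlinarith [sq_nonneg (x ^ 2)]
      · nlinarith [mul_self_le_mul_self h3 h2]
    have e6 := mul_le_mul_of_nonneg_left (key _ _ e1 e2) (gs_pos (h / q * y.val)).le
    have e7 := mul_le_mul_of_nonneg_left (key _ _ e1 e3) (gs_pos (h / q * y.val - h)).le
    unfold W1
    rw [← neg_sub (Real.log (h * gs 0)), neg_sq, mul_assoc, mul_left_comm 8]
    exact mul_le_mul_of_nonneg_left (by linarith) hh0.le
  · have := mul_le_mul_of_nonneg_left (gg_two (α := 9 / 20) (B := 1.0541) hηq (by norm_num)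
      (by norm_num) hη hη1 (by norm_num) (by norm_num) 0) (show (0 : ℝ) ≤ 10 by norm_num)
    have := sub_le_sub this (mul_le_mul_of_nonneg_left A1 (show (0 : ℝ) ≤ 10 by norm_num))
    rw [mul_sum, mul_sum, ← sum_sub_distrib] at this
    refine (sum_le_sum fun y _ => ?_).trans (this.trans (by nlinarith))
    obtain ⟨-, e2, e3⟩ := gg_log (a := h / q * y.val) (b := h / q * y.val - h) hh0
    have e4 := gg_sq (h / q * y.val)
    have e5 := gg_sq (h / q * y.val - h)
    have e6 := mul_le_mul_of_nonneg_left e2 (gs_pos (h / q * y.val)).le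
    have e7 := mul_le_mul_of_nonneg_left e3 (gs_pos (h / q * y.val - h)).le
    unfold W1
    rw [mul_assoc, mul_left_comm 10, mul_left_comm 10, ← mul_sub]
    exact mul_le_mul_of_nonneg_left (by linarith) hh0.le
  · nlinarith [Real.add_one_le_exp (h ^ 2)]
  · have hδ : h * Real.exp (-(h ^ 2 / 8)) ≤ 1 / 1000 := by
      rw [Real.exp_neg, ← div_eq_mul_inv, div_le_iff₀ (Real.exp_pos _)]
      have e1 := Real.pow_div_factorial_le_exp (h ^ 2 / 8) (by positivity) 3
      have e2 : (21 : ℝ) ^ 5 ≤ h ^ 5 := pow_le_pow_left₀ (by norm_num) hh 5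
      norm_num [Nat.factorial] at e1 e2
      nlinarith
    have e1 : ∑ a : ZMod q, (∑ y, W1 h q y * W1 h q (y - a)) ^ 2 ≤
        ∑ a : ZMod q, (0.7072 * (1 + h / q) * q) ^ 2 * (h * gs 0) *
          (W1 h q a + 14 * gs 0 * (h * Real.exp (-(h ^ 2 / 8)))) := by
      refine sum_le_sum fun a _ => (pow_le_pow_left₀ (sum_nonneg fun y _ =>
        (mul_pos (W1_pos hh0 _ _) (W1_pos hh0 _ _)).le) (gg_conv hh0 hη1 a) 2).trans ?_
      have e2 : (a.val : ℝ) ≤ q := by exact_mod_cast (ZMod.val_lt a).le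
      rw [mul_pow]
      refine (mul_le_mul_of_nonneg_left (gg_four (by positivity)
        ((mul_le_mul_of_nonneg_left e2 hη.le).trans_eq hηq)) (by positivity)).trans_eq ?_
      unfold W1
      rw [gs_eq (h / q * a.val), gs_eq (h / q * a.val - h)]
      ring
    rw [← mul_sum, sum_add_distrib, sum_const, card_univ, ZMod.card, nsmul_eq_mul] at e1
    have e2 : ∑ y : ZMod q, W1 h q y + q * (14 * gs 0 * (h * Real.exp (-(h ^ 2 / 8)))) ≤
        1.01 * q := by
      have := mul_le_mul gs_zero_bounds.2 hδ (by positivity) (by norm_num)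
      nlinarith
    have e3 : (0.7072 * (1 + h / q) * q) ^ 2 ≤ (0.71 * q) ^ 2 :=
      pow_le_pow_left₀ (by positivity) (by nlinarith) 2
    refine e1.trans ((mul_le_mul (mul_le_mul_of_nonneg_right e3 (by positivity)) e2
      (by have := sum_nonneg fun y (_ : y ∈ univ) => (W1_pos hh0 q y).le; positivity)
      (by positivity)).trans ?_)
    nlinarith [show 0 < h * gs 0 * (q : ℝ) ^ 3 by positivity]

end Vale.Agent.P230.Up
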