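import Vale.Agent.P230.UpMoment

/-! Cube averages of a random linear map are uniformly bounded below. -/

namespace Vale.Agent.P230.Up

open Finset

lemma glu_cond {ι V : Type*} [Fintype ι] [DecidableEq ι] [Fintype V] (J : Finset ι)
    (H : (ι → V) → (ι → V) → ℝ)
    (hH : ∀ A A', H A A' = H (J.piecewise A' A) (J.piecewise A' A)) :
    (Fintype.card (ι → V) : ℝ) * ∑ A, H A A = ∑ A, ∑ A', H A A' := by
  have inv : Function.Involutive fun p : (ι → V) × (ι → V) =>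
      (J.piecewise p.2 p.1, J.piecewise p.1 p.2) := by
    rintro ⟨A, A'⟩
    refine Prod.ext (funext fun i => ?_) (funext fun i => ?_) <;>
      by_cases hi : i ∈ J <;> simp [hi]
  have e := Equiv.sum_comp inv.toPerm fun p : (ι → V) × (ι → V) => H p.1 p.1
  rw [Fintype.sum_prod_type, Fintype.sum_prod_type] at e
  simp only [Function.Involutive.coe_toPerm, ← hH, sum_const, card_univ, nsmul_eq_mul] at e
  rw [e, mul_sum]

lemma glu_union {ι : Type*} [DecidableEq ι] {J₁ J₂ : Finset ι} (h : Disjoint J₁ J₂)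
    (f : Finset ι → ℝ) :
    ∑ S ∈ (J₁ ∪ J₂).powerset, f S = ∑ S₂ ∈ J₂.powerset, ∑ S₁ ∈ J₁.powerset, f (S₂ ∪ S₁) := by
  rw [← sum_product']
  symm
  have h' := disjoint_left.1 h
  refine sum_nbij' (fun p => p.1 ∪ p.2) (fun S => (S ∩ J₂, S ∩ J₁)) ?_ ?_ ?_ ?_ (fun _ _ => rfl)
  · rintro ⟨S₂, S₁⟩ hS
    simp only [mem_product, mem_powerset] at hS ⊢
    rw [union_comm]
    exact union_subset_union hS.2 hS.1
  · intro S _
    simp
  · rintro ⟨S₂, S₁⟩ hS
    simp only [mem_product, mem_powerset] at hS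
    refine Prod.ext ?_ ?_ <;> ext i <;> simp only [mem_inter, mem_union]
    · exact ⟨fun a => a.1.elim id fun b => absurd a.2 (h' (hS.2 b)), fun a => ⟨Or.inl a, hS.1 a⟩⟩
    · exact ⟨fun a => a.1.elim (fun b => absurd (hS.1 b) (h' a.2)) id,
        fun a => ⟨Or.inr a, hS.2 a⟩⟩
  · intro S hS
    simp only [mem_powerset] at hS
    rw [← inter_union_distrib_left, union_comm, inter_eq_left.2 hS]

/-- Few points see a small cube average when the shifts are nearly uncorrelated. -/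
lemma glu_bad {κ V : Type*} [DecidableEq κ] [AddCommGroup V] [Fintype V] (T : Finset κ)
    (a : κ → V) (Ψ φ : V → ℝ) (μ ε τ s ρ β m : ℝ) (hm : (T.card : ℝ) = m) (hm0 : 0 < m)
    (hε0 : 0 < ε) (hτ : 0 < τ) (hφΨ : ∀ y, φ y ≤ Ψ y)
    (hμ : ∑ y, Ψ y = μ * Fintype.card V) (hs : ∑ y, Ψ y ^ 2 ≤ s * Fintype.card V)
    (hρ : ∑ y, (Ψ y - φ y) ≤ ρ * Fintype.card V)
    (hβ : (s / m + τ) / ε ^ 2 + ρ / ε ≤ β)
    (hr : ∀ S ∈ T, ∀ S' ∈ T, S ≠ S' →
      (∑ y, Ψ y * Ψ (y - (a S' - a S))) / Fintype.card V - μ ^ 2 ≤ τ) :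
    ∑ y : V, (if ∑ S ∈ T, φ (y - a S) < (μ - 2 * ε) * m then (1 : ℝ) else 0) ≤
      β * Fintype.card V := by
  have hN : (0 : ℝ) < Fintype.card V := by exact_mod_cast Fintype.card_pos
  set N : ℝ := (Fintype.card V : ℝ) with hNd
  have hsub : ∀ (g : V → ℝ) (b : V), ∑ y : V, g (y - b) = ∑ t, g t := fun g b =>
    Equiv.sum_comp (Equiv.subRight b) g
  have e1 : ∀ b b' : V, ∑ y, (Ψ (y - b) - μ) * (Ψ (y - b') - μ) =
      (∑ y, Ψ y * Ψ (y - (b' - b))) - μ ^ 2 * N := by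
    intro b b'
    have f1 : ∑ y, Ψ (y - b) * Ψ (y - b') = ∑ y, Ψ y * Ψ (y - (b' - b)) := by
      rw [← hsub (fun y => Ψ y * Ψ (y - (b' - b))) b]
      refine sum_congr rfl fun y _ => ?_
      congr 2
      abel
    have f2 : ∀ y, (Ψ (y - b) - μ) * (Ψ (y - b') - μ) =
        Ψ (y - b) * Ψ (y - b') - μ * Ψ (y - b) - μ * Ψ (y - b') + μ ^ 2 := fun y => by ring
    simp only [f2, sum_add_distrib, sum_sub_distrib, ← mul_sum, hsub Ψ, f1, hμ, sum_const,
      card_univ, nsmul_eq_mul, ← hNd]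
    ring
  have e2 : ∑ y, (∑ S ∈ T, (Ψ (y - a S) - μ)) ^ 2 ≤ (m * s + m ^ 2 * τ) * N := by
    have hs0 : 0 ≤ s * N := (sum_nonneg fun y _ => sq_nonneg _).trans hs
    calc ∑ y, (∑ S ∈ T, (Ψ (y - a S) - μ)) ^ 2
        = ∑ S ∈ T, ∑ S' ∈ T, ∑ y, (Ψ (y - a S) - μ) * (Ψ (y - a S') - μ) := by
          simp only [sq, sum_mul_sum]
          rw [sum_comm]
          exact sum_congr rfl fun S _ => sum_comm
      _ ≤ ∑ S ∈ T, ∑ S' ∈ T, ((if S = S' then s * N else 0) + τ * N) := by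
          refine sum_le_sum fun S hS => sum_le_sum fun S' hS' => ?_
          rw [e1]
          have h0 : 0 ≤ τ * N := by positivity
          split_ifs with h
          · subst h
            simp only [sub_self, sub_zero, ← sq]
            have : 0 ≤ μ ^ 2 * N := by positivity
            linarith
          · have := hr S hS S' hS' h
            rw [sub_le_iff_le_add, div_le_iff₀ hN] at this
            linarith
      _ = ∑ _S ∈ T, (s * N + m * (τ * N)) := by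
          refine sum_congr rfl fun S hS => ?_
          rw [sum_add_distrib, sum_ite_eq, if_pos hS, sum_const, nsmul_eq_mul, hm]
      _ = _ := by rw [sum_const, nsmul_eq_mul, hm]; ring
  have e3 : ∑ y, ∑ S ∈ T, (Ψ (y - a S) - φ (y - a S)) ≤ m * ρ * N := by
    rw [sum_comm, sum_congr rfl fun S _ => hsub (fun y => Ψ y - φ y) (a S), sum_const,
      nsmul_eq_mul, hm, mul_assoc]
    exact mul_le_mul_of_nonneg_left hρ hm0.le
  have hεm : 0 < ε * m := by positivity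
  have e4 : ∀ y, (if ∑ S ∈ T, φ (y - a S) < (μ - 2 * ε) * m then (1 : ℝ) else 0) ≤
      (∑ S ∈ T, (Ψ (y - a S) - μ)) ^ 2 / (ε * m) ^ 2 +
        (∑ S ∈ T, (Ψ (y - a S) - φ (y - a S))) / (ε * m) := by
    intro y
    have f1 : 0 ≤ (∑ S ∈ T, (Ψ (y - a S) - μ)) ^ 2 / (ε * m) ^ 2 := by positivity
    have f2 : 0 ≤ (∑ S ∈ T, (Ψ (y - a S) - φ (y - a S))) / (ε * m) :=
      div_nonneg (sum_nonneg fun S _ => sub_nonneg.2 (hφΨ _)) hεm.le
    split_ifs with h
    · by_cases h1 : ε * m ≤ ∑ S ∈ T, (Ψ (y - a S) - φ (y - a S))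
      · have := (one_le_div hεm).2 h1
        linarith
      · have f3 : ∑ S ∈ T, (Ψ (y - a S) - μ) ≤ -(ε * m) := by
          rw [sum_sub_distrib] at h1 ⊢
          rw [sum_const, nsmul_eq_mul, hm]
          linarith
        have f4 : (ε * m) ^ 2 ≤ (∑ S ∈ T, (Ψ (y - a S) - μ)) ^ 2 := by nlinarith
        have := (one_le_div (by positivity)).2 f4
        linarith
    · linarith
  refine (sum_le_sum fun y _ => e4 y).trans ?_
  rw [sum_add_distrib, ← sum_div, ← sum_div]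
  calc _ ≤ (m * s + m ^ 2 * τ) * N / (ε * m) ^ 2 + m * ρ * N / (ε * m) := by gcongr
    _ = ((s / m + τ) / ε ^ 2 + ρ / ε) * N := by field_simp
    _ ≤ _ := mul_le_mul_of_nonneg_right hβ hN.le

theorem glue {ι F V : Type*} [Fintype ι] [DecidableEq ι] [Field F] [AddCommGroup V]
    [Module F V] [Fintype V] (L : Finset ι) (c : F) (hc : c ≠ 0) (Ψ φ : V → ℝ)
    (μ ε τ s ρ κ β : ℝ) (d r : ℕ) (Y : Finset V) (hε0 : 0 < ε) (hε1 : ε ≤ 1) (hμε : 2 * ε ≤ μ)
    (hτ : 0 < τ) (hφ0 : ∀ y, 0 ≤ φ y) (hφΨ : ∀ y, φ y ≤ Ψ y)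
    (hμ : ∑ y, Ψ y = μ * Fintype.card V) (hs : ∑ y, Ψ y ^ 2 ≤ s * Fintype.card V)
    (hρ : ∑ y, (Ψ y - φ y) ≤ ρ * Fintype.card V)
    (hκ : ∑ a, ((∑ y, Ψ y * Ψ (y - a)) / Fintype.card V - μ ^ 2) ^ 2 ≤ κ * Fintype.card V)
    (hβ : (s / 2 ^ d + τ) / ε ^ 2 + ρ / ε ≤ β)
    (hprob : 4 ^ L.card * (κ / τ ^ 2) +
      Y.card * 4 ^ L.card * ((β + 2 ^ r / 2 ^ d) / ε) ^ r < 1) :
    ∃ A : ι → V, ∀ y ∈ Y, ∀ J ⊆ L, J.card = 2 * d →
      (1 - ε) * (μ - 2 * ε) * 2 ^ (2 * d) ≤ ∑ S ∈ J.powerset, φ (y - c • ∑ i ∈ S, A i) := by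
  classical
  have hN : (0 : ℝ) < Fintype.card V := by exact_mod_cast Fintype.card_pos
  have hC : (0 : ℝ) < Fintype.card (ι → V) := by exact_mod_cast Fintype.card_pos
  have hs0 : 0 ≤ s :=
    nonneg_of_mul_nonneg_left ((sum_nonneg fun y _ => sq_nonneg _).trans hs) hN
  have hρ0 : 0 ≤ ρ :=
    nonneg_of_mul_nonneg_left ((sum_nonneg fun y _ => sub_nonneg.2 (hφΨ y)).trans hρ) hN
  have hκ0 : 0 ≤ κ :=
    nonneg_of_mul_nonneg_left ((sum_nonneg fun y _ => sq_nonneg _).trans hκ) hN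
  have hβ0 : 0 ≤ β := le_trans (by positivity) hβ
  let a : (ι → V) → Finset ι → V := fun A S => c • ∑ i ∈ S, A i
  let rr : V → ℝ := fun b => (∑ y, Ψ y * Ψ (y - b)) / Fintype.card V - μ ^ 2
  let b : Finset ι → (ι → V) → V → ℝ := fun J A y =>
    if ∑ S ∈ J.powerset, φ (y - a A S) < (μ - 2 * ε) * 2 ^ d then 1 else 0
  let g : Finset ι → (ι → V) → V → ℝ := fun J A y =>
    if ∑ t, b J A t ≤ β * Fintype.card V then b J A y else 0
  let Z₁ : (ι → V) → Finset ι → Finset ι → ℝ := fun A S S' =>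
    if S = S' then 0 else rr (a A S' - a A S) ^ 2 / τ ^ 2
  let Z₂ : (ι → V) → V → Finset ι → Finset ι → ℝ := fun A y J₁ J₂ =>
    if Disjoint J₁ J₂ ∧ J₂.card = d then
      ((∑ S ∈ J₂.powerset, g J₁ A (y - a A S)) / (ε * 2 ^ d)) ^ r else 0
  have hb : ∀ J A y, 0 ≤ b J A y ∧ b J A y ≤ 1 := by
    intro J A y
    simp only [b]
    split_ifs <;> norm_num
  have hg : ∀ J A y, 0 ≤ g J A y ∧ g J A y ≤ 1 := by
    intro J A y
    simp only [g]
    split_ifs
    · exact hb J A y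
    · norm_num
  have hgβ : ∀ J A, ∑ t, g J A t ≤ β * Fintype.card V := by
    intro J A
    simp only [g]
    split_ifs with h
    · exact h
    · simp only [sum_const_zero]; positivity
  have hZ₁ : ∀ A S S', 0 ≤ Z₁ A S S' := by
    intro A S S'
    simp only [Z₁]
    split_ifs <;> positivity
  have hZ₂ : ∀ A y J₁ J₂, 0 ≤ Z₂ A y J₁ J₂ := by
    intro A y J₁ J₂
    simp only [Z₂]
    split_ifs
    · exact pow_nonneg (div_nonneg (sum_nonneg fun S _ => (hg _ _ _).1) (by positivity)) _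
    · exact le_rfl
  have m₁ : ∀ S S', ∑ A, Z₁ A S S' ≤ κ / τ ^ 2 * Fintype.card (ι → V) := by
    intro S S'
    simp only [Z₁]
    split_ifs with h
    · simp only [sum_const_zero]; positivity
    · have hv : c • (momInd F S' - momInd F S) ≠ 0 :=
        smul_ne_zero hc (sub_ne_zero.2 fun e => h (momInd_inj e).symm)
      have e := shift_unif hv fun t => rr t ^ 2
      have e2 : ∀ A : ι → V, pr (c • (momInd F S' - momInd F S)) A = a A S' - a A S := by
        intro A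
        simp only [a]
        rw [smul_pr, ← smul_sub, ← pr_momInd (F := F), ← pr_momInd (F := F)]
        congr 1
        simp [pr, sub_smul]
      simp only [e2] at e
      rw [← sum_div, div_mul_eq_mul_div]
      refine div_le_div_of_nonneg_right (le_of_mul_le_mul_right ?_ hN) (by positivity)
      rw [e]
      have := mul_le_mul_of_nonneg_left hκ hC.le
      linarith
  have m₂ : ∀ y J₁ J₂, ∑ A, Z₂ A y J₁ J₂ ≤
      ((β + 2 ^ r / 2 ^ d) / ε) ^ r * Fintype.card (ι → V) := by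
    intro y J₁ J₂
    simp only [Z₂]
    split_ifs with h
    · have e := glu_cond J₂ (fun A A' => (∑ S ∈ J₂.powerset, g J₁ A (y - a A' S)) ^ r) (by
        intro A A'
        have f1 : b J₁ (J₂.piecewise A' A) = b J₁ A := by
          funext t
          have : ∀ S ∈ J₁.powerset, φ (t - a (J₂.piecewise A' A) S) = φ (t - a A S) := by
            intro S hS
            simp only [a]
            have : ∑ i ∈ S, J₂.piecewise A' A i = ∑ i ∈ S, A i :=
              sum_congr rfl fun i hi => piecewise_eq_of_notMem _ _ _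
                (disjoint_left.1 h.1 (mem_powerset.1 hS hi))
            rw [this]
          simp only [b]
          rw [sum_congr rfl this]
        have f2 : g J₁ (J₂.piecewise A' A) = g J₁ A := by
          simp only [g, f1]
        rw [f2]
        congr 1
        refine sum_congr rfl fun S hS => ?_
        simp only [a]
        have : ∑ i ∈ S, J₂.piecewise A' A i = ∑ i ∈ S, A' i :=
          sum_congr rfl fun i hi => piecewise_eq_of_mem _ _ _ (mem_powerset.1 hS hi)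
        rw [this])
      have e2 : ∑ A : ι → V, (∑ S ∈ J₂.powerset, g J₁ A (y - a A S)) ^ r ≤
          (2 ^ d * β + 2 ^ r) ^ r * Fintype.card (ι → V) := by
        refine le_of_mul_le_mul_left ?_ hC
        rw [e]
        refine (sum_le_sum fun A _ => moment J₂ c hc (g J₁ A) (fun t => (hg _ _ t).1)
          (fun t => (hg _ _ t).2) β (hgβ _ _) y r).trans (le_of_eq ?_)
        rw [sum_const, card_univ, nsmul_eq_mul, h.2]
      have e3 : (β + 2 ^ r / 2 ^ d) / ε = (2 ^ d * β + 2 ^ r) / (ε * 2 ^ d) := by field_simp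
      rw [e3]
      simp only [div_pow]
      rw [← sum_div, div_mul_eq_mul_div]
      exact div_le_div_of_nonneg_right e2 (by positivity)
    · simp only [sum_const_zero]; positivity
  have h4 : (4 : ℝ) ^ L.card = 2 ^ L.card * 2 ^ L.card := by rw [← mul_pow]; norm_num
  have tot : ∑ A : ι → V, (∑ S ∈ L.powerset, ∑ S' ∈ L.powerset, Z₁ A S S' +
      ∑ y ∈ Y, ∑ J₁ ∈ L.powerset, ∑ J₂ ∈ L.powerset, Z₂ A y J₁ J₂) < ∑ _A : ι → V, (1 : ℝ) := by
    have t₁ : ∑ A : ι → V, ∑ S ∈ L.powerset, ∑ S' ∈ L.powerset, Z₁ A S S' ≤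
        4 ^ L.card * (κ / τ ^ 2) * Fintype.card (ι → V) := by
      rw [sum_comm]
      refine (sum_le_sum fun S _ => sum_comm.trans_le (sum_le_sum fun S' _ => m₁ S S')).trans
        (le_of_eq ?_)
      simp only [sum_const, card_powerset, nsmul_eq_mul, h4]
      push_cast
      ring
    have t₂ : ∑ A : ι → V, ∑ y ∈ Y, ∑ J₁ ∈ L.powerset, ∑ J₂ ∈ L.powerset, Z₂ A y J₁ J₂ ≤
        Y.card * 4 ^ L.card * ((β + 2 ^ r / 2 ^ d) / ε) ^ r * Fintype.card (ι → V) := by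
      rw [sum_comm]
      refine (sum_le_sum fun y _ => sum_comm.trans_le (sum_le_sum fun J₁ _ =>
        sum_comm.trans_le (sum_le_sum fun J₂ _ => m₂ y J₁ J₂))).trans (le_of_eq ?_)
      simp only [sum_const, card_powerset, nsmul_eq_mul, h4]
      push_cast
      ring
    rw [sum_add_distrib, sum_const, card_univ, nsmul_eq_mul]
    have := mul_lt_mul_of_pos_right hprob hC
    linarith
  obtain ⟨A, -, hA⟩ := exists_lt_of_sum_lt tot
  have n₁ : 0 ≤ ∑ S ∈ L.powerset, ∑ S' ∈ L.powerset, Z₁ A S S' :=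
    sum_nonneg fun _ _ => sum_nonneg fun _ _ => hZ₁ _ _ _
  have n₂ : 0 ≤ ∑ y ∈ Y, ∑ J₁ ∈ L.powerset, ∑ J₂ ∈ L.powerset, Z₂ A y J₁ J₂ :=
    sum_nonneg fun _ _ => sum_nonneg fun _ _ => sum_nonneg fun _ _ => hZ₂ _ _ _ _
  have c₁ : ∀ S ⊆ L, ∀ S' ⊆ L, S ≠ S' → rr (a A S' - a A S) ≤ τ := by
    intro S hS S' hS' hne
    have f1 : Z₁ A S S' ≤ ∑ S' ∈ L.powerset, Z₁ A S S' :=
      single_le_sum (f := fun S' => Z₁ A S S') (fun _ _ => hZ₁ _ _ _) (mem_powerset.2 hS')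
    have f2 : ∑ S' ∈ L.powerset, Z₁ A S S' ≤ ∑ S ∈ L.powerset, ∑ S' ∈ L.powerset, Z₁ A S S' :=
      single_le_sum (f := fun S => ∑ S' ∈ L.powerset, Z₁ A S S')
        (fun _ _ => sum_nonneg fun _ _ => hZ₁ _ _ _) (mem_powerset.2 hS)
    have f3 : Z₁ A S S' ≤ 1 := by linarith
    simp only [Z₁, if_neg hne] at f3
    rw [div_le_one (by positivity)] at f3
    exact (abs_le_of_sq_le_sq' f3 hτ.le).2
  refine ⟨A, fun y hy J hJ hJc => ?_⟩
  obtain ⟨J₂, hJ₂, hc₂⟩ := exists_subset_card_eq (show d ≤ J.card by omega)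
  have hc₁ : (J \ J₂).card = d := by rw [card_sdiff_of_subset hJ₂]; omega
  have hd : Disjoint (J \ J₂) J₂ := sdiff_disjoint
  have hJ₁ : J \ J₂ ⊆ L := sdiff_subset.trans hJ
  have c₂ : ∑ S ∈ J₂.powerset, g (J \ J₂) A (y - a A S) ≤ ε * 2 ^ d := by
    have f1 := single_le_sum (f := fun J₃ => Z₂ A y (J \ J₂) J₃)
        (fun _ _ => hZ₂ _ _ _ _) (mem_powerset.2 (hJ₂.trans hJ))
    have f2 := single_le_sum (f := fun J₁ => ∑ J₂ ∈ L.powerset, Z₂ A y J₁ J₂)
        (fun _ _ => sum_nonneg fun _ _ => hZ₂ _ _ _ _) (mem_powerset.2 hJ₁)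
    have f3 := single_le_sum (f := fun y => ∑ J₁ ∈ L.powerset, ∑ J₂ ∈ L.powerset, Z₂ A y J₁ J₂)
        (fun _ _ => sum_nonneg fun _ _ => sum_nonneg fun _ _ => hZ₂ _ _ _ _) hy
    have f4 : Z₂ A y (J \ J₂) J₂ < 1 := by linarith
    simp only [Z₂, if_pos (And.intro hd hc₂)] at f4
    by_contra hlt
    have := one_le_pow₀ (n := r) ((one_le_div (by positivity)).2 (not_le.1 hlt).le)
    linarith
  have c₃ : ∑ t, b (J \ J₂) A t ≤ β * Fintype.card V :=
    glu_bad (J \ J₂).powerset (a A) Ψ φ μ ε τ s ρ β (2 ^ d) (by rw [card_powerset, hc₁]; simp)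
      (by positivity) hε0 hτ hφΨ hμ hs hρ hβ fun S hS S' hS' hne =>
      c₁ S ((mem_powerset.1 hS).trans hJ₁) S' ((mem_powerset.1 hS').trans hJ₁) hne
  have hμ2 : 0 ≤ (μ - 2 * ε) * 2 ^ d := mul_nonneg (by linarith) (by positivity)
  have c₄ : ∀ S₂ ∈ J₂.powerset, (μ - 2 * ε) * 2 ^ d * (1 - g (J \ J₂) A (y - a A S₂)) ≤
      ∑ S₁ ∈ (J \ J₂).powerset, φ (y - c • ∑ i ∈ S₂ ∪ S₁, A i) := by
    intro S₂ hS₂
    have f1 : ∑ S₁ ∈ (J \ J₂).powerset, φ (y - c • ∑ i ∈ S₂ ∪ S₁, A i) =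
        ∑ S₁ ∈ (J \ J₂).powerset, φ (y - a A S₂ - a A S₁) := by
      refine sum_congr rfl fun S₁ hS₁ => ?_
      rw [sum_union (hd.symm.mono (mem_powerset.1 hS₂) (mem_powerset.1 hS₁)), smul_add, sub_sub]
    rw [f1]
    simp only [g, if_pos c₃]
    simp only [b]
    split_ifs with h
    · rw [sub_self, mul_zero]
      exact sum_nonneg fun _ _ => hφ0 _
    · rw [sub_zero, mul_one]
      exact not_lt.1 h
  have c₅ := sum_le_sum c₄
  rw [← glu_union hd fun S => φ (y - c • ∑ i ∈ S, A i), sdiff_union_of_subset hJ₂, ← mul_sum,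
    sum_sub_distrib, sum_const, card_powerset, hc₂, nsmul_eq_mul] at c₅
  refine le_trans ?_ c₅
  have := mul_le_mul_of_nonneg_left c₂ hμ2
  rw [two_mul d, pow_add]
  push_cast
  linarith

end Vale.Agent.P230.Up
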