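import Vale.Agent.P230.UpBlock0
import Vale.Agent.P230.UpGlue
import Vale.Agent.P230.UpGauss

/-! One glued block: parameters. -/

namespace Vale.Agent.P230.Up

open Finset Filter

lemma pow_le_exp_mul {T : ℝ} (hT : 0 ≤ T) (k : ℕ) : T ^ k ≤ Real.exp (k * T) := by
  rw [Real.exp_nat_mul]
  exact pow_le_pow_left₀ hT (by linarith [Real.add_one_le_exp T]) k

lemma exp_half_le_two_pow (d : ℕ) : Real.exp (d / 2) ≤ 2 ^ d := by
  have h : Real.exp (1 / 2) ≤ 2 := by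
    have h1 := Real.exp_one_lt_d9
    refine le_of_pow_le_pow_left₀ two_ne_zero (by norm_num) ?_
    rw [← Real.exp_nat_mul]; norm_num; linarith
  calc Real.exp (d / 2) = Real.exp (1 / 2) ^ d := by rw [← Real.exp_nat_mul]; ring_nf
    _ ≤ 2 ^ d := pow_le_pow_left₀ (Real.exp_pos _).le h d

lemma two_pow_le_exp (d : ℕ) : (2 : ℝ) ^ d ≤ Real.exp d := by
  calc (2 : ℝ) ^ d ≤ Real.exp 1 ^ d := by gcongr; linarith [Real.add_one_le_exp 1]
    _ = _ := by rw [← Real.exp_nat_mul, mul_one]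

lemma pow_step {T : ℝ} (hT : 100000 ≤ T) {a b : ℕ} (hab : a < b) : 100000 * T ^ a ≤ T ^ b := by
  calc 100000 * T ^ a ≤ T * T ^ a := by gcongr
    _ = T ^ (a + 1) := by ring
    _ ≤ T ^ b := pow_le_pow_right₀ (by linarith) hab

lemma exp_064 : 0.51 * Real.exp 0.64 ≤ 1 := by
  have h1 := Real.exp_one_lt_d9
  have h2 : Real.exp 0.64 ≤ 1.96 := by
    refine le_of_pow_le_pow_left₀ (n := 3) (by norm_num) (by norm_num) ?_
    rw [← Real.exp_nat_mul]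
    have h3 : Real.exp ((3 : ℕ) * 0.64) ≤ Real.exp 1 ^ 2 := by
      rw [← Real.exp_nat_mul]; exact Real.exp_le_exp.2 (by norm_num)
    have h4 : Real.exp 1 ^ 2 ≤ 2.7182818286 ^ 2 := by gcongr
    refine h3.trans (h4.trans (by norm_num))
  linarith

lemma exp_neg_one_lt : Real.exp (-1) < 0.39 := by
  have h1 := Real.exp_one_gt_d9
  rw [Real.exp_neg, inv_lt_comm₀ (Real.exp_pos _) (by norm_num)]
  norm_num at h1 ⊢; linarith

lemma glue_beta {t : ℕ} (ht : 100000 ≤ t) :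
    (18 * Real.exp (4 * (t : ℝ) ^ 17) / 2 ^ t ^ 18 + Real.exp (-(t : ℝ) ^ 17)) / (1 / (t : ℝ) ^ 2) ^ 2 +
      12 * Real.exp (-(t : ℝ) ^ 17) / (1 / (t : ℝ) ^ 2) ≤ 14 * (t : ℝ) ^ 4 * Real.exp (-(t : ℝ) ^ 17) := by
  have hT : (100000 : ℝ) ≤ t := by exact_mod_cast ht
  have h1 := exp_half_le_two_pow (t ^ 18)
  push_cast at h1
  generalize (t : ℝ) = T at *
  have p1 := pow_step hT (a := 17) (b := 18) (by norm_num)
  have p2 := pow_step hT (a := 0) (b := 17) (by norm_num)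
  have p3 := pow_step hT (a := 2) (b := 4) (by norm_num)
  have h2 : 18 * Real.exp (4 * T ^ 17) / 2 ^ t ^ 18 ≤ Real.exp (-T ^ 17) := by
    rw [div_le_iff₀ (by positivity)]
    have h3 : (18 : ℝ) ≤ Real.exp (T ^ 17) := by linarith [Real.add_one_le_exp (T ^ 17)]
    calc 18 * Real.exp (4 * T ^ 17) ≤ Real.exp (T ^ 17) * Real.exp (4 * T ^ 17) := by gcongr
      _ ≤ Real.exp (-T ^ 17) * Real.exp (T ^ 18 / 2) := by
          rw [← Real.exp_add, ← Real.exp_add]; exact Real.exp_le_exp.2 (by linarith)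
      _ ≤ _ := by gcongr
  have hE := Real.exp_pos (-T ^ 17)
  have hT0 : 0 < T := by linarith
  have hT2 : 0 < T ^ 2 := by positivity
  calc _ ≤ (Real.exp (-T ^ 17) + Real.exp (-T ^ 17)) / (1 / T ^ 2) ^ 2 +
        12 * Real.exp (-T ^ 17) / (1 / T ^ 2) := by gcongr
    _ = (2 * T ^ 4 + 12 * T ^ 2) * Real.exp (-T ^ 17) := by field_simp; ring
    _ ≤ _ := by gcongr; linarith

lemma glue_prob {t l m y : ℕ} {κ : ℝ} (ht : 100000 ≤ t) (hl : 2 ^ 30 * l ≤ 3 * t ^ 30)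
    (hm : m ≤ 3 * t ^ 30) (hy : y ≤ (t ^ 42) ^ m)
    (hκ : κ ≤ 3 * Real.exp (3 * (t : ℝ) ^ 17 - 0.05 * (t : ℝ) ^ 30)) :
    4 ^ l * (κ / Real.exp (-(t : ℝ) ^ 17) ^ 2) + y * 4 ^ l *
      ((14 * (t : ℝ) ^ 4 * Real.exp (-(t : ℝ) ^ 17) + 2 ^ t ^ 16 / 2 ^ t ^ 18) /
        (1 / (t : ℝ) ^ 2)) ^ t ^ 16 < 1 := by
  have hT : (100000 : ℝ) ≤ t := by exact_mod_cast ht
  have h1 := exp_half_le_two_pow (t ^ 18)
  have h2 := two_pow_le_exp (t ^ 16)
  have hl' : (2 : ℝ) ^ 30 * l ≤ 3 * (t : ℝ) ^ 30 := by exact_mod_cast hl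
  have hm' : (m : ℝ) ≤ 3 * (t : ℝ) ^ 30 := by exact_mod_cast hm
  have hy' : (y : ℝ) ≤ ((t : ℝ) ^ 42) ^ m := by exact_mod_cast hy
  have e16 : ((t ^ 16 : ℕ) : ℝ) = (t : ℝ) ^ 16 := by push_cast; ring
  push_cast at h1 h2
  have hpow : ∀ x : ℝ, Real.exp x ^ t ^ 16 = Real.exp ((t : ℝ) ^ 16 * x) := fun x => by
    rw [← Real.exp_nat_mul, e16]
  generalize (t : ℝ) = T at *
  have hT0 : 0 < T := by linarith
  have p1 := pow_step hT (a := 17) (b := 18) (by norm_num)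
  have p2 := pow_step hT (a := 0) (b := 17) (by norm_num)
  have p3 := pow_step hT (a := 16) (b := 17) (by norm_num)
  have p4 := pow_step hT (a := 17) (b := 30) (by norm_num)
  have p5 := pow_step hT (a := 30) (b := 31) (by norm_num)
  have p6 := pow_step hT (a := 31) (b := 33) (by norm_num)
  have p7 := pow_step hT (a := 1) (b := 17) (by norm_num)
  have p8 := pow_step hT (a := 6) (b := 7) (by norm_num)
  have p9 := pow_step hT (a := 0) (b := 4) (by norm_num)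
  have q16 : 0 < T ^ 16 := by positivity
  have q6 : 0 < T ^ 6 := by positivity
  have h4 : (4 : ℝ) ^ l ≤ Real.exp (0.01 * T ^ 30) := by
    have : (4 : ℝ) ^ l = 2 ^ (2 * l) := by rw [pow_mul]; norm_num
    rw [this]
    refine (two_pow_le_exp _).trans (Real.exp_le_exp.2 ?_)
    push_cast; norm_num at hl' ⊢; linarith
  have hA : 4 ^ l * (κ / Real.exp (-T ^ 17) ^ 2) ≤ 3 * Real.exp (-1) ^ 2 := by
    calc 4 ^ l * (κ / Real.exp (-T ^ 17) ^ 2) ≤ Real.exp (0.01 * T ^ 30) *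
          (3 * Real.exp (3 * T ^ 17 - 0.05 * T ^ 30) / Real.exp (-T ^ 17) ^ 2) := by
          rcases le_total κ 0 with h | h
          · exact (mul_nonpos_of_nonneg_of_nonpos (by positivity)
              (div_nonpos_of_nonpos_of_nonneg h (by positivity))).trans (by positivity)
          · gcongr
      _ = 3 * Real.exp (0.01 * T ^ 30 + (3 * T ^ 17 - 0.05 * T ^ 30) - (2 : ℕ) * (-T ^ 17)) := by
          rw [Real.exp_sub (_ + _), Real.exp_add, Real.exp_nat_mul]; ring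
      _ ≤ 3 * Real.exp ((2 : ℕ) * (-1)) := by gcongr; push_cast; linarith
      _ = _ := by rw [Real.exp_nat_mul]
  have hB : (14 * T ^ 4 * Real.exp (-T ^ 17) + 2 ^ t ^ 16 / 2 ^ t ^ 18) / (1 / T ^ 2) ≤
      Real.exp (-T ^ 17 / 2) := by
    have b1 : (2 : ℝ) ^ t ^ 16 / 2 ^ t ^ 18 ≤ T ^ 4 * Real.exp (-T ^ 17) := by
      calc (2 : ℝ) ^ t ^ 16 / 2 ^ t ^ 18 ≤ Real.exp (T ^ 16) / Real.exp (T ^ 18 / 2) := by gcongr
        _ ≤ 1 * Real.exp (-T ^ 17) := by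
            rw [← Real.exp_sub, one_mul]; exact Real.exp_le_exp.2 (by linarith)
        _ ≤ _ := by gcongr; linarith
    have b2 : 15 * T ^ 6 ≤ Real.exp (T ^ 17 / 2) := by
      have := pow_le_exp_mul hT0.le 7
      refine le_trans (by linarith) (this.trans (Real.exp_le_exp.2 ?_))
      push_cast; linarith
    calc _ ≤ (14 * T ^ 4 * Real.exp (-T ^ 17) + T ^ 4 * Real.exp (-T ^ 17)) / (1 / T ^ 2) := by
          gcongr
      _ = 15 * T ^ 6 * Real.exp (-T ^ 17) := by field_simp; ring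
      _ ≤ Real.exp (T ^ 17 / 2) * Real.exp (-T ^ 17) := by gcongr
      _ = _ := by rw [← Real.exp_add]; ring_nf
  have hY : (y : ℝ) ≤ Real.exp (126 * T ^ 31) := by
    calc (y : ℝ) ≤ (T ^ 42) ^ m := hy'
      _ ≤ Real.exp ((42 : ℕ) * T) ^ m := by gcongr; exact pow_le_exp_mul hT0.le 42
      _ = Real.exp (m * ((42 : ℕ) * T)) := (Real.exp_nat_mul _ _).symm
      _ ≤ Real.exp (3 * T ^ 30 * ((42 : ℕ) * T)) := by gcongr
      _ = _ := by push_cast; ring_nf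
  have hC : y * 4 ^ l * ((14 * T ^ 4 * Real.exp (-T ^ 17) + 2 ^ t ^ 16 / 2 ^ t ^ 18) /
      (1 / T ^ 2)) ^ t ^ 16 ≤ Real.exp (-1) := by
    calc _ ≤ Real.exp (126 * T ^ 31) * Real.exp (0.01 * T ^ 30) *
          Real.exp (-T ^ 17 / 2) ^ t ^ 16 := by gcongr
      _ = Real.exp (126 * T ^ 31 + 0.01 * T ^ 30 - T ^ 33 / 2) := by
          rw [hpow, ← Real.exp_add, ← Real.exp_add]; ring_nf
      _ ≤ _ := Real.exp_le_exp.2 (by linarith)
  have e1 := exp_neg_one_lt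
  have e2 : Real.exp (-1) ^ 2 ≤ 0.39 ^ 2 := by gcongr
  linarith

/-- The one-dimensional data in the form used by `block_mid`. -/
lemma gauss_data {t q : ℕ} [NeZero q] {h : ℝ} [DecidablePred (Act h q)] (ht : 100000 ≤ t)
    (hh : h ^ 2 = 80 * Real.log t) (h55 : 55 ≤ h) (h32 : 32 * h ≤ t)
    (hq : Real.exp ((t : ℝ) ^ 30) ≤ q) :
    ∃ a : ℝ, a * ∑ y, W1 h q y = ∑ y, W1 h q y * Real.log (W1 h q y) ∧ a ≤ Real.log h ∧
      Real.log h - 1.59 ≤ a ∧ 0.51 * (h * gs 0) ≤ Real.exp (a - 0.05) ∧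
      ∑ y, W1 h q y * (Real.log (W1 h q y) - Real.log (h * gs 0)) ^ 2 ≤ 41 * ∑ y, W1 h q y ∧
      1 / (16 * h * (t : ℝ) ^ 10) * ∑ y, W1 h q y ≤ ∑ y ∈ univ.filter (Act h q), W1 h q y ∧
      (∀ m : ℕ, m ≤ 3 * t ^ 30 → (1 - 12 / (t : ℝ) ^ 2) * (q : ℝ) ^ m ≤ (∑ y, W1 h q y) ^ m ∧
        (∑ y, W1 h q y) ^ m ≤ 2 * (q : ℝ) ^ m) ∧
      ∑ a, (∑ y, W1 h q y * W1 h q (y - a)) ^ 2 ≤ 0.51 * (h * gs 0) * (q : ℝ) ^ 3 := by
  have hT : (100000 : ℝ) ≤ t := by exact_mod_cast ht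
  have hT0 : (0 : ℝ) < t := by linarith
  have hh0 : 0 < h := by linarith
  have hq0 : (0 : ℝ) < q := (Real.exp_pos _).trans_le hq
  have p1 := pow_step hT (a := 1) (b := 2) (by norm_num)
  have p2 := pow_step hT (a := 2) (b := 30) (by norm_num)
  have p3 := pow_step hT (a := 0) (b := 32) (by norm_num)
  have p4 := pow_step hT (a := 31) (b := 45) (by norm_num)
  have hq1 : h * Real.exp (h ^ 2) ≤ q := by
    refine le_trans ?_ hq
    have h1 : h ≤ Real.exp h := by linarith [Real.add_one_le_exp h]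
    have h2 : h ^ 2 ≤ (t : ℝ) ^ 2 := by gcongr; linarith
    calc h * Real.exp (h ^ 2) ≤ Real.exp h * Real.exp (h ^ 2) := by gcongr
      _ ≤ _ := by rw [← Real.exp_add]; exact Real.exp_le_exp.2 (by linarith)
  have hq45 : (t : ℝ) ^ 45 ≤ q :=
    (pow_le_exp_mul hT0.le 45).trans ((Real.exp_le_exp.2 (by push_cast; linarith)).trans hq)
  obtain ⟨z1, z2, z3, z4, z5, z6⟩ := gauss1 (h := h) (q := q) (by linarith) hq1
  have e32 : Real.exp (-(0.4 * h ^ 2)) = 1 / (t : ℝ) ^ 32 := by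
    rw [hh, Real.exp_neg, show 0.4 * (80 * Real.log t) = (32 : ℕ) * Real.log t by push_cast; ring,
      Real.exp_nat_mul, Real.exp_log hT0, one_div]
  have e10 : Real.exp (h ^ 2 / 8) = (t : ℝ) ^ 10 := by
    rw [hh, show 80 * Real.log t / 8 = (10 : ℕ) * Real.log t by push_cast; ring,
      Real.exp_nat_mul, Real.exp_log hT0]
  rw [e32] at z1
  rw [e10] at z5
  set Z := ∑ y, W1 h q y with hZ
  have s1 : 4 * (1 / (t : ℝ) ^ 32) ≤ 0.01 := by
    rw [mul_one_div, div_le_iff₀ (by positivity)]; linarith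
  have hZ1 : 0.99 * q ≤ Z := le_trans (by gcongr; linarith) z1
  have hη : h / q ≤ 1 := by
    rw [div_le_one hq0]
    have : 1 ≤ Real.exp (h ^ 2) := Real.one_le_exp (by positivity)
    nlinarith
  have hZ2 : Z ≤ 2 * q := z2.trans (by gcongr; linarith)
  have hZ0 : 0 < Z := by linarith
  have g0 := gs_zero_bounds
  have hg : 0 < h * gs 0 := mul_pos hh0 (gs_pos 0)
  set a := (∑ y, W1 h q y * Real.log (W1 h q y)) / Z with ha
  have haZ : a * Z = ∑ y, W1 h q y * Real.log (W1 h q y) := div_mul_cancel₀ _ hZ0.ne'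
  have ha1 : Real.log (h * gs 0) - 0.59 ≤ a := by
    have e : ∑ y, W1 h q y * (Real.log (h * gs 0) - Real.log (W1 h q y)) =
        (Real.log (h * gs 0) - a) * Z := by
      rw [sub_mul, haZ, hZ, mul_sum, ← sum_sub_distrib]
      exact sum_congr rfl fun y _ => by ring
    rw [e] at z4
    have : (Real.log (h * gs 0) - a) * Z ≤ 0.59 * Z := by linarith
    have := le_of_mul_le_mul_right this hZ0
    linarith
  refine ⟨a, haZ, ?_, ?_, ?_, by linarith, ?_, fun m hm => ⟨?_, ?_⟩, z6⟩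
  · refine le_of_mul_le_mul_right ?_ hZ0
    rw [haZ, hZ, mul_sum]
    refine sum_le_sum fun y _ => ?_
    rw [mul_comm]
    refine mul_le_mul_of_nonneg_right (Real.log_le_log (W1_pos hh0 q y) ?_) (W1_pos hh0 q y).le
    have := W1_le hh0 q y
    nlinarith
  · have h1 : -1 ≤ Real.log (gs 0) := by
      rw [Real.le_log_iff_exp_le (gs_pos 0)]; linarith [exp_neg_one_lt]
    rw [Real.log_mul hh0.ne' (gs_pos 0).ne'] at ha1
    linarith
  · have h1 : h * gs 0 ≤ Real.exp (a - 0.05) * Real.exp 0.64 := by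
      rw [← Real.exp_add, ← Real.log_le_iff_le_exp hg]; linarith
    have h2 := exp_064
    have h3 := Real.exp_pos (a - 0.05)
    nlinarith
  · refine le_trans ?_ (z5.trans_eq (by congr))
    calc 1 / (16 * h * (t : ℝ) ^ 10) * Z ≤ 1 / (16 * h * (t : ℝ) ^ 10) * (2 * q) := by gcongr
      _ = _ := by field_simp; ring
  · have hm' : (m : ℝ) ≤ 3 * (t : ℝ) ^ 30 := by exact_mod_cast hm
    have h1 := one_add_mul_le_pow (a := -(4 * (1 / (t : ℝ) ^ 32))) (by linarith) m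
    have h2 : m * (4 * (1 / (t : ℝ) ^ 32)) ≤ 12 / (t : ℝ) ^ 2 := by
      calc m * (4 * (1 / (t : ℝ) ^ 32)) ≤ 3 * (t : ℝ) ^ 30 * (4 * (1 / (t : ℝ) ^ 32)) := by gcongr
        _ = _ := by field_simp; ring
    calc (1 - 12 / (t : ℝ) ^ 2) * (q : ℝ) ^ m
        ≤ (1 + -(4 * (1 / (t : ℝ) ^ 32))) ^ m * (q : ℝ) ^ m := by gcongr; linarith
      _ = ((1 - 4 * (1 / (t : ℝ) ^ 32)) * q) ^ m := by rw [mul_pow]; ring_nf
      _ ≤ _ := by gcongr; exact mul_nonneg (by linarith) hq0.le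
  · have hm' : (m : ℝ) ≤ 3 * (t : ℝ) ^ 30 := by exact_mod_cast hm
    have h1 : m * (h / q) ≤ (1 : ℕ) / 2 := by
      rw [← mul_div_assoc, div_le_iff₀ hq0]
      have : m * h ≤ 3 * (t : ℝ) ^ 30 * t := by gcongr; linarith
      have e : 3 * (t : ℝ) ^ 30 * t = 3 * (t : ℝ) ^ 31 := by ring
      have : 0 < (t : ℝ) ^ 31 := by positivity
      push_cast; linarith
    have h2 := exp_half_le_two_pow 1
    calc Z ^ m ≤ ((1 + h / q) * q) ^ m := by gcongr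
      _ = (1 + h / q) ^ m * (q : ℝ) ^ m := mul_pow _ _ _
      _ ≤ Real.exp (h / q) ^ m * (q : ℝ) ^ m := by
          gcongr; linarith [Real.add_one_le_exp (h / q)]
      _ ≤ 2 * (q : ℝ) ^ m := by
          rw [← Real.exp_nat_mul]
          gcongr
          exact (Real.exp_le_exp.2 h1).trans (by simpa using h2)

lemma block_m {t q : ℕ} {a lh : ℝ} (ht : 100000 ≤ t) (hl4 : 4 ≤ lh) (hlt : lh ≤ t)
    (ha1 : a ≤ lh) (ha2 : lh - 1.59 ≤ a) (hq1 : (t : ℝ) ^ 30 * lh ≤ Real.log q)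
    (hq2 : Real.log q ≤ (t : ℝ) ^ 30 * lh + 3) :
    ∃ m : ℕ, t ^ 30 ≤ m ∧ m ≤ 3 * t ^ 30 ∧ Real.log q + 2 * (t : ℝ) ^ 17 ≤ m * a ∧
      m * a ≤ Real.log q + 3 * (t : ℝ) ^ 17 := by
  have hT : (100000 : ℝ) ≤ t := by exact_mod_cast ht
  have p1 := pow_step hT (a := 1) (b := 17) (by norm_num)
  have p2 := pow_step hT (a := 17) (b := 30) (by norm_num)
  have ha0 : 0 < a := by linarith
  have q30 : 0 < (t : ℝ) ^ 30 := by positivity
  have q17 : 0 < (t : ℝ) ^ 17 := by positivity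
  have hq0 : 0 ≤ Real.log q := le_trans (by positivity) hq1
  set m := ⌈(Real.log q + 2 * (t : ℝ) ^ 17) / a⌉₊
  have h1 : Real.log q + 2 * (t : ℝ) ^ 17 ≤ m * a := by
    rw [← div_le_iff₀ ha0]; exact Nat.le_ceil _
  have h2 : m * a ≤ Real.log q + 3 * (t : ℝ) ^ 17 := by
    have h3 : (m : ℝ) ≤ (Real.log q + 2 * (t : ℝ) ^ 17) / a + 1 :=
      (Nat.ceil_lt_add_one (by positivity)).le
    have h4 : m * a ≤ ((Real.log q + 2 * (t : ℝ) ^ 17) / a + 1) * a := by gcongr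
    rw [add_mul, div_mul_cancel₀ _ ha0.ne'] at h4
    linarith
  refine ⟨m, ?_, ?_, h1, h2⟩
  · have h3 : (t : ℝ) ^ 30 * a ≤ m * a := by
      have : (t : ℝ) ^ 30 * a ≤ (t : ℝ) ^ 30 * lh := by gcongr
      linarith
    have := le_of_mul_le_mul_right h3 ha0
    exact_mod_cast this
  · have h3 : m * (lh / 2) ≤ 3 * (t : ℝ) ^ 30 * (lh / 2) := by
      have h4 : m * (lh / 2) ≤ m * a := by gcongr; linarith
      have h5 : (t : ℝ) ^ 30 * 4 ≤ (t : ℝ) ^ 30 * lh := by gcongr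
      linarith
    have := le_of_mul_le_mul_right h3 (by linarith)
    exact_mod_cast this

lemma block_q {t E : ℕ} {lh : ℝ} (hl4 : 4 ≤ lh) (hE : E = 1 ∨ E.Prime) :
    ∃ q : ℕ, q.Prime ∧ (E : ZMod q) ≠ 0 ∧ Real.exp ((t : ℝ) ^ 30) ≤ q ∧
      (t : ℝ) ^ 30 * lh ≤ Real.log q ∧ Real.log q ≤ (t : ℝ) ^ 30 * lh + 3 := by
  have h0 := Real.exp_pos ((t : ℝ) ^ 30 * lh)
  have h1 : 1 ≤ Real.exp ((t : ℝ) ^ 30 * lh) := Real.one_le_exp (by positivity)
  obtain ⟨q, hq, h2, h3, h4⟩ := exists_prime_ne (N := ⌈Real.exp ((t : ℝ) ^ 30 * lh)⌉₊)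
    (Nat.ceil_pos.2 h0) hE
  have h5 : Real.exp ((t : ℝ) ^ 30 * lh) ≤ q := (Nat.le_ceil _).trans (by exact_mod_cast h2.le)
  have h6 : (q : ℝ) ≤ 4 * ⌈Real.exp ((t : ℝ) ^ 30 * lh)⌉₊ := by exact_mod_cast h3
  have h7 := Nat.ceil_lt_add_one h0.le
  have hq0 : (0 : ℝ) < q := h0.trans_le h5
  refine ⟨q, hq, h4, le_trans (Real.exp_le_exp.2 ?_) h5, (Real.le_log_iff_exp_le hq0).2 h5, ?_⟩
  · exact le_mul_of_one_le_right (by positivity) (by linarith)
  · rw [Real.log_le_iff_le_exp hq0, Real.exp_add]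
    have h8 : (8 : ℝ) ≤ Real.exp 3 := by
      have := Real.quadratic_le_exp_of_nonneg (x := 3) (by norm_num); linarith
    nlinarith

set_option maxHeartbeats 800000 in
open Classical in
theorem block_at {t : ℕ} {h : ℝ} (ht : 100000 ≤ t) (hh : h ^ 2 = 80 * Real.log t) (h55 : 55 ≤ h)
    (hl4 : 4 ≤ Real.log h) (h32 : 32 * h ≤ t) (ι : Type) [Fintype ι] [DecidableEq ι]
    (L : Finset ι) (E : ℕ) (hE : E = 1 ∨ E.Prime) (hL : 2 ^ 30 * L.card ≤ 3 * t ^ 30) :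
    ∃ (q m : ℕ) (_ : Fact q.Prime) (w : Fin m → ZMod q) (A : ι → Fin m → ZMod q)
      (φ : (Fin m → ZMod q) → ℝ), (q : ℝ) ≤ Real.exp ((t : ℝ) ^ 31) ∧ m ≤ 3 * t ^ 30 ∧
      (∀ y, ∃ (e : Fin m → ℕ) (j : ZMod q), (∀ i, h / q * (e i + 1) ≤ 1 / (t : ℝ) ^ 40) ∧
        (φ y = 0 ∨ φ y = (∏ i, W1 h q ((y - (fun i => (e i : ZMod q)) - j • w) i)) / q ∧
          t ^ 19 ≤ (univ.filter fun i =>
            Act h q ((y - (fun i => (e i : ZMod q)) - j • w) i)).card ∧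
          φ y ≤ Real.exp (4 * (t : ℝ) ^ 17))) ∧
      ∀ y, ∀ J ⊆ L, J.card = 2 * t ^ 18 → (1 - 16 / (t : ℝ) ^ 2) * 2 ^ (2 * t ^ 18) ≤
        ∑ S ∈ J.powerset, φ (y - (E : ZMod q) • ∑ i ∈ S, A i) := by
  have hT : (100000 : ℝ) ≤ t := by exact_mod_cast ht
  have hT0 : (0 : ℝ) < t := by linarith
  have hh0 : 0 < h := by linarith
  have hlh : Real.log h ≤ h := by linarith [Real.log_le_sub_one_of_pos hh0]
  obtain ⟨q, hqp, hEq, hq0, hq1, hq2⟩ := block_q (t := t) hl4 hE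
  have : Fact q.Prime := ⟨hqp⟩
  have hq : (0 : ℝ) < q := by exact_mod_cast hqp.pos
  obtain ⟨a, g1, g2, g3, g4, g5, g6, g7, g8⟩ := gauss_data ht hh h55 h32 hq0
  obtain ⟨m, hm1, hm2, hm3, hm4⟩ := block_m ht hl4 (by linarith) g2 g3 hq1 hq2
  have hm1' : (t : ℝ) ^ 30 ≤ m := by exact_mod_cast hm1
  have hm2' : (m : ℝ) ≤ 3 * (t : ℝ) ^ 30 := by exact_mod_cast hm2
  have p1 := pow_step hT (a := 0) (b := 2) (by norm_num)
  have p2 := pow_step hT (a := 0) (b := 30) (by norm_num)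
  have p3 := pow_step hT (a := 1) (b := 30) (by norm_num)
  have hε : 1 / (t : ℝ) ^ 2 ≤ 1 / 100 := by gcongr; linarith
  have hε0 : 0 < 1 / (t : ℝ) ^ 2 := by positivity
  have e12 : 12 / (t : ℝ) ^ 2 = 12 * (1 / (t : ℝ) ^ 2) := by ring
  have e16 : 16 / (t : ℝ) ^ 2 = 16 * (1 / (t : ℝ) ^ 2) := by ring
  obtain ⟨w, Ψ, φ, μ, b1, b2, b3, b4, b5, b6, b7, b8⟩ := block_mid (m := m) (D := t ^ 19)
    (W1 h q) (Act h q) (Δ := (t : ℝ) ^ 17) (δ' := 1 / (t : ℝ) ^ 2) (W1_pos hh0 q) (by positivity)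
    (by positivity) g1 g5 g6
    (by
      calc 2 * ((t ^ 19 : ℕ) : ℝ) = (t : ℝ) ^ 30 * (1 / (16 * (t / 32) * (t : ℝ) ^ 10)) := by
            push_cast; field_simp; ring
        _ ≤ _ := by gcongr; linarith)
    (g7 m hm2).1 (g7 m hm2).2 (by have := gs_pos 0; positivity) g8 hm3 hm4
    (by
      have h1 : m * 41 / ((t : ℝ) ^ 17) ^ 2 ≤ 123 / (t : ℝ) ^ 2 * (1 / (t : ℝ) ^ 2) := by
        calc m * 41 / ((t : ℝ) ^ 17) ^ 2 ≤ 3 * (t : ℝ) ^ 30 * 41 / ((t : ℝ) ^ 17) ^ 2 := by gcongr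
          _ = _ := by field_simp; ring
      have h2 : 123 / (t : ℝ) ^ 2 ≤ 1 / 2 := by rw [div_le_iff₀ (by positivity)]; linarith
      have h3 : 2 / ((t ^ 19 : ℕ) : ℝ) ≤ 1 / 2 * (1 / (t : ℝ) ^ 2) := by
        have := pow_step hT (a := 2) (b := 19) (by norm_num)
        push_cast
        rw [div_le_iff₀ (by positivity)]
        field_simp
        nlinarith
      nlinarith)
    (by positivity) hε0.le (by linarith)
  have hq45 : t ^ 41 ≤ q := by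
    have : (t : ℝ) ^ 41 ≤ q :=
      (pow_le_exp_mul hT0.le 41).trans ((Real.exp_le_exp.2 (by push_cast; linarith)).trans hq0)
    exact_mod_cast this
  have ht41 : 0 < t ^ 41 := by positivity
  set Lm := q / t ^ 41 with hLm
  have hLm0 : 0 < Lm := Nat.div_pos hq45 ht41
  have hLm1 : Lm * t ^ 41 ≤ q := Nat.div_mul_le_self _ _
  obtain ⟨Y, hY1, hY2⟩ := block_net (q := q) (m := m) (Nn := t ^ 42) hLm0 (by
    have h1 : q < t ^ 41 * (Lm + 1) := Nat.lt_mul_div_succ q ht41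
    calc q ≤ t ^ 41 * (Lm + 1) := h1.le
      _ ≤ t ^ 41 * (Lm * t) := by gcongr; nlinarith
      _ = _ := by ring)
  obtain ⟨A, hA⟩ := glue L (E : ZMod q) hEq Ψ φ μ (1 / (t : ℝ) ^ 2) (Real.exp (-(t : ℝ) ^ 17))
    _ _ _ _ (t ^ 18) (t ^ 16) Y hε0 (by linarith) (by linarith) (Real.exp_pos _) b2 b3 b4 b5 b6 b7
    (glue_beta ht) (glue_prob ht hL hm2 hY1 (by
      refine mul_le_mul_of_nonneg_left ?_ (by norm_num)
      rw [div_le_iff₀ hq]
      calc (0.51 * (h * gs 0)) ^ m ≤ Real.exp (a - 0.05) ^ m := by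
            have := gs_pos 0; gcongr
        _ = Real.exp (m * (a - 0.05)) := (Real.exp_nat_mul _ _).symm
        _ ≤ Real.exp (3 * (t : ℝ) ^ 17 - 0.05 * (t : ℝ) ^ 30 + Real.log q) :=
            Real.exp_le_exp.2 (by linarith)
        _ = _ := by rw [Real.exp_add, Real.exp_log hq]))
  obtain ⟨e, he1, he2⟩ := exists_max_shift (q := q) (m := m) hLm0 φ
  have hsm : ∀ x : ℕ, x < Lm → h / q * (x + 1) ≤ 1 / (t : ℝ) ^ 40 := by
    intro x hx
    have h1 : ((x : ℝ) + 1) * (t : ℝ) ^ 41 ≤ q := by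
      have : (x + 1) * t ^ 41 ≤ q := le_trans (by gcongr; omega) hLm1
      exact_mod_cast this
    rw [div_mul_eq_mul_div, div_le_div_iff₀ hq (by positivity)]
    calc h * (x + 1) * (t : ℝ) ^ 40 ≤ t * (x + 1) * (t : ℝ) ^ 40 := by gcongr; linarith
      _ = (x + 1) * (t : ℝ) ^ 41 := by ring
      _ ≤ _ := by linarith
  refine ⟨q, m, this, w, A, fun y => φ (y - fun i => (e y i : ZMod q)), ?_, hm2, fun y => ?_,
    fun y J hJ hJc => ?_⟩
  · rw [← Real.log_le_iff_le_exp hq]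
    have h1 : (t : ℝ) ^ 30 * Real.log h ≤ (t : ℝ) ^ 30 * (t / 32) := by gcongr; linarith
    have h2 : (t : ℝ) ^ 31 = (t : ℝ) ^ 30 * t := by ring
    nlinarith
  · rcases b8 (y - fun i => (e y i : ZMod q)) with h | ⟨j, hj⟩
    · exact ⟨e y, 0, fun i => hsm _ (he1 y i), Or.inl h⟩
    · exact ⟨e y, j, fun i => hsm _ (he1 y i), Or.inr hj⟩
  · obtain ⟨y₀, hy₀, e₀, he₀, hy⟩ := hY2 y
    refine le_trans ?_ ((hA y₀ hy₀ J hJ hJc).trans (sum_le_sum fun S _ => ?_))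
    · refine mul_le_mul_of_nonneg_right ?_ (by positivity)
      rw [e16]; rw [e12] at b1
      nlinarith
    · refine le_trans (le_of_eq ?_) (he2 _ e₀ he₀)
      rw [← hy]; congr 1; abel

end Vale.Agent.P230.Up
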