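import Vale.Agent.P230.UpShift

/-! A random cyclic glue vector: second moments over a finite field. -/

namespace Vale.Agent.P230.Up

open Finset

section
variable {F V : Type*} [Field F] [AddCommGroup V] [Module F V] [Fintype V]

lemma cos_sum_smul {c : F} (hc : c ≠ 0) (g : V → ℝ) (a : V) :
    ∑ w : V, g (a - c • w) = ∑ t, g t := by
  refine Fintype.sum_bijective (fun w : V => a - c • w) ?_ _ _ fun _ => rfl
  refine Finite.injective_iff_bijective.1 fun w w' h => ?_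
  exact smul_right_injective V hc (sub_right_injective h)

lemma cos_sum_sub (g : V → ℝ) (b : V) : ∑ a : V, g (a - b) = ∑ t, g t :=
  Equiv.sum_comp (Equiv.subRight b) g

lemma cos_pair {j j' : F} (h : j ≠ j') (f g : V → ℝ) :
    ∑ w : V, ∑ a : V, f (a - j • w) * g (a - j' • w) = (∑ t, f t) * ∑ t, g t := by
  have h1 : ∀ w : V, ∑ a : V, f (a - j • w) * g (a - j' • w) =
      ∑ a : V, f a * g (a - (j' - j) • w) := by
    intro w
    rw [← cos_sum_sub (fun a => f a * g (a - (j' - j) • w)) (j • w)]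
    refine sum_congr rfl fun a _ => ?_
    congr 2
    rw [sub_smul]; abel
  rw [sum_congr rfl fun w _ => h1 w, sum_comm, sum_mul]
  refine sum_congr rfl fun a _ => ?_
  rw [← mul_sum, cos_sum_smul (sub_ne_zero.2 h.symm)]

lemma cos_diag (j : F) (f g : V → ℝ) :
    ∑ w : V, ∑ a : V, f (a - j • w) * g (a - j • w) = Fintype.card V * ∑ t, f t * g t := by
  rw [sum_congr rfl fun w _ => cos_sum_sub (fun a => f a * g a) (j • w)]
  simp

variable [Fintype F]

lemma cos_off [DecidableEq F] (f g : V → ℝ) :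
    ∑ w : V, ∑ a : V, ∑ j : F, ∑ j' ∈ univ.erase j, f (a - j • w) * g (a - j' • w) =
      Fintype.card F * (Fintype.card F - 1) * ((∑ t, f t) * ∑ t, g t) := by
  have h1 : ∀ j : F, ∑ w : V, ∑ a : V, ∑ j' ∈ univ.erase j, f (a - j • w) * g (a - j' • w) =
      (Fintype.card F - 1) * ((∑ t, f t) * ∑ t, g t) := by
    intro j
    rw [sum_congr rfl fun w _ => sum_comm, sum_comm,
      sum_congr rfl fun j' hj' => cos_pair (ne_of_mem_erase hj').symm f g, sum_const,
      card_erase_of_mem (mem_univ j), nsmul_eq_mul, card_univ,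
      Nat.cast_sub Fintype.card_pos, Nat.cast_one]
  rw [sum_congr rfl fun w _ => sum_comm, sum_comm, sum_congr rfl fun j _ => h1 j]
  simp [mul_assoc]

lemma cos_full (f g : V → ℝ) :
    ∑ w : V, ∑ a : V, (∑ j : F, f (a - j • w)) * ∑ j : F, g (a - j • w) =
      Fintype.card F * (Fintype.card V * ∑ t, f t * g t) +
        Fintype.card F * (Fintype.card F - 1) * ((∑ t, f t) * ∑ t, g t) := by
  classical
  rw [← cos_off f g]
  have h1 : (Fintype.card F : ℝ) * (Fintype.card V * ∑ t, f t * g t) =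
      ∑ w : V, ∑ a : V, ∑ j : F, f (a - j • w) * g (a - j • w) := by
    rw [sum_congr rfl fun w _ => sum_comm, sum_comm, sum_congr rfl fun j _ => cos_diag j f g]
    simp
  rw [h1, ← sum_add_distrib]
  refine sum_congr rfl fun w _ => ?_
  rw [← sum_add_distrib]
  refine sum_congr rfl fun a _ => ?_
  rw [← sum_add_distrib, sum_mul]
  refine sum_congr rfl fun j _ => ?_
  rw [mul_sum, ← add_sum_erase _ _ (mem_univ j)]

/-- Autocorrelation of the sum along the line spanned by `w`. -/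
lemma cos_corr (ψ : V → ℝ) (w a : V) :
    ∑ y : V, (∑ j : F, ψ (y - j • w)) * ∑ j : F, ψ (y - a - j • w) =
      Fintype.card F * ∑ k : F, ∑ y, ψ y * ψ (y - (a - k • w)) := by
  have h1 : ∀ j' : F, ∑ y : V, ∑ j : F, ψ (y - j • w) * ψ (y - a - j' • w) =
      ∑ k : F, ∑ y, ψ y * ψ (y - (a - k • w)) := by
    intro j'
    rw [sum_comm, ← Equiv.sum_comp (Equiv.subRight j')
      (fun k : F => ∑ y, ψ y * ψ (y - (a - k • w)))]
    refine sum_congr rfl fun j _ => ?_
    rw [← cos_sum_sub (fun y => ψ y * ψ (y - (a - (Equiv.subRight j' j) • w))) (j • w)]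
    refine sum_congr rfl fun y _ => ?_
    congr 2
    rw [Equiv.subRight_apply, sub_smul]; abel
  calc ∑ y : V, (∑ j : F, ψ (y - j • w)) * ∑ j : F, ψ (y - a - j • w)
      = ∑ y : V, ∑ j' : F, ∑ j : F, ψ (y - j • w) * ψ (y - a - j' • w) := by
        refine sum_congr rfl fun y _ => ?_
        rw [mul_sum]
        exact sum_congr rfl fun j' _ => sum_mul _ _ _
    _ = _ := by
        rw [sum_comm, sum_congr rfl fun j' _ => h1 j']
        simp

end

lemma cos_pick {V : Type*} [Fintype V] [Nonempty V] (T₁ T₂ T₃ : V → ℝ) (B₁ B₂ B₃ : ℝ)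
    (p₁ : 0 < B₁) (p₂ : 0 < B₂) (p₃ : 0 < B₃) (n₁ : ∀ w, 0 ≤ T₁ w) (n₂ : ∀ w, 0 ≤ T₂ w)
    (n₃ : ∀ w, 0 ≤ T₃ w) (s₁ : ∑ w, T₁ w ≤ B₁ * Fintype.card V)
    (s₂ : ∑ w, T₂ w ≤ B₂ * Fintype.card V) (s₃ : ∑ w, T₃ w ≤ B₃ * Fintype.card V) :
    ∃ w, T₁ w ≤ 3 * B₁ ∧ T₂ w ≤ 3 * B₂ ∧ T₃ w ≤ 3 * B₃ := by
  have h : ∑ w, (T₁ w / B₁ + T₂ w / B₂ + T₃ w / B₃) ≤ ∑ _w : V, (3 : ℝ) := by
    rw [sum_add_distrib, sum_add_distrib, ← sum_div, ← sum_div, ← sum_div]
    have a₁ : (∑ w, T₁ w) / B₁ ≤ Fintype.card V := by rw [div_le_iff₀ p₁]; linarith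
    have a₂ : (∑ w, T₂ w) / B₂ ≤ Fintype.card V := by rw [div_le_iff₀ p₂]; linarith
    have a₃ : (∑ w, T₃ w) / B₃ ≤ Fintype.card V := by rw [div_le_iff₀ p₃]; linarith
    simp only [sum_const, card_univ, nsmul_eq_mul]
    linarith
  obtain ⟨w, -, hw⟩ := exists_le_of_sum_le univ_nonempty h
  have b₁ := div_nonneg (n₁ w) p₁.le
  have b₂ := div_nonneg (n₂ w) p₂.le
  have b₃ := div_nonneg (n₃ w) p₃.le
  refine ⟨w, ?_, ?_, ?_⟩
  · rw [← div_le_iff₀ p₁]; linarith
  · rw [← div_le_iff₀ p₂]; linarith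
  · rw [← div_le_iff₀ p₃]; linarith

theorem coset {F V : Type*} [Field F] [Fintype F] [AddCommGroup V] [Module F V] [Fintype V]
    (ψ : V → ℝ) (G : Finset V) (hψ : ∀ y, 0 ≤ ψ y) (hG : ∀ y ∉ G, ψ y = 0)
    (μ M κ g : ℝ) (hμ0 : 0 < μ) (hM0 : 0 < M) (hκ0 : 0 < κ) (hg0 : 0 < g)
    (hμ : ∑ y, ψ y = μ * Fintype.card V) (hM : ∀ y, ψ y ≤ M)
    (hκ : ∑ a, (∑ y, ψ y * ψ (y - a)) ^ 2 ≤ κ * (Fintype.card V : ℝ) ^ 3)
    (hg : (G.card : ℝ) ≤ g * Fintype.card V) :
    ∃ (w : V) (Ψ φ : V → ℝ), (∀ y, 0 ≤ φ y) ∧ (∀ y, φ y ≤ Ψ y) ∧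
      ∑ y, Ψ y = μ * Fintype.card V ∧
      ∑ y, Ψ y ^ 2 ≤ 3 * (M * μ / Fintype.card F + μ ^ 2) * Fintype.card V ∧
      ∑ y, (Ψ y - φ y) ≤ 3 * (Fintype.card F * μ * g) * Fintype.card V ∧
      ∑ a, ((∑ y, Ψ y * Ψ (y - a)) / Fintype.card V - μ ^ 2) ^ 2 ≤
        3 * (κ / Fintype.card F) * Fintype.card V ∧
      ∀ y, φ y = 0 ∨ ∃ j : F, y - j • w ∈ G ∧ φ y = ψ (y - j • w) / Fintype.card F := by
  classical
  have hq : (0 : ℝ) < Fintype.card F := by exact_mod_cast Fintype.card_pos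
  have hN : (0 : ℝ) < Fintype.card V := by exact_mod_cast Fintype.card_pos
  set q : ℝ := (Fintype.card F : ℝ) with hqd
  set N : ℝ := (Fintype.card V : ℝ) with hNd
  let S : V → V → ℝ := fun w y => ∑ j : F, ψ (y - j • w)
  let Ψ : V → V → ℝ := fun w y => S w y / q
  let φ : V → V → ℝ := fun w y =>
    if (univ.filter fun j : F => y - j • w ∈ G).card ≤ 1 then Ψ w y else 0
  let D : V → ℝ := fun a => (∑ y, ψ y * ψ (y - a)) / N - μ ^ 2
  have hS0 : ∀ w y, 0 ≤ S w y := fun w y => sum_nonneg fun j _ => hψ _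
  have hΨ0 : ∀ w y, 0 ≤ Ψ w y := fun w y => div_nonneg (hS0 w y) hq.le
  have hφ0 : ∀ w y, 0 ≤ φ w y := by
    intro w y
    simp only [φ]
    split_ifs
    · exact hΨ0 w y
    · exact le_rfl
  have hφΨ : ∀ w y, φ w y ≤ Ψ w y := by
    intro w y
    simp only [φ]
    split_ifs
    · exact le_rfl
    · exact hΨ0 w y
  have s₁ : ∑ w, ∑ y, Ψ w y ^ 2 ≤ (M * μ / q + μ ^ 2) * N * N := by
    have e1 : ∑ w, ∑ y, Ψ w y ^ 2 = (∑ w, ∑ y, S w y * S w y) / q ^ 2 := by
      rw [sum_div]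
      refine sum_congr rfl fun w _ => ?_
      rw [sum_div]
      refine sum_congr rfl fun y _ => ?_
      simp only [Ψ]; ring
    have e2 : ∑ t, ψ t * ψ t ≤ M * (μ * N) := by
      rw [← hμ, mul_sum]
      exact sum_le_sum fun t _ => mul_le_mul_of_nonneg_right (hM t) (hψ t)
    rw [e1, cos_full ψ ψ, hμ, div_le_iff₀ (by positivity)]
    have e3 : (M * μ / q + μ ^ 2) * N * N * q ^ 2 =
        q * (N * (M * (μ * N))) + q * q * (μ * N * (μ * N)) := by
      field_simp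
    rw [e3, ← hqd, ← hNd]
    have e4 : q * (N * ∑ t, ψ t * ψ t) ≤ q * (N * (M * (μ * N))) := by gcongr
    have e5 : q * (q - 1) * (μ * N * (μ * N)) ≤ q * q * (μ * N * (μ * N)) := by
      gcongr; linarith
    linarith
  have s₂ : ∑ w, ∑ y, (Ψ w y - φ w y) ≤ q * μ * g * N * N := by
    let ind : V → ℝ := fun y => if y ∈ G then 1 else 0
    have hi0 : ∀ y, 0 ≤ ind y := by
      intro y; simp only [ind]; split_ifs <;> norm_num
    have e1 : ∀ w y, Ψ w y - φ w y ≤
        (∑ j : F, ∑ j' ∈ univ.erase j, ψ (y - j • w) * ind (y - j' • w)) / q := by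
      intro w y
      simp only [φ]
      split_ifs with h
      · rw [sub_self]
        exact div_nonneg (sum_nonneg fun j _ => sum_nonneg fun j' _ =>
          mul_nonneg (hψ _) (hi0 _)) hq.le
      · rw [sub_zero]
        refine div_le_div_of_nonneg_right (sum_le_sum fun j _ => ?_) hq.le
        rw [← mul_sum]
        refine le_mul_of_one_le_right (hψ _) ?_
        obtain ⟨j', hj', hne⟩ := exists_mem_ne (not_le.1 h) j
        have h1 : ind (y - j' • w) = 1 := by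
          simp only [ind]; rw [if_pos (mem_filter.1 hj').2]
        rw [← h1]
        exact single_le_sum (f := fun j' : F => ind (y - j' • w)) (fun _ _ => hi0 _)
          (mem_erase.2 ⟨hne, mem_univ _⟩)
    have e2 : ∑ t, ind t = G.card := by simp [ind]
    calc ∑ w, ∑ y, (Ψ w y - φ w y)
        ≤ ∑ w : V, ∑ y : V,
          (∑ j : F, ∑ j' ∈ univ.erase j, ψ (y - j • w) * ind (y - j' • w)) / q :=
          sum_le_sum fun w _ => sum_le_sum fun y _ => e1 w y
      _ = (∑ w : V, ∑ y : V,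
          ∑ j : F, ∑ j' ∈ univ.erase j, ψ (y - j • w) * ind (y - j' • w)) / q := by
          rw [sum_div]
          exact sum_congr rfl fun w _ => (sum_div _ _ _).symm
      _ = (q - 1) * (μ * N * G.card) := by
          rw [cos_off, hμ, e2, ← hqd]; field_simp
      _ ≤ q * (μ * N * (g * N)) := by gcongr; linarith
      _ = _ := by ring
  have hcorr : ∀ w a, (∑ y, Ψ w y * Ψ w (y - a)) / N - μ ^ 2 = (∑ k : F, D (a - k • w)) / q := by
    intro w a
    have e1 : ∑ y, Ψ w y * Ψ w (y - a) = (∑ y, S w y * S w (y - a)) / q ^ 2 := by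
      rw [sum_div]
      refine sum_congr rfl fun y _ => ?_
      simp only [Ψ]; ring
    rw [e1, cos_corr ψ w a]
    simp only [D]
    rw [sum_sub_distrib, ← sum_div, sum_const, card_univ, nsmul_eq_mul, ← hqd]
    field_simp
  have s₃ : ∑ w, ∑ a, ((∑ y, Ψ w y * Ψ w (y - a)) / N - μ ^ 2) ^ 2 ≤ κ / q * N * N := by
    have e0 : ∑ a, ∑ y, ψ y * ψ (y - a) = μ * N * (μ * N) := by
      rw [sum_comm, ← hμ, sum_mul]
      refine sum_congr rfl fun y _ => ?_
      rw [← mul_sum]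
      exact congrArg _ (Equiv.sum_comp (Equiv.subLeft y) ψ)
    have e1 : ∑ a, D a = 0 := by
      simp only [D]
      rw [sum_sub_distrib, ← sum_div, e0, sum_const, card_univ, nsmul_eq_mul, ← hNd]
      field_simp
      ring
    have e2 : ∑ a, D a * D a ≤ κ * N := by
      have e3 : ∑ a, D a * D a = (∑ a, (∑ y, ψ y * ψ (y - a)) ^ 2) / N ^ 2 -
          2 * μ ^ 2 * ∑ a, D a - N * μ ^ 4 := by
        rw [sum_div, mul_sum, ← sum_sub_distrib, hNd, ← nsmul_eq_mul, ← card_univ, ← sum_const,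
          ← sum_sub_distrib]
        refine sum_congr rfl fun a _ => ?_
        simp only [D, card_univ, ← hNd]
        ring
      have e4 : (∑ a, (∑ y, ψ y * ψ (y - a)) ^ 2) / N ^ 2 ≤ κ * N := by
        rw [div_le_iff₀ (by positivity)]; linarith
      have e5 : 0 ≤ N * μ ^ 4 := by positivity
      rw [e3, e1]; linarith
    have e6 : ∑ w, ∑ a, ((∑ y, Ψ w y * Ψ w (y - a)) / N - μ ^ 2) ^ 2 =
        (∑ w : V, ∑ a : V, (∑ k : F, D (a - k • w)) * ∑ k : F, D (a - k • w)) / q ^ 2 := by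
      rw [sum_div]
      refine sum_congr rfl fun w _ => ?_
      rw [sum_div]
      refine sum_congr rfl fun a _ => ?_
      rw [hcorr]; ring
    rw [e6, cos_full D D, e1, div_le_iff₀ (by positivity), ← hqd, ← hNd]
    have e7 : κ / q * N * N * q ^ 2 = q * (N * (κ * N)) := by field_simp
    have e8 : q * (N * ∑ a, D a * D a) ≤ q * (N * (κ * N)) := by gcongr
    rw [e7]; linarith
  obtain ⟨w, h₁, h₂, h₃⟩ := cos_pick (fun w => ∑ y, Ψ w y ^ 2) (fun w => ∑ y, (Ψ w y - φ w y))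
    (fun w => ∑ a, ((∑ y, Ψ w y * Ψ w (y - a)) / N - μ ^ 2) ^ 2)
    ((M * μ / q + μ ^ 2) * N) (q * μ * g * N) (κ / q * N) (by positivity) (by positivity)
    (by positivity) (fun w => sum_nonneg fun y _ => sq_nonneg _)
    (fun w => sum_nonneg fun y _ => sub_nonneg.2 (hφΨ w y))
    (fun w => sum_nonneg fun y _ => sq_nonneg _) s₁ s₂ s₃
  refine ⟨w, Ψ w, φ w, hφ0 w, hφΨ w, ?_, by linarith, by linarith, by linarith, fun y => ?_⟩
  · simp only [Ψ, S]
    rw [← sum_div, sum_comm, sum_congr rfl fun j _ => cos_sum_sub ψ (j • w), hμ, sum_const,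
      card_univ, nsmul_eq_mul, ← hqd]
    field_simp
  · simp only [φ]
    split_ifs with h
    · by_cases h0 : ∃ j : F, y - j • w ∈ G
      · obtain ⟨j, hj⟩ := h0
        refine Or.inr ⟨j, hj, ?_⟩
        simp only [Ψ, S]
        rw [sum_eq_single j (fun j' _ hne => hG _ fun hj' => hne ?_) (by simp)]
        exact card_le_one.1 h j' (by simpa using hj') j (by simpa using hj)
      · left
        simp only [Ψ, S]
        rw [sum_eq_zero fun j _ => hG _ fun hj => h0 ⟨j, hj⟩, zero_div]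
    · exact Or.inl rfl

end Vale.Agent.P230.Up
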