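import Vale.Agent.P230.UpTyp
import Vale.Agent.P230.UpCoset

/-! One glued block: abstract steps. -/

namespace Vale.Agent.P230.Up

open Finset

lemma block_mid {q m D : ℕ} [Fact q.Prime] (W : ZMod q → ℝ) (act : ZMod q → Prop)
    [DecidablePred act] {a Δ σ c p κ₁ δ δ' : ℝ} (hW : ∀ y, 0 < W y) (hΔ : 0 < Δ) (hD0 : 0 < D)
    (ha : a * ∑ y, W y = ∑ y, W y * Real.log (W y))
    (hσ : ∑ y, W y * (Real.log (W y) - c) ^ 2 ≤ σ * ∑ y, W y)
    (hp : p * ∑ y, W y ≤ ∑ y ∈ univ.filter act, W y) (hD : 2 * (D : ℝ) ≤ m * p)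
    (hZ1 : (1 - δ) * (q : ℝ) ^ m ≤ (∑ y, W y) ^ m) (hZ2 : (∑ y, W y) ^ m ≤ 2 * (q : ℝ) ^ m)
    (hκ0 : 0 < κ₁) (hκ : ∑ a, (∑ y, W y * W (y - a)) ^ 2 ≤ κ₁ * (q : ℝ) ^ 3)
    (hm1 : Real.log q + 2 * Δ ≤ m * a) (hm2 : m * a ≤ Real.log q + 3 * Δ)
    (hδ' : m * σ / Δ ^ 2 + 2 / D ≤ δ') (hδ0 : 0 ≤ δ) (hδ'0 : 0 ≤ δ') (hδ : δ + δ' < 1) :
    ∃ (w : Fin m → ZMod q) (Ψ φ : (Fin m → ZMod q) → ℝ) (μ : ℝ), 1 - δ - δ' ≤ μ ∧
      (∀ y, 0 ≤ φ y) ∧ (∀ y, φ y ≤ Ψ y) ∧ ∑ y, Ψ y = μ * Fintype.card (Fin m → ZMod q) ∧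
      ∑ y, Ψ y ^ 2 ≤ 18 * Real.exp (4 * Δ) * Fintype.card (Fin m → ZMod q) ∧
      ∑ y, (Ψ y - φ y) ≤ 12 * Real.exp (-Δ) * Fintype.card (Fin m → ZMod q) ∧
      ∑ a, ((∑ y, Ψ y * Ψ (y - a)) / Fintype.card (Fin m → ZMod q) - μ ^ 2) ^ 2 ≤
        3 * (κ₁ ^ m / q) * Fintype.card (Fin m → ZMod q) ∧
      ∀ y, φ y = 0 ∨ ∃ j : ZMod q, φ y = (∏ i, W ((y - j • w) i)) / q ∧
        D ≤ (univ.filter fun i => act ((y - j • w) i)).card ∧ φ y ≤ Real.exp (4 * Δ) := by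
  classical
  have hq : (0 : ℝ) < q := by exact_mod_cast (Fact.out : q.Prime).pos
  have hN : (Fintype.card (Fin m → ZMod q) : ℝ) = (q : ℝ) ^ m := by simp
  have hqm : (0 : ℝ) < (q : ℝ) ^ m := by positivity
  let G : Finset (Fin m → ZMod q) := univ.filter fun y =>
    |∑ i, Real.log (W (y i)) - m * a| ≤ Δ ∧ D ≤ (univ.filter fun i => act (y i)).card
  have hpos : ∀ y : Fin m → ZMod q, 0 < ∏ i, W (y i) := fun y => prod_pos fun i _ => hW _
  have hexp : ∀ y : Fin m → ZMod q, ∏ i, W (y i) = Real.exp (∑ i, Real.log (W (y i))) := by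
    intro y
    rw [Real.exp_sum]
    exact prod_congr rfl fun i _ => (Real.exp_log (hW _)).symm
  have hup : ∀ y ∈ G, ∏ i, W (y i) ≤ q * Real.exp (4 * Δ) := by
    intro y hy
    have := (abs_le.1 (mem_filter.1 hy).2.1).2
    rw [hexp, ← Real.exp_log hq, ← Real.exp_add]
    exact Real.exp_le_exp.2 (by linarith)
  have hlo : ∀ y ∈ G, q * Real.exp Δ ≤ ∏ i, W (y i) := by
    intro y hy
    have := (abs_le.1 (mem_filter.1 hy).2.1).1
    rw [hexp, ← Real.exp_log hq, ← Real.exp_add]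
    exact Real.exp_le_exp.2 (by linarith)
  let ψ : (Fin m → ZMod q) → ℝ := fun y => if y ∈ G then ∏ i, W (y i) else 0
  have hψ0 : ∀ y, 0 ≤ ψ y := fun y => by
    simp only [ψ]; split_ifs
    exacts [(hpos y).le, le_rfl]
  have hψW : ∀ y, ψ y ≤ ∏ i, W (y i) := fun y => by
    simp only [ψ]; split_ifs
    exacts [le_rfl, (hpos y).le]
  have hsum : ∑ y, ψ y = ∑ y ∈ G, ∏ i, W (y i) := by simp [ψ, sum_ite_mem]
  have hG2 : ∑ y ∈ G, ∏ i, W (y i) ≤ 2 * (q : ℝ) ^ m := by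
    refine le_trans ?_ hZ2
    rw [← sum_prod_pow]
    exact sum_le_sum_of_subset_of_nonneg (subset_univ _) fun y _ _ => (hpos y).le
  have htyp := typical W act m D hW hΔ hD0 ha hσ hp hD G fun y h1 h2 =>
    mem_filter.2 ⟨mem_univ _, h1, h2⟩
  set μ := (∑ y ∈ G, ∏ i, W (y i)) / (q : ℝ) ^ m with hμ
  have hμ2 : μ ≤ 2 := by rw [hμ, div_le_iff₀ hqm]; exact hG2
  have hμ1 : 1 - δ - δ' ≤ μ := by
    rw [hμ, le_div_iff₀ hqm]
    refine le_trans ?_ htyp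
    have h1 : (1 - δ') * ((1 - δ) * (q : ℝ) ^ m) ≤ (1 - δ') * (∑ y, W y) ^ m :=
      mul_le_mul_of_nonneg_left hZ1 (by linarith)
    have h2 : 0 ≤ (∑ y, W y) ^ m := pow_nonneg (sum_nonneg fun y _ => (hW y).le) m
    have h3 : (1 - δ') * (∑ y, W y) ^ m ≤ (1 - m * σ / Δ ^ 2 - 2 / D) * (∑ y, W y) ^ m :=
      mul_le_mul_of_nonneg_right (by linarith) h2
    have h4 : 0 ≤ δ * δ' * (q : ℝ) ^ m := by positivity
    have h5 : (1 - δ') * ((1 - δ) * (q : ℝ) ^ m) =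
      (1 - δ - δ') * (q : ℝ) ^ m + δ * δ' * (q : ℝ) ^ m := by ring
    linarith
  have hμ0 : 0 < μ := by linarith
  obtain ⟨w, Ψ, φ, h1, h2, h3, h4, h5, h6, h7⟩ := coset (F := ZMod q) ψ G hψ0
    (fun y hy => by simp [ψ, hy]) μ (q * Real.exp (4 * Δ)) (κ₁ ^ m) (2 * Real.exp (-Δ) / q) hμ0
    (by positivity) (by positivity) (by positivity)
    (by rw [hsum, hN, hμ, div_mul_cancel₀ _ hqm.ne'])
    (fun y => by
      simp only [ψ]; split_ifs with h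
      exacts [hup y h, by positivity])
    (by
      calc ∑ a, (∑ y, ψ y * ψ (y - a)) ^ 2
          ≤ ∑ a : Fin m → ZMod q, (∑ y : Fin m → ZMod q,
              (∏ i, W (y i)) * ∏ i, W ((y - a) i)) ^ 2 := by
            refine sum_le_sum fun a _ => pow_le_pow_left₀
              (sum_nonneg fun y _ => mul_nonneg (hψ0 _) (hψ0 _)) (sum_le_sum fun y _ => ?_) 2
            exact mul_le_mul (hψW _) (hψW _) (hψ0 _) (hpos _).le
        _ = _ := energy_prod W m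
        _ ≤ (κ₁ * (q : ℝ) ^ 3) ^ m :=
            pow_le_pow_left₀ (sum_nonneg fun a _ => sq_nonneg _) hκ m
        _ = _ := by rw [hN, mul_pow, ← pow_mul, ← pow_mul, mul_comm 3 m])
    (by
      have h1 : (G.card : ℝ) * (q * Real.exp Δ) ≤ ∑ y ∈ G, ∏ i, W (y i) := by
        have := card_nsmul_le_sum G _ _ hlo
        rwa [nsmul_eq_mul] at this
      rw [hN, Real.exp_neg]
      have h2 := Real.exp_pos Δ
      refine le_of_mul_le_mul_right ?_ (a := q * Real.exp Δ) (by positivity)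
      refine (h1.trans hG2).trans_eq ?_
      field_simp)
  have hcF : (Fintype.card (ZMod q) : ℝ) = q := by simp
  rw [hcF] at h4 h5 h6 h7
  have hN0 : (0 : ℝ) ≤ Fintype.card (Fin m → ZMod q) := by positivity
  refine ⟨w, Ψ, φ, μ, hμ1, h1, h2, h3, h4.trans ?_, h5.trans ?_, h6, fun y => ?_⟩
  · refine mul_le_mul_of_nonneg_right ?_ hN0
    have e : q * Real.exp (4 * Δ) * μ / q = Real.exp (4 * Δ) * μ := by field_simp
    have h8 : 1 ≤ Real.exp (4 * Δ) := Real.one_le_exp (by linarith)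
    have h9 : Real.exp (4 * Δ) * μ ≤ Real.exp (4 * Δ) * 2 := by gcongr
    have h10 : μ ^ 2 ≤ 2 ^ 2 := by gcongr
    rw [e]
    linarith
  · refine mul_le_mul_of_nonneg_right ?_ hN0
    have e : q * μ * (2 * Real.exp (-Δ) / q) = 2 * μ * Real.exp (-Δ) := by field_simp
    have h8 := Real.exp_pos (-Δ)
    have h9 : 2 * μ * Real.exp (-Δ) ≤ 2 * 2 * Real.exp (-Δ) := by gcongr
    rw [e]
    linarith
  · rcases h7 y with h | ⟨j, hj, h⟩
    · exact Or.inl h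
    · have e : ψ (y - j • w) = ∏ i, W ((y - j • w) i) := by simp only [ψ, hj, if_true]
      refine Or.inr ⟨j, by rw [h, e], (mem_filter.1 hj).2.2, ?_⟩
      rw [h, e, div_le_iff₀ hq, mul_comm]
      exact hup _ hj

lemma block_net {q m Lm Nn : ℕ} [NeZero q] (hL : 0 < Lm) (hN : q ≤ Lm * Nn) :
    ∃ Y : Finset (Fin m → ZMod q), Y.card ≤ Nn ^ m ∧ ∀ y : Fin m → ZMod q, ∃ y₀ ∈ Y,
      ∃ e : Fin m → ℕ, (∀ i, e i < Lm) ∧ y - (fun i => (e i : ZMod q)) = y₀ := by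
  classical
  refine ⟨Fintype.piFinset fun _ => (range Nn).image fun a => ((Lm * a : ℕ) : ZMod q), ?_,
    fun y => ⟨fun i => ((Lm * ((y i).val / Lm) : ℕ) : ZMod q), ?_, fun i => (y i).val % Lm,
      fun i => Nat.mod_lt _ hL, ?_⟩⟩
  · rw [Fintype.card_piFinset, prod_const, card_univ, Fintype.card_fin]
    exact Nat.pow_le_pow_left (card_image_le.trans (card_range _).le) m
  · refine Fintype.mem_piFinset.2 fun i => mem_image.2 ⟨_, mem_range.2 ?_, rfl⟩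
    exact Nat.div_lt_of_lt_mul ((ZMod.val_lt _).trans_le hN)
  · funext i
    have h := Nat.div_add_mod (y i).val Lm
    have h2 : y i = ((Lm * ((y i).val / Lm) + (y i).val % Lm : ℕ) : ZMod q) := by
      rw [h, ZMod.natCast_zmod_val]
    rw [Pi.sub_apply, sub_eq_iff_eq_add, ← Nat.cast_add, ← h2]

lemma exists_max_shift {q m Lm : ℕ} (hL : 0 < Lm) (φ : (Fin m → ZMod q) → ℝ) :
    ∃ e : (Fin m → ZMod q) → Fin m → ℕ, (∀ y i, e y i < Lm) ∧ ∀ y (e' : Fin m → ℕ),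
      (∀ i, e' i < Lm) → φ (y - fun i => (e' i : ZMod q)) ≤ φ (y - fun i => (e y i : ZMod q)) := by
  have h : ∀ y : Fin m → ZMod q, ∃ e ∈ Fintype.piFinset fun _ : Fin m => range Lm,
      ∀ e' ∈ Fintype.piFinset fun _ : Fin m => range Lm,
        φ (y - fun i => (e' i : ZMod q)) ≤ φ (y - fun i => (e i : ZMod q)) := fun y =>
    exists_max_image _ (fun e : Fin m → ℕ => φ (y - fun i => (e i : ZMod q)))
      ⟨fun _ => 0, by simp [hL]⟩
  choose e he1 he2 using h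
  exact ⟨e, fun y i => mem_range.1 (Fintype.mem_piFinset.1 (he1 y) i), fun y e' h' =>
    he2 y e' (Fintype.mem_piFinset.2 fun i => mem_range.2 (h' i))⟩

lemma exists_prime_ne {N E : ℕ} (hN : 1 ≤ N) (hE : E = 1 ∨ E.Prime) :
    ∃ q : ℕ, q.Prime ∧ N < q ∧ q ≤ 4 * N ∧ (E : ZMod q) ≠ 0 := by
  obtain ⟨q₁, h1, h2, h3⟩ := Nat.exists_prime_lt_and_le_two_mul N (by omega)
  obtain ⟨q₂, h4, h5, h6⟩ := Nat.exists_prime_lt_and_le_two_mul (2 * N) (by omega)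
  have key : ∀ q : ℕ, q.Prime → q ≠ E → (E : ZMod q) ≠ 0 := by
    intro q hq hne h
    rw [ZMod.natCast_eq_zero_iff] at h
    rcases hE with rfl | hE
    · exact hq.one_lt.ne' (Nat.dvd_one.1 h)
    · exact hne ((Nat.prime_dvd_prime_iff_eq hq hE).1 h)
  by_cases h : q₁ = E
  · exact ⟨q₂, h4, by omega, by omega, key _ h4 (by omega)⟩
  · exact ⟨q₁, h1, h2, by omega, key _ h1 h⟩

end Vale.Agent.P230.Up
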