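import Vale.Agent.P230.UpShift

/-! A Bonferroni inequality over linearly independent subsets. -/

namespace Vale.Agent.P230.Up

open Finset MeasureTheory ProbabilityTheory

section
variable {α ι F V : Type*} [Fintype ι] [Field F] [AddCommGroup V] [Module F V] [Fintype V]

open Classical in
/-- The weight of a subset in the Bonferroni sum. -/
noncomputable def bfW (S : Finset α) (v : α → ι → F) (r : ℕ) (J : Finset α) : ℝ :=
  if J.card ≤ r ∧ LinearIndepOn F v (J : Set α) then
    (-1) ^ J.card + ((S.filter fun e => e ∉ J ∧ v e ∈ Submodule.span F (v '' (J : Set α))).card : ℝ)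
  else 0

omit [Fintype ι] in
open Classical in
lemma bf_point (S X : Finset α) (v : α → ι → F) {r : ℕ} (hr : Even r) (hX : X ⊆ S) :
    (if X = ∅ then (1 : ℝ) else 0) ≤ ∑ J ∈ X.powerset, bfW S v r J := by
  rcases X.eq_empty_or_nonempty with rfl | ⟨e, he⟩
  · simp [bfW]
  · rw [if_neg (ne_empty_of_mem he), ← insert_erase he, sum_powerset_insert (notMem_erase e X),
      ← sum_add_distrib]
    refine sum_nonneg fun J hJ => ?_
    have heJ : e ∉ J := fun h => notMem_erase e X (mem_powerset.1 hJ h)
    have hc : (insert e J).card = J.card + 1 := card_insert_of_notMem heJ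
    have hi := linearIndepOn_insert (K := F) (s := (J : Set α)) (a := e) (f := v)
      (by simpa using heJ)
    unfold bfW
    rw [hc, coe_insert, hi]
    by_cases h1 : J.card + 1 ≤ r ∧ LinearIndepOn F v (J : Set α) ∧
        v e ∉ Submodule.span F (v '' (J : Set α))
    · rw [if_pos h1, if_pos ⟨by omega, h1.2.1⟩, pow_succ]
      have := Nat.cast_nonneg (α := ℝ)
        (S.filter fun e => e ∉ J ∧ v e ∈ Submodule.span F (v '' (J : Set α))).card
      have := Nat.cast_nonneg (α := ℝ)
        (S.filter fun e' => e' ∉ insert e J ∧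
          v e' ∈ Submodule.span F (v '' (insert e (J : Set α)))).card
      linarith
    · rw [if_neg h1, add_zero]
      split_ifs with h2
      · by_cases h3 : v e ∈ Submodule.span F (v '' (J : Set α))
        · have h4 : 1 ≤ (S.filter fun e => e ∉ J ∧
              v e ∈ Submodule.span F (v '' (J : Set α))).card :=
            card_pos.2 ⟨e, mem_filter.2 ⟨hX he, heJ, h3⟩⟩
          have h5 : (1 : ℝ) ≤ (S.filter fun e => e ∉ J ∧
              v e ∈ Submodule.span F (v '' (J : Set α))).card := by exact_mod_cast h4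
          have h6 : (-1 : ℝ) ≤ (-1) ^ J.card := by
            rcases neg_one_pow_eq_or ℝ J.card with h | h <;> simp [h]
          linarith
        · have h4 : J.card = r := by
            by_contra h5
            exact h1 ⟨by omega, h2.2, h3⟩
          rw [h4, hr.neg_one_pow]
          positivity
      · exact le_rfl

open Classical in
lemma bf_count (v : α → ι → F) (J : Finset α) (hJ : LinearIndepOn F v (J : Set α)) :
    ∑ A : ι → V, (if ∀ x ∈ J, pr (v x) A = 0 then (1 : ℝ) else 0) =
      Fintype.card (ι → V) * (1 / Fintype.card V) ^ J.card := by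
  induction J using Finset.induction_on with
  | empty => simp
  | insert e J he ih =>
    rw [coe_insert, linearIndepOn_insert (by simpa using he)] at hJ
    have hV : (0 : ℝ) < Fintype.card V := by exact_mod_cast Fintype.card_pos
    have := shift_indep (V := V) hJ.2 (fun A => if ∀ x ∈ J, pr (v x) A = 0 then (1 : ℝ) else 0)
      (fun A A' h => by
        have : ∀ x ∈ J, pr (v x) A = pr (v x) A' := fun x hx =>
          h _ (Submodule.subset_span ⟨x, hx, rfl⟩)
        exact if_congr (forall₂_congr fun x hx => by rw [this x hx]) rfl rfl)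
      (fun t => if t = 0 then 1 else 0)
    rw [ih hJ.1, sum_ite_eq', if_pos (mem_univ _), mul_one] at this
    rw [card_insert_of_notMem he, pow_succ, ← mul_assoc, ← this, mul_one_div,
      mul_div_cancel_right₀ _ hV.ne']
    refine sum_congr rfl fun A _ => ?_
    simp only [forall_mem_insert]
    by_cases h1 : pr (v e) A = 0 <;> by_cases h2 : ∀ x ∈ J, pr (v x) A = 0 <;> simp [h1, h2]

omit [Fintype ι] in
open Classical in
lemma bf_dep (S : Finset α) (v : α → ι → F) (j : ℕ) :
    ((S.powersetCard (j + 1)).filter fun J : Finset α => ¬ LinearIndepOn F v (J : Set α)).card ≤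
      ((S.powersetCard j ×ˢ S).filter fun p => p.2 ∉ p.1 ∧
        v p.2 ∈ Submodule.span F (v '' (p.1 : Set α))).card := by
  refine card_le_card_of_surjOn (fun p => insert p.2 p.1) fun J hJ => ?_
  rw [mem_coe, mem_filter, mem_powersetCard, linearIndepOn_iff_notMem_span] at hJ
  obtain ⟨⟨h1, h2⟩, h3⟩ := hJ
  push Not at h3
  obtain ⟨e, he, h4⟩ := h3
  refine ⟨(J.erase e, e), ?_, insert_erase he⟩
  rw [mem_coe, mem_filter, mem_product, mem_powersetCard]
  refine ⟨⟨⟨(erase_subset _ _).trans h1, by rw [card_erase_of_mem he, h2]; rfl⟩, h1 he⟩,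
    notMem_erase _ _, by rwa [coe_erase]⟩

omit [Fintype ι] in
open Classical in
lemma bf_level (S : Finset α) (v : α → ι → F) (r j : ℕ) (hj : j ≤ r) :
    ∑ J ∈ S.powersetCard j, bfW S v r J ≤ (-1) ^ j * (S.card.choose j : ℝ) +
      ((S.powersetCard j).filter fun J : Finset α => ¬ LinearIndepOn F v (J : Set α)).card +
      ((S.powersetCard j ×ˢ S).filter fun p => p.2 ∉ p.1 ∧
        v p.2 ∈ Submodule.span F (v '' (p.1 : Set α))).card := by
  rw [card_filter, card_filter, sum_product, ← card_powersetCard, card_eq_sum_ones]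
  push_cast
  rw [mul_sum, ← sum_add_distrib, ← sum_add_distrib]
  refine sum_le_sum fun J hJ => ?_
  have hc := (mem_powersetCard.1 hJ).2
  unfold bfW
  rw [hc, card_filter]
  push_cast
  have h0 : (0 : ℝ) ≤ ∑ e ∈ S, if e ∉ J ∧ v e ∈ Submodule.span F (v '' (J : Set α)) then 1 else 0 :=
    sum_nonneg fun _ _ => by split_ifs <;> norm_num
  have h6 : (-1 : ℝ) ≤ (-1) ^ j := by
    rcases neg_one_pow_eq_or ℝ j with h | h <;> simp [h]
  by_cases h : LinearIndepOn F v (J : Set α)
  · rw [if_pos ⟨hj, h⟩, if_neg (not_not.2 h)]; linarith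
  · rw [if_neg (fun h' => h h'.2), if_pos h]; linarith

end

open Classical in
theorem bonf {α ι F V : Type*} [Fintype ι] [Field F] [AddCommGroup V] [Module F V] [Fintype V]
    (S : Finset α) (v : α → ι → F) (r : ℕ) (hr : Even r) (z : ℕ → ℝ)
    (hz : ∀ j ≤ r, (((S.powersetCard j ×ˢ S).filter fun p => p.2 ∉ p.1 ∧
        v p.2 ∈ Submodule.span F (v '' (p.1 : Set α))).card : ℝ) ≤ z j) :
    ((univ.filter fun A : ι → V => ∀ x ∈ S, pr (v x) A ≠ 0).card : ℝ) ≤
      Fintype.card (ι → V) *
        (∑ j ∈ range (r + 1), (-1) ^ j * (S.card.choose j : ℝ) * (1 / Fintype.card V) ^ j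
          + 2 * ∑ j ∈ range (r + 1), z j * (1 / Fintype.card V) ^ j) := by
  set p : ℝ := 1 / Fintype.card V with hp
  have hV : (1 : ℝ) ≤ Fintype.card V := by exact_mod_cast Fintype.card_pos
  have hp0 : 0 ≤ p := by positivity
  have hp1 : p ≤ 1 := by rw [hp, div_le_one (by linarith)]; exact hV
  have hz0 : ∀ j ≤ r, 0 ≤ z j := fun j hj => (Nat.cast_nonneg _).trans (hz j hj)
  have h1 : ((univ.filter fun A : ι → V => ∀ x ∈ S, pr (v x) A ≠ 0).card : ℝ) ≤
      ∑ A : ι → V, ∑ J ∈ S.powerset,
        bfW S v r J * (if ∀ x ∈ J, pr (v x) A = 0 then (1 : ℝ) else 0) := by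
    rw [card_filter]
    push_cast
    refine sum_le_sum fun A _ => ?_
    have := bf_point S (S.filter fun x => pr (v x) A = 0) v hr (filter_subset _ _)
    refine (le_of_eq (if_congr ?_ rfl rfl)).trans (this.trans (le_of_eq ?_))
    · rw [filter_eq_empty_iff]
    · simp only [mul_ite, mul_one, mul_zero]
      rw [← sum_filter]
      refine sum_congr ?_ fun _ _ => rfl
      ext J
      simp only [mem_powerset, mem_filter, subset_iff]
      exact ⟨fun h => ⟨fun x hx => (h hx).1, fun x hx => (h hx).2⟩,
        fun h x hx => ⟨h.1 hx, h.2 x hx⟩⟩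
  have h2 : ∑ A : ι → V, ∑ J ∈ S.powerset,
        bfW S v r J * (if ∀ x ∈ J, pr (v x) A = 0 then (1 : ℝ) else 0) =
      Fintype.card (ι → V) * ∑ J ∈ S.powerset.filter (fun J => J.card ≤ r),
        bfW S v r J * p ^ J.card := by
    rw [sum_comm, sum_filter, mul_sum]
    refine sum_congr rfl fun J _ => ?_
    rw [← mul_sum]
    by_cases h : J.card ≤ r ∧ LinearIndepOn F v (J : Set α)
    · rw [bf_count v J h.2, if_pos h.1]; ring
    · have : bfW S v r J = 0 := if_neg h
      rw [this]; simp
  have h3 : ∑ J ∈ S.powerset.filter (fun J => J.card ≤ r), bfW S v r J * p ^ J.card =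
      ∑ j ∈ range (r + 1), (∑ J ∈ S.powersetCard j, bfW S v r J) * p ^ j := by
    rw [← sum_fiberwise_of_maps_to (t := range (r + 1)) (g := Finset.card)
      (fun J hJ => mem_range.2 (Nat.lt_succ_of_le (mem_filter.1 hJ).2))]
    refine sum_congr rfl fun j hj => ?_
    rw [sum_mul]
    refine sum_congr ?_ fun J hJ => by rw [(mem_powersetCard.1 hJ).2]
    ext J
    have := mem_range.1 hj
    simp only [mem_filter, mem_powerset, mem_powersetCard]
    exact ⟨fun h => ⟨h.1.1, h.2⟩, fun h => ⟨⟨h.1, by omega⟩, h.2⟩⟩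
  have h4 : ∑ j ∈ range (r + 1),
      (((S.powersetCard j).filter fun J : Finset α => ¬ LinearIndepOn F v (J : Set α)).card : ℝ) * p ^ j ≤
      ∑ j ∈ range (r + 1), z j * p ^ j := by
    rw [sum_range_succ', sum_range_succ]
    have e0 : ((S.powersetCard 0).filter fun J : Finset α => ¬ LinearIndepOn F v (J : Set α)) = ∅ := by
      simp [filter_singleton]
    rw [e0, card_empty, Nat.cast_zero, zero_mul]
    refine add_le_add (sum_le_sum fun j hj => ?_) (mul_nonneg (hz0 r le_rfl) (by positivity))
    have hj' := (mem_range.1 hj).le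
    have : (((S.powersetCard (j + 1)).filter
        fun J : Finset α => ¬ LinearIndepOn F v (J : Set α)).card : ℝ) ≤ z j :=
      le_trans (by exact_mod_cast bf_dep S v j) (hz j hj')
    exact mul_le_mul this (by rw [pow_succ]; exact mul_le_of_le_one_right (by positivity) hp1)
      (by positivity) (hz0 j hj')
  refine h1.trans (h2.trans_le (mul_le_mul_of_nonneg_left ?_ (Nat.cast_nonneg _)))
  rw [h3, two_mul, ← add_assoc]
  refine le_trans ?_ (add_le_add (add_le_add le_rfl h4) le_rfl)
  rw [← sum_add_distrib, ← sum_add_distrib]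
  refine sum_le_sum fun j hj => ?_
  have hj' := Nat.lt_succ_iff.1 (mem_range.1 hj)
  rw [← add_mul, ← add_mul]
  exact mul_le_mul_of_nonneg_right ((bf_level S v r j hj').trans (add_le_add le_rfl (hz j hj')))
    (by positivity)

end Vale.Agent.P230.Up
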