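import Vale.Agent.P230.UpCoset

/-! Iterated squaring along a decision tree; mixtures of subcubes. -/

namespace Vale.Agent.P230.Up

open Finset

lemma tre_pick {I V : Type*} [Fintype I] [Fintype V] [Nonempty V] (c : I → V → ℝ)
    (hc : ∀ p t, 0 ≤ c p t) (P : ℝ) (hP : (Fintype.card I : ℝ) ≤ P) :
    ∃ t, ∀ p, c p t * Fintype.card V ≤ P * ∑ s, c p s := by
  have hN : (0 : ℝ) < Fintype.card V := by exact_mod_cast Fintype.card_pos
  have h : ∑ t, (∑ p, c p t / ∑ s, c p s) * Fintype.card V ≤ ∑ _t : V, P := by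
    rw [← sum_mul, sum_comm, sum_const, card_univ, nsmul_eq_mul, mul_comm]
    refine mul_le_mul_of_nonneg_left (le_trans ?_ hP) hN.le
    calc ∑ p, ∑ t, c p t / ∑ s, c p s ≤ ∑ _p : I, (1 : ℝ) :=
          sum_le_sum fun p _ => by rw [← sum_div]; exact div_self_le_one _
      _ = _ := by simp
  obtain ⟨t, -, ht⟩ := exists_le_of_sum_le univ_nonempty h
  refine ⟨t, fun p => ?_⟩
  have h0 : 0 ≤ ∑ s, c p s := sum_nonneg fun s _ => hc p s
  have h1 : c p t ≤ ∑ s, c p s := single_le_sum (fun s _ => hc p s) (mem_univ t)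
  rcases h0.eq_or_lt with h2 | h2
  · have h3 : c p t = 0 := le_antisymm (h2 ▸ h1) (hc p t)
    rw [h3, ← h2]; simp
  · have h3 : c p t / ∑ s, c p s ≤ ∑ p, c p t / ∑ s, c p s :=
      single_le_sum (f := fun p => c p t / ∑ s, c p s)
        (fun p _ => div_nonneg (hc p t) (sum_nonneg fun s _ => hc p s)) (mem_univ p)
    have h4 : c p t / (∑ s, c p s) * Fintype.card V ≤ P :=
      (mul_le_mul_of_nonneg_right h3 hN.le).trans ht
    rw [div_mul_eq_mul_div, div_le_iff₀ h2] at h4
    exact h4

/-- Sign sequences agreeing with `ε` below level `r`. -/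
def treF {ι : Type*} [Fintype ι] [DecidableEq ι] (rk : ι → ℕ) (r : ℕ) (ε : ι → Bool) :
    Finset (ι → Bool) := univ.filter fun ε' => ∀ j, rk j < r → ε' j = ε j

lemma mem_treF {ι : Type*} [Fintype ι] [DecidableEq ι] {rk : ι → ℕ} {r : ℕ} {ε ε' : ι → Bool} :
    ε' ∈ treF rk r ε ↔ ∀ j, rk j < r → ε' j = ε j := by simp [treF]

lemma treF_split {ι : Type*} [Fintype ι] [DecidableEq ι] {rk : ι → ℕ}
    (hrk : Function.Injective rk) (i : ι) (ε ε' : ι → Bool) (b : Bool) :
    ε' ∈ treF rk (rk i + 1) (Function.update ε i b) ↔ ε' ∈ treF rk (rk i) ε ∧ ε' i = b := by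
  simp only [mem_treF]
  constructor
  · intro h
    refine ⟨fun j hj => ?_, by simpa using h i (Nat.lt_succ_self _)⟩
    have hne : j ≠ i := fun e => by rw [e] at hj; exact lt_irrefl _ hj
    rw [h j (by omega), Function.update_of_ne hne]
  · rintro ⟨h, hb⟩ j hj
    by_cases hne : j = i
    · rw [hne, Function.update_self, hb]
    · have : rk j ≠ rk i := fun e => hne (hrk e)
      rw [Function.update_of_ne hne, h j (by omega)]

lemma tre_count {F V : Type*} [Field F] [AddCommGroup V] [Module F V] [Fintype V]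
    [DecidableEq V] {a₀ a₁ : F} (h : a₀ ≠ a₁) (H₀ H₁ : Finset V) :
    ∑ t : V, ((univ.filter fun v => v - a₀ • t ∈ H₀ ∧ v - a₁ • t ∈ H₁).card : ℝ) =
      H₀.card * H₁.card := by
  have := cos_pair h (fun v => if v ∈ H₀ then (1 : ℝ) else 0) (fun v => if v ∈ H₁ then 1 else 0)
  simp only [sum_ite_mem, univ_inter, sum_const, nsmul_eq_mul, mul_one] at this
  rw [← this]
  refine sum_congr rfl fun t _ => ?_
  rw [card_filter]
  push_cast
  refine sum_congr rfl fun v _ => ?_
  by_cases h0 : v - a₀ • t ∈ H₀ <;> by_cases h1 : v - a₁ • t ∈ H₁ <;> simp [h0, h1]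

theorem tree {ι N F V : Type*} [Fintype ι] [DecidableEq ι] [Fintype N] [Field F]
    [AddCommGroup V] [Module F V] [Fintype V] [DecidableEq V]
    (rk : ι → ℕ) (hrk : Function.Injective rk) (x : N → (ι → Bool) → ι → F)
    (hx : ∀ τ, Causal rk (x τ)) (U : N → (ι → Bool) → Finset V) (μ : N → (ι → Bool) → ℝ)
    (hU : ∀ τ ε, ((U τ ε).card : ℝ) ≤ μ τ ε * Fintype.card V) (P : ℝ)
    (hP : (Fintype.card N : ℝ) * 2 ^ Fintype.card ι < P) :
    ∃ B : ι → V, ∀ τ,
      P * ((univ.filter fun v => ∀ ε, v + pr (x τ ε) B ∈ U τ ε).card : ℝ) ≤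
        (∏ ε, P * μ τ ε) * Fintype.card V := by
  have hN : (0 : ℝ) < Fintype.card V := by exact_mod_cast Fintype.card_pos
  have hP0 : 0 < P := lt_of_le_of_lt (by positivity) hP
  let Hs : (ι → V) → N → ℕ → (ι → Bool) → Finset V := fun B τ r ε =>
    univ.filter fun v => ∀ ε' ∈ treF rk r ε, v + pr (x τ ε') B ∈ U τ ε'
  have key : ∀ k r, (∀ i, rk i < r + k) → ∃ B : ι → V, ∀ τ ε,
      P * ((Hs B τ r ε).card : ℝ) ≤ (∏ ε' ∈ treF rk r ε, P * μ τ ε') * Fintype.card V := by
    intro k
    induction k with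
    | zero =>
      intro r hr
      refine ⟨0, fun τ ε => ?_⟩
      have e1 : treF rk r ε = {ε} := by
        ext ε'
        rw [mem_treF, mem_singleton]
        exact ⟨fun h => funext fun j => h j (hr j), fun h j _ => by rw [h]⟩
      have e2 : Hs 0 τ r ε = U τ ε := by
        ext v
        simp [Hs, e1, pr]
      rw [e2, e1, prod_singleton, mul_assoc]
      exact mul_le_mul_of_nonneg_left (hU τ ε) hP0.le
    | succ k ih =>
      intro r hr
      obtain ⟨B, hB⟩ := ih (r + 1) fun i => by have := hr i; omega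
      by_cases hex : ∃ i, rk i = r
      · obtain ⟨i, rfl⟩ := hex
        let e : (ι → Bool) → Bool → ι → Bool := fun ε b => Function.update ε i b
        have hcst : ∀ τ ε b ε', ε' ∈ treF rk (rk i + 1) (e ε b) → x τ ε' i = x τ (e ε b) i :=
          fun τ ε b ε' h => (hx τ).1 _ _ i fun j hj => mem_treF.1 h j (by omega)
        have hne : ∀ τ ε, x τ (e ε false) i ≠ x τ (e ε true) i := by
          intro τ ε
          refine (hx τ).2 _ _ i (fun j hj => ?_) (by simp [e])
          have hji : j ≠ i := fun h => by rw [h] at hj; exact lt_irrefl _ hj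
          simp [e, Function.update_of_ne hji]
        have hpr : ∀ (w : ι → F) (v t : V),
            v + pr w (B + Pi.single i (-t)) = v - w i • t + pr w B := by
          intro w v t
          have : pr w (Pi.single i (-t) : ι → V) = -(w i • t) := by
            unfold pr
            rw [sum_eq_single i (fun j _ hj => by simp [Pi.single_eq_of_ne hj]) (by simp)]
            simp
          rw [pr_add, this]; abel
        have hH : ∀ τ ε t, Hs (B + Pi.single i (-t)) τ (rk i) ε = univ.filter fun v =>
            v - x τ (e ε false) i • t ∈ Hs B τ (rk i + 1) (e ε false) ∧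
            v - x τ (e ε true) i • t ∈ Hs B τ (rk i + 1) (e ε true) := by
          intro τ ε t
          ext v
          simp only [Hs, mem_filter, mem_univ, true_and, hpr]
          constructor
          · intro h
            constructor <;>
            · intro ε' h'
              rw [← hcst τ ε _ ε' h']
              exact h ε' ((treF_split hrk i ε ε' _).1 h').1
          · rintro ⟨h0, h1⟩ ε' h'
            cases hb : ε' i
            · have h2 := (treF_split hrk i ε ε' false).2 ⟨h', hb⟩
              rw [hcst τ ε _ ε' h2]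
              exact h0 ε' h2
            · have h2 := (treF_split hrk i ε ε' true).2 ⟨h', hb⟩
              rw [hcst τ ε _ ε' h2]
              exact h1 ε' h2
        obtain ⟨t, ht⟩ := tre_pick (I := N × (ι → Bool))
          (fun p t => ((Hs (B + Pi.single i (-t)) p.1 (rk i) p.2).card : ℝ))
          (fun _ _ => Nat.cast_nonneg _) P (by simpa using hP.le)
        refine ⟨B + Pi.single i (-t), fun τ ε => ?_⟩
        have h1 := ht (τ, ε)
        simp only at h1
        simp only [hH τ ε] at h1
        rw [tre_count (hne τ ε), ← hH τ ε t] at h1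
        have hprod : ∏ ε' ∈ treF rk (rk i) ε, P * μ τ ε' =
            (∏ ε' ∈ treF rk (rk i + 1) (e ε false), P * μ τ ε') *
              ∏ ε' ∈ treF rk (rk i + 1) (e ε true), P * μ τ ε' := by
          rw [← prod_filter_mul_prod_filter_not _ fun ε' => ε' i = false]
          congr 1
          · refine prod_congr ?_ fun _ _ => rfl
            ext ε'
            rw [mem_filter, treF_split hrk]
          · refine prod_congr ?_ fun _ _ => rfl
            ext ε'
            rw [mem_filter, treF_split hrk]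
            simp
        have h2 := mul_le_mul (hB τ (e ε false)) (hB τ (e ε true)) (by positivity)
          (le_trans (by positivity) (hB τ (e ε false)))
        have h3 := mul_le_mul_of_nonneg_left h1 hP0.le
        rw [hprod]
        refine le_of_mul_le_mul_right ?_ hN
        nlinarith
      · have e1 : ∀ ε, treF rk r ε = treF rk (r + 1) ε := by
          intro ε
          ext ε'
          simp only [mem_treF]
          refine forall_congr' fun j => ?_
          have : rk j ≠ r := fun h => hex ⟨j, h⟩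
          exact imp_congr_left (by omega)
        refine ⟨B, fun τ ε => ?_⟩
        have := hB τ ε
        simp only [Hs] at this ⊢
        rw [e1]
        exact this
  obtain ⟨B, hB⟩ := key (univ.sup rk + 1) 0 fun i => by
    have : rk i ≤ univ.sup rk := le_sup (mem_univ i)
    omega
  refine ⟨B, fun τ => ?_⟩
  have := hB τ fun _ => false
  have e1 : treF rk 0 (fun _ => false) = univ := by
    ext ε'; simp [mem_treF]
  simp only [Hs, e1, mem_univ, true_imp_iff] at this
  exact this

lemma mix_prod_add {ι : Type*} [Fintype ι] [DecidableEq ι] (f g : ι → ℝ) :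
    ∏ i, (f i + g i) = ∑ M : Finset ι, ∏ i, if i ∈ M then f i else g i := by
  rw [Fintype.prod_add]
  refine sum_congr rfl fun M _ => ?_
  rw [prod_ite]
  congr 1
  · simp
  · refine prod_congr ?_ fun _ _ => rfl
    ext i; simp

lemma mix_split {ι : Type*} [Fintype ι] [DecidableEq ι] (J : Finset ι) (f : (ι → Bool) → ℝ) :
    ∑ ε, f ε = ∑ η ∈ univ.filter (fun η : ι → Bool => ∀ i ∈ J, η i = false),
      ∑ S ∈ J.powerset, f fun i => η i || decide (i ∈ S) := by
  rw [← sum_product']
  symm
  refine sum_nbij' (fun p => fun i => p.1 i || decide (i ∈ p.2))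
    (fun ε => (fun i => if i ∈ J then false else ε i, J.filter fun i => ε i = true))
    (fun _ _ => mem_univ _) ?_ ?_ ?_ (fun _ _ => rfl)
  · intro ε _
    simp only [mem_product, mem_filter, mem_univ, true_and, mem_powerset, filter_subset,
      and_true]
    intro i hi
    rw [if_pos hi]
  · rintro ⟨η, S⟩ h
    simp only [mem_product, mem_filter, mem_univ, true_and, mem_powerset] at h
    refine Prod.ext (funext fun i => ?_) ?_
    · by_cases hi : i ∈ J
      · simp [hi, h.1 i hi]
      · have : i ∉ S := fun h' => hi (h.2 h')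
        simp [hi, this]
    · ext i
      simp only [mem_filter, Bool.or_eq_true, decide_eq_true_eq]
      constructor
      · rintro ⟨hi, h1 | h1⟩
        · rw [h.1 i hi] at h1; exact absurd h1 (by simp)
        · exact h1
      · exact fun h1 => ⟨h.2 h1, Or.inr h1⟩
  · intro ε _
    funext i
    by_cases hi : i ∈ J <;> simp [hi]

theorem cube_mix {ι : Type*} [Fintype ι] [DecidableEq ι] (p₀ p₁ : ι → ℝ)
    (h0 : ∀ i, 0 ≤ p₀ i) (h1 : ∀ i, 0 ≤ p₁ i) (D j₀ : ℕ) (act : Finset ι) (hD : D ≤ act.card)
    (hact : ∀ i ∈ act, p₀ i ≤ 3 * p₁ i ∧ p₁ i ≤ 3 * p₀ i) (Φ : (ι → Bool) → ℝ)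
    (hΦ : ∀ ε, 0 ≤ Φ ε) (lam : ℝ) (hlam : 0 ≤ lam)
    (hav : ∀ (ε : ι → Bool) (J : Finset ι), J.card = j₀ → (∀ i ∈ J, ε i = false) →
      lam * 2 ^ j₀ ≤ ∑ S ∈ J.powerset, Φ fun i => ε i || decide (i ∈ S)) :
    (∏ i, (p₀ i + p₁ i)) * (1 - 2 ^ j₀ * (3 / 4) ^ D) * lam ≤
      ∑ ε : ι → Bool, (∏ i, if ε i then p₁ i else p₀ i) * Φ ε := by
  let u : ι → ℝ := fun i => if i ∈ act then (p₀ i + p₁ i) / 4 else 0
  let r : ι → Bool → ℝ := fun i b => (if b then p₁ i else p₀ i) - u i
  let w : Finset ι → (ι → Bool) → ℝ := fun M ε => ∏ i, if i ∈ M then u i else r i (ε i)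
  let W : Finset ι → ℝ := fun M => ∏ i, if i ∈ M then u i else p₀ i + p₁ i - 2 * u i
  have hu : ∀ i, 0 ≤ u i := by
    intro i
    have := h0 i
    have := h1 i
    simp only [u]
    split_ifs <;> positivity
  have hr : ∀ i b, 0 ≤ r i b := by
    intro i b
    have := h0 i
    have := h1 i
    simp only [r, u]
    by_cases hi : i ∈ act
    · have := hact i hi
      cases b <;> simp [hi] <;> linarith [this.1, this.2]
    · cases b <;> simp [hi, h0 i, h1 i]
  have hw : ∀ M ε, 0 ≤ w M ε := fun M ε => prod_nonneg fun i _ => by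
    split_ifs
    · exact hu i
    · exact hr i _
  have hW : ∀ M, 0 ≤ W M := fun M => prod_nonneg fun i _ => by
    split_ifs
    · exact hu i
    · have a := hr i false
      have b := hr i true
      simp [r] at a b
      linarith
  have hsum : ∀ M, ∑ ε, w M ε = ∏ i, if i ∈ M then 2 * u i else p₀ i + p₁ i - 2 * u i := by
    intro M
    have := prod_univ_sum (fun _ : ι => (univ : Finset Bool))
      (fun i b => if i ∈ M then u i else r i b)
    rw [Fintype.piFinset_univ] at this
    rw [← this]
    refine prod_congr rfl fun i _ => ?_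
    by_cases hi : i ∈ M
    · simp [hi]
    · simp [hi, r]; ring
  have hsum2 : ∀ M, ∑ ε, w M ε = 2 ^ M.card * W M := by
    intro M
    have : (2 : ℝ) ^ M.card = ∏ i, if i ∈ M then (2 : ℝ) else 1 := by simp
    rw [hsum, this, ← prod_mul_distrib]
    refine prod_congr rfl fun i _ => ?_
    split_ifs <;> ring
  have hM : ∀ M, (∑ ε, w M ε - 2 ^ j₀ * W M) * lam ≤ ∑ ε, w M ε * Φ ε := by
    intro M
    by_cases hj : j₀ ≤ M.card
    · obtain ⟨J, hJM, hJ⟩ := exists_subset_card_eq hj
      have e1 : ∀ (η : ι → Bool), ∀ S ∈ J.powerset,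
          w M (fun i => η i || decide (i ∈ S)) = w M η := by
        intro η S hS
        refine prod_congr rfl fun i _ => ?_
        by_cases hi : i ∈ M
        · simp [hi]
        · have : i ∉ S := fun h => hi (hJM (mem_powerset.1 hS h))
          simp [hi, this]
      have e2 : (∑ ε, w M ε) * lam ≤ ∑ ε, w M ε * Φ ε := by
        rw [mix_split J (w M), mix_split J fun ε => w M ε * Φ ε, sum_mul]
        refine sum_le_sum fun η hη => ?_
        have e4 : ∑ S ∈ J.powerset, (w M fun i => η i || decide (i ∈ S)) *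
            Φ (fun i => η i || decide (i ∈ S)) =
            w M η * ∑ S ∈ J.powerset, Φ fun i => η i || decide (i ∈ S) := by
          rw [mul_sum]
          exact sum_congr rfl fun S hS => by rw [e1 η S hS]
        rw [sum_congr rfl (e1 η), e4, sum_const, card_powerset, hJ, nsmul_eq_mul]
        have := mul_le_mul_of_nonneg_left (hav η J hJ (mem_filter.1 hη).2) (hw M η)
        push_cast
        linarith
      have e3 : 0 ≤ 2 ^ j₀ * W M * lam := by have := hW M; positivity
      linarith
    · have e1 : (2 : ℝ) ^ M.card ≤ 2 ^ j₀ := pow_le_pow_right₀ (by norm_num) (by omega)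
      have e2 : ∑ ε, w M ε - 2 ^ j₀ * W M ≤ 0 := by
        rw [hsum2]
        have := mul_le_mul_of_nonneg_right e1 (hW M)
        linarith
      exact (mul_nonpos_of_nonpos_of_nonneg e2 hlam).trans
        (sum_nonneg fun ε _ => mul_nonneg (hw M ε) (hΦ ε))
  have t1 : ∑ M, ∑ ε, w M ε = ∏ i, (p₀ i + p₁ i) := by
    rw [sum_congr rfl fun M _ => hsum M, ← mix_prod_add]
    exact prod_congr rfl fun i _ => by ring
  have t2 : ∑ M, W M ≤ (∏ i, (p₀ i + p₁ i)) * (3 / 4) ^ D := by
    have a : ∑ M, W M = (∏ i, (p₀ i + p₁ i)) * (3 / 4) ^ act.card := by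
      have : (3 / 4 : ℝ) ^ act.card = ∏ i, if i ∈ act then (3 / 4 : ℝ) else 1 := by
        rw [prod_ite_mem, univ_inter, prod_const]
      rw [← mix_prod_add, this, ← prod_mul_distrib]
      refine prod_congr rfl fun i _ => ?_
      simp only [u]
      split_ifs <;> ring
    rw [a]
    exact mul_le_mul_of_nonneg_left (pow_le_pow_of_le_one (by norm_num) (by norm_num) hD)
      (prod_nonneg fun i _ => add_nonneg (h0 i) (h1 i))
  have t3 : ∑ ε : ι → Bool, (∏ i, if ε i then p₁ i else p₀ i) * Φ ε =
      ∑ M, ∑ ε, w M ε * Φ ε := by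
    rw [sum_comm]
    refine sum_congr rfl fun ε _ => ?_
    rw [← sum_mul, ← mix_prod_add]
    congr 1
    exact prod_congr rfl fun i _ => by simp [r]
  have t4 := sum_le_sum fun M (_ : M ∈ univ) => hM M
  rw [← sum_mul, sum_sub_distrib, ← mul_sum, t1] at t4
  rw [t3]
  refine le_trans (mul_le_mul_of_nonneg_right ?_ hlam) t4
  have := mul_le_mul_of_nonneg_left t2 (by positivity : (0 : ℝ) ≤ 2 ^ j₀)
  linarith

end Vale.Agent.P230.Up
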