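import Vale.Agent.P230.UpCore0
import Vale.Agent.P230.UpTree

/-! The covering construction in split coordinates. -/

namespace Vale.Agent.P230.Up

open Finset MeasureTheory

/-- The geometric end of the covering argument. -/
lemma assemble {n' n : ℕ} {ι : Type} [Fintype ι] {K : Set (Fin n' ⊕ ι → ℝ)} (hK : Convex ℝ K)
    {r κ : ℝ} {H₀ : ℕ} (hr : 0 ≤ r) (hball : Metric.closedBall 0 r ⊆ K) (hn : 1 ≤ n) (hκ : 0 < κ)
    (hH₀ : 1 ≤ H₀) (hl : κ * H₀ ≤ r / (4 * n)) {u δ : ι → ℝ} {z₁ z₂ z₀ pz : Fin n' → ℝ}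
    (h₁ : Sum.elim z₁ u ∈ K) (h₂ : Sum.elim z₂ δ ∈ K) (h₀ : Sum.elim z₀ (0 : ι → ℝ) ∈ K)
    {a a₀ : Fin n' → ℤ} (ha : ∀ l, |κ * a l - z₁ l| ≤ κ * H₀)
    (ha₀ : ∀ l, |κ * a₀ l - z₀ l| ≤ κ * H₀) :
    (1 + 3 / (n : ℝ))⁻¹ • (Sum.elim
      (fun l => κ * (pz l - ((⌊pz l - z₂ l / (n * κ)⌋ - a₀ l / (n : ℤ) - a l : ℤ) : ℝ)))
      (fun i => u i + δ i / n) : Fin n' ⊕ ι → ℝ) ∈ K := by
  have hn0 : (0 : ℝ) < n := by exact_mod_cast hn
  have hH : (1 : ℝ) ≤ H₀ := by exact_mod_cast hH₀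
  set e : Fin n' → ℝ := fun l => n * (κ * (pz l - ((⌊pz l - z₂ l / (n * κ)⌋ - a₀ l / (n : ℤ) - a l : ℤ) : ℝ))
    - z₁ l - z₂ l / n - z₀ l / n) with he
  have h₃ : Sum.elim e (0 : ι → ℝ) ∈ K := by
    apply hball
    rw [mem_closedBall_zero_iff, pi_norm_le_iff_of_nonneg hr]
    rintro (l | i)
    · simp only [Sum.elim_inl, Real.norm_eq_abs, he]
      have hn' : (0 : ℤ) < n := by exact_mod_cast hn
      have f1 := Int.floor_le (pz l - z₂ l / (n * κ))
      have f2 := Int.lt_floor_add_one (pz l - z₂ l / (n * κ))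
      have g1 : (n : ℤ) * (a₀ l / (n : ℤ)) ≤ a₀ l := Int.mul_ediv_self_le hn'.ne'
      have g2 : a₀ l < (n : ℤ) * (a₀ l / (n : ℤ)) + n := Int.lt_mul_ediv_self_add hn'
      have g1' : (n : ℝ) * ((a₀ l / (n : ℤ) : ℤ) : ℝ) ≤ a₀ l := by exact_mod_cast g1
      have g2' : (a₀ l : ℝ) < (n : ℝ) * ((a₀ l / (n : ℤ) : ℤ) : ℝ) + n := by exact_mod_cast g2
      set F : ℝ := ((⌊pz l - z₂ l / (n * κ)⌋ : ℤ) : ℝ)
      set b : ℝ := ((a₀ l / (n : ℤ) : ℤ) : ℝ)
      have e1 : (n : ℝ) * (κ * (pz l - ((⌊pz l - z₂ l / (n * κ)⌋ - a₀ l / (n : ℤ) - a l : ℤ) : ℝ))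
          - z₁ l - z₂ l / n - z₀ l / n) =
          n * κ * (pz l - z₂ l / (n * κ) - F) + n * (κ * a l - z₁ l) + κ * (n * b - a₀ l) +
            (κ * a₀ l - z₀ l) := by
        rw [Int.cast_sub, Int.cast_sub]
        change (n : ℝ) * (κ * (pz l - (F - b - a l)) - z₁ l - z₂ l / n - z₀ l / n) = _
        clear_value F b
        field_simp
        ring
      rw [e1]
      have hl' : 4 * n * (κ * H₀) ≤ r := by
        rw [le_div_iff₀ (by positivity)] at hl; linarith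
      have k1 := abs_le.1 (ha l)
      have k0 := abs_le.1 (ha₀ l)
      have hn1 : (1 : ℝ) ≤ n := by exact_mod_cast hn
      have t0 : κ ≤ κ * H₀ := by nlinarith
      have t1 : 0 ≤ n * κ * (pz l - z₂ l / (n * κ) - F) := by
        have : 0 ≤ pz l - z₂ l / (n * κ) - F := by linarith
        positivity
      have t2 : n * κ * (pz l - z₂ l / (n * κ) - F) ≤ n * (κ * H₀) := by
        have : pz l - z₂ l / (n * κ) - F ≤ H₀ := by linarith
        calc n * κ * (pz l - z₂ l / (n * κ) - F) ≤ n * κ * H₀ := by gcongr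
          _ = _ := by ring
      have t3 : κ * (n * b - a₀ l) ≤ 0 := mul_nonpos_of_nonneg_of_nonpos hκ.le (by linarith)
      have t4 : -(n * (κ * H₀)) ≤ κ * (n * b - a₀ l) := by
        have : -(n : ℝ) ≤ n * b - a₀ l := by linarith
        nlinarith
      have t5 : κ * H₀ ≤ n * (κ * H₀) := by nlinarith
      have t6 : n * (κ * a l - z₁ l) ≤ n * (κ * H₀) := by gcongr; exact k1.2
      have t7 : -(n * (κ * H₀)) ≤ n * (κ * a l - z₁ l) := by
        rw [← mul_neg]; gcongr; exact k1.1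
      rw [abs_le]
      constructor <;> nlinarith
    · simpa using hr
  have := four_mem hK h₁ h₂ h₀ h₃ hn0
  convert this using 2
  funext j
  rcases j with l | i
  · simp only [Sum.elim_inl, Pi.add_apply, Pi.smul_apply, smul_eq_mul, he]
    field_simp
    ring
  · simp [div_eq_inv_mul]

lemma fin_cover {n' n Q μ : ℕ} [Fact Q.Prime] {ι Nt : Type} [Fintype ι] [DecidableEq ι]
    [Fintype Nt] {rk : ι → ℕ} (hrk : Function.Injective rk) (x : Nt → (ι → Bool) → ι → ℤ)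
    (hx : ∀ τ, Causal rk fun ε i => (x τ ε i : ZMod Q))
    (S : Option (Nt × (ι → Bool)) → Finset (Fin n' → ℤ)) (V : Option (Nt × (ι → Bool)) → ℝ)
    (hS : ∀ j, ∑ A : Fin n' → Fin μ → ZMod Q, ((univ.filter fun b : Fin μ → ZMod Q =>
        ∀ a ∈ S j, pr (fun l => (a l : ZMod Q)) A ≠ b).card : ℝ)
      ≤ 3 * Real.exp (-V j) * (Q : ℝ) ^ μ * Fintype.card (Fin n' → Fin μ → ZMod Q))
    {P Λ : ℝ} (hP : (Fintype.card Nt : ℝ) * 2 ^ Fintype.card ι + 1 = P)
    (hV₀ : 6 * P < Real.exp (V none)) (hΛ : ∀ τ, Λ ≤ ∑ ε, V (some (τ, ε))) (hn : 1 ≤ n)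
    (h5 : (3 * P ^ 2) ^ 2 ^ Fintype.card ι * (2 * (n : ℝ) ^ n') < Real.exp Λ) :
    ∃ (A : Fin n' → Fin μ → ZMod Q) (B : ι → Fin μ → ZMod Q), Function.Surjective (evH Q A) ∧
      ∀ τ w, ∃ a₀ ∈ S none, ∃ ε, ∃ a₁ ∈ S (some (τ, ε)),
        evH Q A a₁ = w - evH Q A (fun l => a₀ l / (n : ℤ)) + evH Q B (x τ ε) := by
  classical
  have hQ : Q.Prime := Fact.out
  set N : ℝ := (Q : ℝ) ^ μ with hN
  have hN0 : 0 < N := by have := hQ.pos; positivity
  have hcardV : (Fintype.card (Fin μ → ZMod Q) : ℝ) = N := by simp [hN]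
  have hP1 : 1 ≤ P := by rw [← hP]; exact le_add_of_nonneg_left (by positivity)
  let U : Option (Nt × (ι → Bool)) → (Fin n' → Fin μ → ZMod Q) → Finset (Fin μ → ZMod Q) :=
    fun j A => univ.filter fun b => ∀ a ∈ S j, pr (fun l => (a l : ZMod Q)) A ≠ b
  have hcardI : (Fintype.card (Option (Nt × (ι → Bool))) : ℝ) = P := by simp [← hP]
  obtain ⟨A, hA⟩ := exists_le_card_mul (fun j A => ((U j A).card : ℝ)) (fun _ _ => by positivity)
    (fun j => 3 * Real.exp (-V j) * N) (fun j => by positivity) hS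
  rw [hcardI] at hA
  obtain ⟨B, hB⟩ := tree (F := ZMod Q) rk hrk (fun τ ε i => (x τ ε i : ZMod Q)) hx
    (fun τ ε => U (some (τ, ε)) A) (fun τ ε => P * (3 * Real.exp (-V (some (τ, ε)))))
    (fun τ ε => by rw [hcardV]; exact (hA (some (τ, ε))).trans_eq (by ring))
    P (by rw [← hP]; simp)
  set S₀ := S none with hS₀
  have himg : N < 2 * ((S₀.image (evH Q A)).card : ℝ) := by
    have h1 : (U none A).card + (S₀.image (evH Q A)).card = Fintype.card (Fin μ → ZMod Q) := by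
      rw [← card_univ, ← card_filter_add_card_filter_not
        (s := univ) (fun b => ∀ a ∈ S₀, pr (fun l => (a l : ZMod Q)) A ≠ b)]
      congr 2
      ext b
      simp [evH_apply]
    have h2 : ((U none A).card : ℝ) + (S₀.image (evH Q A)).card = N := by
      rw [← hcardV]; exact_mod_cast h1
    have h6 := hA none
    have h7 : P * (3 * Real.exp (-V none)) < 1 / 2 := by
      rw [Real.exp_neg]
      have := Real.exp_pos (V none)
      rw [← div_eq_mul_inv, ← mul_div_assoc, div_lt_iff₀ this]; linarith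
    have h8 : P * (3 * Real.exp (-V none)) * N < 1 / 2 * N := by gcongr
    linarith
  have hsurj : Function.Surjective (evH Q A) := by
    refine surj_of_half _ S₀ ?_
    rw [← hcardV] at himg; exact_mod_cast himg
  set T := S₀.image fun a => evH Q A fun l => a l / (n : ℤ) with hT
  have hTc : N < 2 * (n : ℝ) ^ n' * T.card := by
    have h1 : ((S₀.image (evH Q A)).card : ℝ) ≤ T.card * (n : ℝ) ^ n' := by
      exact_mod_cast card_image_le_div (evH Q A) S₀ hn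
    linarith
  refine ⟨A, B, hsurj, fun τ w => ?_⟩
  have hhole : (univ.filter fun v => ∀ ε, v + pr (fun i => (x τ ε i : ZMod Q)) B ∈
      U (some (τ, ε)) A).card < T.card := by
    have h1 := hB τ
    have h2 : ∏ ε : ι → Bool, P * (P * (3 * Real.exp (-V (some (τ, ε))))) =
        (3 * P ^ 2) ^ 2 ^ Fintype.card ι * Real.exp (-∑ ε, V (some (τ, ε))) := by
      rw [← sum_neg_distrib, Real.exp_sum]
      have : (3 * P ^ 2) ^ 2 ^ Fintype.card ι = ∏ _ε : ι → Bool, (3 * P ^ 2) := by simp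
      rw [this, ← prod_mul_distrib]
      exact prod_congr rfl fun ε _ => by ring
    rw [h2, hcardV] at h1
    have h6 : Real.exp (-∑ ε, V (some (τ, ε))) ≤ Real.exp (-Λ) :=
      Real.exp_le_exp.2 (neg_le_neg (hΛ τ))
    have h7 : (3 * P ^ 2) ^ 2 ^ Fintype.card ι * Real.exp (-Λ) * (2 * (n : ℝ) ^ n') < 1 := by
      rw [Real.exp_neg, mul_right_comm, ← div_eq_mul_inv, div_lt_one (Real.exp_pos _)]
      exact h5
    generalize (univ.filter fun v => ∀ ε, v + pr (fun i => (x τ ε i : ZMod Q)) B ∈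
      U (some (τ, ε)) A).card = h at h1 ⊢
    have h0 : (0 : ℝ) ≤ h := by positivity
    have hW0 : 0 < (3 * P ^ 2) ^ 2 ^ Fintype.card ι := by positivity
    generalize (3 * P ^ 2) ^ 2 ^ Fintype.card ι = W at h1 h7 hW0
    have h8 : h ≤ W * Real.exp (-Λ) * N := by
      calc (h : ℝ) ≤ P * h := le_mul_of_one_le_left h0 hP1
        _ ≤ _ := h1
        _ ≤ _ := by gcongr
    have h9 : (h : ℝ) < T.card := by
      calc (h : ℝ) ≤ W * Real.exp (-Λ) * N := h8
        _ < W * Real.exp (-Λ) * (2 * (n : ℝ) ^ n' * T.card) := by gcongr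
        _ = W * Real.exp (-Λ) * (2 * (n : ℝ) ^ n') * T.card := by ring
        _ ≤ 1 * T.card := by gcongr
        _ = _ := one_mul _
    exact_mod_cast h9
  obtain ⟨t, ht, hv⟩ := exists_sub_notMem T _ w hhole
  obtain ⟨a₀, ha₀, rfl⟩ := mem_image.1 ht
  simp only [mem_filter, mem_univ, true_and, not_forall, U] at hv
  obtain ⟨ε, a₁, ha₁, hv⟩ := hv
  rw [not_not] at hv
  exact ⟨a₀, ha₀, ε, a₁, ha₁, hv⟩

theorem core {n' n : ℕ} {Vm : ℝ}
    (hbase : ∀ (Q μ H H₀ : ℕ) [Fact Q.Prime] (C : Finset (Fin n' → ℤ)),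
      Even H₀ → 8 * H ^ 2 ≤ Q → 256 * Q ≤ H₀ ^ 8 → (∀ x ∈ blk H₀ C, ∀ l, |x l| < H) →
      ((blk H₀ C).card : ℝ) ≤ Vm * (Q : ℝ) ^ μ →
      ∑ A : Fin n' → Fin μ → ZMod Q, ((univ.filter fun b : Fin μ → ZMod Q =>
        ∀ x ∈ blk H₀ C, pr (fun l => (x l : ZMod Q)) A ≠ b).card : ℝ)
      ≤ 3 * Real.exp (-(((blk H₀ C).card : ℝ) / (Q : ℝ) ^ μ)) * (Q : ℝ) ^ μ *
        Fintype.card (Fin n' → Fin μ → ZMod Q))
    (hn' : 12 ≤ n') (hn : 1 ≤ n)
    {ι G : Type} [Fintype ι] [DecidableEq ι] [AddCommGroup G] [Fintype G] {rk : ι → ℕ}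
    {η : ι → ℝ} {π : (ι → ℤ) →+ G} {M c cm ωm lam V₀ P : ℝ} {Nn : ℕ}
    (hrk : Function.Injective rk) (hπ : Function.Surjective π) (hη : ∀ i, 0 < η i)
    (hNn : ∀ i, Fintype.card G * η i * n ≤ Nn)
    (htree : ∀ s : ι → ℝ, ∃ (x : (ι → Bool) → ι → ℤ) (ω : (ι → Bool) → ℝ), Causal rk x ∧
      (∀ ε, π (x ε) = 0) ∧ (∀ ε i, |s i - η i * x ε i| ≤ M) ∧ (∀ ε, 0 ≤ ω ε) ∧
      (∀ ε, ω ε ≤ Fintype.card G * ∏ i, (η i * gs (s i - η i * x ε i))) ∧ (∀ ε, ω ε ≤ ωm) ∧
      c ≤ ∑ ε, ω ε)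
    {K : Set (Fin n' ⊕ ι → ℝ)} (hKc : IsCompact K) (hK : Convex ℝ K) {r : ℝ} (hr : 0 < r)
    (hball : Metric.closedBall 0 r ⊆ K) (hcm : 0 < cm) (hM : 1 ≤ M)
    (hmarg : ∀ u : ι → ℝ, (∀ i, |u i| ≤ M) → cm * (∏ i, gs (u i)) * volume.real K ≤
      volume.real {z : Fin n' → ℝ | Sum.elim z u ∈ K})
    (hlam : 0 < lam) (hP : (Nn : ℝ) ^ Fintype.card ι * 2 ^ Fintype.card ι + 1 = P)
    (h3 : lam * ωm + 1 ≤ Vm) (h3' : V₀ + 1 ≤ Vm) (hV₀ : 6 * P < Real.exp V₀)
    (h4 : V₀ * 2 ^ Fintype.card ι ≤ lam * c)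
    (h5 : (3 * P ^ 2) ^ 2 ^ Fintype.card ι * (2 * (n : ℝ) ^ n') < Real.exp (lam * c)) :
    ∃ (κ : ℝ) (G' : Type) (_ : AddCommGroup G') (_ : Fintype G') (π' : (Fin n' ⊕ ι → ℤ) →+ G'),
      0 < κ ∧ Function.Surjective π' ∧
      cm * volume.real K = lam * (κ ^ n' * (∏ i, η i) * Fintype.card G') ∧
      ∀ p : Fin n' ⊕ ι → ℝ, ∃ x : Fin n' ⊕ ι → ℤ, π' x = 0 ∧
        (1 + 3 / (n : ℝ))⁻¹ • (fun j => Sum.elim (fun _ => κ) η j * (p j - x j)) ∈ K := by
  classical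
  have hn0 : (0 : ℝ) < n := by exact_mod_cast hn
  have hvol : 0 < volume.real K := by
    refine ENNReal.toReal_pos (ne_of_gt ?_) hKc.measure_lt_top.ne
    exact (Metric.measure_closedBall_pos volume 0 hr).trans_le (measure_mono hball)
  have hG : (0 : ℝ) < Fintype.card G := by exact_mod_cast Fintype.card_pos
  set cov : ℝ := Fintype.card G * ∏ i, η i with hcov
  have hcov0 : 0 < cov := mul_pos hG (prod_pos fun i _ => hη i)
  set D : ℝ := cm * volume.real K / (lam * cov) with hD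
  have hD0 : 0 < D := by positivity
  obtain ⟨R, hR⟩ := hKc.isBounded.exists_norm_le
  have hR0 : 0 ≤ R := (norm_nonneg _).trans (hR 0 (hball (by simp [hr.le])))
  have hsec : ∀ u : ι → ℝ, ∀ z ∈ {z : Fin n' → ℝ | Sum.elim z u ∈ K}, ∀ l, |z l| ≤ R := by
    intro u z hz l
    have := (norm_le_pi_norm (Sum.elim z u) (Sum.inl l)).trans (hR _ hz)
    simpa using this
  obtain ⟨Q, H, H₀, κ, hQ, hκ, hκD, hev, hQH, hQH₀, hl, hH₀Q, hH₀, hH, hBQ⟩ :=
    params (B := ∑ i, 2 * M / η i) hn' hD0 (l := r / (4 * n)) (by positivity) hR0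
  have : Fact Q.Prime := ⟨hQ⟩
  set μ := n' / 3 with hμ
  set N : ℝ := (Q : ℝ) ^ μ with hN
  have hN0 : 0 < N := by have := hQ.pos; positivity
  have hH₀N : (H₀ : ℝ) ^ n' ≤ N := by rw [hN]; exact_mod_cast hH₀Q
  have hcardV : (Fintype.card (Fin μ → ZMod Q) : ℝ) = N := by simp [hN]
  choose x ω hxc hxπ hxM hω0 hωc hωm hωs using htree
  have hP1 : 1 ≤ P := by rw [← hP]; exact le_add_of_nonneg_left (by positivity)
  have hV₀0 : 0 ≤ V₀ := by
    by_contra h
    have := Real.exp_lt_one_iff.2 (not_le.1 h)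
    linarith
  -- the net and the volumes
  let sτ : (ι → Fin Nn) → ι → ℝ := fun τ i => ((τ i : ℕ) : ℝ) / n
  let I := Option ((ι → Fin Nn) × (ι → Bool))
  let u : I → ι → ℝ := fun j => j.elim 0 fun j i => sτ j.1 i - η i * x (sτ j.1) j.2 i
  let V : I → ℝ := fun j => j.elim V₀ fun j => lam * ω (sτ j.1) j.2
  have hV0 : ∀ j, 0 ≤ V j := by
    rintro (_ | j)
    · exact hV₀0
    · exact mul_nonneg hlam.le (hω0 _ _)
  have hVm : ∀ j, V j + 1 ≤ Vm := by
    rintro (_ | j)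
    · exact h3'
    · have := mul_le_mul_of_nonneg_left (hωm (sτ j.1) j.2) hlam.le
      simp only [V, Option.elim]; linarith
  have huM : ∀ j i, |u j i| ≤ M := by
    rintro (_ | j) i
    · simp only [u, Option.elim, Pi.zero_apply, abs_zero]; linarith
    · exact hxM _ _ _
  have hVc : ∀ j, V j ≤ lam * (cov * ∏ i, gs (u j i)) := by
    rintro (_ | j)
    · have h1 : c ≤ 2 ^ Fintype.card ι * (cov * ∏ _i : ι, gs 0) := by
        refine (hωs 0).trans ?_
        calc ∑ ε, ω 0 ε ≤ ∑ _ε : ι → Bool, (cov * ∏ _i : ι, gs 0) := by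
              refine sum_le_sum fun ε _ => (hωc 0 ε).trans ?_
              rw [hcov, mul_assoc, ← prod_mul_distrib]
              refine mul_le_mul_of_nonneg_left (prod_le_prod (fun i _ => ?_) fun i _ => ?_) hG.le
              · exact (mul_pos (hη i) (gs_pos _)).le
              · exact mul_le_mul_of_nonneg_left (gs_le_zero _) (hη i).le
          _ = _ := by simp
      have h2 := h4.trans (mul_le_mul_of_nonneg_left h1 hlam.le)
      simp only [V, u, Option.elim, Pi.zero_apply]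
      refine le_of_mul_le_mul_right ?_ (a := 2 ^ Fintype.card ι) (by positivity)
      linarith
    · simp only [V, u, Option.elim]
      refine mul_le_mul_of_nonneg_left ((hωc _ _).trans_eq ?_) hlam.le
      rw [hcov, mul_assoc, ← prod_mul_distrib]
  have hsel : ∀ j : I, ∃ C : Finset (Fin n' → ℤ), V j * N ≤ (blk H₀ C).card ∧
      ((blk H₀ C).card : ℝ) ≤ (V j + 1) * N ∧ ∀ a ∈ blk H₀ C, (∀ l, |a l| < H) ∧
        ∃ z ∈ {z : Fin n' → ℝ | Sum.elim z (u j) ∈ K}, ∀ l, |κ * a l - z l| ≤ κ * H₀ := by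
    intro j
    refine sel hκ hH₀ hH hH₀N _ (hsec _) (hV0 j) (le_trans ?_ (hmarg _ (huM j)))
    rw [hκD]
    calc V j * D ≤ lam * (cov * ∏ i, gs (u j i)) * D := by gcongr; exact hVc j
      _ = _ := by rw [hD]; field_simp
  choose C hC1 hC2 hC3 using hsel
  -- the tree
  have hcast : ∀ τ, Causal rk fun ε i => (x (sτ τ) ε i : ZMod Q) := by
    intro τ
    refine (hxc _).cast fun ε ε' i => ?_
    have h1 := abs_le.1 (hxM (sτ τ) ε i)
    have h2 := abs_le.1 (hxM (sτ τ) ε' i)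
    have h6 : 2 * M / η i ≤ ∑ i, 2 * M / η i :=
      single_le_sum (f := fun i => 2 * M / η i) (fun i _ => by have := hη i; positivity)
        (mem_univ i)
    have h7 : 2 * M < Q * η i := by
      rw [← div_lt_iff₀ (hη i)]; linarith
    have h8 : |((x (sτ τ) ε i : ℝ) - x (sτ τ) ε' i)| < Q := by
      have := hη i
      rw [abs_lt]
      constructor
      · refine lt_of_mul_lt_mul_left ?_ this.le; nlinarith
      · refine lt_of_mul_lt_mul_left ?_ this.le; nlinarith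
    exact_mod_cast h8
  obtain ⟨A, B, hsurj, hAB⟩ := fin_cover (μ := μ) hrk (fun τ => x (sτ τ)) hcast
    (fun j => blk H₀ (C j)) V (by
      intro j
      refine (hbase Q μ H H₀ (C j) hev hQH hQH₀ (fun a ha => (hC3 j a ha).1)
        ((hC2 j).trans (by gcongr; exact hVm j))).trans ?_
      have : V j ≤ ((blk H₀ (C j)).card : ℝ) / N := by rw [le_div_iff₀ hN0]; exact hC1 j
      gcongr) (P := P) (Λ := lam * c) (by rw [← hP]; simp) hV₀ (fun τ => by
        simp only [V, Option.elim, ← mul_sum]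
        exact mul_le_mul_of_nonneg_left (hωs _) hlam.le) hn h5
  -- the lattice
  let pz : (Fin n' ⊕ ι → ℤ) →+ (Fin n' → ℤ) := AddMonoidHom.mk' (fun y l => y (Sum.inl l))
    fun _ _ => rfl
  let ps : (Fin n' ⊕ ι → ℤ) →+ (ι → ℤ) := AddMonoidHom.mk' (fun y l => y (Sum.inr l))
    fun _ _ => rfl
  refine ⟨κ, G × (Fin μ → ZMod Q), inferInstance, inferInstance,
    (π.comp ps).prod ((evH Q A).comp pz + (evH Q B).comp ps), hκ, ?_, ?_, fun p => ?_⟩
  · rintro ⟨γ, v⟩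
    obtain ⟨y, rfl⟩ := hπ γ
    obtain ⟨z, hz⟩ := hsurj (v - evH Q B y)
    refine ⟨Sum.elim z y, Prod.ext rfl ?_⟩
    change evH Q A z + evH Q B y = v
    rw [hz]; abel
  · rw [Fintype.card_prod, Nat.cast_mul, hcardV]
    have : cm * volume.real K = lam * (cov * D) := by rw [hD]; field_simp
    rw [this, ← hκD, hcov]; ring
  · have hnet : ∀ i, ∃ (a : ℤ) (τ : Fin Nn) (δ : ℝ), |δ| ≤ 1 ∧
        η i * p (Sum.inr i) = Fintype.card G * η i * a + (τ : ℕ) / n + δ / n :=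
      fun i => net_point (mul_pos hG (hη i)) hn (hNn i)
    choose a τ δ hδ hs using hnet
    have hne : {z : Fin n' → ℝ | Sum.elim z δ ∈ K}.Nonempty := by
      by_contra h
      have h1 := hmarg δ fun i => (hδ i).trans hM
      rw [Set.not_nonempty_iff_eq_empty.1 h] at h1
      have : 0 < cm * (∏ i, gs (δ i)) * volume.real K :=
        mul_pos (mul_pos hcm (prod_pos fun i _ => gs_pos _)) hvol
      simp at h1
      linarith
    obtain ⟨z₂, hz₂⟩ := hne
    set x₀ : Fin n' → ℤ := fun l => ⌊p (Sum.inl l) - z₂ l / (n * κ)⌋ with hx₀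
    obtain ⟨a₀, ha₀, ε, a₁, ha₁, hv⟩ := hAB τ (evH Q A x₀ + evH Q B (Fintype.card G • a))
    obtain ⟨-, z₁, hz₁, hz₁'⟩ := hC3 _ a₁ ha₁
    obtain ⟨-, z₀, hz₀, hz₀'⟩ := hC3 none a₀ ha₀
    refine ⟨Sum.elim (fun l => x₀ l - a₀ l / (n : ℤ) - a₁ l) (x (sτ τ) ε + Fintype.card G • a),
      Prod.ext ?_ ?_, ?_⟩
    · change π (x (sτ τ) ε + Fintype.card G • a) = 0
      rw [map_add, hxπ, map_nsmul, card_nsmul_eq_zero, add_zero]
    · change evH Q A (x₀ - (fun l => a₀ l / (n : ℤ)) - a₁) +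
        evH Q B (x (sτ τ) ε + Fintype.card G • a) = 0
      rw [map_sub, map_sub, map_add]
      rw [hv]; abel
    · have := assemble hK hr.le hball hn hκ hH₀ hl (pz := fun l => p (Sum.inl l)) hz₁ hz₂ hz₀
        hz₁' hz₀'
      convert this using 2
      funext j
      rcases j with l | i
      · rfl
      · have := hs i
        simp only [Sum.elim_inr, u, sτ, Option.elim, Pi.add_apply, Pi.smul_apply]
        rw [nsmul_eq_mul]
        push_cast
        linarith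

end Vale.Agent.P230.Up
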