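import Vale.Agent.P230.UpSel

/-! Small finite lemmas for the covering construction. -/

namespace Vale.Agent.P230.Up

open Finset

lemma exists_le_card_mul {Ω I : Type*} [Fintype Ω] [Nonempty Ω] [Fintype I] (f : I → Ω → ℝ)
    (hf : ∀ i w, 0 ≤ f i w) (b : I → ℝ) (hb : ∀ i, 0 < b i)
    (h : ∀ i, ∑ w, f i w ≤ b i * Fintype.card Ω) :
    ∃ w, ∀ i, f i w ≤ Fintype.card I * b i := by
  have h1 : ∑ w : Ω, ∑ i, f i w / b i ≤ ∑ _w : Ω, (Fintype.card I : ℝ) := by
    rw [sum_comm]
    calc ∑ i, ∑ w, f i w / b i ≤ ∑ _i : I, (Fintype.card Ω : ℝ) := by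
          refine sum_le_sum fun i _ => ?_
          rw [← sum_div, div_le_iff₀ (hb i), mul_comm]; exact h i
      _ = _ := by simp [mul_comm]
  obtain ⟨w, -, hw⟩ := exists_le_of_sum_le univ_nonempty h1
  refine ⟨w, fun i => ?_⟩
  have := single_le_sum (f := fun i => f i w / b i)
    (fun i _ => div_nonneg (hf i w) (hb i).le) (mem_univ i)
  rw [← div_le_iff₀ (hb i)]
  exact this.trans hw

/-- Integer vectors acting on columns over `ZMod Q`. -/
def evH {ι V : Type*} [Fintype ι] (Q : ℕ) [AddCommGroup V] [Module (ZMod Q) V] (A : ι → V) :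
    (ι → ℤ) →+ V :=
  AddMonoidHom.mk' (fun x => pr (fun l => (x l : ZMod Q)) A) fun x y => by
    rw [← add_pr]; congr 1; funext l; simp

lemma evH_apply {ι V : Type*} [Fintype ι] (Q : ℕ) [AddCommGroup V] [Module (ZMod Q) V]
    (A : ι → V) (x : ι → ℤ) : evH Q A x = pr (fun l => (x l : ZMod Q)) A := rfl

lemma card_image_le_div {n : ℕ} {V : Type*} [AddCommGroup V] [DecidableEq V]
    (f : (Fin n → ℤ) →+ V) (S : Finset (Fin n → ℤ)) {N : ℕ} (hN : 1 ≤ N) :
    (S.image f).card ≤ (S.image fun x => f fun l => x l / (N : ℤ)).card * N ^ n := by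
  have hN' : (0 : ℤ) < N := by exact_mod_cast hN
  have h1 : S.image f ⊆ ((S.image fun x => f fun l => x l / (N : ℤ)) ×ˢ
      (Fintype.piFinset fun _ : Fin n => Finset.Ico (0 : ℤ) N)).image
        fun p => N • p.1 + f p.2 := by
    intro v hv
    obtain ⟨x, hx, rfl⟩ := mem_image.1 hv
    refine mem_image.2 ⟨(f fun l => x l / (N : ℤ), fun l => x l % (N : ℤ)), ?_, ?_⟩
    · refine mem_product.2 ⟨mem_image_of_mem _ hx, ?_⟩
      simp only [Fintype.mem_piFinset, mem_Ico]
      exact fun l => ⟨Int.emod_nonneg _ hN'.ne', Int.emod_lt_of_pos _ hN'⟩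
    · simp only
      rw [← map_nsmul, ← map_add]
      congr 1
      funext l
      simp [Int.mul_ediv_add_emod]
  refine (card_le_card h1).trans (card_image_le.trans ?_)
  simp [Fintype.card_piFinset]

lemma surj_of_half {α V : Type*} [AddCommGroup α] [AddCommGroup V] [Fintype V] [DecidableEq V]
    (f : α →+ V) (S : Finset α) (h : Fintype.card V < 2 * (S.image f).card) :
    Function.Surjective f := by
  intro v
  have h1 : ((S.image f).image fun a => v - a).card = (S.image f).card :=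
    card_image_of_injective _ sub_right_injective
  have h2 : ((S.image f) ∩ (S.image f).image fun a => v - a).Nonempty := by
    rw [← card_pos]
    have h3 := card_union_add_card_inter (S.image f) ((S.image f).image fun a => v - a)
    have h4 := card_le_univ ((S.image f) ∪ (S.image f).image fun a => v - a)
    omega
  obtain ⟨a, ha⟩ := h2
  obtain ⟨ha1, ha2⟩ := mem_inter.1 ha
  obtain ⟨x, -, rfl⟩ := mem_image.1 ha1
  obtain ⟨b, hb, hb2⟩ := mem_image.1 ha2
  obtain ⟨y, -, rfl⟩ := mem_image.1 hb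
  exact ⟨x + y, by rw [map_add, ← hb2]; abel⟩

lemma exists_sub_notMem {V : Type*} [AddCommGroup V] [DecidableEq V] (T Hs : Finset V) (w : V)
    (h : Hs.card < T.card) : ∃ t ∈ T, w - t ∉ Hs := by
  by_contra hc
  push Not at hc
  have h1 : (T.image fun t => w - t) ⊆ Hs := by
    intro v hv
    obtain ⟨t, ht, rfl⟩ := mem_image.1 hv
    exact hc t ht
  have h2 := card_le_card h1
  rw [card_image_of_injective _ sub_right_injective] at h2
  omega

lemma four_mem {E : Type*} [AddCommGroup E] [Module ℝ E] {K : Set E} (hK : Convex ℝ K)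
    {a b c d : E} (ha : a ∈ K) (hb : b ∈ K) (hc : c ∈ K) (hd : d ∈ K) {n : ℝ} (hn : 0 < n) :
    (1 + 3 / n)⁻¹ • (a + n⁻¹ • b + n⁻¹ • c + n⁻¹ • d) ∈ K := by
  have h1 : (1 / 3 : ℝ) • b + (2 / 3 : ℝ) • ((1 / 2 : ℝ) • c + (1 / 2 : ℝ) • d) ∈ K :=
    hK hb (hK hc hd (by norm_num) (by norm_num) (by norm_num)) (by norm_num) (by norm_num)
      (by norm_num)
  have h2 := hK ha h1 (a := n / (n + 3)) (b := 3 / (n + 3)) (by positivity) (by positivity)
    (by field_simp)
  convert h2 using 1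
  have e1 : (1 + 3 / n)⁻¹ = n / (n + 3) := by field_simp
  have e2 : n / (n + 3) * n⁻¹ = 1 / (n + 3) := by field_simp
  have e3 : 3 / (n + 3) * (1 / 3) = 1 / (n + 3) := by field_simp
  have e4 : 3 / (n + 3) * (2 / 3 * (1 / 2)) = 1 / (n + 3) := by field_simp
  simp only [smul_add, smul_smul, e1, e2, e3, e4]
  abel

lemma Causal.cast {ι : Type*} {rk : ι → ℕ} {x : (ι → Bool) → ι → ℤ} (hx : Causal rk x) {Q : ℕ}
    (hQ : ∀ ε ε' i, |x ε i - x ε' i| < Q) :
    Causal rk fun ε i => (x ε i : ZMod Q) := by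
  refine ⟨fun ε ε' i h => by simp only [hx.1 ε ε' i h], fun ε ε' i h hne he => ?_⟩
  have h1 := hx.2 ε ε' i h hne
  have h2 : (Q : ℤ) ∣ x ε i - x ε' i := by
    rw [← ZMod.intCast_zmod_eq_zero_iff_dvd]; push_cast; exact sub_eq_zero.2 he
  exact h1 (sub_eq_zero.1 (Int.eq_zero_of_abs_lt_dvd h2 (hQ ε ε' i)))

/-- Reduction of a real number to a net point modulo a period. -/
lemma net_point {s p : ℝ} {n N : ℕ} (hp : 0 < p) (hn : 1 ≤ n) (hN : p * n ≤ N) :
    ∃ (a : ℤ) (τ : Fin N) (δ : ℝ), |δ| ≤ 1 ∧ s = p * a + (τ : ℕ) / n + δ / n := by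
  have hn0 : (0 : ℝ) < n := by exact_mod_cast hn
  set a := ⌊s / p⌋
  have h1 : (a : ℝ) ≤ s / p := Int.floor_le _
  have h2 : s / p < a + 1 := Int.lt_floor_add_one _
  rw [le_div_iff₀ hp] at h1
  rw [div_lt_iff₀ hp] at h2
  have h3 : 0 ≤ (s - p * a) * n := by
    have : 0 ≤ s - p * a := by linarith
    positivity
  have h4 : (s - p * a) * n < N := by
    have : s - p * a < p := by linarith
    nlinarith
  refine ⟨a, ⟨⌊(s - p * a) * n⌋₊, (Nat.floor_lt h3).2 h4⟩,
    (s - p * a) * n - ⌊(s - p * a) * n⌋₊, ?_, ?_⟩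
  · have := Nat.floor_le h3
    have := Nat.lt_floor_add_one ((s - p * a) * n)
    rw [abs_le]; constructor <;> linarith
  · field_simp; ring

end Vale.Agent.P230.Up
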