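import Vale.Agent.P230.UpDefs

/-! Heights of residues and the basic counting lemmas. -/

namespace Vale.Agent.P230.Up

open Finset MeasureTheory ProbabilityTheory

/-- `(a, b)` is a shortest nonzero integer solution of `a = c b` modulo `Q`. -/
def CtMin {Q : ℕ} (c : ZMod Q) (a b : ℤ) : Prop :=
  ¬ (a = 0 ∧ b = 0) ∧ (a : ZMod Q) = c * b ∧ max a.natAbs b.natAbs < Q ∧
    ∀ a' b' : ℤ, (a' : ZMod Q) = c * b' → max a'.natAbs b'.natAbs < max a.natAbs b.natAbs →
      a' = 0 ∧ b' = 0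

lemma ct_exists {Q : ℕ} [Fact Q.Prime] (c : ZMod Q) : ∃ a b, CtMin c a b := by
  classical
  have hQ : 2 ≤ Q := (Fact.out : Q.Prime).two_le
  have h0 : ¬ ((c.val : ℤ) = 0 ∧ (1 : ℤ) = 0) ∧ (((c.val : ℤ) : ZMod Q) = c * (1 : ℤ)) := by simp
  have hex : ∃ k : ℕ, ∃ a b : ℤ, ¬ (a = 0 ∧ b = 0) ∧ (a : ZMod Q) = c * b ∧
      max a.natAbs b.natAbs = k := ⟨_, _, _, h0.1, h0.2, rfl⟩
  obtain ⟨a, b, h1, h2, h3⟩ := Nat.find_spec hex
  refine ⟨a, b, h1, h2, ?_, fun a' b' h4 h5 => ?_⟩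
  · have := Nat.find_min' hex ⟨_, _, h0.1, h0.2, rfl⟩
    have := ZMod.val_lt c
    omega
  · by_contra h6
    have := Nat.find_min' hex ⟨a', b', h6, h4, rfl⟩
    omega

lemma ct_zero {Q : ℕ} {t : ℤ} (h : (t : ZMod Q) = 0) (h2 : |t| < Q) : t = 0 :=
  Int.eq_zero_of_abs_lt_dvd ((ZMod.intCast_zmod_eq_zero_iff_dvd t Q).1 h) h2

lemma CtMin.ne {Q : ℕ} {c : ZMod Q} {a b : ℤ} (h : CtMin c a b) : (b : ZMod Q) ≠ 0 := by
  intro hb
  have h3 := h.2.2.1
  have h1 : b = 0 := ct_zero hb (by rw [Int.abs_eq_natAbs]; omega)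
  have h2 : a = 0 := ct_zero (by rw [h.2.1, hb, mul_zero]) (by rw [Int.abs_eq_natAbs]; omega)
  exact h.1 ⟨h2, h1⟩

lemma ct_euc {a b u v : ℤ} (hab : |a| ≤ |b|) (hb : b ≠ 0) (hdet : a * v = b * u)
    (hmin : ∀ q, |u - q * a| < |b| → |v - q * b| < |b| → v - q * b = 0) : b ∣ v := by
  have h1 := Int.emod_nonneg v hb
  have h2 := Int.emod_lt_abs v hb
  have h3 : v - v / b * b = v % b := by rw [Int.emod_def]; ring
  have h4 : |b| * |u - v / b * a| = |a| * (v % b) := by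
    rw [← abs_mul, ← abs_of_nonneg h1, ← abs_mul, ← h3]
    congr 1
    linear_combination -hdet
  have hb' := abs_pos.2 hb
  have h5 : |u - v / b * a| < |b| := by
    have : |b| * |u - v / b * a| < |b| * |b| := by nlinarith [abs_nonneg a]
    exact lt_of_mul_lt_mul_left this hb'.le
  have := hmin (v / b) h5 (by rw [h3, abs_of_nonneg h1]; exact h2)
  exact Int.dvd_of_emod_eq_zero (h3 ▸ this)

/-- Short solutions are multiples of the shortest one. -/
lemma CtMin.dvd {Q H : ℕ} {c : ZMod Q} {a b : ℤ} (h : CtMin c a b) (hQ : 8 * H ^ 2 ≤ Q)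
    {u v : ℤ} (huv : (u : ZMod Q) = c * v) (hu : |u| < 2 * H) (hv : |v| < 2 * H) :
    (|a| ≤ |b| → b ∣ v) ∧ (|b| ≤ |a| → a ∣ u) := by
  by_cases h0 : u = 0 ∧ v = 0
  · simp [h0.1, h0.2]
  have h1 : ¬ max u.natAbs v.natAbs < max a.natAbs b.natAbs := fun h' => h0 (h.2.2.2 u v huv h')
  have ha : |a| < 2 * H := by rw [Int.abs_eq_natAbs] at *; omega
  have hb : |b| < 2 * H := by rw [Int.abs_eq_natAbs] at *; omega
  have hdet : a * v - b * u = 0 := by
    refine ct_zero (Q := Q) (by push_cast; rw [h.2.1, huv]; ring) ?_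
    have e1 : |a * v| < 2 * H * (2 * H) := by
      rw [abs_mul]; exact mul_lt_mul'' ha hv (abs_nonneg _) (abs_nonneg _)
    have e2 : |b * u| < 2 * H * (2 * H) := by
      rw [abs_mul]; exact mul_lt_mul'' hb hu (abs_nonneg _) (abs_nonneg _)
    have e3 : (8 * (H : ℤ) ^ 2) ≤ Q := by exact_mod_cast hQ
    have := abs_sub (a * v) (b * u)
    nlinarith
  have key : ∀ q : ℤ, max (u - q * a).natAbs (v - q * b).natAbs < max a.natAbs b.natAbs →
      u - q * a = 0 ∧ v - q * b = 0 :=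
    fun q => h.2.2.2 _ _ (by push_cast; rw [h.2.1, huv]; ring)
  have hne := h.1
  refine ⟨fun hab => ct_euc (u := u) hab ?_ (by linarith) fun q h2 h3 => (key q ?_).2,
    fun hab => ct_euc (u := v) hab ?_ (by linarith) fun q h2 h3 => (key q ?_).1⟩
  · rintro rfl; exact hne ⟨by simpa using hab, rfl⟩
  · rw [Int.abs_eq_natAbs, Int.abs_eq_natAbs] at h2 h3; omega
  · rintro rfl; exact hne ⟨rfl, by simpa using hab⟩
  · rw [Int.abs_eq_natAbs, Int.abs_eq_natAbs] at h2 h3; omega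

lemma ct_res {n H₀ : ℕ} (hH : 0 < H₀) (C : Finset (Fin n → ℤ)) {m : ℤ} (hm : m ≠ 0)
    (x₀ : Fin n → ℤ) :
    (((blk H₀ C).filter fun x => ∀ l, m ∣ x l - x₀ l).card : ℝ) ≤
      (blk H₀ C).card * (1 / (m.natAbs : ℝ) + 1 / H₀) ^ n := by
  have hm' : (0 : ℤ) < m.natAbs := by omega
  have hm2 : (0 : ℝ) < m.natAbs := by exact_mod_cast hm'
  have hH' : (0 : ℝ) < H₀ := by exact_mod_cast hH
  have h1 : ∀ a v : ℤ, (((Ico a (a + H₀)).filter fun x => m ∣ x - v).card : ℝ) ≤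
      H₀ * (1 / (m.natAbs : ℝ) + 1 / H₀) := by
    intro a v
    have e1 := Int.Ico_filter_modEq_card a (a + H₀) hm' v
    have e2 : ((Ico a (a + H₀)).filter fun x => m ∣ x - v) =
        (Ico a (a + H₀)).filter fun x => x ≡ v [ZMOD (m.natAbs : ℤ)] :=
      filter_congr fun x _ => by rw [Int.modEq_comm, Int.modEq_iff_dvd, Int.natAbs_dvd]
    have hm3 : (0 : ℚ) < m.natAbs := by exact_mod_cast hm'
    have e3 : (((Ico a (a + H₀)).filter fun x => m ∣ x - v).card : ℚ) ≤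
        H₀ / (m.natAbs : ℚ) + 1 := by
      have e4 : (((Ico a (a + H₀)).filter fun x => m ∣ x - v).card : ℚ) =
          ((((Ico a (a + H₀)).filter fun x => m ∣ x - v).card : ℤ) : ℚ) := by simp
      rw [e4, e2, e1]
      have e5 := Int.ceil_lt_add_one ((((a + H₀ : ℤ) : ℚ) - v) / ((m.natAbs : ℤ) : ℚ))
      have e6 := Int.le_ceil (((a : ℚ) - v) / ((m.natAbs : ℤ) : ℚ))
      have e7 : (((a + H₀ : ℤ) : ℚ) - v) / ((m.natAbs : ℤ) : ℚ) =
          ((a : ℚ) - v) / ((m.natAbs : ℤ) : ℚ) + H₀ / (m.natAbs : ℚ) := by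
        rw [Int.cast_natCast]; push_cast; ring
      rw [Int.cast_max]
      refine max_le (by rw [Int.cast_sub]; linarith) (by rw [Int.cast_zero]; positivity)
    have e8 : (((Ico a (a + H₀)).filter fun x => m ∣ x - v).card : ℝ) ≤
        H₀ / (m.natAbs : ℝ) + 1 := by
      have := (Rat.cast_le (K := ℝ)).2 e3
      rwa [Rat.cast_natCast, Rat.cast_add, Rat.cast_div, Rat.cast_natCast, Rat.cast_natCast,
        Rat.cast_one] at this
    refine e8.trans_eq ?_
    field_simp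
  have h2 : ((blk H₀ C).filter fun x => ∀ l, m ∣ x l - x₀ l) ⊆ C.biUnion fun c =>
      Fintype.piFinset fun l => (Ico ((H₀ : ℤ) * c l) ((H₀ : ℤ) * c l + H₀)).filter
        fun x => m ∣ x - x₀ l := by
    intro x hx
    simp only [blk, mem_filter, mem_biUnion, Fintype.mem_piFinset] at hx ⊢
    obtain ⟨⟨c, hc, h⟩, h'⟩ := hx
    exact ⟨c, hc, fun l => ⟨h l, h' l⟩⟩
  have h3 := (card_le_card h2).trans card_biUnion_le
  refine le_trans (Nat.cast_le.2 h3) ?_
  rw [card_blk hH]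
  push_cast
  rw [mul_assoc, ← mul_pow, ← nsmul_eq_mul]
  refine sum_le_card_nsmul _ _ _ fun c _ => ?_
  rw [Fintype.card_piFinset]
  push_cast
  refine (prod_le_prod (fun _ _ => Nat.cast_nonneg _) fun l _ => h1 _ _).trans_eq ?_
  simp

lemma ct_inj {n Q H : ℕ} (hQ : 8 * H ^ 2 ≤ Q) {x y : Fin n → ℤ} (hx : ∀ l, |x l| < H)
    (hy : ∀ l, |y l| < H) (h : lift Q x = lift Q y) : x = y := by
  funext l
  have h1 : (x l : ZMod Q) = y l := congrFun h (some l)
  have h2 : (8 * (H : ℤ) ^ 2) ≤ Q := by exact_mod_cast hQ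
  have := ct_zero (Q := Q) (t := x l - y l) (by push_cast; rw [h1, sub_self]) (by
    have := abs_sub (x l) (y l)
    have := hx l
    have := hy l
    have := abs_nonneg (x l)
    nlinarith)
  linarith

/-- One coefficient of height at least two. -/
lemma ct_caseA {n Q H H₀ : ℕ} [Fact Q.Prime] (hH : 0 < H₀) (C : Finset (Fin n → ℤ))
    (hQ : 8 * H ^ 2 ≤ Q) (hS : ∀ x ∈ blk H₀ C, ∀ l, |x l| < H) {c : ZMod Q} {a b : ℤ}
    (h : CtMin c a b) (h2 : 2 ≤ max a.natAbs b.natAbs) (w : Option (Fin n) → ZMod Q) :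
    (((blk H₀ C ×ˢ blk H₀ C).filter fun p => lift Q p.2 = c • lift Q p.1 + w).card : ℝ) ≤
      (blk H₀ C).card * (1 / ((max a.natAbs b.natAbs : ℕ) : ℝ) + 1 / H₀) ^ n := by
  rcases ((blk H₀ C ×ˢ blk H₀ C).filter
    fun p => lift Q p.2 = c • lift Q p.1 + w).eq_empty_or_nonempty with h0 | ⟨p₀, hp₀⟩
  · rw [h0, card_empty, Nat.cast_zero]; positivity
  have hc : c ≠ 0 := by
    rintro rfl
    have := (h.2.2.2 0 1 (by simp) (by simp only [Int.natAbs_zero, Int.natAbs_one]; omega)).2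
    exact one_ne_zero this
  have key : ∀ p ∈ (blk H₀ C ×ˢ blk H₀ C).filter fun p => lift Q p.2 = c • lift Q p.1 + w, ∀ l,
      (|a| ≤ |b| → b ∣ p.1 l - p₀.1 l) ∧ (|b| ≤ |a| → a ∣ p.2 l - p₀.2 l) := by
    intro p hp l
    rw [mem_filter, mem_product] at hp hp₀
    have e1 : (p.2 l : ZMod Q) = c * p.1 l + w (some l) := congrFun hp.2 (some l)
    have e2 : (p₀.2 l : ZMod Q) = c * p₀.1 l + w (some l) := congrFun hp₀.2 (some l)
    refine h.dvd hQ (by push_cast; rw [e1, e2]; ring) ?_ ?_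
    · have := abs_sub (p.2 l) (p₀.2 l)
      have := hS _ hp.1.2 l
      have := hS _ hp₀.1.2 l
      linarith
    · have := abs_sub (p.1 l) (p₀.1 l)
      have := hS _ hp.1.1 l
      have := hS _ hp₀.1.1 l
      linarith
  rcases le_total |a| |b| with hab | hab
  · have e : max a.natAbs b.natAbs = b.natAbs := by
      rw [Int.abs_eq_natAbs, Int.abs_eq_natAbs] at hab; omega
    rw [e] at h2 ⊢
    refine le_trans ?_ (ct_res hH C (m := b) (by omega) p₀.1)
    refine Nat.cast_le.2 (card_le_card_of_injOn Prod.fst (fun p hp => ?_) fun p hp p' hp' e => ?_)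
    · exact mem_coe.2 (mem_filter.2 ⟨(mem_product.1 (mem_filter.1 hp).1).1,
        fun l => (key p hp l).1 hab⟩)
    · rw [mem_coe, mem_filter, mem_product] at hp hp'
      exact Prod.ext e (ct_inj hQ (hS _ hp.1.2) (hS _ hp'.1.2) (by rw [hp.2, hp'.2, e]))
  · have e : max a.natAbs b.natAbs = a.natAbs := by
      rw [Int.abs_eq_natAbs, Int.abs_eq_natAbs] at hab; omega
    rw [e] at h2 ⊢
    refine le_trans ?_ (ct_res hH C (m := a) (by omega) p₀.2)
    refine Nat.cast_le.2 (card_le_card_of_injOn Prod.snd (fun p hp => ?_) fun p hp p' hp' e => ?_)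
    · exact mem_coe.2 (mem_filter.2 ⟨(mem_product.1 (mem_filter.1 hp).1).2,
        fun l => (key p hp l).2 hab⟩)
    · rw [mem_coe, mem_filter, mem_product] at hp hp'
      refine Prod.ext (ct_inj hQ (hS _ hp.1.1) (hS _ hp'.1.1) ?_) e
      have e1 : c • lift Q p.1 + w = c • lift Q p'.1 + w := by rw [← hp.2, ← hp'.2, e]
      exact smul_right_injective _ hc (add_right_cancel e1)

lemma ct_flip {n H₀ : ℕ} (hH : 0 < H₀) (he : Even H₀) (C : Finset (Fin n → ℤ)) :
    ∀ x ∈ blk H₀ C, ∀ l,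
      Function.update x l (if Even (x l) then x l + 1 else x l - 1) ∈ blk H₀ C := by
  intro x hx l
  rw [mem_blk hH] at hx ⊢
  obtain ⟨k, rfl⟩ := he
  have : (fun l' => Function.update x l (if Even (x l) then x l + 1 else x l - 1) l' /
      ((k + k : ℕ) : ℤ)) = fun l' => x l' / ((k + k : ℕ) : ℤ) := by
    funext l'
    by_cases h : l' = l
    · subst h
      have e : ((k + k : ℕ) : ℤ) = 2 * k := by push_cast; ring
      rw [Function.update_self, e, ← Int.ediv_ediv_of_nonneg (by norm_num),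
        ← Int.ediv_ediv_of_nonneg (by norm_num)]
      congr 1
      split_ifs with h
      · rw [Int.even_iff] at h; omega
      · rw [Int.even_iff] at h; omega
    · rw [Function.update_of_ne h]
  rwa [this]

lemma ct_avg {α : Type*} {j : ℕ} (S : Finset α) (i : Fin j) (f : (Fin j → α) → ℝ) :
    ∑ y ∈ Fintype.piFinset fun _ => S, ∑ a ∈ S, f (Function.update y i a) =
      S.card * ∑ x ∈ Fintype.piFinset fun _ => S, f x := by
  have h1 : ∀ p ∈ (Fintype.piFinset fun _ : Fin j => S) ×ˢ S,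
      (Function.update p.1 i p.2, p.1 i) ∈ (Fintype.piFinset fun _ : Fin j => S) ×ˢ S := by
    intro p hp
    simp only [mem_product, Fintype.mem_piFinset] at hp ⊢
    refine ⟨fun k => ?_, hp.1 i⟩
    by_cases h : k = i
    · subst h; simpa using hp.2
    · simpa [h] using hp.1 k
  rw [← sum_product', mul_sum]
  trans ∑ p ∈ (Fintype.piFinset fun _ : Fin j => S) ×ˢ S, f p.1
  · exact sum_nbij' (fun p => (Function.update p.1 i p.2, p.1 i))
      (fun p => (Function.update p.1 i p.2, p.1 i)) h1 h1 (fun p _ => by simp) (fun p _ => by simp)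
      fun _ _ => rfl
  · rw [sum_product]; simp

lemma ct_upd {α M : Type*} [AddCommMonoid M] {j : ℕ} (g : Fin j → α → M) {s : Finset (Fin j)}
    {i : Fin j} (hi : i ∈ s) (y : Fin j → α) (a : α) :
    ∑ k ∈ s, g k (Function.update y i a k) = g i a + ∑ k ∈ s.erase i, g k (y k) := by
  rw [← add_sum_erase s _ hi, Function.update_self]
  exact congrArg _ (sum_congr rfl fun k hk => by rw [Function.update_of_ne (ne_of_mem_erase hk)])

lemma ct_wt {Q H₀ : ℕ} [Fact Q.Prime] (hH : 256 * Q ≤ H₀ ^ 8) {a b : ZMod Q → ℤ}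
    (h : ∀ c, CtMin c (a c) (b c)) :
    ∑ c, (min 1 (1 / ((max (a c).natAbs (b c).natAbs : ℕ) : ℝ) + 1 / H₀)) ^ 8 ≤ 2305 := by
  have hQ : 2 ≤ Q := (Fact.out : Q.Prime).two_le
  have hH0 : (0 : ℝ) < (H₀ : ℝ) ^ 8 := by exact_mod_cast (by omega : 0 < H₀ ^ 8)
  have h1 : ∀ k ∈ Ioo 0 Q, ∑ c ∈ univ.filter fun c => max (a c).natAbs (b c).natAbs = k,
      (1 / ((max (a c).natAbs (b c).natAbs : ℕ) : ℝ)) ^ 8 ≤ 9 * ((k : ℝ) ^ 2)⁻¹ := by
    intro k hk
    have hk1 : (1 : ℝ) ≤ k := by exact_mod_cast (mem_Ioo.1 hk).1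
    have e1 : (univ.filter fun c => max (a c).natAbs (b c).natAbs = k).card ≤
        (Icc (-k : ℤ) k ×ˢ Icc (-k : ℤ) k).card := by
      refine card_le_card_of_injOn (fun c => (a c, b c)) (fun c hc => ?_) fun c _ c' _ e => ?_
      · have := (mem_filter.1 hc).2
        simp only [coe_product, coe_Icc, Set.mem_prod, Set.mem_Icc]
        omega
      · obtain ⟨e1, e2⟩ := Prod.ext_iff.1 e
        refine mul_right_cancel₀ (h c).ne ?_
        rw [← (h c).2.1, show a c = a c' from e1, show b c = b c' from e2, (h c').2.1]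
    have e2 : (Icc (-k : ℤ) k).card = 2 * k + 1 := by rw [Int.card_Icc]; omega
    rw [card_product, e2] at e1
    have e3 : ((univ.filter fun c => max (a c).natAbs (b c).natAbs = k).card : ℝ) ≤
        (2 * k + 1) * (2 * k + 1) := by exact_mod_cast e1
    rw [sum_congr rfl (g := fun _ => (1 / (k : ℝ)) ^ 8) fun c hc => by rw [(mem_filter.1 hc).2],
      sum_const, nsmul_eq_mul, one_div, inv_pow, ← div_eq_mul_inv, ← div_eq_mul_inv,
      div_le_div_iff₀ (by positivity) (by positivity)]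
    have e4 : (k : ℝ) ^ 4 ≤ k ^ 8 := pow_le_pow_right₀ hk1 (by norm_num)
    have e5 : ((univ.filter fun c => max (a c).natAbs (b c).natAbs = k).card : ℝ) ≤ 9 * k ^ 2 := by
      nlinarith
    nlinarith [mul_le_mul_of_nonneg_right e5 (sq_nonneg (k : ℝ))]
  have h2 : ∑ c, (1 / ((max (a c).natAbs (b c).natAbs : ℕ) : ℝ)) ^ 8 ≤ 18 := by
    rw [← sum_fiberwise_of_maps_to (t := Ioo 0 Q) (g := fun c => max (a c).natAbs (b c).natAbs)
      fun c _ => mem_Ioo.2 ⟨by have := (h c).1; omega, (h c).2.2.1⟩]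
    refine (sum_le_sum h1).trans ?_
    rw [← mul_sum]
    have := sum_Ioo_inv_sq_le (α := ℝ) 0 Q
    norm_num at this
    linarith
  have h3 : ∑ _c : ZMod Q, (1 / (H₀ : ℝ)) ^ 8 ≤ 1 / 128 := by
    rw [sum_const, card_univ, ZMod.card, nsmul_eq_mul, one_div, inv_pow, ← div_eq_mul_inv,
      div_le_iff₀ hH0]
    have : (256 * Q : ℝ) ≤ (H₀ : ℝ) ^ 8 := by exact_mod_cast hH
    linarith
  refine le_trans (sum_le_sum (g := fun c => 128 *
    ((1 / ((max (a c).natAbs (b c).natAbs : ℕ) : ℝ)) ^ 8 + (1 / (H₀ : ℝ)) ^ 8)) fun c _ => ?_) ?_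
  · refine (pow_le_pow_left₀ (by positivity) (min_le_right _ _) 8).trans ?_
    exact (add_pow_le (by positivity) (by positivity) 8).trans_eq (by norm_num)
  · rw [← mul_sum, sum_add_distrib]; linarith

end Vale.Agent.P230.Up
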