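import Vale.Agent.P230.Defs

/-! Auxiliary definitions for the lattice covering upper bound. -/

namespace Vale.Agent.P230.Up

open MeasureTheory

/-- Standard Gaussian density. -/
noncomputable def gs (x : ℝ) : ℝ := Real.exp (-x ^ 2 / 2) / √(2 * Real.pi)

/-- Linear combination of the columns `A i` with coefficients `v i`. -/
def pr {ι F V : Type*} [Fintype ι] [Semiring F] [AddCommMonoid V] [Module F V]
    (v : ι → F) (A : ι → V) : V := ∑ i, v i • A i

/-- Union of the integer cubes of side `H₀` with coarse positions in `C`. -/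
noncomputable def blk {n : ℕ} (H₀ : ℕ) (C : Finset (Fin n → ℤ)) : Finset (Fin n → ℤ) :=
  C.biUnion fun c => Fintype.piFinset fun l => Finset.Ico ((H₀ : ℤ) * c l) ((H₀ : ℤ) * c l + H₀)

/-- The vector `(x mod Q, 1)`. -/
def lift {n : ℕ} (Q : ℕ) (x : Fin n → ℤ) : Option (Fin n) → ZMod Q :=
  fun o => o.elim 1 fun l => (x l : ZMod Q)

/-- Two-point Gaussian weight on `ZMod q`. -/
noncomputable def W1 (h : ℝ) (q : ℕ) (y : ZMod q) : ℝ :=
  h * (gs (h / q * y.val) + gs (h / q * y.val - h))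

/-- Residues where the two Gaussian weights are comparable. -/
def Act (h : ℝ) (q : ℕ) (y : ZMod q) : Prop := |h / q * y.val - h / 2| ≤ 1 / h

/-- A binary decision tree written as a map on sign sequences. -/
def Causal {ι α : Type*} (rk : ι → ℕ) (x : (ι → Bool) → ι → α) : Prop :=
  (∀ ε ε' i, (∀ j, rk j ≤ rk i → ε j = ε' j) → x ε i = x ε' i) ∧
  (∀ ε ε' i, (∀ j, rk j < rk i → ε j = ε' j) → ε i ≠ ε' i → x ε i ≠ x ε' i)

/-- Second moments about the origin are those of the identity matrix. -/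
def IsIso {n : ℕ} (K : Set (Sp n)) : Prop :=
  ∀ u : Sp n, ∫ x in K, inner ℝ x u ^ 2 = volume.real K * ‖u‖ ^ 2

lemma gs_pos (x : ℝ) : 0 < gs x := by
  unfold gs; have := Real.pi_pos; positivity

lemma gs_neg (x : ℝ) : gs (-x) = gs x := by simp [gs]

lemma gs_eq (x : ℝ) : gs x = gs 0 * Real.exp (-x ^ 2 / 2) := by
  simp [gs]; ring

lemma gs_le_of_abs_le {x y : ℝ} (h : |x| ≤ |y|) : gs y ≤ gs x := by
  rw [gs_eq x, gs_eq y]
  have h2 : x ^ 2 ≤ y ^ 2 := sq_le_sq.2 h
  exact mul_le_mul_of_nonneg_left (Real.exp_le_exp.2 (by linarith)) (gs_pos 0).le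

lemma gs_le_zero (x : ℝ) : gs x ≤ gs 0 := gs_le_of_abs_le (by simp)

lemma gs_zero_bounds : 0.39 ≤ gs 0 ∧ gs 0 ≤ 0.4 := by
  have h1 : gs 0 = 1 / √(2 * Real.pi) := by simp [gs]
  have h2 := Real.pi_gt_d2
  have h3 := Real.pi_lt_d2
  have h4 : (2.5 : ℝ) ≤ √(2 * Real.pi) := Real.le_sqrt_of_sq_le (by norm_num; linarith)
  have h5 : √(2 * Real.pi) ≤ 2.55 := Real.sqrt_le_iff.2 ⟨by norm_num, by norm_num; linarith⟩
  rw [h1]
  constructor
  · rw [le_div_iff₀ (by linarith)]; linarith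
  · rw [div_le_iff₀ (by linarith)]; linarith

/-- Moving the argument by at most `δ` costs a controlled factor. -/
lemma gs_shift {x y R δ : ℝ} (hx : |x| ≤ R) (hδ : |y - x| ≤ δ) (hδ1 : δ ≤ 2) :
    gs x * Real.exp (-((R + 1) * δ)) ≤ gs y := by
  rw [gs_eq x, gs_eq y, mul_assoc, ← Real.exp_add]
  refine mul_le_mul_of_nonneg_left (Real.exp_le_exp.2 ?_) (gs_pos 0).le
  have h0 : 0 ≤ δ := (abs_nonneg _).trans hδ
  have h1 : |x * (y - x)| ≤ R * δ := by
    rw [abs_mul]; exact mul_le_mul hx hδ (abs_nonneg _) ((abs_nonneg _).trans hx)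
  have h2 : (y - x) ^ 2 ≤ δ ^ 2 := by
    rw [← sq_abs]; exact pow_le_pow_left₀ (abs_nonneg _) hδ 2
  have h3 := (abs_le.1 h1).2
  nlinarith

lemma mem_blk {n H₀ : ℕ} (hH : 0 < H₀) {C : Finset (Fin n → ℤ)} {x : Fin n → ℤ} :
    x ∈ blk H₀ C ↔ (fun l => x l / (H₀ : ℤ)) ∈ C := by
  have hH' : (0 : ℤ) < H₀ := by exact_mod_cast hH
  simp only [blk, Finset.mem_biUnion, Fintype.mem_piFinset, Finset.mem_Ico]
  constructor
  · rintro ⟨c, hc, h⟩
    have : (fun l => x l / (H₀ : ℤ)) = c := by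
      funext l
      obtain ⟨h1, h2⟩ := h l
      apply le_antisymm
      · have : x l / (H₀ : ℤ) < c l + 1 := Int.ediv_lt_of_lt_mul hH' (by linarith)
        omega
      · exact Int.le_ediv_of_mul_le hH' (by linarith)
    rwa [this]
  · intro h
    refine ⟨_, h, fun l => ⟨Int.mul_ediv_self_le hH'.ne', Int.lt_mul_ediv_self_add hH'⟩⟩

lemma card_blk {n H₀ : ℕ} (hH : 0 < H₀) (C : Finset (Fin n → ℤ)) :
    (blk H₀ C).card = C.card * H₀ ^ n := by
  have hH' : (0 : ℤ) < H₀ := by exact_mod_cast hH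
  unfold blk
  rw [Finset.card_biUnion]
  · simp [Fintype.card_piFinset]
  · intro c _ c' _ hne
    refine Finset.disjoint_left.2 fun x h1 h2 => hne ?_
    have e1 : x ∈ blk H₀ {c} := by simpa [blk] using h1
    have e2 : x ∈ blk H₀ {c'} := by simpa [blk] using h2
    rw [mem_blk hH, Finset.mem_singleton] at e1 e2
    exact e1.symm.trans e2

lemma pr_add {ι F V : Type*} [Fintype ι] [Semiring F] [AddCommMonoid V] [Module F V]
    (v : ι → F) (A B : ι → V) : pr v (A + B) = pr v A + pr v B := by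
  simp [pr, Finset.sum_add_distrib]

lemma add_pr {ι F V : Type*} [Fintype ι] [Semiring F] [AddCommMonoid V] [Module F V]
    (v w : ι → F) (A : ι → V) : pr (v + w) A = pr v A + pr w A := by
  simp [pr, Finset.sum_add_distrib, add_smul]

lemma smul_pr {ι F V : Type*} [Fintype ι] [Semiring F] [AddCommMonoid V] [Module F V]
    (c : F) (v : ι → F) (A : ι → V) : pr (c • v) A = c • pr v A := by
  simp [pr, Finset.smul_sum, mul_smul]

lemma W1_pos {h : ℝ} (hh : 0 < h) (q : ℕ) (y : ZMod q) : 0 < W1 h q y := by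
  unfold W1
  have := gs_pos (h / q * y.val)
  have := gs_pos (h / q * y.val - h)
  positivity

lemma W1_le {h : ℝ} (hh : 0 < h) (q : ℕ) (y : ZMod q) : W1 h q y ≤ 2 * (h * gs 0) := by
  unfold W1
  have := gs_le_zero (h / q * y.val)
  have := gs_le_zero (h / q * y.val - h)
  nlinarith

end Vale.Agent.P230.Up
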