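import Vale.Agent.P230.UpDefs

/-! Riemann sums of Gaussian functions. -/

namespace Vale.Agent.P230.Up

open Finset MeasureTheory ProbabilityTheory

lemma gg_cell {α η : ℝ} (hα : 0 < α) (hη : 0 < η) (s : ℝ) :
    η * Real.exp (-α * s ^ 2) * Real.exp (-(α * η ^ 2 / 4)) ≤
      ∫ t in (s - η / 2)..(s + η / 2), Real.exp (-α * t ^ 2) := by
  have h1 : ∫ t in (s - η / 2)..(s + η / 2),
      Real.exp (-α * s ^ 2) * Real.exp (-(α * η ^ 2 / 4)) * (1 + 2 * α * s ^ 2 - 2 * α * s * t) =
      η * Real.exp (-α * s ^ 2) * Real.exp (-(α * η ^ 2 / 4)) := by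
    rw [intervalIntegral.integral_const_mul, intervalIntegral.integral_sub (by simp)
      (Continuous.intervalIntegrable (by fun_prop) _ _), intervalIntegral.integral_const_mul,
      integral_id, intervalIntegral.integral_const, smul_eq_mul]
    ring
  rw [← h1]
  refine intervalIntegral.integral_mono_on (by linarith)
    (Continuous.intervalIntegrable (by fun_prop) _ _)
    (Continuous.intervalIntegrable (by fun_prop) _ _) fun t ht => ?_
  have h2 := Real.add_one_le_exp (2 * α * s ^ 2 - 2 * α * s * t)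
  have h3 : (t - s) ^ 2 ≤ (η / 2) ^ 2 := sq_le_sq' (by linarith [ht.1]) (by linarith [ht.2])
  calc _ ≤ Real.exp (-α * s ^ 2) * Real.exp (-(α * η ^ 2 / 4)) *
        Real.exp (2 * α * s ^ 2 - 2 * α * s * t) :=
        mul_le_mul_of_nonneg_left (by linarith) (by positivity)
    _ ≤ _ := by
        rw [← Real.exp_add, ← Real.exp_add]
        exact Real.exp_le_exp.2 (by nlinarith [mul_le_mul_of_nonneg_left h3 hα.le])

lemma gg_int {α B : ℝ} (hα : 0 < α) (hB : 0 ≤ B) (h : 1 ≤ 2 * α * B ^ 2) :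
    gs 0 * ∫ t : ℝ, Real.exp (-α * t ^ 2) ≤ B := by
  have hpi := Real.pi_pos
  have h1 : gs 0 = 1 / √(2 * Real.pi) := by simp [gs]
  rw [integral_gaussian, h1, one_div_mul_eq_div, ← Real.sqrt_div (by positivity)]
  refine Real.sqrt_le_iff.2 ⟨hB, ?_⟩
  rw [div_div, div_le_iff₀ (by positivity)]
  nlinarith

lemma gg_up {α η B : ℝ} (hα : 0 < α) (hα1 : α ≤ 1) (hη : 0 < η) (hη1 : η ≤ 1) (hB : 0 ≤ B)
    (h : 1 ≤ 2 * α * B ^ 2) (m : ℕ) (c : ℝ) :
    η * ∑ k ∈ range m, gs 0 * Real.exp (-α * (η * k - c) ^ 2) ≤ B * (1 + η) := by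
  have h1 := intervalIntegral.sum_integral_adjacent_intervals (μ := volume) (n := m)
    (f := fun t : ℝ => Real.exp (-α * t ^ 2)) (a := fun k : ℕ => η * k - c - η / 2)
    fun k _ => Continuous.intervalIntegrable (by fun_prop) _ _
  have h2 : ∑ k ∈ range m, η * Real.exp (-α * (η * k - c) ^ 2) * Real.exp (-(α * η ^ 2 / 4)) ≤
      ∫ t : ℝ, Real.exp (-α * t ^ 2) := by
    refine (sum_le_sum fun k _ => (gg_cell hα hη _).trans_eq ?_).trans (h1.trans_le ?_)
    · congr 1; push_cast; ring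
    · rw [intervalIntegral.integral_of_le (by
        have : (0 : ℝ) ≤ η * m := by positivity
        simp only [Nat.cast_zero]; linarith)]
      exact setIntegral_le_integral (integrable_exp_neg_mul_sq hα)
        (Filter.Eventually.of_forall fun _ => (Real.exp_pos _).le)
  have h3 : Real.exp (α * η ^ 2 / 4) ≤ 1 + η := by
    have e0 : 0 ≤ α * η ^ 2 / 4 := by positivity
    have e1 : α * η ^ 2 ≤ η := by nlinarith [mul_le_mul_of_nonneg_right hα1 (sq_nonneg η)]
    have := (abs_le.1 (Real.abs_exp_sub_one_le (x := α * η ^ 2 / 4)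
      (by rw [abs_of_nonneg e0]; linarith))).2
    rw [abs_of_nonneg e0] at this
    linarith
  have h4 := (mul_le_mul_of_nonneg_left h2 (gs_pos 0).le).trans (gg_int hα hB h)
  refine le_trans (le_of_eq ?_) (mul_le_mul h4 h3 (Real.exp_pos _).le hB)
  rw [← sum_mul, ← mul_sum, ← mul_sum, Real.exp_neg]
  field_simp

lemma gg_tail {h : ℝ} (hh : 0 ≤ h) :
    1 - 2.25 * Real.exp (-(0.4 * h ^ 2)) ≤ ∫ t in (-h)..h, gs t := by
  have hpi := Real.pi_pos
  have e : gs = fun t => gs 0 * Real.exp (-(1 / 2) * t ^ 2) := by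
    funext t; rw [gs_eq t]; congr 2; ring
  have hi : Integrable gs := by
    rw [e]; exact (integrable_exp_neg_mul_sq (by norm_num)).const_mul _
  have h1 : ∫ t, gs t = 1 := by
    have h1 : gs 0 = 1 / √(2 * Real.pi) := by simp [gs]
    rw [e, integral_const_mul, integral_gaussian, h1, show Real.pi / (1 / 2) = 2 * Real.pi by ring]
    field_simp
  have hi2 : Integrable fun t : ℝ =>
      Real.exp (-(0.4 * h ^ 2)) * (gs 0 * Real.exp (-0.1 * t ^ 2)) :=
    ((integrable_exp_neg_mul_sq (by norm_num)).const_mul _).const_mul _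
  have h2 : ∫ t in (Set.Ioc (-h) h)ᶜ, gs t ≤ 2.25 * Real.exp (-(0.4 * h ^ 2)) := by
    refine (setIntegral_mono_on hi.integrableOn hi2.integrableOn measurableSet_Ioc.compl
      fun t ht => ?_).trans ((setIntegral_le_integral hi2 (Filter.Eventually.of_forall fun t => by
        have := gs_pos 0; positivity)).trans ?_)
    · rw [gs_eq t, mul_left_comm, ← Real.exp_add]
      refine mul_le_mul_of_nonneg_left (Real.exp_le_exp.2 ?_) (gs_pos 0).le
      have : h ^ 2 ≤ t ^ 2 := by
        rw [Set.mem_compl_iff, Set.mem_Ioc, not_and_or, not_lt, not_le] at ht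
        rcases ht with ht | ht <;> nlinarith
      linarith
    · rw [integral_const_mul, integral_const_mul, mul_comm]
      exact mul_le_mul_of_nonneg_right (gg_int (by norm_num) (by norm_num) (by norm_num))
        (Real.exp_pos _).le
  have h3 := integral_add_compl (s := Set.Ioc (-h) h) measurableSet_Ioc hi
  rw [intervalIntegral.integral_of_le (by linarith)]
  linarith

lemma gg_low {h η : ℝ} {q : ℕ} (hη : 0 < η) (hη1 : η ≤ 1) (hq : η * q = h) :
    Real.exp (-((h + 1) * η)) * ∫ t in (-h)..h, gs t ≤ η * ∑ k ∈ range (q + q), gs (η * k - h) := by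
  have hc : Continuous gs := by unfold gs; fun_prop
  have h1 := intervalIntegral.sum_integral_adjacent_intervals (μ := volume) (n := q + q)
    (f := gs) (a := fun k : ℕ => η * k - h) fun k _ => hc.intervalIntegrable _ _
  have e1 : η * ((0 : ℕ) : ℝ) - h = -h := by simp
  have e2 : η * ((q + q : ℕ) : ℝ) - h = h := by push_cast; linarith
  rw [e1, e2] at h1
  rw [← h1, mul_sum, mul_sum]
  refine sum_le_sum fun k hk => ?_
  have e3 : ((k + 1 : ℕ) : ℝ) ≤ (q + q : ℕ) := by exact_mod_cast mem_range.1 hk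
  have e4 := mul_le_mul_of_nonneg_left e3 hη.le
  have e5 : 0 ≤ η * k := by positivity
  push_cast at e4 ⊢
  rw [← intervalIntegral.integral_const_mul]
  refine (intervalIntegral.integral_mono_on (g := fun _ => gs (η * k - h)) (by linarith)
    (Continuous.intervalIntegrable (by fun_prop) _ _) (by simp) fun t ht => ?_).trans_eq ?_
  · rw [mul_comm]
    exact gs_shift (abs_le.2 ⟨by linarith [ht.1], by linarith [ht.2]⟩)
      (abs_le.2 ⟨by linarith [ht.2], by linarith [ht.1]⟩) (by linarith)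
  · rw [intervalIntegral.integral_const, smul_eq_mul]; ring

lemma gg_val {q : ℕ} [NeZero q] (F : ℕ → ℝ) : ∑ y : ZMod q, F y.val = ∑ k ∈ range q, F k := by
  refine sum_nbij' (fun y => y.val) (fun k => (k : ZMod q)) (fun y _ => ?_) (fun _ _ => ?_)
    (fun y _ => by simp) (fun k hk => ZMod.val_cast_of_lt (mem_range.1 hk)) fun _ _ => rfl
  · simpa using ZMod.val_lt y
  · simp

lemma gg_sum {h η : ℝ} {q : ℕ} [NeZero q] (hq : η * q = h) (F : ℝ → ℝ) :
    ∑ y : ZMod q, (F (η * y.val) + F (η * y.val - h)) = ∑ k ∈ range (q + q), F (η * k - h) := by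
  rw [gg_val fun k => F (η * k) + F (η * k - h), sum_range_add, sum_add_distrib, add_comm]
  congr 1
  exact sum_congr rfl fun k _ => by congr 1; push_cast; linarith

lemma gg_two {h η α B : ℝ} {q : ℕ} [NeZero q] (hq : η * q = h) (hα : 0 < α) (hα1 : α ≤ 1)
    (hη : 0 < η) (hη1 : η ≤ 1) (hB : 0 ≤ B) (hαB : 1 ≤ 2 * α * B ^ 2) (c : ℝ) :
    ∑ y : ZMod q, h * (gs 0 * Real.exp (-α * (η * y.val - c) ^ 2) +
      gs 0 * Real.exp (-α * (η * y.val - h - c) ^ 2)) ≤ B * (1 + η) * q := by
  rw [← mul_sum, gg_sum hq fun v => gs 0 * Real.exp (-α * (v - c) ^ 2)]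
  have := gg_up hα hα1 hη hη1 hB hαB (q + q) (h + c)
  simp only [← sub_sub] at this
  refine le_trans (le_of_eq ?_) (mul_le_mul_of_nonneg_right this (Nat.cast_nonneg q))
  rw [mul_right_comm, hq]

lemma gg_log {h a b : ℝ} (hh : 0 < h) :
    -1 ≤ Real.log (h * gs 0) - Real.log (h * (gs a + gs b)) ∧
    Real.log (h * gs 0) - Real.log (h * (gs a + gs b)) ≤ a ^ 2 / 2 ∧
    Real.log (h * gs 0) - Real.log (h * (gs a + gs b)) ≤ b ^ 2 / 2 := by
  have h0 := gs_pos 0
  have ha := gs_pos a
  have hb := gs_pos b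
  have key : ∀ x, gs x ≤ gs a + gs b →
      Real.log (h * gs 0) - Real.log (h * (gs a + gs b)) ≤ x ^ 2 / 2 := by
    intro x hx
    have h1 := Real.log_le_log (mul_pos hh (gs_pos x)) (mul_le_mul_of_nonneg_left hx hh.le)
    rw [gs_eq x, ← mul_assoc, Real.log_mul (by positivity) (by positivity), Real.log_exp] at h1
    linarith
  refine ⟨?_, key a (by linarith), key b (by linarith)⟩
  have h1 := Real.log_le_log (by positivity : 0 < h * (gs a + gs b))
    (show _ ≤ 2 * (h * gs 0) by nlinarith [gs_le_zero a, gs_le_zero b])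
  rw [Real.log_mul (x := 2) (by positivity) (by positivity)] at h1
  linarith [Real.log_two_lt_d9]

end Vale.Agent.P230.Up
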