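import Vale.Agent.P230.UpDefs
import Vale.Agent.Lib.PrekopaLeindler

/-! Isotropic position and a lower bound for the mass of a spherical shell. -/

namespace Vale.Agent.P230.Up

open Finset MeasureTheory ProbabilityTheory

lemma iso_vol_pos {n : ℕ} {K : Set (Sp n)} (hK : IsBody K) : 0 < volume.real K :=
  ENNReal.toReal_pos (Measure.measure_pos_of_nonempty_interior _ hK.2.2).ne'
    hK.1.measure_lt_top.ne

lemma iso_int {n : ℕ} {K : Set (Sp n)} (hK : IsBody K) {f : Sp n → ℝ} (hf : Continuous f) :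
    IntegrableOn f K := hf.continuousOn.integrableOn_compact hK.1

/-- The second moment form. -/
noncomputable def isoForm {n : ℕ} {K : Set (Sp n)} (hK : IsBody K) :
    LinearMap.BilinForm ℝ (Sp n) :=
  LinearMap.mk₂ ℝ (fun u v => ∫ x in K, inner ℝ x u * inner ℝ x v)
    (fun u u' v => by
      simp only [inner_add_right, add_mul]
      exact integral_add (iso_int hK (by fun_prop)) (iso_int hK (by fun_prop)))
    (fun c u v => by simp only [inner_smul_right, mul_assoc, integral_const_mul, smul_eq_mul])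
    (fun u v v' => by
      simp only [inner_add_right, mul_add]
      exact integral_add (iso_int hK (by fun_prop)) (iso_int hK (by fun_prop)))
    (fun c u v => by
      simp only [inner_smul_right, mul_left_comm _ c, integral_const_mul, smul_eq_mul])

lemma isoForm_pos {n : ℕ} {K : Set (Sp n)} (hK : IsBody K) {u : Sp n} (hu : u ≠ 0) :
    0 < isoForm hK u u := by
  show 0 < ∫ x in K, inner ℝ x u * inner ℝ x u
  rw [setIntegral_pos_iff_support_of_nonneg_ae
    (Filter.Eventually.of_forall fun x => mul_self_nonneg _) (iso_int hK (by fun_prop))]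
  have h1 : IsOpen ({x : Sp n | inner ℝ x u ≠ 0} ∩ interior K) :=
    (isOpen_ne_fun (by fun_prop) continuous_const).inter isOpen_interior
  refine (h1.measure_pos volume ?_).trans_le (measure_mono ?_)
  · obtain ⟨x, hx⟩ := hK.2.2
    by_cases h : inner ℝ x u = 0
    · have hc : Continuous fun t : ℝ => x + t • u := by fun_prop
      have h2 : ∀ᶠ t : ℝ in nhdsWithin 0 {0}ᶜ, x + t • u ∈ interior K :=
        nhdsWithin_le_nhds (hc.continuousAt.eventually_mem
          (isOpen_interior.mem_nhds (by simpa using hx)))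
      obtain ⟨t, h3, h4⟩ := (h2.and self_mem_nhdsWithin).exists
      refine ⟨_, ?_, h3⟩
      simp only [Set.mem_ofPred_eq, inner_add_left, h, zero_add, real_inner_smul_left]
      exact mul_ne_zero h4 (inner_self_ne_zero.mpr hu)
    · exact ⟨x, h, hx⟩
  · rintro x ⟨h2, h3⟩
    exact ⟨mul_ne_zero h2 h2, interior_subset h3⟩

theorem exists_iso {n : ℕ} (K : Set (Sp n)) (hK : IsBody K) :
    ∃ T : Sp n ≃L[ℝ] Sp n, IsBody (T '' K) ∧ IsIso (T '' K) := by
  have hV := iso_vol_pos hK
  have hs : LinearMap.IsSymm (isoForm hK) := ⟨fun u v => by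
    show ∫ x in K, inner ℝ x u * inner ℝ x v = ∫ x in K, inner ℝ x v * inner ℝ x u
    simp only [mul_comm]⟩
  obtain ⟨v₀, hv₀⟩ := LinearMap.BilinForm.exists_orthogonal_basis hs
  let e : Fin (Module.finrank ℝ (Sp n)) ≃ Fin n := finCongr (by simp)
  let v := v₀.reindex e
  have hv : ∀ i j, i ≠ j → isoForm hK (v i) (v j) = 0 := fun i j hij => by
    simp only [v, Module.Basis.reindex_apply]
    exact hv₀ (e.symm.injective.ne hij)
  have hp : ∀ i, 0 < isoForm hK (v i) (v i) := fun i => isoForm_pos hK (v.ne_zero i)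
  let c : Fin n → ℝ := fun i => √(volume.real K / isoForm hK (v i) (v i))
  have hc : ∀ i, 0 < c i := fun i => Real.sqrt_pos.mpr (div_pos hV (hp i))
  have hc2 : ∀ i, c i * c i * isoForm hK (v i) (v i) = volume.real K := fun i => by
    rw [Real.mul_self_sqrt (div_pos hV (hp i)).le, div_mul_cancel₀ _ (hp i).ne']
  let T₀ : Sp n →ₗ[ℝ] Sp n :=
    { toFun := fun x => WithLp.toLp 2 fun i => inner ℝ x (c i • v i)
      map_add' := fun x y => by ext i; simp [inner_add_left]
      map_smul' := fun a x => by ext i; simp [real_inner_smul_left] }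
  have hT : ∀ x u, inner ℝ (T₀ x) u = inner ℝ x (∑ i, u i • c i • v i) := fun x u => by
    rw [inner_sum, PiLp.inner_apply]
    exact sum_congr rfl fun i _ => by rw [real_inner_smul_right x _ (u i)]; simp [T₀]
  have hinj : Function.Injective T₀ := by
    rw [injective_iff_map_eq_zero]
    intro x hx
    have h1 : ∀ i, inner ℝ x (v i) = 0 := fun i => by
      have := congrArg (fun y : Sp n => y i) hx
      simp only [T₀, LinearMap.coe_mk, AddHom.coe_mk, real_inner_smul_right, PiLp.zero_apply,
        mul_eq_zero] at this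
      exact this.resolve_left (hc i).ne'
    rw [← inner_self_eq_zero (𝕜 := ℝ)]
    nth_rewrite 2 [← v.sum_repr x]
    rw [inner_sum]
    exact sum_eq_zero fun i _ => by rw [real_inner_smul_right, h1, mul_zero]
  let T : Sp n ≃L[ℝ] Sp n := (LinearEquiv.ofInjectiveEndo T₀ hinj).toContinuousLinearEquiv
  have hTT : ∀ x, T x = T₀ x := fun _ => rfl
  refine ⟨T, ⟨hK.1.image T.continuous, hK.2.1.linear_image T.toLinearEquiv.toLinearMap, ?_⟩,
    fun u => ?_⟩
  · rw [show (T : Sp n → Sp n) = T.toHomeomorph from rfl, ← T.toHomeomorph.image_interior]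
    exact hK.2.2.image _
  have h1 := fun g : Sp n → ℝ => integral_image_eq_integral_abs_det_fderiv_smul volume
    hK.1.measurableSet (f := T) (f' := fun _ => (T : Sp n →L[ℝ] Sp n))
    (fun x _ => T.hasFDerivAt.hasFDerivWithinAt) T.injective.injOn g
  have h2 := h1 fun _ => 1
  simp only [integral_const, smul_eq_mul, mul_one, MeasurableSet.univ, measureReal_restrict_apply,
    Set.univ_inter] at h2
  rw [h1, h2]
  simp only [smul_eq_mul, integral_const_mul, hTT, hT, sq]
  have h3 : ∫ x in K, inner ℝ x (∑ i, u i • c i • v i) * inner ℝ x (∑ i, u i • c i • v i) =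
      volume.real K * (‖u‖ * ‖u‖) := by
    show isoForm hK _ _ = _
    rw [← sq, EuclideanSpace.real_norm_sq_eq, mul_sum]
    simp only [map_sum, map_smul, LinearMap.sum_apply, LinearMap.smul_apply, smul_eq_mul]
    refine sum_congr rfl fun i _ => ?_
    rw [sum_eq_single i (fun j _ hj => by rw [hv j i hj]; ring) (by simp), ← hc2 i]
    ring
  rw [h3]
  ring

lemma iso_norm_sq {n : ℕ} {K : Set (Sp n)} (hK : IsBody K) (hI : IsIso K) :
    ∫ x in K, ‖x‖ ^ 2 = n * volume.real K := by
  have h1 : ∀ x : Sp n, ‖x‖ ^ 2 = ∑ i, inner ℝ x (EuclideanSpace.single i (1 : ℝ)) ^ 2 :=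
    fun x => by simp [EuclideanSpace.real_norm_sq_eq, EuclideanSpace.inner_single_right]
  simp only [h1]
  rw [integral_finsetSum _ fun i _ => iso_int hK (by fun_prop)]
  simp [hI _]

lemma iso_bm {n : ℕ} {A B C : Set (Sp n)} (hA : MeasurableSet A) (hB : MeasurableSet B)
    (hC : MeasurableSet C) (hC' : volume C ≠ ⊤) (i : ℕ) (hi : i ≠ 0)
    (H : ∀ x ∈ A, ∀ y ∈ B, ((i : ℝ) / (i + 1)) • x + (1 / (i + 1) : ℝ) • y ∈ C) :
    volume.real A ^ i * volume.real B ≤ volume.real C ^ (i + 1) := by
  have hi' : (0 : ℝ) < i := by positivity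
  have h := Lib.PL.brunn_minkowski_mul volume (a := (i : ℝ) / (i + 1)) (b := 1 / (i + 1))
    (by positivity) (by positivity) (by field_simp) hA hB hC H
  have h2 := pow_le_pow_left₀ (by positivity) (ENNReal.toReal_mono hC' h) (i + 1)
  rw [ENNReal.toReal_mul, ← ENNReal.toReal_rpow, ← ENNReal.toReal_rpow, mul_pow,
    ← Real.rpow_mul_natCast ENNReal.toReal_nonneg, ← Real.rpow_mul_natCast ENNReal.toReal_nonneg]
    at h2
  push_cast at h2
  rwa [div_mul_cancel₀ _ (by positivity), div_mul_cancel₀ _ (by positivity), Real.rpow_natCast,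
    Real.rpow_one] at h2

lemma iso_layers {a r : ℝ} (ha : 0 ≤ a) (hr : 0 ≤ r) (N : ℕ) (h : r < (2 * N + 1) * a) :
    r ^ 2 ≤ a ^ 2 + ∑ i ∈ range N, if (2 * i + 1) * a ≤ r then (8 * i + 8) * a ^ 2 else 0 := by
  induction N with
  | zero =>
    simp only [range_zero, sum_empty, add_zero]
    exact pow_le_pow_left₀ hr (by simpa using h.le) 2
  | succ N ih =>
    rw [sum_range_succ]
    split_ifs with h1
    · have h2 : ∑ i ∈ range N, (if (2 * i + 1) * a ≤ r then (8 * i + 8) * a ^ 2 else 0 : ℝ) =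
          ∑ i ∈ range N, (8 * i + 8) * a ^ 2 := sum_congr rfl fun i hi => by
        have : (i : ℝ) ≤ N := by exact_mod_cast (mem_range.mp hi).le
        rw [if_pos (by nlinarith)]
      have h3 : ∀ M : ℕ, ∑ i ∈ range M, (8 * i + 8 : ℝ) * a ^ 2 = (4 * M ^ 2 + 4 * M) * a ^ 2 :=
        fun M => by
          induction M with
          | zero => simp
          | succ M ih => rw [sum_range_succ, ih]; push_cast; ring
      rw [h2, h3]
      push_cast at h
      have := pow_le_pow_left₀ hr h.le 2
      nlinarith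
    · rw [add_zero]; exact ih (not_le.mp h1)

lemma iso_small {n : ℕ} (hn : 1 ≤ n) {K : Set (Sp n)} (hK : IsBody K) (hI : IsIso K) :
    1 / 3 * volume.real K ≤ volume.real (K ∩ {x | √n / 5 ≤ ‖x‖}) := by
  by_contra! h
  set a : ℝ := √n / 5 with ha
  have hn' : (1 : ℝ) ≤ n := by exact_mod_cast hn
  have ha0 : 0 < a := by positivity
  have ha2 : a ^ 2 = n / 25 := by rw [ha, div_pow, Real.sq_sqrt (by positivity)]; norm_num
  have hV := iso_vol_pos hK
  have hKm := hK.1.measurableSet
  have hfin : ∀ s : Set (Sp n), volume (K ∩ s) ≠ ⊤ := fun s =>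
    ((measure_mono Set.inter_subset_left).trans_lt hK.1.measure_lt_top).ne
  have hm : ∀ t : ℝ, MeasurableSet {x : Sp n | t ≤ ‖x‖} := fun t =>
    measurableSet_le measurable_const measurable_norm
  have h1 := measureReal_inter_add_sdiff (μ := volume) (s := K) (hm a) hK.1.measure_lt_top.ne
  have h2 : ∀ i : ℕ, volume.real (K ∩ {x | (2 * i + 1) * a ≤ ‖x‖}) ≤
      1 / 3 * volume.real K / 2 ^ i := fun i => by
    rcases eq_or_ne i 0 with rfl | hi
    · simpa using h.le
    have h3 := iso_bm (hKm.diff (hm a)) (hKm.inter (hm ((2 * i + 1) * a))) (hKm.inter (hm a))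
      (hfin _) i hi fun x hx y hy => ⟨hK.2.1 hx.1 hy.1 (by positivity) (by positivity)
        (by field_simp), by
          have e1 : ‖x‖ < a := not_le.mp hx.2
          have e2 : (2 * i + 1) * a ≤ ‖y‖ := hy.2
          have e3 := norm_sub_le (((i : ℝ) / (i + 1)) • x + (1 / (i + 1) : ℝ) • y)
            (((i : ℝ) / (i + 1)) • x)
          rw [add_sub_cancel_left, norm_smul, norm_smul, Real.norm_of_nonneg (by positivity),
            Real.norm_of_nonneg (by positivity)] at e3
          have e4 : a ≤ 1 / (i + 1) * ‖y‖ - i / (i + 1) * ‖x‖ := by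
            rw [div_mul_eq_mul_div, div_mul_eq_mul_div, ← sub_div, le_div_iff₀ (by positivity)]
            have : (0 : ℝ) ≤ i := by positivity
            nlinarith
          exact e4.trans (by linarith)⟩
    have h4 : (2 / 3 * volume.real K) ^ i ≤ volume.real (K \ {x | a ≤ ‖x‖}) ^ i :=
      pow_le_pow_left₀ (by positivity) (by linarith) i
    have h5 : volume.real (K ∩ {x | a ≤ ‖x‖}) ^ (i + 1) ≤ (1 / 3 * volume.real K) ^ (i + 1) :=
      pow_le_pow_left₀ measureReal_nonneg h.le _
    have h6 := (mul_le_mul_of_nonneg_right h4 measureReal_nonneg).trans (h3.trans h5)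
    rw [show 2 / 3 * volume.real K = 1 / 3 * volume.real K * 2 by ring, mul_pow, pow_succ,
      mul_assoc] at h6
    rw [le_div_iff₀ (by positivity), mul_comm]
    exact le_of_mul_le_mul_left h6 (by positivity)
  obtain ⟨R, hR⟩ := hK.1.isBounded.exists_norm_le
  obtain ⟨N, hN⟩ := exists_nat_gt (R / a)
  rw [div_lt_iff₀ ha0] at hN
  have h7 : ∫ x in K, ‖x‖ ^ 2 ≤ ∫ x in K, (a ^ 2 + ∑ i ∈ range N,
      {x : Sp n | (2 * i + 1) * a ≤ ‖x‖}.indicator (fun _ => (8 * i + 8) * a ^ 2) x) := by
    have : IsFiniteMeasure (volume.restrict K) := isFiniteMeasure_restrict.mpr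
      hK.1.measure_lt_top.ne
    refine setIntegral_mono_on (iso_int hK (by fun_prop)) ((integrable_const _).add
      (integrable_finsetSum _ fun i _ => (integrable_const _).indicator (hm _))) hKm
      fun x hx => ?_
    have := hR x hx
    have h8 : (0 : ℝ) ≤ N := by positivity
    simpa only [Set.indicator_apply, Set.mem_ofPred_eq] using
      iso_layers ha0.le (norm_nonneg x) N (by nlinarith)
  have : IsFiniteMeasure (volume.restrict K) := isFiniteMeasure_restrict.mpr
    hK.1.measure_lt_top.ne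
  rw [iso_norm_sq hK hI, integral_add (integrable_const _)
    (integrable_finsetSum _ fun i _ => (integrable_const _).indicator (hm _)),
    integral_finsetSum _ fun i _ => (integrable_const _).indicator (hm _)] at h7
  simp only [integral_indicator_const _ (hm _), integral_const, smul_eq_mul, MeasurableSet.univ,
    measureReal_restrict_apply, Set.inter_univ, measureReal_restrict_apply (hm _),
    Set.inter_comm _ K] at h7
  have h9 : ∀ M : ℕ, ∑ i ∈ range M, (8 * i + 8 : ℝ) / 2 ^ i = 32 - (16 * M + 32) / 2 ^ M :=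
    fun M => by
      induction M with
      | zero => norm_num
      | succ M ih => rw [sum_range_succ, ih]; push_cast; field_simp; ring
  have h10 : ∑ i ∈ range N, volume.real (K ∩ {x | (2 * i + 1) * a ≤ ‖x‖}) * ((8 * i + 8) * a ^ 2)
      ≤ ∑ i ∈ range N, (1 / 3 * volume.real K * a ^ 2) * ((8 * i + 8) / 2 ^ i) :=
    sum_le_sum fun i _ => (mul_le_mul_of_nonneg_right (h2 i) (by positivity)).trans_eq (by ring)
  rw [← mul_sum, h9] at h10
  have h11 : (0 : ℝ) ≤ (16 * N + 32) / 2 ^ N := by positivity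
  have h12 : 1 / 3 * volume.real K * a ^ 2 * (32 - (16 * N + 32) / 2 ^ N) ≤
      1 / 3 * volume.real K * a ^ 2 * 32 := mul_le_mul_of_nonneg_left (by linarith) (by positivity)
  rw [ha2] at h7 h10 h12
  nlinarith

theorem borell {n : ℕ} (hn : 1 ≤ n) (K : Set (Sp n)) (hK : IsBody K) (hI : IsIso K) :
    3 / 10 * volume.real K ≤ volume.real (K ∩ {x | √n / 5 ≤ ‖x‖ ∧ ‖x‖ ≤ 10 * √n}) := by
  have h1 := iso_small hn hK hI
  have hn' : (1 : ℝ) ≤ n := by exact_mod_cast hn
  have hV := iso_vol_pos hK
  have : IsFiniteMeasure (volume.restrict K) := isFiniteMeasure_restrict.mpr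
    hK.1.measure_lt_top.ne
  have h2 := mul_meas_ge_le_integral_of_nonneg (μ := volume.restrict K)
    (f := fun x : Sp n => ‖x‖ ^ 2) (Filter.Eventually.of_forall fun x => sq_nonneg _)
    (iso_int hK (by fun_prop)) (100 * n)
  rw [iso_norm_sq hK hI, measureReal_restrict_apply
    (measurableSet_le measurable_const (by fun_prop))] at h2
  have h3 : K ∩ {x | √n / 5 ≤ ‖x‖} ⊆ K ∩ {x | √n / 5 ≤ ‖x‖ ∧ ‖x‖ ≤ 10 * √n} ∪
      {x : Sp n | 100 * n ≤ ‖x‖ ^ 2} ∩ K := by
    rintro x ⟨h4, h5⟩
    by_cases h6 : ‖x‖ ≤ 10 * √n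
    · exact Or.inl ⟨h4, h5, h6⟩
    · refine Or.inr ⟨?_, h4⟩
      have := pow_le_pow_left₀ (by positivity) (not_le.mp h6).le 2
      rw [mul_pow, Real.sq_sqrt (by positivity)] at this
      show 100 * (n : ℝ) ≤ ‖x‖ ^ 2
      linarith
  have h7 := (measureReal_mono (μ := volume) h3 ((measure_mono (Set.union_subset Set.inter_subset_left
    Set.inter_subset_right)).trans_lt hK.1.measure_lt_top).ne).trans (measureReal_union_le _ _)
  have h8 : volume.real ({x : Sp n | 100 * n ≤ ‖x‖ ^ 2} ∩ K) ≤ volume.real K / 100 := by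
    rw [le_div_iff₀ (by norm_num)]
    refine le_of_mul_le_mul_left (a := (n : ℝ)) ?_ (by positivity)
    linarith
  linarith

end Vale.Agent.P230.Up
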