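import Vale.Agent.P230.UpShell

/-! Box masses of a Gaussian marginal of an isotropic body. -/

namespace Vale.Agent.P230.Up

open Finset MeasureTheory ProbabilityTheory

lemma pj_lower {σ M r u b : ℝ} (hσ : 0 < σ) (hM : 3 ≤ M) (h1 : σ ≤ r) (h2 : r ≤ σ * (1 + 1 / M))
    (hu : |u| ≤ M) (hb : |b + 1 / M ^ 3 / 2 - u| ≤ 3 / 2 * (1 / M ^ 3)) :
    gs u * (1 / M ^ 3) * Real.exp (-4 / M) ≤ ∫ t, tz (σ * (b + 1 / M ^ 3 / 2))
      (σ / M ^ 3 / 2) (σ / M ^ 3 / 2 / M) (r * t) ∂(gaussianReal 0 1) := by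
  have hM0 : 0 < M := by linarith
  have hr : 0 < r := hσ.trans_le h1
  have hg := gs_pos u
  have hM3 : 1 ≤ M ^ 3 := one_le_pow₀ (by linarith)
  refine le_trans ?_ (tz_lower (m := gs u * Real.exp (-((M + 1) * (2 / M ^ 3)))) (by positivity)
    (div_le_self (by positivity) (by linarith)) hr fun t ht =>
      (gs_shift (y := r * t / σ) hu ?_ (by rw [div_le_iff₀ (by positivity)]; linarith)).trans
        (gs_le_of_abs_le ?_))
  · have e1 := tr_one_sub (x := 1 / M) (by positivity) (by rw [div_le_iff₀ hM0]; linarith)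
    have e2 : Real.exp (-(1 / M)) ≤ σ / r := by
      rw [Real.exp_neg, inv_le_comm₀ (Real.exp_pos _) (by positivity), inv_div,
        div_le_iff₀ (by positivity), mul_comm]
      have := Real.add_one_le_exp (1 / M)
      exact h2.trans (mul_le_mul_of_nonneg_left (by linarith) hσ.le)
    have e3 : Real.exp (-4 / M) ≤
        Real.exp (-(2 * (1 / M))) * Real.exp (-(1 / M)) * Real.exp (-((M + 1) * (2 / M ^ 3))) := by
      rw [← Real.exp_add, ← Real.exp_add, Real.exp_le_exp]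
      have : (M + 1) * (2 / M ^ 3) ≤ 1 / M := by
        rw [← mul_div_assoc, div_le_div_iff₀ (by positivity) hM0]
        nlinarith [mul_le_mul_of_nonneg_left hM (show 0 ≤ M ^ 2 by positivity)]
      have e : -4 / M = -4 * (1 / M) := by ring
      linarith
    calc _ ≤ gs u * (1 / M ^ 3) *
          ((1 - 1 / M) * (σ / r) * Real.exp (-((M + 1) * (2 / M ^ 3)))) :=
          mul_le_mul_of_nonneg_left (e3.trans (mul_le_mul_of_nonneg_right
            (mul_le_mul e1 e2 (Real.exp_pos _).le ((Real.exp_pos _).le.trans e1))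
            (Real.exp_pos _).le)) (by positivity)
      _ = _ := by field_simp
  · have e1 : |r * t / σ - (b + 1 / M ^ 3 / 2)| ≤ 1 / M ^ 3 / 2 := by
      have : r * t / σ - (b + 1 / M ^ 3 / 2) = (r * t - σ * (b + 1 / M ^ 3 / 2)) / σ := by
        field_simp
      rw [this, abs_div, abs_of_pos hσ, div_le_iff₀ hσ]
      exact ht.trans_eq (by ring)
    rw [abs_le] at e1 hb ⊢
    have e : 2 / M ^ 3 = 2 * (1 / M ^ 3) := by ring
    constructor <;> linarith [e1.1, e1.2, hb.1, hb.2]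
  · rw [mul_div_right_comm, abs_mul, abs_of_pos (div_pos hr hσ)]
    exact le_mul_of_one_le_left (abs_nonneg _) ((one_le_div hσ).mpr h1)

lemma pj_cond {M k N : ℕ} {ν σ : ℝ} (hM : 5000 ≤ M) (hν : Real.exp ((M : ℝ) ^ 6 / 2) ≤ ν)
    (hσ : ν / 5 ≤ σ) (hk : k ≤ M) (hN : N ≤ 5 * M ^ 4) :
    ((N ^ k : ℕ) : ℝ) * (2 * k * (2 * M ^ 4 / σ)) <
      (Real.exp (-4) / 10 * (gs M * (1 / M ^ 3)) ^ M) ^ 2 := by
  have hM' : (5000 : ℝ) ≤ M := by exact_mod_cast hM
  have hM0 : (0 : ℝ) < M := by linarith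
  have hM1 : (1 : ℝ) ≤ M := by linarith
  have hν0 := (Real.exp_pos _).trans_le hν
  have hσ0 : 0 < σ := by linarith
  have h1 : Real.exp (-(4 * M ^ 3)) ≤ gs (M : ℝ) * (1 / M ^ 3) := by
    have e1 : Real.exp (-(3 * M ^ 3)) ≤ gs 0 * (1 / (M : ℝ) ^ 3) := by
      have := gs_zero_bounds.1
      rw [Real.exp_neg, inv_le_comm₀ (Real.exp_pos _) (by positivity)]
      refine le_trans ?_ (tr_le_exp _).le
      rw [inv_le_comm₀ (by positivity) (by positivity), mul_inv, one_div]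
      exact mul_le_mul_of_nonneg_right (by linarith) (by positivity)
    rw [gs_eq, mul_right_comm]
    refine le_trans ?_ (mul_le_mul_of_nonneg_right e1 (Real.exp_pos _).le)
    rw [← Real.exp_add, Real.exp_le_exp]
    have : (M : ℝ) ^ 2 ≤ M ^ 3 := pow_le_pow_right₀ hM1 (by norm_num)
    have : (0 : ℝ) ≤ M ^ 2 := by positivity
    linarith
  have h2 := pow_le_pow_left₀ (Real.exp_pos _).le h1 M
  rw [← Real.exp_nat_mul] at h2
  refine lt_of_lt_of_le ?_ (pow_le_pow_left₀ (by positivity)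
    (mul_le_mul_of_nonneg_left h2 (by positivity)) 2)
  have h3 : ((N ^ k : ℕ) : ℝ) ≤ Real.exp (M * (5 * M ^ 4)) := by
    rw [Real.exp_nat_mul, Nat.cast_pow]
    have e1 : (N : ℝ) ≤ Real.exp (5 * M ^ 4) :=
      le_trans (by exact_mod_cast hN) (tr_le_exp _).le
    exact (pow_le_pow_left₀ (by positivity) e1 k).trans
      (pow_le_pow_right₀ (Real.one_le_exp (by positivity)) hk)
  have h4 : 2 * k * (2 * M ^ 4 / σ) <
      Real.exp (2000 * (M : ℝ) ^ 5) / Real.exp ((M : ℝ) ^ 6 / 2) / 100 := by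
    have e1 : (k : ℝ) ≤ M := by exact_mod_cast hk
    calc _ ≤ 2 * M * (2 * M ^ 4 / (ν / 5)) := by gcongr
      _ = 2000 * (M : ℝ) ^ 5 / ν / 100 := by field_simp; ring
      _ < Real.exp (2000 * (M : ℝ) ^ 5) / ν / 100 := by gcongr; exact tr_le_exp _
      _ ≤ _ := by gcongr
  refine (mul_le_mul_of_nonneg_right h3 (by positivity)).trans_lt
    ((mul_lt_mul_of_pos_left h4 (Real.exp_pos _)).trans_le ?_)
  rw [← Real.exp_sub, ← mul_div_assoc, ← Real.exp_add, div_mul_eq_mul_div, ← Real.exp_add,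
    div_pow, ← Real.exp_nat_mul]
  refine div_le_div₀ (Real.exp_pos _).le (Real.exp_le_exp.mpr ?_) (by norm_num) (by norm_num)
  have h5 : (M : ℝ) ^ 4 ≤ M ^ 5 := pow_le_pow_right₀ hM1 (by norm_num)
  have h6 : (1 : ℝ) ≤ M ^ 5 := one_le_pow₀ hM1
  have h7 : (5000 : ℝ) * M ^ 5 ≤ M ^ 6 := by
    rw [pow_succ' (M : ℝ) 5]; exact mul_le_mul_of_nonneg_right hM' (by positivity)
  push_cast
  nlinarith

lemma pj_grid {M : ℕ} (hM : 1 ≤ M) {u : ℝ} (hu : |u| ≤ M) (e : Bool) :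
    ∃ z : ℤ, z ∈ Finset.Icc (-(2 * (M : ℤ) ^ 4)) (2 * (M : ℤ) ^ 4) ∧
      (if e then u ≤ z / (M : ℝ) ^ 3 else z / (M : ℝ) ^ 3 + 1 / M ^ 3 ≤ u) ∧
      |z / (M : ℝ) ^ 3 + 1 / M ^ 3 / 2 - u| ≤ 3 / 2 * (1 / (M : ℝ) ^ 3) := by
  have hM1 : (1 : ℝ) ≤ M := by exact_mod_cast hM
  have h3 : (0 : ℝ) < M ^ 3 := by positivity
  have h4 : (1 : ℝ) ≤ M ^ 4 := one_le_pow₀ hM1
  have h5 : |u * M ^ 3| ≤ M ^ 4 := by
    rw [abs_mul, abs_of_pos h3, pow_succ' (M : ℝ) 3]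
    exact mul_le_mul_of_nonneg_right hu h3.le
  rw [abs_le] at h5
  have key : ∀ z : ℤ, u * M ^ 3 - 2 ≤ z → z ≤ u * M ^ 3 + 1 →
      |z / (M : ℝ) ^ 3 + 1 / M ^ 3 / 2 - u| ≤ 3 / 2 * (1 / (M : ℝ) ^ 3) := fun z h1 h2 => by
    have : z / (M : ℝ) ^ 3 + 1 / M ^ 3 / 2 - u = (z + 1 / 2 - u * M ^ 3) * (1 / M ^ 3) := by
      field_simp
    rw [this, abs_mul, abs_of_pos (one_div_pos.mpr h3)]
    refine mul_le_mul_of_nonneg_right (abs_le.mpr ⟨by linarith, by linarith⟩) (by positivity)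
  cases e
  · have e1 := Int.floor_le (u * M ^ 3)
    have e2 := Int.lt_floor_add_one (u * M ^ 3)
    have e3 : -(M : ℤ) ^ 4 ≤ ⌊u * M ^ 3⌋ := Int.le_floor.mpr (by push_cast; exact h5.1)
    have e4 : ⌊u * M ^ 3⌋ ≤ (M : ℤ) ^ 4 := by exact_mod_cast e1.trans h5.2
    have e5 : (1 : ℤ) ≤ M ^ 4 := by exact_mod_cast h4
    refine ⟨⌊u * M ^ 3⌋ - 1, mem_Icc.mpr ⟨by linarith, by linarith⟩, ?_,
      key _ (by push_cast; linarith) (by push_cast; linarith)⟩
    simp only [Bool.false_eq_true, if_false]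
    rw [← add_div, div_le_iff₀ h3]
    push_cast
    linarith
  · have e1 := Int.le_ceil (u * M ^ 3)
    have e2 := Int.ceil_lt_add_one (u * M ^ 3)
    have e3 : ⌈u * M ^ 3⌉ ≤ (M : ℤ) ^ 4 := Int.ceil_le.mpr (by push_cast; exact h5.2)
    have e4 : -(M : ℤ) ^ 4 ≤ ⌈u * M ^ 3⌉ := by exact_mod_cast h5.1.trans e1
    have e5 : (1 : ℤ) ≤ M ^ 4 := by exact_mod_cast h4
    refine ⟨⌈u * M ^ 3⌉, mem_Icc.mpr ⟨by linarith, by linarith⟩, ?_,
      key _ (by linarith) (by linarith)⟩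
    simp only [if_true]
    rwa [le_div_iff₀ h3]

theorem proj : ∃ c : ℝ, 0 < c ∧ ∃ C M₀ : ℕ, ∀ (n M : ℕ) (ι : Type) [Fintype ι]
    (K : Set (Sp n)), IsBody K → IsIso K → M₀ ≤ M → Fintype.card ι ≤ M →
    Real.exp ((M : ℝ) ^ C) ≤ n →
    ∃ (G : Sp n →ₗ[ℝ] (ι → ℝ)) (a : ℝ), 0 < a ∧ ∀ u : ι → ℝ, (∀ i, |u i| ≤ M) →
      ∀ ε : ι → Bool, ∃ b : ι → ℝ, (∀ i, if ε i then u i ≤ b i else b i + a ≤ u i) ∧
        c * (∏ i, gs (u i)) * a ^ Fintype.card ι * volume.real K ≤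
          volume.real (K ∩ {x | ∀ i, G x i ∈ Set.Icc (b i) (b i + a)}) := by
  classical
  obtain ⟨C, k₀, hsh⟩ := shell
  refine ⟨Real.exp (-4) / 10, by positivity, max C 6, max k₀ 5000,
    fun n M ι _ K hK hI hM hι hn => ?_⟩
  have hM5 : 5000 ≤ M := (le_max_right _ _).trans hM
  have hM' : (5000 : ℝ) ≤ M := by exact_mod_cast hM5
  have hM1 : (1 : ℝ) ≤ M := by linarith
  have hV := iso_vol_pos hK
  obtain ⟨σ, hσ1, -, hσ⟩ := hsh n M K hK hI ((le_max_left _ _).trans hM)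
    ((Real.exp_le_exp.mpr (pow_le_pow_right₀ hM1 (le_max_left _ _))).trans hn)
  have hν := tr_exp_sqrt (x := (M : ℝ) ^ 6 / 2)
    ((Real.exp_le_exp.mpr (pow_le_pow_right₀ hM1 (le_max_right C 6))).trans hn) (by linarith)
  have hσ0 : 0 < σ := by linarith [(Real.exp_pos _).trans_le hν]
  have hb : 0 < σ / M ^ 3 / 2 / M := by positivity
  have hgM := gs_pos M
  obtain ⟨g, hg⟩ := sudakov K hK hI (κ := ι)
    (Λ := ι → Finset.Icc (-(2 * (M : ℤ) ^ 4)) (2 * (M : ℤ) ^ 4))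
    (fun z i => tz (σ * ((z i : ℤ) / (M : ℝ) ^ 3 + 1 / M ^ 3 / 2)) (σ / M ^ 3 / 2)
      (σ / M ^ 3 / 2 / M)) ⟨2 * M ^ 4 / σ, by positivity⟩
    (Real.exp (-4) / 10 * (gs M * (1 / M ^ 3)) ^ M) (by positivity)
    (fun _ _ _ => tz_nonneg _ _ _ _) (fun _ _ _ => tz_le_one _ _ _ _)
    (fun _ _ => tz_lip _ _ hb (le_of_eq (show _ = 2 * (M : ℝ) ^ 4 / σ by field_simp)))
    (by
      rw [Fintype.card_fun]
      refine pj_cond hM5 hν hσ1 hι ?_
      rw [Fintype.card_coe, Int.card_Icc, Int.toNat_le]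
      have : (1 : ℤ) ≤ M ^ 4 := one_le_pow₀ (by omega)
      push_cast
      linarith)
  refine ⟨LinearMap.pi fun i => σ⁻¹ • (innerSL ℝ (g i)).toLinearMap, 1 / M ^ 3, by positivity,
    fun u hu ε => ?_⟩
  choose z hz hz1 hz2 using fun i => pj_grid (by omega) (hu i) (ε i)
  refine ⟨fun i => z i / M ^ 3, hz1, ?_⟩
  have e1 := (abs_le.mp (hg fun i => ⟨z i, hz i⟩)).1
  have e2 := tr_le_vol hK (S := {x | ∀ i, (LinearMap.pi fun i => σ⁻¹ •
      (innerSL ℝ (g i)).toLinearMap : Sp n →ₗ[ℝ] (ι → ℝ)) x i ∈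
        Set.Icc (z i / (M : ℝ) ^ 3) (z i / M ^ 3 + 1 / M ^ 3)})
    (by
      simp only [Set.ofPred_forall]
      refine MeasurableSet.iInter fun i => measurableSet_Icc.preimage ?_
      show Measurable fun x => σ⁻¹ * inner ℝ (g i) x
      fun_prop)
    (F := fun x => ∏ i, tz (σ * (z i / (M : ℝ) ^ 3 + 1 / M ^ 3 / 2)) (σ / M ^ 3 / 2)
      (σ / M ^ 3 / 2 / M) (inner ℝ (g i) x))
    (continuous_finsetProd _ fun i _ => (tz_cont _ _ _).comp (by fun_prop))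
    (fun x => prod_le_one (fun _ _ => tz_nonneg _ _ _ _) fun _ _ => tz_le_one _ _ _ _)
    fun x hx => by
      simp only [Set.mem_ofPred_eq, not_forall] at hx
      obtain ⟨i, hi⟩ := hx
      refine prod_eq_zero (mem_univ i) (tz_eq_zero hb (not_lt.mp fun h => hi ?_))
      show σ⁻¹ * inner ℝ (g i) x ∈ _
      rw [abs_lt] at h
      have e : σ / M ^ 3 / 2 = σ * (1 / M ^ 3 / 2) := by ring
      rw [Set.mem_Icc, le_inv_mul_iff₀ hσ0, inv_mul_le_iff₀ hσ0]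
      constructor <;> linarith [h.1, h.2]
  have e3 := tr_vol_le hK (S := {x | σ ≤ ‖x‖ ∧ ‖x‖ ≤ σ * (1 + 1 / M)})
    ((measurableSet_le measurable_const measurable_norm).inter
      (measurableSet_le measurable_norm measurable_const))
    (F := fun x => ∏ i, ∫ t, tz (σ * (z i / (M : ℝ) ^ 3 + 1 / M ^ 3 / 2)) (σ / M ^ 3 / 2)
      (σ / M ^ 3 / 2 / M) (‖x‖ * t) ∂(gaussianReal 0 1))
    (continuous_finsetProd _ fun i _ => (tz_int_cont _ _ _).comp continuous_norm)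
    (fun x => prod_nonneg fun _ _ => tz_int_nonneg _ _ _ _)
    (m := (∏ i, gs (u i) * (1 / M ^ 3)) * Real.exp (-4)) fun x hx => by
      refine le_trans ?_ (prod_le_prod (fun i _ => by have := gs_pos (u i); positivity)
        fun i _ => pj_lower hσ0 (by linarith) hx.1 hx.2 (hu i) (hz2 i))
      rw [prod_mul_distrib (g := fun _ => Real.exp (-4 / M)), prod_const, card_univ,
        ← Real.exp_nat_mul]
      refine mul_le_mul_of_nonneg_left (Real.exp_le_exp.mpr ?_)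
        (prod_nonneg fun i _ => by have := gs_pos (u i); positivity)
      have : (Fintype.card ι : ℝ) ≤ M := by exact_mod_cast hι
      rw [← mul_div_assoc, le_div_iff₀ (by linarith)]
      linarith
  have e4 : (gs M * (1 / (M : ℝ) ^ 3)) ^ M ≤ ∏ i, gs (u i) * (1 / M ^ 3) := by
    refine (pow_le_pow_of_le_one (by positivity) (mul_le_one₀ ?_ (by positivity) ?_) hι).trans ?_
    · linarith [gs_le_zero M, gs_zero_bounds.2]
    · exact (div_le_one (by positivity)).mpr (one_le_pow₀ hM1)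
    · rw [← card_univ, ← prod_const]
      exact prod_le_prod (fun _ _ => by positivity) fun i _ => mul_le_mul_of_nonneg_right
        (gs_le_of_abs_le ((hu i).trans (le_abs_self _))) (by positivity)
  have e5 := mul_le_mul_of_nonneg_right hσ (mul_nonneg (le_trans (by positivity) e4)
    (Real.exp_pos (-4)).le)
  have e6 := mul_le_mul_of_nonneg_right (mul_le_mul_of_nonneg_left e4
    (show 0 ≤ Real.exp (-4) / 10 by positivity)) hV.le
  have e7 : ∏ i, gs (u i) * (1 / (M : ℝ) ^ 3) =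
      (∏ i, gs (u i)) * (1 / (M : ℝ) ^ 3) ^ Fintype.card ι := by
    rw [prod_mul_distrib, prod_const, card_univ]
  rw [mul_assoc (Real.exp (-4) / 10), ← e7]
  linarith

end Vale.Agent.P230.Up
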