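import Vale.Agent.P230.UpDefs
import Vale.Agent.Lib.PrekopaLeindler

/-! From masses of boxes to volumes of sections. -/

namespace Vale.Agent.P230.Up

open Finset MeasureTheory ProbabilityTheory

/-- A convex set with a point in every closed orthant around `u` contains `u`. -/
lemma sect_sign {ι : Type} [Fintype ι] {C : Set (ι → ℝ)} (hC : Convex ℝ C) {u : ι → ℝ}
    (h : ∀ ε : ι → Bool, ∃ w ∈ C, ∀ i, if ε i then u i ≤ w i else w i ≤ u i) : u ∈ C := by
  classical
  have key : ∀ s : Finset ι, ∀ ε : ι → Bool,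
      ∃ w ∈ C, (∀ i, if ε i then u i ≤ w i else w i ≤ u i) ∧ ∀ i ∈ s, w i = u i := by
    intro s
    induction s using Finset.induction_on with
    | empty => exact fun ε => (h ε).imp fun w hw => ⟨hw.1, hw.2, by simp⟩
    | insert j s _ ih =>
      intro ε
      obtain ⟨w1, h1, s1, e1⟩ := ih (Function.update ε j true)
      obtain ⟨w2, h2, s2, e2⟩ := ih (Function.update ε j false)
      have a1 : u j ≤ w1 j := by simpa using s1 j
      have a2 : w2 j ≤ u j := by simpa using s2 j
      obtain ⟨a, b, ha, hb, hab, he⟩ := (Convex.mem_Icc (a2.trans a1)).1 ⟨a2, a1⟩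
      have hu : ∀ i, a * u i + b * u i = u i := fun i => by rw [← add_mul, hab, one_mul]
      refine ⟨a • w2 + b • w1, hC h2 h1 ha hb hab, fun i => ?_, fun i hi => ?_⟩
      · simp only [Pi.add_apply, Pi.smul_apply, smul_eq_mul]
        by_cases hij : i = j
        · rw [hij, he]
          split_ifs <;> exact le_rfl
        · have b1 := s1 i
          have b2 := s2 i
          rw [Function.update_of_ne hij] at b1 b2
          split_ifs at b1 b2 ⊢
          · linarith [hu i, mul_le_mul_of_nonneg_left b1 hb, mul_le_mul_of_nonneg_left b2 ha]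
          · linarith [hu i, mul_le_mul_of_nonneg_left b1 hb, mul_le_mul_of_nonneg_left b2 ha]
      · simp only [Pi.add_apply, Pi.smul_apply, smul_eq_mul]
        rcases Finset.mem_insert.1 hi with rfl | hi
        · exact he
        · rw [e1 i hi, e2 i hi, hu]
  obtain ⟨w, hw, -, he⟩ := key univ fun _ => true
  rwa [show u = w from funext fun i => (he i (mem_univ i)).symm]

lemma sect_equiv {n n' : ℕ} {ι : Type} [Fintype ι] (hn : n = n' + Fintype.card ι)
    (G : Sp n →ₗ[ℝ] (ι → ℝ)) (hG : Function.Surjective G) :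
    ∃ T : Sp n ≃L[ℝ] (Fin n' ⊕ ι → ℝ), ∀ x i, T x (Sum.inr i) = G x i := by
  have hk : Module.finrank ℝ (LinearMap.ker G) = Module.finrank ℝ (Fin n' → ℝ) := by
    have h1 := G.finrank_range_add_finrank_ker
    rw [LinearMap.range_eq_top.2 hG, finrank_top] at h1
    simp only [Module.finrank_fintype_fun_eq_card, finrank_euclideanSpace, Fintype.card_fin]
      at h1 ⊢
    omega
  obtain ⟨P, hP⟩ := LinearMap.exists_leftInverse_of_injective (LinearMap.ker G).subtype
    (Submodule.ker_subtype _)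
  let e := LinearEquiv.ofFinrankEq _ _ hk
  let T0 : Sp n →ₗ[ℝ] (Fin n' ⊕ ι → ℝ) :=
    (LinearEquiv.sumArrowLequivProdArrow (Fin n') ι ℝ ℝ).symm.toLinearMap ∘ₗ
      LinearMap.prod (e.toLinearMap ∘ₗ P) G
  have hinj : Function.Injective T0 := by
    refine (injective_iff_map_eq_zero T0).2 fun x hx => ?_
    have h1 : G x = 0 := funext fun i => congrFun hx (Sum.inr i)
    have h2 : e (P x) = 0 := funext fun i => congrFun hx (Sum.inl i)
    have h3 : P x = ⟨x, h1⟩ := LinearMap.congr_fun hP ⟨x, h1⟩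
    rw [h3, LinearEquiv.map_eq_zero_iff] at h2
    exact congrArg Subtype.val h2
  refine ⟨(T0.linearEquivOfInjective hinj ?_).toContinuousLinearEquiv, fun x i => rfl⟩
  simp [hn]

lemma sect_cont {n' : ℕ} {ι : Type} (u : ι → ℝ) :
    Continuous fun z : Fin n' → ℝ => (Sum.elim z u : Fin n' ⊕ ι → ℝ) := by
  refine continuous_pi ?_
  rintro (i | i)
  · exact continuous_apply i
  · exact continuous_const

lemma sect_fubini {n' : ℕ} {ι : Type} [Fintype ι] {K : Set (Fin n' ⊕ ι → ℝ)}
    (hK : MeasurableSet K) {B : Set (ι → ℝ)} (hB : MeasurableSet B) :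
    volume (K ∩ {y | (fun i => y (Sum.inr i)) ∈ B}) =
      ∫⁻ w in B, volume {z : Fin n' → ℝ | Sum.elim z w ∈ K} := by
  have hm : MeasurableSet (K ∩ {y | (fun i => y (Sum.inr i)) ∈ B}) :=
    hK.inter (hB.preimage (measurable_pi_lambda _ fun i => measurable_pi_apply _))
  have h1 := volume_measurePreserving_sumPiEquivProdPi_symm fun _ : Fin n' ⊕ ι => ℝ
  rw [← h1.measure_preimage hm.nullMeasurableSet, Measure.volume_eq_prod,
    Measure.prod_apply_symm (h1.measurable hm), ← lintegral_indicator hB]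
  refine lintegral_congr fun w => ?_
  have e : ∀ z : Fin n' → ℝ, (MeasurableEquiv.sumPiEquivProdPi fun _ : Fin n' ⊕ ι => ℝ).symm (z, w)
      = Sum.elim z w := fun z => funext fun i => by cases i <;> rfl
  by_cases hw : w ∈ B
  · rw [Set.indicator_of_mem hw]
    refine congrArg _ (Set.ext fun z => ?_)
    simp only [Set.mem_preimage, e, Set.mem_inter_iff, Set.mem_ofPred_eq, Sum.elim_inr, hw,
      and_true]
  · rw [Set.indicator_of_notMem hw]
    refine (congrArg _ (Set.eq_empty_of_forall_notMem fun z hz => hw ?_)).trans measure_empty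
    rw [Set.mem_preimage, Set.mem_preimage, e] at hz
    exact hz.2

lemma sect_convex {n' : ℕ} {ι : Type} {K : Set (Fin n' ⊕ ι → ℝ)} (hK : IsClosed K)
    (hc : Convex ℝ K) (t : ENNReal) :
    Convex ℝ {w : ι → ℝ | t ≤ volume {z : Fin n' → ℝ | Sum.elim z w ∈ K}} := by
  refine convex_iff_forall_pos.2 fun w1 h1 w2 h2 a b ha hb hab => ?_
  have hm : ∀ w : ι → ℝ, MeasurableSet {z : Fin n' → ℝ | Sum.elim z w ∈ K} := fun w =>
    (hK.preimage (sect_cont w)).measurableSet
  refine le_trans ?_ (Vale.Agent.Lib.PL.brunn_minkowski_mul volume ha hb hab (hm w1) (hm w2)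
    (hm _) fun x hx y hy => ?_)
  · rw [← ENNReal.rpow_one t, ← hab, ENNReal.rpow_add_of_nonneg _ _ ha.le hb.le]
    exact mul_le_mul' (ENNReal.rpow_le_rpow h1 ha.le) (ENNReal.rpow_le_rpow h2 hb.le)
  · have e : (Sum.elim (a • x + b • y) (a • w1 + b • w2) : Fin n' ⊕ ι → ℝ) =
        a • Sum.elim x w1 + b • Sum.elim y w2 := funext fun i => by cases i <;> rfl
    rw [Set.mem_ofPred_eq, e]
    exact hc hx hy ha.le hb.le hab

theorem sect {n n' : ℕ} {ι : Type} [Fintype ι] (hn : n = n' + Fintype.card ι)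
    (K : Set (Sp n)) (hK : IsBody K) (G : Sp n →ₗ[ℝ] (ι → ℝ)) (a R : ℝ) (ha : 0 < a) (hR : 0 < R)
    (θ : (ι → ℝ) → ℝ) (hθ : ∀ u, 0 < θ u)
    (h : ∀ u : ι → ℝ, (∀ i, |u i| ≤ R) → ∀ ε : ι → Bool, ∃ b : ι → ℝ,
      (∀ i, if ε i then u i ≤ b i else b i + a ≤ u i) ∧
        θ u * a ^ Fintype.card ι * volume.real K ≤
          volume.real (K ∩ {x | ∀ i, G x i ∈ Set.Icc (b i) (b i + a)})) :
    ∃ T : Sp n ≃L[ℝ] (Fin n' ⊕ ι → ℝ), ∀ u : ι → ℝ, (∀ i, |u i| ≤ R) →
      θ u * volume.real (T '' K) ≤ volume.real {z : Fin n' → ℝ | Sum.elim z u ∈ T '' K} := by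
  obtain ⟨hK1, hK2, hK3⟩ := hK
  have hpos : 0 < volume.real K :=
    ENNReal.toReal_pos (Measure.measure_pos_of_nonempty_interior volume hK3).ne' hK1.measure_ne_top
  have hsign : ∀ {u b w : ι → ℝ} {ε : ι → Bool}, (∀ i, if ε i then u i ≤ b i else b i + a ≤ u i) →
      (∀ i, w i ∈ Set.Icc (b i) (b i + a)) → ∀ i, if ε i then u i ≤ w i else w i ≤ u i := by
    intro u b w ε hb hw i
    have h1 := hb i
    split_ifs at h1 ⊢
    · exact h1.trans (hw i).1
    · exact (hw i).2.trans h1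
  have hG : Function.Surjective G := by
    have h1 : ∀ u : ι → ℝ, (∀ i, |u i| ≤ R) → u ∈ (LinearMap.range G : Set (ι → ℝ)) := by
      intro u hu
      refine sect_sign (LinearMap.range G).convex fun ε => ?_
      obtain ⟨b, hb, hv⟩ := h u hu ε
      have h2 := (mul_pos (mul_pos (hθ u) (pow_pos ha _)) hpos).trans_le hv
      obtain ⟨x, hx⟩ := nonempty_of_measureReal_ne_zero h2.ne'
      exact ⟨G x, ⟨x, rfl⟩, hsign hb hx.2⟩
    intro v
    have h0 : 0 < R / (‖v‖ + 1) := by positivity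
    obtain ⟨x, hx⟩ := h1 ((R / (‖v‖ + 1)) • v) fun i => by
      rw [Pi.smul_apply, smul_eq_mul, abs_mul, abs_of_pos h0, div_mul_eq_mul_div,
        div_le_iff₀ (by positivity)]
      exact mul_le_mul_of_nonneg_left ((norm_le_pi_norm v i).trans (by linarith)) hR.le
    exact ⟨(R / (‖v‖ + 1))⁻¹ • x, by rw [map_smul, hx, smul_smul, inv_mul_cancel₀ h0.ne', one_smul]⟩
  obtain ⟨T, hT⟩ := sect_equiv hn G hG
  refine ⟨T, fun u hu => ?_⟩
  have hH : ((volume : Measure (Fin n' ⊕ ι → ℝ)).map T.symm).IsAddHaarMeasure :=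
    T.symm.isAddHaarMeasure_map _
  obtain ⟨c, hc⟩ : ∃ c : NNReal, ∀ A : Set (Sp n), MeasurableSet A →
      volume.real (T '' A) = c * volume.real A := by
    refine ⟨Measure.addHaarScalarFactor ((volume : Measure (Fin n' ⊕ ι → ℝ)).map T.symm)
      (volume : Measure (Sp n)), fun A hA => ?_⟩
    have h1 := congrArg (fun μ : Measure (Sp n) => (μ A).toReal)
      (Measure.isAddLeftInvariant_eq_smul
        ((volume : Measure (Fin n' ⊕ ι → ℝ)).map T.symm) (volume : Measure (Sp n)))
    simp only [Measure.map_apply T.symm.continuous.measurable hA, Measure.smul_apply,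
      ENNReal.smul_def, smul_eq_mul, ENNReal.toReal_mul, ENNReal.coe_toReal] at h1
    rw [T.image_eq_preimage_symm]
    exact h1
  have hK' : IsCompact (T '' K) := hK1.image T.continuous
  have hc' : Convex ℝ (T '' K) := hK2.linear_image (T : Sp n →ₗ[ℝ] (Fin n' ⊕ ι → ℝ))
  have hfin : volume {z : Fin n' → ℝ | Sum.elim z u ∈ T '' K} ≠ ⊤ := by
    refine ne_top_of_le_ne_top (hK'.image (f := fun y i => y (Sum.inl i))
      (continuous_pi fun i => continuous_apply _)).measure_ne_top (measure_mono fun z hz => ?_)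
    exact ⟨_, hz, rfl⟩
  refine (ENNReal.ofReal_le_iff_le_toReal hfin).1 (sect_sign (sect_convex hK'.isClosed hc'
    (ENNReal.ofReal (θ u * volume.real (T '' K)))) fun ε => ?_)
  obtain ⟨b, hb, hv⟩ := h u hu ε
  set B : Set (ι → ℝ) := Set.pi Set.univ fun i => Set.Icc (b i) (b i + a) with hB
  have hBm : MeasurableSet B := MeasurableSet.univ_pi fun i => measurableSet_Icc
  have hBv : volume B = ENNReal.ofReal (a ^ Fintype.card ι) := by
    rw [hB, volume_pi_pi, ENNReal.ofReal_pow ha.le]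
    simp
  have h1 := sect_fubini hK'.measurableSet hBm
  have h2 : T '' K ∩ {y | (fun i => y (Sum.inr i)) ∈ B} =
      T '' (K ∩ {x | ∀ i, G x i ∈ Set.Icc (b i) (b i + a)}) := by
    rw [← Set.image_inter_preimage]
    refine congrArg (fun S => T '' (K ∩ S)) (Set.ext fun x => ?_)
    simp only [hB, Set.mem_preimage, Set.mem_ofPred_eq, hT, Set.mem_univ_pi]
  have h3 : volume (T '' K ∩ {y | (fun i => y (Sum.inr i)) ∈ B}) ≠ ⊤ :=
    ne_top_of_le_ne_top hK'.measure_ne_top (measure_mono Set.inter_subset_left)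
  have hB0 : volume B ≠ 0 := by rw [hBv]; exact (ENNReal.ofReal_pos.2 (pow_pos ha _)).ne'
  obtain ⟨w, hw, hle⟩ := exists_setLAverage_le hB0 hBm.nullMeasurableSet (h1 ▸ h3)
  refine ⟨w, le_trans ?_ hle, hsign hb fun i => hw i (Set.mem_univ i)⟩
  rw [setLAverage_eq, ← h1, ENNReal.le_div_iff_mul_le (Or.inl hB0) (Or.inr h3), hBv,
    ← ENNReal.ofReal_mul' (pow_pos ha _).le, ENNReal.ofReal_le_iff_le_toReal h3, h2]
  have hm : MeasurableSet (K ∩ {x | ∀ i, G x i ∈ Set.Icc (b i) (b i + a)}) := by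
    refine hK1.measurableSet.inter ?_
    rw [Set.ofPred_forall]
    exact MeasurableSet.iInter fun i => measurableSet_Icc.preimage
      ((continuous_apply i).comp G.continuous_of_finiteDimensional).measurable
  change _ ≤ volume.real _
  rw [hc _ hm, hc _ hK1.measurableSet]
  have h4 := mul_le_mul_of_nonneg_left hv c.2
  change (c : ℝ) * _ ≤ (c : ℝ) * _ at h4
  linarith

end Vale.Agent.P230.Up
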