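import Vale.Agent.P230.UpIso
import Vale.Agent.P230.UpProj
import Vale.Agent.P230.UpSect

/-! A convex body has a low-dimensional marginal that dominates a Gaussian. -/

namespace Vale.Agent.P230.Up

open Finset MeasureTheory ProbabilityTheory

theorem marginal : ∃ c : ℝ, 0 < c ∧ ∃ C M₀ : ℕ, ∀ (n n' M : ℕ) (ι : Type) [Fintype ι]
    (K : Set (Sp n)), IsBody K → n = n' + Fintype.card ι → M₀ ≤ M → Fintype.card ι ≤ M →
    Real.exp ((M : ℝ) ^ C) ≤ n →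
    ∃ T : Sp n ≃L[ℝ] (Fin n' ⊕ ι → ℝ), ∀ u : ι → ℝ, (∀ i, |u i| ≤ M) →
      c * (∏ i, gs (u i)) * volume.real (T '' K) ≤
        volume.real {z : Fin n' → ℝ | Sum.elim z u ∈ T '' K} := by
  obtain ⟨c, hc, C, M₀, h⟩ := proj
  refine ⟨c, hc, C, max M₀ 1, fun n n' M ι _ K hK hn hM hι hC => ?_⟩
  obtain ⟨T₀, h1, h2⟩ := exists_iso K hK
  obtain ⟨G, a, ha, hG⟩ := h n M ι _ h1 h2 ((le_max_left _ _).trans hM) hι hC
  obtain ⟨T₁, hT⟩ := sect hn _ h1 G a M ha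
    (by exact_mod_cast (le_max_right _ _).trans hM) (fun u => c * ∏ i, gs (u i))
    (fun u => mul_pos hc (prod_pos fun i _ => gs_pos _)) hG
  refine ⟨T₀.trans T₁, fun u hu => ?_⟩
  have e : (T₀.trans T₁) '' K = T₁ '' (T₀ '' K) := by rw [Set.image_image]; rfl
  rw [e]
  exact hT u hu

end Vale.Agent.P230.Up
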