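import Vale.Agent.P230.Lattice

/-! A covering lattice from a finite quotient of the integer lattice. -/

namespace Vale.Agent.P230.Up

open Finset MeasureTheory ProbabilityTheory
open scoped Pointwise

/-- Coordinatewise inclusion of integer points. -/
def thCast (N : Type*) : (N → ℤ) →ₗ[ℤ] (N → ℝ) where
  toFun x := fun i => (x i : ℝ)
  map_add' x y := by ext i; simp
  map_smul' c x := by ext i; simp

theorem thCast_inj (N : Type*) : Function.Injective (thCast N) := fun x y h => by
  ext i
  have := congrFun h i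
  simpa [thCast] using this

theorem thCast_top (N : Type*) [Fintype N] :
    Submodule.map (thCast N) ⊤ = Submodule.span ℤ (Set.range (Pi.basisFun ℝ N)) := by
  ext x
  rw [Module.Basis.mem_span_iff_repr_mem, Submodule.map_top, LinearMap.mem_range]
  constructor
  · rintro ⟨y, rfl⟩ i
    exact ⟨y i, by simp [thCast]⟩
  · intro h
    choose y hy using h
    exact ⟨y, by ext i; simpa [thCast] using hy i⟩

theorem th_exists {N G : Type*} [Fintype N] [AddCommGroup G] [Fintype G] (π : (N → ℤ) →+ G)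
    (hπ : Function.Surjective π) :
    ∃ (L : Submodule ℤ (N → ℝ)) (_ : DiscreteTopology L) (_ : IsZLattice ℝ L),
      ZLattice.covolume L = Fintype.card G ∧ ∀ x, π x = 0 → (fun i => (x i : ℝ)) ∈ L := by
  classical
  let L := Submodule.map (thCast N) (AddSubgroup.toIntSubmodule π.ker)
  have hle : L ≤ Submodule.span ℤ (Set.range (Pi.basisFun ℝ N)) :=
    thCast_top N ▸ Submodule.map_mono le_top
  have hmem : ∀ x, π x = 0 → (fun i => (x i : ℝ)) ∈ L := fun x hx => ⟨x, hx, rfl⟩
  have hd : DiscreteTopology L :=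
    DiscreteTopology.of_subset (s := (Submodule.span ℤ (Set.range (Pi.basisFun ℝ N)) : Set _))
      (inferInstanceAs (DiscreteTopology (Submodule.span ℤ (Set.range (Pi.basisFun ℝ N))))) hle
  have hc : (Fintype.card G : ℝ) ≠ 0 := Nat.cast_ne_zero.mpr Fintype.card_ne_zero
  have hz : IsZLattice ℝ L := by
    refine ⟨eq_top_iff.mpr ?_⟩
    rw [← (Pi.basisFun ℝ N).span_eq, Submodule.span_le]
    rintro _ ⟨i, rfl⟩
    have h1 := hmem (Fintype.card G • Pi.single i 1) (by rw [map_nsmul, card_nsmul_eq_zero])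
    have h2 := Submodule.smul_mem _ (Fintype.card G : ℝ)⁻¹
      (Submodule.subset_span (R := ℝ) (s := (L : Set (N → ℝ))) h1)
    have h3 : ((Fintype.card G : ℝ)⁻¹ • fun j => (((Fintype.card G • Pi.single i 1 : N → ℤ) j : ℤ) : ℝ))
        = Pi.basisFun ℝ N i := by
      ext j
      by_cases h : j = i
      · subst h; simp [hc]
      · simp [h]
    exact h3 ▸ h2
  refine ⟨L, hd, hz, ?_, hmem⟩
  have h1 := ZLattice.covolume_div_covolume_eq_relIndex L _ hle
  have h2 : ZLattice.covolume (Submodule.span ℤ (Set.range (Pi.basisFun ℝ N))) = 1 := by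
    rw [ZLattice.covolume_eq_measure_fundamentalDomain _ _
      (ZSpan.isAddFundamentalDomain (Pi.basisFun ℝ N) volume), ZSpan.fundamentalDomain_pi_basisFun]
    simp [measureReal_def, volume_pi_pi]
  have h3 : L.toAddSubgroup.relIndex
      (Submodule.span ℤ (Set.range (Pi.basisFun ℝ N))).toAddSubgroup = Fintype.card G := by
    rw [← thCast_top]
    have e := AddSubgroup.relIndex_map_map_of_injective (f := (thCast N).toAddMonoidHom) π.ker ⊤
      (thCast_inj N)
    rw [AddSubgroup.relIndex_top_right, AddSubgroup.index_ker,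
      AddMonoidHom.range_eq_top.mpr hπ, AddSubgroup.card_top, Nat.card_eq_fintype_card] at e
    exact e
  rw [h2, h3, div_one] at h1
  exact h1

theorem thetaL_le {n : ℕ} {N G : Type*} [Fintype N] [AddCommGroup G] [Fintype G]
    (K : Set (Sp n)) (p₀ : Sp n) (Φ : (N → ℝ) ≃L[ℝ] Sp n) (π : (N → ℤ) →+ G)
    (hπ : Function.Surjective π)
    (hcov : ∀ p : N → ℝ, ∃ x : N → ℤ, π x = 0 ∧ Φ (p - fun i => (x i : ℝ)) + p₀ ∈ K)
    (hK : MeasurableSet K) :
    thetaL K ≤ volume {p : N → ℝ | Φ p + p₀ ∈ K} / Fintype.card G := by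
  obtain ⟨L, hd, hz, hc, hmem⟩ := th_exists π hπ
  let μ : Measure (N → ℝ) := (volume : Measure (Sp n)).map Φ.symm
  have hμ : μ.IsAddHaarMeasure := Φ.symm.isAddHaarMeasure_map _
  have hp : MeasurePreserving Φ.symm volume μ := ⟨Φ.symm.continuous.measurable, rfl⟩
  obtain ⟨c, c0, hcμ⟩ : ∃ c : NNReal, 0 < c ∧ μ = c • volume :=
    ⟨_, Measure.addHaarScalarFactor_pos_of_isAddHaarMeasure μ volume,
      Measure.isAddLeftInvariant_eq_smul μ volume⟩
  have hF := ZLattice.isAddFundamentalDomain (Module.Free.chooseBasis ℤ L)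
  have h1 : ZLattice.covolume (ZLattice.comap ℝ L Φ.symm.toLinearMap) = c * Fintype.card G := by
    rw [ZLattice.covolume_comap L μ volume hp,
      ZLattice.covolume_eq_measure_fundamentalDomain L μ (hF μ), ← hc,
      ZLattice.covolume_eq_measure_fundamentalDomain L volume (hF volume), hcμ]
    simp
  have hS : MeasurableSet {p : N → ℝ | Φ p + p₀ ∈ K} :=
    (Φ.continuous.add continuous_const).measurable hK
  have h2 : volume K = c * volume {p : N → ℝ | Φ p + p₀ ∈ K} := by
    have e := hp.measure_preimage hS.nullMeasurableSet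
    have e2 : Φ.symm ⁻¹' {p : N → ℝ | Φ p + p₀ ∈ K} = (fun y => y + p₀) ⁻¹' K := by
      ext y; simp
    rw [e2, measure_preimage_add_right, hcμ] at e
    simpa using e
  have h3 : K + (ZLattice.comap ℝ L Φ.symm.toLinearMap : Set (Sp n)) = Set.univ := by
    refine Set.eq_univ_of_forall fun y => ?_
    obtain ⟨x, hx, hxK⟩ := hcov (Φ.symm (y - p₀))
    refine ⟨_, hxK, Φ fun i => (x i : ℝ), ?_, ?_⟩
    · simpa using hmem x hx
    · simp only [map_sub, ContinuousLinearEquiv.apply_symm_apply]
      abel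
  unfold thetaL
  refine iInf_le_of_le (ZLattice.comap ℝ L Φ.symm.toLinearMap) <| iInf_le_of_le inferInstance <|
    iInf_le_of_le inferInstance <| iInf_le_of_le h3 (le_of_eq ?_)
  rw [h1, h2, ENNReal.ofReal_mul (NNReal.coe_nonneg c), ENNReal.ofReal_coe_nnreal, ENNReal.ofReal_natCast,
    ENNReal.mul_div_mul_left _ _ (by simpa using c0.ne') ENNReal.coe_ne_top]

theorem thetaT_le_thetaL {n : ℕ} (K : Set (Sp n)) (_hK : IsBody K) : thetaT K ≤ thetaL K :=
  Vale.Agent.P230.thetaT_le_thetaL K

end Vale.Agent.P230.Up
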