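import Vale.Agent.P230.UpTop0

/-! The Gaussian tree lattice. -/

namespace Vale.Agent.P230.Up

open Finset Filter

/-- The two nearest points in one new coordinate. -/
lemma coord_close {h s δ₀ : ℝ} {q e : ℕ} [NeZero q] (hh : 0 < h) (he : h / q * (e + 1) ≤ δ₀)
    (y : ZMod q) (b : Bool) :
    |h / q * y.val - (if b then h else 0)| ≤ h ∧
    |(s - h / q * ((⌊s / (h / q)⌋ - e - y.val + (if b then (q : ℤ) else 0) : ℤ) : ℝ)) -
      (h / q * y.val - (if b then h else 0))| ≤ δ₀ := by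
  have hq : (0 : ℝ) < q := by exact_mod_cast Nat.pos_of_ne_zero (NeZero.ne q)
  have hη : 0 < h / q := by positivity
  have hηq : h / q * q = h := div_mul_cancel₀ _ hq.ne'
  have hv : (y.val : ℝ) ≤ q := by exact_mod_cast (ZMod.val_lt y).le
  have hv1 : h / q * y.val ≤ h := by
    calc h / q * y.val ≤ h / q * q := by gcongr
      _ = h := hηq
  have hv0 : 0 ≤ h / q * y.val := by positivity
  have f1 := Int.floor_le (s / (h / q))
  have f2 := Int.lt_floor_add_one (s / (h / q))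
  rw [le_div_iff₀ hη] at f1
  rw [div_lt_iff₀ hη] at f2
  have he0 : 0 ≤ h / q * e := by positivity
  constructor
  · rw [abs_le]; split_ifs <;> constructor <;> linarith
  · generalize ⌊s / (h / q)⌋ = F at f1 f2
    generalize h / q = η at *
    rw [abs_le]
    split_ifs <;> push_cast <;> constructor <;> nlinarith

lemma step_const {u m : ℕ} {h : ℝ} (hu : 2 ^ 22 ≤ u) (hm : m ≤ 3 * u ^ 30) (hh : 0 < h)
    (h32 : 32 * h ≤ u) :
    1 - 1 / (u : ℝ) ^ 2 ≤ Real.exp (-((h + 1) * (1 / (u : ℝ) ^ 40))) ^ m := by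
  have hT : (2 : ℝ) ^ 22 ≤ u := by exact_mod_cast hu
  have hT0 : (0 : ℝ) < u := lt_of_lt_of_le (by norm_num) hT
  have hm' : (m : ℝ) ≤ 3 * (u : ℝ) ^ 30 := by exact_mod_cast hm
  rw [← Real.exp_nat_mul]
  refine le_trans ?_ (Real.add_one_le_exp _)
  have h1 : m * ((h + 1) * (1 / (u : ℝ) ^ 40)) ≤ 1 / (u : ℝ) ^ 2 := by
    calc m * ((h + 1) * (1 / (u : ℝ) ^ 40)) ≤ 3 * (u : ℝ) ^ 30 * (u * (1 / (u : ℝ) ^ 40)) := by
          gcongr; linarith
      _ = 3 / (u : ℝ) ^ 7 * (1 / (u : ℝ) ^ 2) := by field_simp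
      _ ≤ 1 * (1 / (u : ℝ) ^ 2) := by
          gcongr
          rw [div_le_one (by positivity)]
          have := pow_step (T := u) (by linarith) (a := 0) (b := 7) (by norm_num)
          linarith
      _ = _ := one_mul _
  linarith

lemma leaf_small {u : ℕ} (hu : 2 ^ 22 ≤ u) :
    (3 / 4 : ℝ) ^ u ^ 19 * Real.exp (4 * (u : ℝ) ^ 17) ≤ Real.exp (-((u : ℝ) ^ 19 / 10)) := by
  have hT : (2 : ℝ) ^ 22 ≤ u := by exact_mod_cast hu
  have h2 : (3 / 4 : ℝ) ^ u ^ 19 ≤ Real.exp (-(1 / 4)) ^ u ^ 19 := by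
    gcongr; linarith [Real.add_one_le_exp (-(1 / 4))]
  rw [← Real.exp_nat_mul] at h2
  have h4 := pow_step (T := u) (by linarith) (a := 17) (b := 19) (by norm_num)
  have h5 : (0 : ℝ) ≤ (u : ℝ) ^ 17 := by positivity
  calc _ ≤ Real.exp ((u ^ 19 : ℕ) * -(1 / 4)) * Real.exp (4 * (u : ℝ) ^ 17) := by gcongr
    _ ≤ _ := by
      rw [← Real.exp_add]; refine Real.exp_le_exp.2 ?_
      push_cast; linarith

lemma card_step {t q m : ℕ} {a b : ℝ} (ht : 2 ^ 21 ≤ t) (ha : a ≤ Real.exp ((t : ℝ) ^ 62))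
    (hb0 : 0 ≤ b) (hb : b ≤ (q : ℝ) ^ m) (hq : (q : ℝ) ≤ Real.exp (((2 * t : ℕ) : ℝ) ^ 31))
    (hm : m ≤ 3 * (2 * t) ^ 30) : a * b ≤ Real.exp (((2 * t : ℕ) : ℝ) ^ 62) := by
  have hT : (2 : ℝ) ^ 21 ≤ t := by exact_mod_cast ht
  have hm' : (m : ℝ) ≤ 3 * ((2 * t : ℕ) : ℝ) ^ 30 := by exact_mod_cast hm
  have hU : (100000 : ℝ) ≤ ((2 * t : ℕ) : ℝ) := by push_cast; linarith
  have h1 : (t : ℝ) ^ 62 * 2 ≤ ((2 * t : ℕ) : ℝ) ^ 62 := by
    push_cast; rw [mul_pow, mul_comm]; gcongr; norm_num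
  generalize ((2 * t : ℕ) : ℝ) = U at *
  have h2 := pow_step hU (a := 61) (b := 62) (by norm_num)
  have h3 : (0 : ℝ) ≤ U ^ 61 := by positivity
  calc a * b ≤ Real.exp ((t : ℝ) ^ 62) * Real.exp (U ^ 31) ^ m := by
        refine mul_le_mul ha (hb.trans ?_) hb0 (Real.exp_pos _).le
        gcongr
    _ ≤ _ := by
        rw [← Real.exp_nat_mul, ← Real.exp_add]
        refine Real.exp_le_exp.2 ?_
        have : m * U ^ 31 ≤ 3 * U ^ 30 * U ^ 31 := by gcongr
        have e : 3 * U ^ 30 * U ^ 31 = 3 * U ^ 61 := by ring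
        linarith

set_option maxHeartbeats 1600000 in
theorem stage_step {t : ℕ} {c h : ℝ} (ht : 2 ^ 21 ≤ t) (hc : 0 ≤ c)
    (hh : h ^ 2 = 80 * Real.log (2 * t : ℕ)) (h55 : 55 ≤ h) (hl4 : 4 ≤ Real.log h)
    (h32 : 32 * h ≤ (2 * t : ℕ)) (hS : Stage t c) :
    Stage (2 * t) (c * (1 - 18 / ((2 * t : ℕ) : ℝ) ^ 2)) := by
  classical
  obtain ⟨ι, _, _, rk, η, G, _, _, π, L, E, a1, a2, a3, a4, a5, a6, a7, a8, hs⟩ := hS
  set u := 2 * t with hu
  have hu22 : 2 ^ 22 ≤ u := by omega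
  have hU : (2 : ℝ) ^ 22 ≤ u := by exact_mod_cast hu22
  have hU0 : (0 : ℝ) < u := lt_of_lt_of_le (by norm_num) hU
  have htu : (t : ℝ) ≤ u := by exact_mod_cast (by omega : t ≤ u)
  have hh0 : 0 < h := by linarith
  obtain ⟨q, m, hq, w, A, φ, b1, b2, b3, b4⟩ := block_at (t := u) (by omega) hh h55 hl4 h32 ι L E a8
    (by rw [hu, mul_pow]; nlinarith)
  choose e j b3 b5 using b3
  have hq0 : (0 : ℝ) < q := by exact_mod_cast hq.out.pos
  have hq1 : (1 : ℝ) ≤ q := by exact_mod_cast hq.out.pos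
  have hη0 : 0 < h / q := by positivity
  let Qt := (Fin m → ZMod q) ⧸ Submodule.span (ZMod q) {w}
  let _ : Fintype Qt := Fintype.ofSurjective _ (Submodule.mkQ_surjective _)
  let pz : (ι ⊕ Fin m → ℤ) →+ (ι → ℤ) := AddMonoidHom.mk' (fun y l => y (Sum.inl l))
    fun _ _ => rfl
  let ps : (ι ⊕ Fin m → ℤ) →+ (Fin m → ZMod q) :=
    AddMonoidHom.mk' (fun y l => (y (Sum.inr l) : ZMod q)) fun _ _ => by funext l; simp
  let π' : (ι ⊕ Fin m → ℤ) →+ G × Qt := (π.comp pz).prod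
    ((Submodule.span (ZMod q) {w}).mkQ.toAddMonoidHom.comp (ps - (evH q A).comp pz))
  have hπ' : ∀ (z : ι → ℤ) (z' : Fin m → ℤ), π' (Sum.elim z z') =
      (π z, Submodule.Quotient.mk ((fun l => (z' l : ZMod q)) - evH q A z)) := fun _ _ => rfl
  obtain ⟨k1, k2⟩ := card_quot w
  refine ⟨ι ⊕ Fin m, inferInstance, inferInstance, Sum.elim rk fun l => univ.sup rk + 1 + l,
    Sum.elim η fun _ => h / q, G × Qt, inferInstance, inferInstance, π',
    univ.map Function.Embedding.inr, q, ?_, ?_, ?_, ?_, ?_, ?_, by simpa using b2, Or.inr hq.out,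
    fun s => ?_⟩
  · have hle : ∀ i, rk i ≤ univ.sup rk := fun i => le_sup (f := rk) (mem_univ i)
    rintro (i | i) (i' | i') h
    · exact congrArg _ (a1 h)
    · have := hle i; simp at h; omega
    · have := hle i'; simp at h; omega
    · simp at h; exact congrArg _ (Fin.ext h)
  · rintro ⟨γ, v⟩
    obtain ⟨z, rfl⟩ := a2 γ
    obtain ⟨v, rfl⟩ := Submodule.Quotient.mk_surjective _ v
    refine ⟨Sum.elim z fun l => ((v + evH q A z) l).val, ?_⟩
    rw [hπ']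
    congr 2
    funext l; simp
  · rintro (i | i)
    exacts [a3 i, hη0]
  · rintro (i | i)
    · exact (a4 i).trans htu
    · exact (div_le_self hh0.le hq1).trans (by linarith)
  · rw [Fintype.card_sum, Fintype.card_fin]
    have : u ^ 30 = 2 ^ 30 * t ^ 30 := by rw [hu, mul_pow]
    omega
  · rw [Fintype.card_prod, Nat.cast_mul]
    exact card_step ht a6 (by positivity) k2 b1 b2
  obtain ⟨x, ω, c1, c2, c3, c4, c5, c6, c7⟩ := hs fun i => s (Sum.inl i)
  let f : Fin m → ℤ := fun l => ⌊s (Sum.inr l) / (h / q)⌋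
  let Y : (ι → ℤ) → Fin m → ZMod q := fun z => (fun l => (f l : ZMod q)) - evH q A z
  let v : (Fin m → ZMod q) → Fin m → ZMod q := fun y => y - (fun i => (e y i : ZMod q)) - j y • w
  let nx : (Fin m → ZMod q) → (Fin m → Bool) → Fin m → ℤ := fun y ε l =>
    f l - e y l - (v y l).val + if ε l then (q : ℤ) else 0
  let p₀ : (Fin m → ZMod q) → Fin m → ℝ := fun y l => h * gs (h / q * (v y l).val)
  let p₁ : (Fin m → ZMod q) → Fin m → ℝ := fun y l => h * gs (h / q * (v y l).val - h)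
  have hp₀ : ∀ y l, 0 ≤ p₀ y l := fun y l => (mul_pos hh0 (gs_pos _)).le
  have hp₁ : ∀ y l, 0 ≤ p₁ y l := fun y l => (mul_pos hh0 (gs_pos _)).le
  have hW : ∀ y l, p₀ y l + p₁ y l = W1 h q (v y l) := fun y l => by simp only [p₀, p₁, W1]; ring
  have hact : ∀ y, ∀ l ∈ univ.filter fun l => Act h q (v y l),
      p₀ y l ≤ 3 * p₁ y l ∧ p₁ y l ≤ 3 * p₀ y l := by
    intro y l hl
    obtain ⟨r1, r2⟩ := act_ratio hh0 (mem_filter.1 hl).2
    simp only [p₀, p₁]
    constructor <;> nlinarith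
  let σ₁ : ℝ := Real.exp (-((h + 1) * (1 / (u : ℝ) ^ 40)))
  have hσ0 : 0 < σ₁ := Real.exp_pos _
  have hσ1 : σ₁ ^ m ≤ 1 := pow_le_one₀ hσ0.le (Real.exp_le_one_iff.2 (by
    have : 0 ≤ (h + 1) * (1 / (u : ℝ) ^ 40) := by positivity
    linarith))
  let pp : (Fin m → ZMod q) → (Fin m → Bool) → ℝ := fun y ε =>
    ∏ l, if ε l then p₁ y l else p₀ y l
  have hpp : ∀ y ε, 0 ≤ pp y ε := fun y ε =>
    prod_nonneg fun l _ => by split_ifs; exacts [hp₁ y l, hp₀ y l]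
  let nω : (Fin m → ZMod q) → (Fin m → Bool) → ℝ := fun y ε =>
    if φ y = 0 then 0 else σ₁ ^ m * (pp y ε / q)
  have hnω : ∀ y ε, 0 ≤ nω y ε := fun y ε => by
    have := hpp y ε
    simp only [nω]; split_ifs; exacts [le_rfl, by positivity]
  have hφ0 : ∀ y, 0 ≤ φ y := fun y => by
    rcases b5 y with h | ⟨h, -⟩
    · exact h.ge
    · rw [h]; exact div_nonneg (prod_nonneg fun _ _ => (W1_pos hh0 _ _).le) hq0.le
  have hδ : 1 / (u : ℝ) ^ 40 ≤ 1 := by
    rw [div_le_one (by positivity)]; exact one_le_pow₀ (by linarith)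
  have hclose : ∀ y ε l, |h / q * (v y l).val - (if ε l then h else 0)| ≤ h ∧
      |(s (Sum.inr l) - h / q * (nx y ε l : ℤ)) -
        (h / q * (v y l).val - (if ε l then h else 0))| ≤ 1 / (u : ℝ) ^ 40 :=
    fun y ε l => coord_close hh0 (b3 y l) (v y l) (ε l)
  refine ⟨fun ε => Sum.elim (x fun i => ε (Sum.inl i))
      (nx (Y (x fun i => ε (Sum.inl i))) fun l => ε (Sum.inr l)),
    fun ε => ω (fun i => ε (Sum.inl i)) * nω (Y (x fun i => ε (Sum.inl i))) fun l => ε (Sum.inr l),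
    ⟨?_, ?_⟩, fun ε => ?_, ?_, fun ε => mul_nonneg (c4 _) (hnω _ _), fun ε => ?_, fun ε => ?_,
    fun Φ lam h1 h2 h3 => ?_⟩
  · have hle : ∀ i, rk i ≤ univ.sup rk := fun i => le_sup (f := rk) (mem_univ i)
    rintro ε ε' (i | l) h
    · exact c1.1 _ _ i fun j hj => h (Sum.inl j) hj
    · have e1 : (fun i => ε (Sum.inl i)) = fun i => ε' (Sum.inl i) :=
        funext fun i => h (Sum.inl i) (by have := hle i; simp; omega)
      simp only [Sum.elim_inr, e1, nx, h (Sum.inr l) le_rfl]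
  · have hle : ∀ i, rk i ≤ univ.sup rk := fun i => le_sup (f := rk) (mem_univ i)
    rintro ε ε' (i | l) h hne
    · exact c1.2 _ _ i (fun j hj => h (Sum.inl j) hj) hne
    · have e1 : (fun i => ε (Sum.inl i)) = fun i => ε' (Sum.inl i) :=
        funext fun i => h (Sum.inl i) (by have := hle i; simp; omega)
      simp only [Sum.elim_inr, e1, nx]
      have := hq.out.pos
      intro he
      have he' := add_left_cancel he
      split_ifs at he' with h1 h2 h2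
      · exact hne (h1.trans h2.symm)
      · omega
      · omega
      · exact hne (by simp only [Bool.not_eq_true] at h1 h2; rw [h1, h2])
  · rw [hπ', c2]
    refine Prod.ext rfl ((Submodule.Quotient.mk_eq_zero _).2 (Submodule.mem_span_singleton.2
      ⟨j (Y (x fun i => ε (Sum.inl i))), ?_⟩))
    funext l
    simp only [nx, v, Y, Pi.sub_apply, Pi.smul_apply]
    split_ifs <;> simp <;> ring
  · rintro ε (i | l)
    · exact (c3 _ i).trans htu
    · obtain ⟨r1, r2⟩ := hclose (Y (x fun i => ε (Sum.inl i))) (fun l => ε (Sum.inr l)) l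
      simp only [Sum.elim_inr]
      rw [abs_le] at r1 r2 ⊢
      constructor <;> linarith [r1.1, r1.2, r2.1, r2.2]
  · rw [Fintype.card_prod, Nat.cast_mul, Fintype.prod_sum_type, mul_mul_mul_comm]
    refine mul_le_mul (c5 _) ?_ (hnω _ _) ((c4 _).trans (c5 _))
    simp only [Sum.elim_inr]
    generalize Y (x fun i => ε (Sum.inl i)) = y
    have hg : ∀ l, 0 ≤ h / q * gs (s (Sum.inr l) - h / q * (nx y (fun l => ε (Sum.inr l)) l : ℤ)) :=
      fun l => (mul_pos hη0 (gs_pos _)).le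
    simp only [nω]
    split_ifs
    · exact mul_nonneg (by positivity) (prod_nonneg fun l _ => hg l)
    · refine le_trans ?_ (mul_le_mul_of_nonneg_right k1 (prod_nonneg fun l _ => hg l))
      have e1 : σ₁ ^ m * pp y (fun l => ε (Sum.inr l)) ≤ (q : ℝ) ^ m * ∏ l, h / q *
          gs (s (Sum.inr l) - h / q * (nx y (fun l => ε (Sum.inr l)) l : ℤ)) := by
        have r0 : σ₁ ^ m = ∏ _l : Fin m, σ₁ := by simp
        have r1 : (q : ℝ) ^ m = ∏ _l : Fin m, (q : ℝ) := by simp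
        rw [r0, r1, ← prod_mul_distrib, ← prod_mul_distrib]
        refine prod_le_prod (fun l _ => mul_nonneg hσ0.le
          (by split_ifs; exacts [hp₁ y l, hp₀ y l])) fun l _ => ?_
        obtain ⟨r2, r3⟩ := hclose y (fun l => ε (Sum.inr l)) l
        have r4 := mul_le_mul_of_nonneg_left (gs_shift r2 r3 (by linarith)) hh0.le
        rw [← mul_assoc (q : ℝ), mul_div_cancel₀ _ hq0.ne']
        refine le_trans (le_of_eq ?_) r4
        simp only [p₀, p₁, σ₁]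
        split_ifs
        · ring
        · rw [sub_zero]; ring
      calc _ = σ₁ ^ m * pp y (fun l => ε (Sum.inr l)) / q := by ring
        _ ≤ _ := by rw [div_mul_eq_mul_div]; gcongr
  · have r0 : ω (fun i => ε (Sum.inl i)) ≤ 1 := (c6 _).trans (Real.exp_le_one_iff.2 (by
      have : 0 ≤ (t : ℝ) ^ 19 / 10 := by positivity
      linarith))
    refine (mul_le_of_le_one_left (hnω _ _) r0).trans ?_
    generalize Y (x fun i => ε (Sum.inl i)) = y
    simp only [nω]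
    split_ifs with h0
    · exact (Real.exp_pos _).le
    · obtain ⟨r1, r2, r3⟩ := (b5 y).resolve_left h0
      have r4 := prod_leaf_le (p₀ y) (p₁ y) (hp₀ y) (hp₁ y) _ _ r2 (hact y) fun l => ε (Sum.inr l)
      simp only [hW] at r4
      refine (mul_le_of_le_one_left (div_nonneg (hpp _ _) hq0.le) hσ1).trans ?_
      calc pp y (fun l => ε (Sum.inr l)) / q ≤ (3 / 4) ^ u ^ 19 * (∏ i, W1 h q (v y i)) / q := by
            gcongr
        _ = (3 / 4) ^ u ^ 19 * φ y := by rw [r1]; ring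
        _ ≤ (3 / 4) ^ u ^ 19 * Real.exp (4 * (u : ℝ) ^ 17) := by gcongr
        _ ≤ _ := leaf_small hu22
  · have hε : 1 / (u : ℝ) ^ 2 ≤ 1 / 100 := by gcongr; nlinarith
    have hε0 : 0 < 1 / (u : ℝ) ^ 2 := by positivity
    have inner : ∀ z : ι → ℤ, (1 - 2 * (1 / (u : ℝ) ^ 2)) * lam * φ (Y z) ≤
        ∑ ε₂ : Fin m → Bool, nω (Y z) ε₂ * Φ (Sum.elim z (nx (Y z) ε₂)) := by
      intro z
      generalize Y z = y
      by_cases h0 : φ y = 0
      · simp [nω, h0]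
      obtain ⟨r1, r2, -⟩ := (b5 y).resolve_left h0
      have r4 := cube_mix (p₀ y) (p₁ y) (hp₀ y) (hp₁ y) (u ^ 19) (2 * (2 * u) ^ 18) _ r2 (hact y)
        (fun ε₂ => Φ (Sum.elim z (nx y ε₂))) (fun _ => h1 _) lam h2 (fun ε₂ J hJ hε₂ => by
          refine (h3 (Sum.elim z (nx y ε₂)) (J.map Function.Embedding.inr)
            (map_subset_map.2 (subset_univ _)) (by rw [card_map, hJ])).trans_eq ?_
          rw [sum_powerset_map]
          refine sum_congr rfl fun S hS => ?_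
          congr 1
          funext i
          rcases i with i | l
          · simp
          · by_cases hl : l ∈ S
            · simp [nx, hl, hε₂ l (mem_powerset.1 hS hl)]
            · simp [nx, hl])
      simp only [hW] at r4
      have r5 := mix_small hu22
      have r6 : 1 - 1 / (u : ℝ) ^ 2 ≤ σ₁ ^ m := step_const hu22 b2 hh0 h32
      generalize (2 : ℝ) ^ (2 * (2 * u) ^ 18) * (3 / 4) ^ u ^ 19 = δ at r4 r5
      have r7 : ∑ ε₂ : Fin m → Bool, nω y ε₂ * Φ (Sum.elim z (nx y ε₂)) =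
          σ₁ ^ m / q * ∑ ε₂ : Fin m → Bool, pp y ε₂ * Φ (Sum.elim z (nx y ε₂)) := by
        rw [mul_sum]
        exact sum_congr rfl fun ε₂ _ => by simp only [nω, if_neg h0]; ring
      have r8 : 1 - 2 * (1 / (u : ℝ) ^ 2) ≤ σ₁ ^ m * (1 - δ) := by
        have : (1 - 1 / (u : ℝ) ^ 2) * (1 - 1 / (u : ℝ) ^ 2) ≤ σ₁ ^ m * (1 - δ) :=
          mul_le_mul r6 (by linarith) (by linarith) (by positivity)
        nlinarith
      rw [r7]
      calc (1 - 2 * (1 / (u : ℝ) ^ 2)) * lam * φ y ≤ σ₁ ^ m * (1 - δ) * lam * φ y := by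
            have := hφ0 y; gcongr
        _ = σ₁ ^ m / q * ((∏ i, W1 h q (v y i)) * (1 - δ) * lam) := by rw [r1]; ring
        _ ≤ _ := by gcongr
    have outer := c7 (fun z => φ (Y z)) (1 - 16 / (u : ℝ) ^ 2) (fun _ => hφ0 _)
      (by rw [div_eq_mul_one_div]; linarith) (fun z J hJ hJc => by
        refine (b4 (Y z) J hJ hJc).trans_eq (sum_congr rfl fun S _ => ?_)
        congr 1
        simp only [Y]
        rw [map_add, evH_ind]; abel)
    rw [sum_sumBool]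
    simp only [Sum.elim_inl, Sum.elim_inr]
    calc c * (1 - 18 / (u : ℝ) ^ 2) * lam
        ≤ (1 - 2 * (1 / (u : ℝ) ^ 2)) * lam * (c * (1 - 16 / (u : ℝ) ^ 2)) := by
          have r1 : 1 - 18 / (u : ℝ) ^ 2 ≤
              (1 - 2 * (1 / (u : ℝ) ^ 2)) * (1 - 16 / (u : ℝ) ^ 2) := by
            rw [div_eq_mul_one_div 18, div_eq_mul_one_div 16]; nlinarith
          calc _ ≤ c * ((1 - 2 * (1 / (u : ℝ) ^ 2)) * (1 - 16 / (u : ℝ) ^ 2)) * lam := by gcongr
            _ = _ := by ring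
      _ ≤ (1 - 2 * (1 / (u : ℝ) ^ 2)) * lam * ∑ ε₁, ω ε₁ * φ (Y (x ε₁)) :=
          mul_le_mul_of_nonneg_left outer (mul_nonneg (by linarith) h2)
      _ ≤ _ := by
          rw [mul_sum]
          refine sum_le_sum fun ε₁ _ => ?_
          simp only [mul_assoc (ω ε₁)]
          rw [← mul_sum, mul_left_comm]
          exact mul_le_mul_of_nonneg_left (inner _) (c4 _)

lemma ev_h : ∀ᶠ u : ℕ in atTop, ∃ h : ℝ, h ^ 2 = 80 * Real.log u ∧ 55 ≤ h ∧ 4 ≤ Real.log h ∧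
    32 * h ≤ u := by
  have h1 : Tendsto (fun u : ℕ => √(80 * Real.log u)) atTop atTop :=
    Real.tendsto_sqrt_atTop.comp
      ((Real.tendsto_log_atTop.comp tendsto_natCast_atTop_atTop).const_mul_atTop (by norm_num))
  filter_upwards [h1.eventually_ge_atTop 55,
    (Real.tendsto_log_atTop.comp h1).eventually_ge_atTop 4, eventually_ge_atTop 100000]
    with u h2 h3 h4
  have hU : (100000 : ℝ) ≤ u := by exact_mod_cast h4
  have h5 : 0 ≤ Real.log u := Real.log_nonneg (by linarith)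
  have h6 : √(80 * Real.log u) ^ 2 = 80 * Real.log u := Real.sq_sqrt (by positivity)
  refine ⟨_, h6, h2, h3, le_of_pow_le_pow_left₀ two_ne_zero (by linarith) ?_⟩
  have h7 := Real.log_le_sub_one_of_pos (x := u) (by linarith)
  rw [mul_pow, h6]
  nlinarith

theorem gaussTree : ∃ c : ℝ, 0 < c ∧ ∃ C T₀ : ℕ, 0 < C ∧ ∀ T : ℕ, T₀ ≤ T →
    ∃ (ι : Type) (_ : Fintype ι) (_ : DecidableEq ι) (rk : ι → ℕ) (η : ι → ℝ) (G : Type)
      (_ : AddCommGroup G) (_ : Fintype G) (π : (ι → ℤ) →+ G),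
      Function.Injective rk ∧ Function.Surjective π ∧ (∀ i, 0 < η i) ∧
      (∀ i, η i ≤ (T ^ C : ℕ)) ∧ Fintype.card ι ≤ T ^ C ∧
      (Fintype.card G : ℝ) ≤ Real.exp (T ^ C : ℕ) ∧
      ∀ s : ι → ℝ, ∃ (x : (ι → Bool) → ι → ℤ) (ω : (ι → Bool) → ℝ), Causal rk x ∧
        (∀ ε, π (x ε) = 0) ∧ (∀ ε i, |s i - η i * x ε i| ≤ (T ^ C : ℕ)) ∧ (∀ ε, 0 ≤ ω ε) ∧
        (∀ ε, ω ε ≤ Fintype.card G * ∏ i, (η i * gs (s i - η i * x ε i))) ∧
        (∀ ε, ω ε ≤ Real.exp (-T)) ∧ c ≤ ∑ ε, ω ε := by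
  obtain ⟨u₀, hu₀⟩ := eventually_atTop.1 ev_h
  set t₀ := max u₀ (2 ^ 22) with ht₀
  have h22 : 2 ^ 22 ≤ t₀ := le_max_right _ _
  set c₀ : ℝ := gs 1 ^ t₀ ^ 19 / 4 with hc₀
  have hc : 0 < c₀ := by have := gs_pos 1; positivity
  have key : ∀ j : ℕ, Stage (2 ^ j * t₀) (c₀ * (1 + 1 / ((2 ^ j * t₀ : ℕ) : ℝ))) := by
    intro j
    induction j with
    | zero =>
      rw [pow_zero, one_mul]
      refine (stage_base h22).mono ?_
      have h1 : (1 : ℝ) ≤ t₀ := by exact_mod_cast (by omega : 1 ≤ t₀)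
      have h2 : 1 / (t₀ : ℝ) ≤ 1 := by rw [div_le_one (by linarith)]; exact h1
      nlinarith
    | succ j ih =>
      have h1 : t₀ ≤ 2 ^ j * t₀ := Nat.le_mul_of_pos_left _ (by positivity)
      have e : 2 ^ (j + 1) * t₀ = 2 * (2 ^ j * t₀) := by ring
      rw [e]
      generalize 2 ^ j * t₀ = t at ih h1
      obtain ⟨h, g1, g2, g3, g4⟩ := hu₀ (2 * t) (by have := le_max_left u₀ (2 ^ 22); omega)
      refine (stage_step (by omega) (by positivity) g1 g2 g3 g4 ih).mono ?_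
      have hT : (2 : ℝ) ^ 22 ≤ t := by exact_mod_cast h22.trans h1
      have hT0 : (0 : ℝ) < t := lt_of_lt_of_le (by norm_num) hT
      rw [mul_assoc]
      refine mul_le_mul_of_nonneg_left ?_ hc.le
      push_cast
      have e1 : (1 + 1 / (t : ℝ)) * (1 - 18 / (2 * t) ^ 2) - (1 + 1 / (2 * t)) =
          (t ^ 2 - 9 * t - 9) / (2 * t ^ 3) := by field_simp; ring
      have e2 : 0 ≤ ((t : ℝ) ^ 2 - 9 * t - 9) / (2 * t ^ 3) :=
        div_nonneg (by nlinarith) (by positivity)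
      linarith
  refine ⟨c₀, hc, 70, t₀, by norm_num, fun T hT => ?_⟩
  have hex : ∃ j, T ≤ 2 ^ j * t₀ :=
    ⟨T, (Nat.lt_two_pow_self.le).trans (Nat.le_mul_of_pos_right _ (by omega))⟩
  obtain ⟨t, hS, ht1, ht2⟩ : ∃ t, Stage t c₀ ∧ T ≤ t ∧ t ≤ 2 * T := by
    refine ⟨2 ^ Nat.find hex * t₀, (key _).mono ?_, Nat.find_spec hex, ?_⟩
    · exact le_mul_of_one_le_right hc.le (le_add_of_nonneg_right (by positivity))
    · rcases h : Nat.find hex with _ | j
      · omega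
      · have := Nat.find_min hex (m := j) (by omega)
        rw [pow_succ]; nlinarith
  have hT2 : 2 ^ 22 ≤ T := h22.trans hT
  have hT1 : 1 ≤ T := by omega
  have p8 : 2 ^ 62 ≤ T ^ 8 := le_trans (by norm_num) (Nat.pow_le_pow_left hT2 8)
  have p62 : t ^ 62 ≤ T ^ 70 := by
    calc t ^ 62 ≤ (2 * T) ^ 62 := Nat.pow_le_pow_left ht2 _
      _ = 2 ^ 62 * T ^ 62 := mul_pow _ _ _
      _ ≤ T ^ 8 * T ^ 62 := by gcongr
      _ = _ := by ring
  have ht6 : 6 ≤ t := by omega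
  have p1 : t ≤ T ^ 70 := (Nat.le_self_pow (by norm_num) t).trans p62
  have p30 : 6 * t ^ 30 ≤ T ^ 70 := by
    calc 6 * t ^ 30 ≤ t * t ^ 30 := by gcongr
      _ = t ^ 31 := by ring
      _ ≤ t ^ 62 := Nat.pow_le_pow_right (by omega) (by norm_num)
      _ ≤ _ := p62
  have p1' : (t : ℝ) ≤ (T ^ 70 : ℕ) := by exact_mod_cast p1
  obtain ⟨ι, i1, i2, rk, η, G, i3, i4, π, L, E, a1, a2, a3, a4, a5, a6, -, -, hs⟩ := hS
  refine ⟨ι, i1, i2, rk, η, G, i3, i4, π, a1, a2, a3, fun i => (a4 i).trans p1', a5.trans p30,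
    a6.trans (Real.exp_le_exp.2 (by exact_mod_cast p62)), fun s => ?_⟩
  obtain ⟨x, ω, b1, b2, b3, b4, b5, b6, b7⟩ := hs s
  refine ⟨x, ω, b1, b2, fun ε i => (b3 ε i).trans p1', b4, b5,
    fun ε => (b6 ε).trans (Real.exp_le_exp.2 ?_), ?_⟩
  · have h1 : (T : ℝ) ≤ t := by exact_mod_cast ht1
    have h2 : (2 : ℝ) ^ 22 ≤ T := by exact_mod_cast hT2
    have h3 := pow_step (T := t) (by linarith) (a := 1) (b := 19) (by norm_num)
    linarith
  · simpa using b7 (fun _ => 1) 1 (fun _ => zero_le_one) zero_le_one fun z J _ hJ => by simp [hJ]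

end Vale.Agent.P230.Up
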