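import Vale.Agent.P230.UpCore
import Vale.Agent.P230.UpBase
import Vale.Agent.P230.UpMarginal
import Vale.Agent.P230.UpTheta
import Vale.Agent.P230.UpTop

/-! The lattice covering upper bound. -/

namespace Vale.Agent.P230.Up

open Finset MeasureTheory Filter

lemma finish {n : ℕ} {N G : Type} [Fintype N] [DecidableEq N] [AddCommGroup G] [Fintype G]
    {K : Set (Sp n)} (hK : IsCompact K) (p₀ : Sp n) (T : Sp n ≃L[ℝ] (N → ℝ)) (d : N → ℝ)
    (hd : ∀ j, 0 < d j) (π : (N → ℤ) →+ G) (hπ : Function.Surjective π)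
    (hcov : ∀ p : N → ℝ, ∃ x : N → ℤ, π x = 0 ∧
      (fun j => d j * (p j - x j)) ∈ T '' ((fun y => y - p₀) '' K)) :
    thetaL K ≤ ENNReal.ofReal (volume.real (T '' ((fun y => y - p₀) '' K)) /
      ((∏ j, d j) * Fintype.card G)) := by
  set K' := T '' ((fun y => y - p₀) '' K) with hK'
  have hK'c : IsCompact K' := (hK.image (by fun_prop)).image T.continuous
  have hprod : 0 < ∏ j, d j := prod_pos fun j _ => hd j
  let f : (N → ℝ) →ₗ[ℝ] (N → ℝ) := Matrix.toLin' (Matrix.diagonal d)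
  have hdet : LinearMap.det f = ∏ j, d j := by simp [f, LinearMap.det_toLin']
  have hf : ∀ p, f p = fun j => d j * p j := by
    intro p; funext j; simp [f, Matrix.mulVec_diagonal]
  let e : (N → ℝ) ≃L[ℝ] (N → ℝ) :=
    (LinearMap.equivOfDetNeZero f (by rw [hdet]; exact hprod.ne')).toContinuousLinearEquiv
  have he : ∀ p, e p = f p := fun p => rfl
  have hmem : ∀ p, (e.trans T.symm) p + p₀ ∈ K ↔ f p ∈ K' := by
    intro p
    simp only [ContinuousLinearEquiv.trans_apply, he, hK', Set.mem_image]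
    constructor
    · intro h
      exact ⟨T.symm (f p), ⟨_, h, by simp⟩, by simp⟩
    · rintro ⟨_, ⟨y, hy, rfl⟩, h⟩
      rw [← h]; simpa using hy
  have h1 := thetaL_le K p₀ (e.trans T.symm) π hπ (fun p => by
    obtain ⟨x, hx, hx2⟩ := hcov p
    refine ⟨x, hx, (hmem _).2 ?_⟩
    rw [hf]; exact hx2) hK.measurableSet
  have h2 : {p : N → ℝ | (e.trans T.symm) p + p₀ ∈ K} = f ⁻¹' K' := by
    ext p; exact hmem p
  rw [h2, Measure.addHaar_preimage_linearMap _ (by rw [hdet]; exact hprod.ne'), hdet] at h1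
  refine h1.trans_eq ?_
  have hG : (0 : ℝ) < Fintype.card G := by exact_mod_cast Fintype.card_pos
  rw [abs_of_pos (inv_pos.2 hprod), ← ENNReal.ofReal_toReal hK'c.measure_lt_top.ne,
    ← ENNReal.ofReal_mul (inv_pos.2 hprod).le, ← ENNReal.ofReal_natCast,
    ← ENNReal.ofReal_div_of_pos hG]
  congr 1
  simp only [Measure.real]
  field_simp

lemma ev_log_ge (A : ℝ) : ∀ᶠ n : ℕ in atTop, A ≤ Real.log n :=
  (Real.tendsto_log_atTop.comp tendsto_natCast_atTop_atTop).eventually_ge_atTop A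

lemma ev_log_pow (A : ℝ) : ∀ᶠ n : ℕ in atTop, A * Real.log n ^ 3 ≤ √n := by
  have h := (Real.isLittleO_pow_log_id_atTop (n := 6)).bound (c := 1 / (A ^ 2 + 1)) (by positivity)
  filter_upwards [tendsto_natCast_atTop_atTop.eventually h] with n hn
  refine Real.le_sqrt_of_sq_le ?_
  simp only [id, Real.norm_eq_abs, Nat.abs_cast] at hn
  have h1 := (le_abs_self _).trans hn
  have h2 : 0 ≤ Real.log n ^ 6 := by positivity
  rw [one_div, ← div_eq_inv_mul, le_div_iff₀ (by positivity)] at h1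
  nlinarith

lemma ev_T_pow (p : ℕ) : ∀ᶠ n : ℕ in atTop,
    ((⌈3 * Real.log (Real.log n)⌉₊ : ℕ) : ℝ) ^ p ≤ Real.log n / 2 := by
  have h := (Real.isLittleO_pow_exp_atTop (n := p)).bound (c := 1 / (2 * 4 ^ p)) (by positivity)
  have ht : Tendsto (fun n : ℕ => Real.log (Real.log n)) atTop atTop :=
    Real.tendsto_log_atTop.comp (Real.tendsto_log_atTop.comp tendsto_natCast_atTop_atTop)
  filter_upwards [ht.eventually h, ht.eventually_ge_atTop 1, ev_log_ge 1] with n hn h1 h2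
  set y := Real.log (Real.log n)
  have e : Real.exp y = Real.log n := Real.exp_log (by linarith)
  rw [Real.norm_eq_abs, Real.norm_eq_abs, e, abs_of_nonneg (by positivity),
    abs_of_nonneg (by linarith)] at hn
  have h3 : ((⌈3 * y⌉₊ : ℕ) : ℝ) ≤ 4 * y := by
    have := Nat.ceil_lt_add_one (a := 3 * y) (by linarith)
    linarith
  calc ((⌈3 * y⌉₊ : ℕ) : ℝ) ^ p ≤ (4 * y) ^ p := by gcongr
    _ = 4 ^ p * y ^ p := mul_pow _ _ _
    _ ≤ 4 ^ p * (1 / (2 * 4 ^ p) * Real.log n) := by gcongr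
    _ = _ := by field_simp

lemma ev_T_ge (A : ℕ) : ∀ᶠ n : ℕ in atTop, A ≤ ⌈3 * Real.log (Real.log n)⌉₊ := by
  have ht : Tendsto (fun n : ℕ => Real.log (Real.log n)) atTop atTop :=
    Real.tendsto_log_atTop.comp (Real.tendsto_log_atTop.comp tendsto_natCast_atTop_atTop)
  filter_upwards [ht.eventually_ge_atTop A] with n hn
  have := Nat.le_ceil (3 * Real.log (Real.log n))
  have h0 : (0 : ℝ) ≤ A := by positivity
  have : (A : ℝ) ≤ ((⌈3 * Real.log (Real.log n)⌉₊ : ℕ) : ℝ) := by linarith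
  exact_mod_cast this

lemma num_P {n k M : ℕ} {L s : ℝ} (hexp : Real.exp L = n) (hss : s * s = n) (h1 : 2 ≤ L)
    (hs : 40 ≤ s) (hM : (M : ℝ) ≤ s) (hexpM : Real.exp M ≤ s) (hk : (k : ℝ) ≤ L / 2) :
    (⌈Real.exp M * M * n⌉₊ : ℝ) ^ k * 2 ^ k + 1 ≤ Real.exp (2 * L ^ 2) := by
  have hn : (40 : ℝ) ≤ n := by nlinarith
  have h4 : (⌈Real.exp M * M * n⌉₊ : ℝ) * 2 ≤ Real.exp (3 * L) := by
    have h5 := Nat.ceil_lt_add_one (a := Real.exp M * M * n) (by positivity)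
    have h6 : Real.exp M * M * n ≤ s * s * n := by gcongr
    have h7 : Real.exp (3 * L) = n ^ 3 := by
      rw [show (3 : ℝ) * L = (3 : ℕ) * L by norm_num, Real.exp_nat_mul, hexp]
    rw [h7]; rw [hss] at h6
    have h8 : (1 : ℝ) ≤ n * n := by nlinarith
    have h9 : 40 * ((n : ℝ) * n) ≤ n ^ 3 := by nlinarith
    linarith
  have h5 : (⌈Real.exp M * M * n⌉₊ : ℝ) ^ k * 2 ^ k ≤ Real.exp (3 / 2 * L ^ 2) := by
    rw [← mul_pow]
    calc _ ≤ Real.exp (3 * L) ^ k := by gcongr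
      _ = Real.exp (k * (3 * L)) := (Real.exp_nat_mul _ _).symm
      _ ≤ _ := Real.exp_le_exp.2 (by nlinarith)
  have h6 : Real.exp (2 * L ^ 2) = Real.exp (3 / 2 * L ^ 2) * Real.exp (L ^ 2 / 2) := by
    rw [← Real.exp_add]; ring_nf
  have h7 : 2 ≤ Real.exp (L ^ 2 / 2) := by
    have := Real.add_one_le_exp (L ^ 2 / 2); nlinarith
  have h8 : 1 ≤ Real.exp (3 / 2 * L ^ 2) := Real.one_le_exp (by positivity)
  rw [h6]
  nlinarith

lemma num_big {n k j : ℕ} {L s P : ℝ} (hexp : Real.exp L = n) (hss : s * s = n) (h1 : 2 ≤ L)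
    (hs : 40 ≤ s) (hL : 5 * L ^ 2 ≤ s) (h2k : (2 : ℝ) ^ k ≤ s) (hP0 : 0 ≤ P)
    (hP : P ≤ Real.exp (2 * L ^ 2)) (hj : j ≤ n) :
    (3 * P ^ 2) ^ 2 ^ k * (2 * (n : ℝ) ^ j) < Real.exp (3 * n * L) := by
  have hn : (40 : ℝ) ≤ n := by nlinarith
  have h4 : 3 * P ^ 2 ≤ Real.exp (5 * L ^ 2) := by
    have h6 : Real.exp (5 * L ^ 2) = Real.exp (2 * L ^ 2) ^ 2 * Real.exp (L ^ 2) := by
      rw [← Real.exp_nat_mul, ← Real.exp_add]; ring_nf
    have h7 : 3 ≤ Real.exp (L ^ 2) := by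
      have := Real.add_one_le_exp (L ^ 2); nlinarith
    rw [h6, mul_comm]
    gcongr
  have h5 : (3 * P ^ 2) ^ 2 ^ k ≤ Real.exp n := by
    calc (3 * P ^ 2) ^ 2 ^ k ≤ Real.exp (5 * L ^ 2) ^ 2 ^ k := by gcongr
      _ = Real.exp ((2 ^ k : ℕ) * (5 * L ^ 2)) := (Real.exp_nat_mul _ _).symm
      _ ≤ _ := Real.exp_le_exp.2 (by
          push_cast
          calc (2 : ℝ) ^ k * (5 * L ^ 2) ≤ s * s := by gcongr
            _ = n := hss)
  have h6 : (n : ℝ) ^ j ≤ Real.exp (n * L) := by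
    rw [Real.exp_nat_mul, hexp]
    exact pow_le_pow_right₀ (by linarith) hj
  have h7 : (2 : ℝ) < Real.exp (n * L) := by
    have := Real.add_one_le_exp (n * L); nlinarith
  have h8 := Real.exp_pos (n * L)
  have h9 := Real.exp_pos n
  have h10 : Real.exp n ≤ Real.exp (n * L) := Real.exp_le_exp.2 (by nlinarith)
  calc (3 * P ^ 2) ^ 2 ^ k * (2 * (n : ℝ) ^ j)
      ≤ Real.exp n * (2 * Real.exp (n * L)) := by gcongr
    _ < Real.exp n * (Real.exp (n * L) * Real.exp (n * L)) := by gcongr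
    _ ≤ Real.exp (n * L) * (Real.exp (n * L) * Real.exp (n * L)) := by gcongr
    _ = _ := by rw [← Real.exp_add, ← Real.exp_add]; ring_nf

lemma num_Vm {n L T c cb Vm : ℝ} (hc : 0 < c) (hcb : 0 < cb) (hn : 0 < n) (h1 : 2 ≤ L)
    (hT : 3 * Real.log L ≤ T) (h2 : 12 / (c * cb) ≤ L) (h4 : 16 / cb * L ^ 3 ≤ n)
    (hVm : cb * n / (2 * L) ≤ Vm) :
    1 ≤ Vm ∧ 3 * n * L / c * Real.exp (-T) + 1 ≤ Vm ∧ 3 * L ^ 2 + 1 ≤ Vm := by
  have hL0 : 0 < L := by linarith
  have hA : 3 * L ^ 2 + 1 ≤ cb * n / (4 * L) := by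
    rw [le_div_iff₀ (by positivity)]
    rw [div_mul_eq_mul_div, div_le_iff₀ hcb] at h4
    have : L ≤ L ^ 3 := by nlinarith [sq_nonneg L]
    nlinarith
  have hB : 3 * n * L / c * Real.exp (-T) ≤ cb * n / (4 * L) := by
    have h4 : Real.exp (-T) ≤ 1 / L ^ 3 := by
      have : Real.exp (3 * Real.log L) = L ^ 3 := by
        rw [show (3 : ℝ) * Real.log L = (3 : ℕ) * Real.log L by norm_num, Real.exp_nat_mul,
          Real.exp_log hL0]
      rw [Real.exp_neg, one_div, ← this]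
      gcongr
    calc 3 * n * L / c * Real.exp (-T) ≤ 3 * n * L / c * (1 / L ^ 3) := by gcongr
      _ = (cb * n / (4 * L)) * (12 / (c * cb) / L) := by field_simp; ring
      _ ≤ (cb * n / (4 * L)) * 1 := by
          gcongr; rw [div_le_one hL0]; exact h2
      _ = _ := mul_one _
  have hhalf : cb * n / (2 * L) = cb * n / (4 * L) + cb * n / (4 * L) := by field_simp; ring
  have hq0 : 0 < cb * n / (4 * L) := by positivity
  have hL2 : 0 ≤ L ^ 2 := by positivity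
  exact ⟨by linarith, by linarith, by linarith⟩

/-- The numerical side conditions of `core`. -/
lemma numerics {n k M T : ℕ} {c cb : ℝ} (hc : 0 < c) (hcb : 0 < cb) (hk : k ≤ M)
    (hM : (M : ℝ) ≤ Real.log n / 2) (hT : 3 * Real.log (Real.log n) ≤ T)
    (h1 : 2 ≤ Real.log n) (h2 : 12 / (c * cb) ≤ Real.log n)
    (h3 : (16 / cb + 5) * Real.log n ^ 3 ≤ √n) :
    let L := Real.log n
    let P : ℝ := (⌈Real.exp M * M * n⌉₊ : ℝ) ^ k * 2 ^ k + 1
    let Vm : ℝ := cb * (n - k : ℕ) / Real.log (n - k : ℕ)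
    n ≤ 2 * (n - k) ∧ 1 ≤ Vm ∧ Vm * Real.log (n - k : ℕ) ≤ cb * (n - k : ℕ) ∧
      3 * n * L / c * Real.exp (-T) + 1 ≤ Vm ∧ 3 * L ^ 2 + 1 ≤ Vm ∧ 6 * P < Real.exp (3 * L ^ 2) ∧
      3 * L ^ 2 * 2 ^ k ≤ 3 * n * L / c * c ∧
      (3 * P ^ 2) ^ 2 ^ k * (2 * (n : ℝ) ^ (n - k)) < Real.exp (3 * n * L / c * c) := by
  intro L P Vm
  have hL : L = Real.log n := rfl
  rw [← hL] at hM hT h1 h2 h3
  have hn0 : (0 : ℝ) < n := by
    rcases Nat.eq_zero_or_pos n with h | h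
    · simp [h] at hL; linarith
    · exact_mod_cast h
  have hexp : Real.exp L = n := Real.exp_log hn0
  have hs0 : 0 < √(n : ℝ) := Real.sqrt_pos.2 hn0
  have hss : √(n : ℝ) * √(n : ℝ) = n := Real.mul_self_sqrt hn0.le
  generalize √(n : ℝ) = s at hs0 hss h3
  have hlogle : ∀ y : ℝ, 0 < y → y ≤ n → Real.log y ≤ L := fun y h0 h => Real.log_le_log h0 h
  clear_value L
  have hL0 : 0 < L := by linarith
  have hL30 : 0 ≤ 16 / cb * L ^ 3 := by positivity
  have hL3 : 5 * L ^ 3 ≤ s := by linarith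
  have hL2 : 2 * L ^ 2 ≤ L ^ 3 := by nlinarith
  have hL1 : 2 * L ≤ L ^ 2 := by nlinarith
  have hs40 : 40 ≤ s := by linarith
  have hsn : s ≤ n := by nlinarith
  have hexpM : Real.exp M ≤ s := by
    refine le_of_pow_le_pow_left₀ two_ne_zero hs0.le ?_
    rw [← Real.exp_nat_mul, sq, hss, ← hexp]
    exact Real.exp_le_exp.2 (by push_cast; linarith)
  have hk' : (k : ℝ) ≤ L / 2 := (Nat.cast_le.2 hk).trans hM
  have h2k : (2 : ℝ) ^ k ≤ s := by
    refine le_trans ?_ hexpM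
    calc (2 : ℝ) ^ k ≤ Real.exp 1 ^ k := by
          gcongr; linarith [Real.add_one_le_exp 1]
      _ = Real.exp k := by rw [← Real.exp_nat_mul, mul_one]
      _ ≤ _ := Real.exp_le_exp.2 (Nat.cast_le.2 hk)
  have hkn : 2 * k ≤ n := by
    have : (2 * k : ℝ) ≤ n := by linarith
    exact_mod_cast this
  have hn' : (n : ℝ) / 2 ≤ (n - k : ℕ) := by
    rw [Nat.cast_sub (by omega)]; linarith
  have hn'2 : ((n - k : ℕ) : ℝ) ≤ n := by exact_mod_cast Nat.sub_le n k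
  have hlog0 : 0 < Real.log (n - k : ℕ) := Real.log_pos (by linarith)
  have hlog1 : Real.log (n - k : ℕ) ≤ L := hlogle _ (by linarith) hn'2
  have hVm : cb * n / (2 * L) ≤ Vm := by
    calc cb * n / (2 * L) = cb * (n / 2) / L := by field_simp
      _ ≤ Vm := by simp only [Vm]; gcongr
  have hL31 : 0 ≤ L ^ 3 := by positivity
  obtain ⟨b1, b2, b3⟩ := num_Vm hc hcb hn0 h1 hT h2 (by linarith) hVm
  have hP : P ≤ Real.exp (2 * L ^ 2) := num_P hexp hss h1 hs40 (by linarith) hexpM hk'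
  have hP0 : 0 ≤ P := by positivity
  have hc' : 3 * n * L / c * c = 3 * n * L := by field_simp
  refine ⟨by omega, b1, ?_, b2, b3, ?_, ?_, ?_⟩
  · simp only [Vm]; rw [div_mul_cancel₀ _ hlog0.ne']
  · have h6 : Real.exp (3 * L ^ 2) = Real.exp (2 * L ^ 2) * Real.exp (L ^ 2) := by
      rw [← Real.exp_add]; ring_nf
    have h7 : 7 ≤ Real.exp (L ^ 2) := by
      have := Real.quadratic_le_exp_of_nonneg (x := L ^ 2) (by positivity)
      have h9 : 4 ≤ L ^ 2 := by linarith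
      have h10 : 4 ^ 2 ≤ (L ^ 2) ^ 2 := by gcongr
      linarith
    have h8 := Real.exp_pos (2 * L ^ 2)
    rw [h6]
    calc 6 * P ≤ 6 * Real.exp (2 * L ^ 2) := by gcongr
      _ < Real.exp (2 * L ^ 2) * 7 := by linarith
      _ ≤ _ := by gcongr
  · rw [hc']
    calc 3 * L ^ 2 * 2 ^ k ≤ 3 * L ^ 2 * s := by gcongr
      _ = 3 * (L * s) * L := by ring
      _ ≤ 3 * (s * s) * L := by gcongr; linarith
      _ = _ := by rw [hss]
  · rw [hc']
    exact num_big hexp hss h1 hs40 (by linarith) h2k hP0 hP (Nat.sub_le _ _)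

theorem upper : ∃ C : ℝ, 0 < C ∧ ∀ᶠ n : ℕ in atTop, ∀ K : Set (Sp n), IsBody K →
    thetaL K ≤ ENNReal.ofReal (C * n * Real.log n) := by
  obtain ⟨cb, hcb, n₁, hbase⟩ := base
  obtain ⟨cm, hcm, Cm, M₀, hmarg⟩ := marginal
  obtain ⟨c, hc, Ct, T₀, hCt, htree⟩ := gaussTree
  refine ⟨Real.exp 3 * (3 / (c * cm)), by positivity, ?_⟩
  filter_upwards [ev_T_ge (max (max T₀ M₀) 1), ev_T_pow Ct, ev_T_pow (Ct * Cm), ev_log_ge 2,
    ev_log_ge (12 / (c * cb)), ev_log_pow (16 / cb + 5), eventually_ge_atTop (2 * max n₁ 12)]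
    with n hT hM hMC h1 h2 h3 hn K hK
  set T := ⌈3 * Real.log (Real.log n)⌉₊ with hTdef
  obtain ⟨ι, _, _, rk, η, G, _, _, π, hrk, hπ, hη, hηM, hk, hG, hs⟩ :=
    htree T (((le_max_left _ _).trans (le_max_left _ _)).trans hT)
  set M := T ^ Ct with hMdef
  have hT1 : 1 ≤ T := (le_max_right _ _).trans hT
  have hTM : T ≤ M := Nat.le_self_pow hCt.ne' T
  obtain ⟨a1, a2, a3, a4, a5, a6, a7, a8⟩ := numerics (n := n) (k := Fintype.card ι) (M := M)
    (T := T) hc hcb hk (by rw [hMdef]; push_cast; exact hM) (Nat.le_ceil _) h1 h2 h3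
  set k := Fintype.card ι with hkdef
  have hn1 : 1 ≤ n := by omega
  have hn0 : (0 : ℝ) < n := by exact_mod_cast hn1
  obtain ⟨p₀, hp₀⟩ := hK.2.2
  set K₀ := (fun y => y - p₀) '' K with hK₀
  have hK₀i : (0 : Sp n) ∈ interior K₀ := by
    have : K₀ = (Homeomorph.subRight p₀) '' K := rfl
    rw [this, ← Homeomorph.image_interior]
    exact ⟨p₀, hp₀, by simp⟩
  have hK₀b : IsBody K₀ := by
    refine ⟨hK.1.image (by fun_prop), ?_, ⟨0, hK₀i⟩⟩
    have := hK.2.1.translate (-p₀)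
    have e : (fun y : Sp n => y - p₀) = fun y => -p₀ + y := by funext y; abel
    rw [hK₀, e]; exact this
  obtain ⟨Tl, hTl⟩ := hmarg n (n - k) M ι K₀ hK₀b (by omega)
    ((((le_max_right _ _).trans (le_max_left _ _)).trans hT).trans hTM) hk (by
      rw [← Real.exp_log hn0]
      refine Real.exp_le_exp.2 ?_
      rw [hMdef]; push_cast; rw [← pow_mul]; linarith)
  have hi : (0 : Fin (n - k) ⊕ ι → ℝ) ∈ interior (Tl '' K₀) := by
    have : Tl '' K₀ = Tl.toHomeomorph '' K₀ := rfl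
    rw [this, ← Homeomorph.image_interior]
    exact ⟨0, hK₀i, by simp⟩
  obtain ⟨r, hr, hball⟩ := Metric.nhds_basis_closedBall.mem_iff.1 (mem_interior_iff_mem_nhds.1 hi)
  have hL0 : 0 < Real.log n := by linarith
  obtain ⟨κ, G', _, _, π', hκ, hπ', hvol, hcov⟩ := core (n := n)
    (fun Q μ H H₀ _ C b1 b2 b3 b4 b5 => hbase (n - k) (by omega) Q μ H H₀ C _ b1 b2 b3 b4 a2 a3 b5)
    (by omega) hn1 hrk hπ hη (Nn := ⌈Real.exp M * M * n⌉₊)
    (fun i => le_trans (by have := hη i; gcongr; exact hηM i) (Nat.le_ceil _)) hs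
    (hK₀b.1.image Tl.continuous) (hK₀b.2.1.linear_image Tl.toLinearEquiv.toLinearMap) hr hball hcm
    (by exact_mod_cast hT1.trans hTM) hTl (lam := 3 * n * Real.log n / c) (by positivity) rfl
    a4 a5 a6 a7 a8
  have hσ : 0 < (1 + 3 / (n : ℝ))⁻¹ := by positivity
  have hfin := finish hK.1 p₀ Tl (fun j => (1 + 3 / (n : ℝ))⁻¹ * Sum.elim (fun _ => κ) η j)
    (by rintro (l | i); exacts [mul_pos hσ hκ, mul_pos hσ (hη i)]) π' hπ' (fun p => by
      obtain ⟨x, hx, hx2⟩ := hcov p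
      refine ⟨x, hx, ?_⟩
      convert hx2 using 1
      funext j; simp only [Pi.smul_apply, smul_eq_mul]; ring)
  refine hfin.trans (ENNReal.ofReal_le_ofReal ?_)
  have hprod : ∏ j : Fin (n - k) ⊕ ι, ((1 + 3 / (n : ℝ))⁻¹ * Sum.elim (fun _ => κ) η j) =
      ((1 + 3 / (n : ℝ)) ^ n)⁻¹ * (κ ^ (n - k) * ∏ i, η i) := by
    have : Fintype.card (Fin (n - k) ⊕ ι) = n := by simp; omega
    rw [prod_mul_distrib, prod_const, card_univ, this, Fintype.prod_sum_type]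
    simp
  have hG' : (0 : ℝ) < Fintype.card G' := by exact_mod_cast Fintype.card_pos
  have hη' : 0 < ∏ i, η i := prod_pos fun i _ => hη i
  have he : (1 + 3 / (n : ℝ)) ^ n ≤ Real.exp 3 := by
    calc (1 + 3 / (n : ℝ)) ^ n ≤ Real.exp (3 / n) ^ n := by
          gcongr; linarith [Real.add_one_le_exp (3 / (n : ℝ))]
      _ = Real.exp 3 := by rw [← Real.exp_nat_mul]; congr 1; field_simp
  have hv : volume.real (Tl '' K₀) =
      3 * n * Real.log n / (c * cm) * (κ ^ (n - k) * (∏ i, η i) * Fintype.card G') := by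
    field_simp at hvol ⊢; linarith
  rw [hprod, hv]
  calc _ = (1 + 3 / (n : ℝ)) ^ n * (3 / (c * cm) * n * Real.log n) := by field_simp
    _ ≤ Real.exp 3 * (3 / (c * cm) * n * Real.log n) := by gcongr
    _ = _ := by ring

end Vale.Agent.P230.Up
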