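import Vale.Agent.P230.UpCoset

/-! High moments of cube averages of a random linear map. -/

namespace Vale.Agent.P230.Up

open Finset

section
variable {ι F V : Type*} [Fintype ι] [DecidableEq ι] [Field F] [AddCommGroup V] [Module F V]

/-- Indicator vector of a set of coordinates. -/
def momInd (F : Type*) [Field F] (S : Finset ι) : ι → F := fun i => if i ∈ S then 1 else 0

lemma pr_momInd (S : Finset ι) (A : ι → V) : pr (momInd F S) A = ∑ i ∈ S, A i := by
  simp [pr, momInd, ite_smul]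

omit [Fintype ι] in
lemma momInd_inj {S S' : Finset ι} (h : momInd F S = momInd F S') : S = S' := by
  ext i
  have := congrFun h i
  by_cases h1 : i ∈ S <;> by_cases h2 : i ∈ S' <;> simp_all [momInd]

/-- Vectors of `W` are determined by at most `ρ` coordinates. -/
def MomGood (W : Submodule F (ι → F)) (ρ : ℕ) : Prop :=
  ∃ I : Finset ι, I.card ≤ ρ ∧ ∀ w ∈ W, (∀ i ∈ I, w i = 0) → w = 0

omit [Fintype ι] in
lemma MomGood.sup {W : Submodule F (ι → F)} {ρ : ℕ} (h : MomGood W ρ) (v : ι → F) :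
    MomGood (W ⊔ Submodule.span F {v}) (ρ + 1) := by
  obtain ⟨I, hI, hW⟩ := h
  by_cases hk : ∃ k ∈ W ⊔ Submodule.span F {v}, (∀ i ∈ I, k i = 0) ∧ k ≠ 0
  · obtain ⟨k, hk, hk0, hk1⟩ := hk
    obtain ⟨i₀, hi₀⟩ := Function.ne_iff.1 hk1
    obtain ⟨w₀, hw₀, z₀, hz₀, rfl⟩ := Submodule.mem_sup.1 hk
    obtain ⟨a₀, rfl⟩ := Submodule.mem_span_singleton.1 hz₀
    have ha₀ : a₀ ≠ 0 := by
      rintro rfl
      simp only [zero_smul, add_zero] at hk0 hk1
      exact hk1 (hW w₀ hw₀ hk0)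
    refine ⟨insert i₀ I, (card_insert_le _ _).trans (by omega), fun u hu h0 => ?_⟩
    obtain ⟨w, hw, z, hz, rfl⟩ := Submodule.mem_sup.1 hu
    obtain ⟨a, rfl⟩ := Submodule.mem_span_singleton.1 hz
    have e1 : w - (a / a₀) • w₀ = w + a • v - (a / a₀) • (w₀ + a₀ • v) := by
      rw [smul_add, smul_smul, div_mul_cancel₀ _ ha₀]; abel
    have e2 : w + a • v - (a / a₀) • (w₀ + a₀ • v) = 0 := by
      rw [← e1]
      refine hW _ (W.sub_mem hw (W.smul_mem _ hw₀)) fun i hi => ?_
      rw [e1, Pi.sub_apply, Pi.smul_apply, h0 i (mem_insert_of_mem hi), hk0 i hi]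
      simp
    have e3 := congrFun e2 i₀
    rw [Pi.sub_apply, Pi.smul_apply, h0 i₀ (mem_insert_self _ _), zero_sub, Pi.zero_apply,
      neg_eq_zero, smul_eq_mul, mul_eq_zero] at e3
    rcases e3 with e3 | e3
    · rw [e3, zero_smul, sub_zero] at e2
      exact e2
    · exact absurd e3 hi₀
  · push Not at hk
    exact ⟨I, by omega, hk⟩

omit [Fintype ι] in
lemma MomGood.card_le {W : Submodule F (ι → F)} {ρ : ℕ} (h : MomGood W ρ) (T : Finset (Finset ι))
    (hT : ∀ S ∈ T, momInd F S ∈ W) : T.card ≤ 2 ^ ρ := by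
  obtain ⟨I, hI, hW⟩ := h
  calc T.card ≤ I.powerset.card := by
        refine card_le_card_of_injOn (fun S => S ∩ I) (fun S _ => by simp) fun S hS S' hS' e => ?_
        refine momInd_inj (F := F) (sub_eq_zero.1 (hW _ (W.sub_mem (hT S hS) (hT S' hS')) ?_))
        intro i hi
        have : i ∈ S ↔ i ∈ S' := by
          have := congrArg (fun X => i ∈ X) e
          simpa [hi] using this
        simp [momInd, this]
    _ ≤ 2 ^ ρ := by
        rw [card_powerset]
        exact Nat.pow_le_pow_right (by norm_num) hI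

lemma mom_gen [Fintype V] (J : Finset ι) (c : F) (hc : c ≠ 0) (g : V → ℝ)
    (hg0 : ∀ t, 0 ≤ g t) (hg1 : ∀ t, g t ≤ 1) (β : ℝ) (hβ : ∑ t, g t ≤ β * Fintype.card V)
    (y : V) (r : ℕ) : ∀ (ρ : ℕ) (W : Submodule F (ι → F)), MomGood W ρ →
      ∀ Φ : (ι → V) → ℝ, (∀ A, 0 ≤ Φ A) →
      (∀ A A' : ι → V, (∀ w ∈ W, pr w A = pr w A') → Φ A = Φ A') →
      ∑ A : ι → V, Φ A * (∑ S ∈ J.powerset, g (y - c • pr (momInd F S) A)) ^ r ≤
        (2 ^ J.card * β + 2 ^ (ρ + r)) ^ r * ∑ A, Φ A := by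
  classical
  have hN : (0 : ℝ) < Fintype.card V := by exact_mod_cast Fintype.card_pos
  have hβ0 : 0 ≤ β := by
    have := (sum_nonneg fun t (_ : t ∈ univ) => hg0 t).trans hβ
    exact nonneg_of_mul_nonneg_left this hN
  induction r with
  | zero => intro ρ W _ Φ _ _; simp
  | succ r ih =>
    intro ρ W hW Φ hΦ0 hΦ
    have hS0 : 0 ≤ ∑ A, Φ A := sum_nonneg fun A _ => hΦ0 A
    have h1 : ∀ S : Finset ι, ∑ A : ι → V, Φ A * g (y - c • pr (momInd F S) A) ≤
        (β + if momInd F S ∈ W then 1 else 0) * ∑ A, Φ A := by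
      intro S
      split_ifs with hS
      · calc _ ≤ ∑ A, Φ A := sum_le_sum fun A _ => mul_le_of_le_one_right (hΦ0 A) (hg1 _)
          _ ≤ _ := le_mul_of_one_le_left hS0 (by linarith)
      · have e := shift_indep hS Φ hΦ fun t => g (y - c • t)
        rw [cos_sum_smul hc g y] at e
        have := mul_le_mul_of_nonneg_left hβ hS0
        refine le_of_mul_le_mul_right ?_ hN
        rw [e]; linarith
    have h2 : ∑ S ∈ J.powerset, ∑ A : ι → V, Φ A * g (y - c • pr (momInd F S) A) ≤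
        (2 ^ J.card * β + 2 ^ (ρ + (r + 1))) * ∑ A, Φ A := by
      refine (sum_le_sum fun S _ => h1 S).trans ?_
      rw [← sum_mul, sum_add_distrib, sum_const, card_powerset, sum_boole, nsmul_eq_mul]
      refine mul_le_mul_of_nonneg_right ?_ hS0
      have e1 := hW.card_le (J.powerset.filter fun S => momInd F S ∈ W)
        fun S hS => (mem_filter.1 hS).2
      have e2 : 2 ^ ρ ≤ 2 ^ (ρ + (r + 1)) := Nat.pow_le_pow_right (by norm_num) (by omega)
      have e3 : ((J.powerset.filter fun S => momInd F S ∈ W).card : ℝ) ≤ 2 ^ (ρ + (r + 1)) := by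
        exact_mod_cast e1.trans e2
      push_cast
      linarith
    calc ∑ A : ι → V, Φ A * (∑ S ∈ J.powerset, g (y - c • pr (momInd F S) A)) ^ (r + 1)
        = ∑ S ∈ J.powerset, ∑ A : ι → V, Φ A * g (y - c • pr (momInd F S) A) *
            (∑ S ∈ J.powerset, g (y - c • pr (momInd F S) A)) ^ r := by
          rw [sum_comm]
          refine sum_congr rfl fun A _ => ?_
          rw [← sum_mul, ← mul_sum]; ring
      _ ≤ ∑ S ∈ J.powerset, (2 ^ J.card * β + 2 ^ (ρ + 1 + r)) ^ r *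
            ∑ A : ι → V, Φ A * g (y - c • pr (momInd F S) A) := by
          refine sum_le_sum fun S _ => ih (ρ + 1) _ (hW.sup (momInd F S)) _
            (fun A => mul_nonneg (hΦ0 A) (hg0 _)) fun A A' h => ?_
          rw [hΦ A A' fun w hw => h w (Submodule.mem_sup_left hw),
            h _ (Submodule.mem_sup_right (Submodule.mem_span_singleton_self _))]
      _ ≤ _ := by
          rw [← mul_sum, pow_succ _ r, mul_assoc, show ρ + 1 + r = ρ + (r + 1) by omega]
          exact mul_le_mul_of_nonneg_left h2 (by positivity)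

end

theorem moment {ι F V : Type*} [Fintype ι] [DecidableEq ι] [Field F] [AddCommGroup V]
    [Module F V] [Fintype V] (J : Finset ι) (c : F) (hc : c ≠ 0) (g : V → ℝ)
    (hg0 : ∀ t, 0 ≤ g t) (hg1 : ∀ t, g t ≤ 1) (β : ℝ) (hβ : ∑ t, g t ≤ β * Fintype.card V)
    (y : V) (r : ℕ) :
    ∑ A : ι → V, (∑ S ∈ J.powerset, g (y - c • ∑ i ∈ S, A i)) ^ r ≤
      (2 ^ J.card * β + 2 ^ r) ^ r * Fintype.card (ι → V) := by
  have := mom_gen J c hc g hg0 hg1 β hβ y r 0 ⊥ ⟨∅, by simp, fun w hw _ => by simpa using hw⟩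
    (fun _ => 1) (fun _ => zero_le_one) fun _ _ _ => rfl
  simpa only [pr_momInd, one_mul, zero_add, sum_const, card_univ, nsmul_eq_mul, mul_one]
    using this

end Vale.Agent.P230.Up
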