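import Vale.Agent.P230.UpDefs

/-! Discretisation parameters and selection of integer blocks. -/

namespace Vale.Agent.P230.Up

open Finset MeasureTheory

lemma params {n : ℕ} (hn : 12 ≤ n) {D l R B : ℝ} (hD : 0 < D) (hl : 0 < l) (hR : 0 ≤ R) :
    ∃ (Q H H₀ : ℕ) (κ : ℝ), Q.Prime ∧ 0 < κ ∧ κ ^ n * (Q : ℝ) ^ (n / 3) = D ∧ Even H₀ ∧
      8 * H ^ 2 ≤ Q ∧ 256 * Q ≤ H₀ ^ 8 ∧ κ * H₀ ≤ l ∧ H₀ ^ n ≤ Q ^ (n / 3) ∧ 1 ≤ H₀ ∧
      R / κ + H₀ < H ∧ B < Q := by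
  have hn0 : (n : ℝ) ≠ 0 := by have : 0 < n := by omega
                               positivity
  have hnn : n ≠ 0 := by omega
  set a : ℝ := D ^ ((n : ℝ)⁻¹) with ha
  have ha0 : 0 < a := Real.rpow_pos_of_pos hD _
  have han : a ^ n = D := Real.rpow_inv_natCast_pow hD.le hnn
  set l' : ℝ := min l a with hl'
  have hl'0 : 0 < l' := lt_min hl ha0
  set b : ℝ := (R + l') / a + 2 with hb
  have hb0 : 0 < b := by positivity
  set X₀ : ℝ := max (max (8 * b ^ 2) (4 * a / l')) 1 with hX₀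
  obtain ⟨Q, hQ, hQp⟩ := Nat.exists_infinite_primes
    ⌈max (max (X₀ ^ 4) (256 * (2 * a / l') ^ 8)) (B + 1)⌉₊
  have hQ' : max (max (X₀ ^ 4) (256 * (2 * a / l') ^ 8)) (B + 1) ≤ (Q : ℝ) := Nat.ceil_le.1 hQ
  have hQ1 : X₀ ^ 4 ≤ Q := ((le_max_left _ _).trans (le_max_left _ _)).trans hQ'
  have hQ2 : 256 * (2 * a / l') ^ 8 ≤ Q := ((le_max_right _ _).trans (le_max_left _ _)).trans hQ'
  have hQ3 : B + 1 ≤ Q := (le_max_right _ _).trans hQ'
  have hQ0 : (1 : ℝ) ≤ Q := by exact_mod_cast hQp.one_lt.le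
  set X : ℝ := ((Q : ℝ) ^ (n / 3)) ^ ((n : ℝ)⁻¹) with hX
  have hXpos : 0 < X := Real.rpow_pos_of_pos (by positivity) _
  have hXn : X ^ n = (Q : ℝ) ^ (n / 3) := Real.rpow_inv_natCast_pow (by positivity) hnn
  have hX4 : (Q : ℝ) ≤ X ^ 4 := by
    refine le_of_pow_le_pow_left₀ hnn (by positivity) ?_
    rw [← pow_mul, mul_comm 4 n, pow_mul, hXn, ← pow_mul]
    exact pow_le_pow_right₀ hQ0 (by omega)
  have hX3 : X ^ 3 ≤ Q := by
    refine le_of_pow_le_pow_left₀ hnn (by positivity) ?_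
    rw [← pow_mul, mul_comm 3 n, pow_mul, hXn, ← pow_mul]
    exact pow_le_pow_right₀ hQ0 (by omega)
  have hX₀pos : 0 ≤ X₀ := zero_le_one.trans (le_max_right _ _)
  have hXX : X₀ ≤ X := le_of_pow_le_pow_left₀ (by norm_num) hXpos.le (hQ1.trans hX4)
  have hX1 : 1 ≤ X := (le_max_right _ _).trans hXX
  have hXb : 8 * b ^ 2 ≤ X := ((le_max_left _ _).trans (le_max_left _ _)).trans hXX
  have hXl : 4 * a / l' ≤ X := ((le_max_right _ _).trans (le_max_left _ _)).trans hXX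
  set κ : ℝ := a / X with hκ
  have hκ0 : 0 < κ := by positivity
  set y : ℝ := l' * X / a with hy
  have hy4 : 4 ≤ y := by
    rw [hy, le_div_iff₀ ha0]; rw [div_le_iff₀ hl'0] at hXl; linarith
  have hfl : (⌊y / 2⌋₊ : ℝ) ≤ y / 2 := Nat.floor_le (by linarith)
  have hfl2 : y / 2 < ⌊y / 2⌋₊ + 1 := Nat.lt_floor_add_one _
  have hκy : κ * y = l' := by rw [hκ, hy]; field_simp
  have hH0 : ((2 * ⌊y / 2⌋₊ : ℕ) : ℝ) ≤ y := by push_cast; linarith
  have hH0' : y / 2 ≤ ((2 * ⌊y / 2⌋₊ : ℕ) : ℝ) := by push_cast; linarith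
  have hκH : κ * ((2 * ⌊y / 2⌋₊ : ℕ) : ℝ) ≤ l' := by
    rw [← hκy]; exact mul_le_mul_of_nonneg_left hH0 hκ0.le
  have hκn : κ ^ n * (Q : ℝ) ^ (n / 3) = D := by
    rw [← hXn, ← mul_pow, hκ, div_mul_cancel₀ _ hXpos.ne', han]
  refine ⟨Q, ⌈(R + l') / κ⌉₊ + 1, 2 * ⌊y / 2⌋₊, κ, hQp, hκ0, hκn, even_two_mul _, ?_, ?_,
    hκH.trans (min_le_left _ _), ?_, ?_, ?_, by linarith⟩
  · have h1 : ((⌈(R + l') / κ⌉₊ + 1 : ℕ) : ℝ) ≤ b * X := by
      have := Nat.ceil_lt_add_one (a := (R + l') / κ) (by positivity)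
      have e : (R + l') / κ = (R + l') / a * X := by rw [hκ]; field_simp
      push_cast
      rw [hb]; nlinarith
    have h2 : (8 : ℝ) * ((⌈(R + l') / κ⌉₊ + 1 : ℕ) : ℝ) ^ 2 ≤ Q := by
      calc (8 : ℝ) * ((⌈(R + l') / κ⌉₊ + 1 : ℕ) : ℝ) ^ 2 ≤ 8 * (b * X) ^ 2 := by gcongr
        _ = 8 * b ^ 2 * X ^ 2 := by ring
        _ ≤ X * X ^ 2 := by gcongr
        _ = X ^ 3 := by ring
        _ ≤ Q := hX3
    exact_mod_cast h2
  · have h2 : (256 : ℝ) * Q ≤ ((2 * ⌊y / 2⌋₊ : ℕ) : ℝ) ^ 8 := by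
      have e : (y / 2) ^ 8 * (2 * a / l') ^ 8 = (X ^ 4) ^ 2 := by
        rw [← mul_pow, hy]; field_simp
      have h3 : (Q : ℝ) ^ 2 ≤ (y / 2) ^ 8 * (2 * a / l') ^ 8 := by
        rw [e]; gcongr
      have h4 : 0 < (2 * a / l') ^ 8 := by positivity
      have h5 : (256 : ℝ) * Q ≤ (y / 2) ^ 8 := by
        refine le_of_mul_le_mul_right ?_ h4
        nlinarith
      exact h5.trans (pow_le_pow_left₀ (by linarith) hH0' 8)
    exact_mod_cast h2
  · have h2 : ((2 * ⌊y / 2⌋₊ : ℕ) : ℝ) ^ n ≤ (Q : ℝ) ^ (n / 3) := by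
      rw [← hXn]
      refine pow_le_pow_left₀ (by positivity) (hH0.trans ?_) n
      rw [hy, div_le_iff₀ ha0]
      have : l' ≤ a := min_le_right _ _
      nlinarith
    exact_mod_cast h2
  · have : (1 : ℝ) ≤ ((2 * ⌊y / 2⌋₊ : ℕ) : ℝ) := by linarith
    exact_mod_cast this
  · have h1 := Nat.le_ceil ((R + l') / κ)
    have h2 : ((2 * ⌊y / 2⌋₊ : ℕ) : ℝ) ≤ l' / κ := by
      rw [le_div_iff₀ hκ0]; linarith
    have e : (R + l') / κ = R / κ + l' / κ := add_div _ _ _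
    push_cast at h2 ⊢
    linarith

/-- From a bounded set of large volume select a union of integer blocks of prescribed size. -/
lemma sel {n : ℕ} {κ R N V : ℝ} {H H₀ : ℕ} (hκ : 0 < κ) (hH₀ : 1 ≤ H₀) (hH : R / κ + H₀ < H)
    (hN : (H₀ : ℝ) ^ n ≤ N) (Z : Set (Fin n → ℝ)) (hZ : ∀ z ∈ Z, ∀ l, |z l| ≤ R) (hV : 0 ≤ V)
    (hvol : V * (κ ^ n * N) ≤ volume.real Z) :
    ∃ C : Finset (Fin n → ℤ), V * N ≤ (blk H₀ C).card ∧ ((blk H₀ C).card : ℝ) ≤ (V + 1) * N ∧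
      ∀ x ∈ blk H₀ C, (∀ l, |x l| < H) ∧ ∃ z ∈ Z, ∀ l, |κ * x l - z l| ≤ κ * H₀ := by
  classical
  have hH0 : (0 : ℝ) < H₀ := by exact_mod_cast hH₀
  set s : ℝ := κ * H₀ with hs
  have hs0 : 0 < s := by positivity
  set M : ℤ := ⌈R / s⌉ + 1
  set Cu : Finset (Fin n → ℤ) := (Fintype.piFinset fun _ => Finset.Icc (-M) M).filter
    fun c => ∃ z ∈ Z, ∀ l, c l = ⌊z l / s⌋ with hCu
  have hcov : Z ⊆ ⋃ c ∈ Cu, Set.pi Set.univ fun l => Set.Ico (s * c l) (s * c l + s) := by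
    intro z hz
    simp only [Set.mem_iUnion]
    refine ⟨fun l => ⌊z l / s⌋, ?_, ?_⟩
    · simp only [hCu, mem_filter, Fintype.mem_piFinset, mem_Icc]
      refine ⟨fun l => ?_, z, hz, fun l => rfl⟩
      have h1 := abs_le.1 (hZ z hz l)
      have h2 : z l / s ≤ R / s := by gcongr; exact h1.2
      have h3 : -(R / s) ≤ z l / s := by rw [← neg_div]; gcongr; exact h1.1
      have h4 := Int.le_ceil (R / s)
      have h5 := Int.floor_le (z l / s)
      have h6 := Int.lt_floor_add_one (z l / s)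
      constructor
      · have : ((-M : ℤ) : ℝ) ≤ (⌊z l / s⌋ : ℤ) := by simp only [M]; push_cast; linarith
        exact_mod_cast this
      · have : ((⌊z l / s⌋ : ℤ) : ℝ) ≤ (M : ℤ) := by simp only [M]; push_cast; linarith
        exact_mod_cast this
    · intro l _
      have h5 := Int.floor_le (z l / s)
      have h6 := Int.lt_floor_add_one (z l / s)
      rw [le_div_iff₀ hs0] at h5
      rw [div_lt_iff₀ hs0] at h6
      constructor <;> linarith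
  have hvol2 : volume.real Z ≤ Cu.card * s ^ n := by
    have h1 : volume Z ≤ ∑ c ∈ Cu, volume (Set.pi Set.univ fun l =>
        Set.Ico (s * c l) (s * c l + s)) :=
      (measure_mono hcov).trans (measure_biUnion_finset_le _ _)
    have h2 : ∀ c : Fin n → ℤ, volume (Set.pi Set.univ fun l =>
        Set.Ico (s * c l) (s * c l + s)) = ENNReal.ofReal (s ^ n) := by
      intro c
      rw [Real.volume_pi_Ico]
      simp [ENNReal.ofReal_pow hs0.le]
    simp only [h2, sum_const, nsmul_eq_mul] at h1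
    have h3 := ENNReal.toReal_mono (ENNReal.mul_ne_top (by simp) ENNReal.ofReal_ne_top) h1
    rw [ENNReal.toReal_mul, ENNReal.toReal_ofReal (by positivity)] at h3
    simpa [Measure.real] using h3
  have hHn : (0 : ℝ) < (H₀ : ℝ) ^ n := by positivity
  have hN0 : 0 < N := hHn.trans_le hN
  have hle : V * N / (H₀ : ℝ) ^ n ≤ Cu.card := by
    rw [div_le_iff₀ hHn]
    have h1 : κ ^ n * (V * N) ≤ κ ^ n * (Cu.card * (H₀ : ℝ) ^ n) := by
      have := hvol.trans hvol2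
      rw [hs, mul_pow] at this
      nlinarith
    exact le_of_mul_le_mul_left h1 (by positivity)
  obtain ⟨C, hC1, hC2⟩ := Finset.exists_subset_card_eq (s := Cu) (Nat.ceil_le.2 hle)
  refine ⟨C, ?_, ?_, fun x hx => ?_⟩
  · rw [card_blk hH₀, hC2]; push_cast
    have := Nat.le_ceil (V * N / (H₀ : ℝ) ^ n)
    rwa [div_le_iff₀ hHn] at this
  · rw [card_blk hH₀, hC2]; push_cast
    have := Nat.ceil_lt_add_one (a := V * N / (H₀ : ℝ) ^ n) (by positivity)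
    have h2 : (⌈V * N / (H₀ : ℝ) ^ n⌉₊ : ℝ) * (H₀ : ℝ) ^ n ≤ (V * N / (H₀ : ℝ) ^ n + 1) * H₀ ^ n := by
      gcongr
    rw [add_mul, div_mul_cancel₀ _ hHn.ne'] at h2
    linarith
  · rw [mem_blk hH₀] at hx
    obtain ⟨-, z, hz, hzc⟩ := mem_filter.1 (hC1 hx)
    have key : ∀ l, |κ * x l - z l| ≤ κ * H₀ := by
      intro l
      have e := hzc l
      have hH' : (0 : ℤ) < H₀ := by exact_mod_cast hH₀
      have h1 : (H₀ : ℤ) * (x l / (H₀ : ℤ)) ≤ x l := Int.mul_ediv_self_le hH'.ne'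
      have h2 : x l < (H₀ : ℤ) * (x l / (H₀ : ℤ)) + H₀ := Int.lt_mul_ediv_self_add hH'
      simp only at e
      rw [e] at h1 h2
      have h1' : (H₀ : ℝ) * (⌊z l / s⌋ : ℤ) ≤ x l := by exact_mod_cast h1
      have h2' : (x l : ℝ) < (H₀ : ℝ) * (⌊z l / s⌋ : ℤ) + H₀ := by exact_mod_cast h2
      have h5 := Int.floor_le (z l / s)
      have h6 := Int.lt_floor_add_one (z l / s)
      rw [le_div_iff₀ hs0] at h5
      rw [div_lt_iff₀ hs0] at h6
      rw [hs] at h5 h6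
      rw [abs_le]
      constructor <;> nlinarith
    refine ⟨fun l => ?_, z, hz, key⟩
    have h1 := abs_le.1 (key l)
    have h2 := abs_le.1 (hZ z hz l)
    have h3 : R / κ * κ = R := div_mul_cancel₀ _ hκ.ne'
    have h4 : |(x l : ℝ)| < H := by
      rw [abs_lt]
      constructor
      · refine lt_of_mul_lt_mul_left ?_ hκ.le; nlinarith
      · refine lt_of_mul_lt_mul_left ?_ hκ.le; nlinarith
    exact_mod_cast h4

end Vale.Agent.P230.Up
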