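import Vale.Agent.P230.UpTrap

/-! A thin spherical shell carrying a constant fraction of an isotropic body. -/

namespace Vale.Agent.P230.Up

open Finset MeasureTheory ProbabilityTheory

lemma sh_lower {ν M s r : ℝ} (hν : 0 < ν) (hM : 10 ≤ M) (hs : 1 / 5 ≤ s) (h1 : s * ν ≤ r)
    (h2 : r ≤ (s + 1 / M) * ν) : 2 * gs 1 / M / s * Real.exp (-(30 / M)) ≤
      ∫ t, tz (s * ν) (ν / M) (ν / M ^ 2) (r * t) ∂(gaussianReal 0 1) := by
  have hM0 : 0 < M := by linarith
  have hs0 : 0 < s := by linarith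
  have hr : 0 < r := lt_of_lt_of_le (by positivity) h1
  have hg := gs_pos 1
  refine le_trans ?_ (tz_lower (m := gs 1 * Real.exp (-((1 + 1) * (10 / M)))) (by positivity)
    (div_le_div_of_nonneg_left hν.le hM0 (by nlinarith)) hr fun t ht =>
      gs_shift (by simp) ?_ (by rw [div_le_iff₀ hM0]; linarith))
  · have e1 := tr_one_sub (x := 1 / M) (by positivity) (by rw [div_le_iff₀ hM0]; linarith)
    have e2 : Real.exp (-(5 / M)) ≤ s * ν / r := by
      rw [Real.exp_neg, inv_le_comm₀ (Real.exp_pos _) (by positivity), inv_div,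
        div_le_iff₀ (by positivity)]
      have := Real.add_one_le_exp (5 / M)
      calc r ≤ (s + 1 / M) * ν := h2
        _ ≤ (5 / M + 1) * s * ν := by
          refine mul_le_mul_of_nonneg_right ?_ hν.le
          have : 1 / M ≤ 5 / M * s := by
            rw [div_mul_eq_mul_div]; exact div_le_div_of_nonneg_right (by linarith) hM0.le
          linarith
        _ ≤ _ := by rw [mul_assoc]; exact mul_le_mul_of_nonneg_right this (by positivity)
    have e3 : Real.exp (-(30 / M)) ≤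
        Real.exp (-(2 * (1 / M))) * Real.exp (-(5 / M)) * Real.exp (-((1 + 1) * (10 / M))) := by
      rw [← Real.exp_add, ← Real.exp_add, Real.exp_le_exp]
      have : 0 < 1 / M := by positivity
      have e : ∀ c : ℝ, c / M = c * (1 / M) := fun c => by ring
      rw [e 30, e 5, e 10]
      linarith
    calc _ ≤ 2 * gs 1 / M / s * ((1 - 1 / M) * (s * ν / r) * Real.exp (-((1 + 1) * (10 / M)))) :=
          mul_le_mul_of_nonneg_left (e3.trans (mul_le_mul_of_nonneg_right
            (mul_le_mul e1 e2 (Real.exp_pos _).le ((Real.exp_pos _).le.trans e1))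
            (Real.exp_pos _).le)) (by positivity)
      _ = _ := by field_simp
  · have e1 : |r * t - r| ≤ 2 * (ν / M) := by
      rw [abs_le] at ht ⊢
      have : (s + 1 / M) * ν = s * ν + ν / M := by ring
      have : 0 < ν / M := by positivity
      constructor <;> linarith [ht.1, ht.2]
    rw [← mul_sub_one, abs_mul, abs_of_pos hr] at e1
    refine le_of_mul_le_mul_left (e1.trans ?_) hr
    have : ν / 5 ≤ r := by nlinarith
    calc 2 * (ν / M) = ν / 5 * (10 / M) := by ring
      _ ≤ _ := mul_le_mul_of_nonneg_right this (by positivity)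

lemma sh_upper {ν M c r : ℝ} (hν : 0 < ν) (hM : 20 ≤ M) (hc : 1 / 5 ≤ c) (hr : 0 ≤ r) :
    ∫ t, tz (c * ν) (ν / M + ν / M ^ 2) (ν / M ^ 2) (r * t) ∂(gaussianReal 0 1) ≤
      2 * gs 1 / M / c * Real.exp (30 / M) := by
  have hM0 : 0 < M := by linarith
  have hg := gs_pos 1
  have hc0 : 0 < c := by linarith
  have e0 : ν / M ^ 2 ≤ ν / M := div_le_div_of_nonneg_left hν.le hM0 (by nlinarith)
  have e1 : 10 / M ≤ 1 / 2 := by rw [div_le_iff₀ hM0]; linarith
  have e2 : c * ν * (1 - 10 / M) ≤ c * ν - (ν / M + ν / M ^ 2) := by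
    have : 2 * (ν / M) ≤ c * ν * (10 / M) := by
      calc 2 * (ν / M) = 1 / 5 * ν * (10 / M) := by ring
        _ ≤ _ := by gcongr
    linarith
  have e3 : 0 < c * ν * (1 - 10 / M) := mul_pos (by positivity) (by linarith)
  refine (tz_upper (by positivity) (by positivity) (by linarith) hr).trans ?_
  have e4 := tr_one_sub (x := 10 / M) (by positivity) e1
  have e5 := Real.add_one_le_exp (1 / M)
  have e6 : Real.exp (1 / M) ≤ Real.exp (30 / M) * Real.exp (-(2 * (10 / M))) := by
    rw [← Real.exp_add, Real.exp_le_exp]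
    have : 0 < 1 / M := by positivity
    have e : ∀ c : ℝ, c / M = c * (1 / M) := fun c => by ring
    rw [e 30, e 10]
    linarith
  rw [div_le_iff₀ (by linarith)]
  calc _ = 2 * gs 1 / M * ν * (1 / M + 1) := by field_simp; ring
    _ ≤ 2 * gs 1 / M * ν * (Real.exp (30 / M) * (1 - 10 / M)) :=
        mul_le_mul_of_nonneg_left (e5.trans (e6.trans
          (mul_le_mul_of_nonneg_left e4 (Real.exp_pos _).le))) (by positivity)
    _ = 2 * gs 1 / M / c * Real.exp (30 / M) * (c * ν * (1 - 10 / M)) := by field_simp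
    _ ≤ _ := mul_le_mul_of_nonneg_left e2 (by positivity)

lemma sh_gs : 11 / 30 ≤ 2 * gs 1 := by
  have h1 := gs_zero_bounds.1
  have h2 := Real.add_one_le_exp (-1 ^ 2 / 2)
  rw [gs_eq]
  nlinarith

lemma sh_cond {M : ℕ} {ν : ℝ} (hM : 10 ^ 6 ≤ M) (hν : Real.exp ((M : ℝ) ^ 6 / 2) ≤ ν) :
    3 * (2 * M * (M ^ 2 / ν)) < ((2 * gs 1 / M / 11) ^ M * Real.exp (-30) / (200 * M)) ^ 2 := by
  have hM' : (10 : ℝ) ^ 6 ≤ M := by exact_mod_cast hM
  have hM0 : (0 : ℝ) < M := by linarith
  have hν0 := (Real.exp_pos _).trans_le hν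
  have h1 : Real.exp (-(30 * M)) ≤ 2 * gs 1 / M / 11 := by
    rw [Real.exp_neg, inv_le_comm₀ (Real.exp_pos _) (by have := gs_pos 1; positivity)]
    refine le_trans ?_ (tr_le_exp _).le
    rw [inv_le_comm₀ (by have := gs_pos 1; positivity) (by positivity), le_div_iff₀ (by norm_num),
      le_div_iff₀ hM0]
    refine le_trans (le_of_eq ?_) sh_gs
    field_simp
  have h2 := pow_le_pow_left₀ (Real.exp_pos _).le h1 M
  rw [← Real.exp_nat_mul] at h2
  refine lt_of_lt_of_le ?_ (pow_le_pow_left₀ (by positivity) (div_le_div_of_nonneg_right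
    (mul_le_mul_of_nonneg_right h2 (Real.exp_pos _).le) (by positivity)) 2)
  rw [← Real.exp_add, div_pow, ← Real.exp_nat_mul, lt_div_iff₀ (by positivity)]
  have h3 := tr_le_exp (240000 * (M : ℝ) ^ 5)
  calc _ = 240000 * (M : ℝ) ^ 5 / ν := by ring
    _ < Real.exp (240000 * (M : ℝ) ^ 5) / ν := div_lt_div_of_pos_right h3 hν0
    _ ≤ Real.exp (240000 * (M : ℝ) ^ 5) / Real.exp ((M : ℝ) ^ 6 / 2) :=
        div_le_div_of_nonneg_left (Real.exp_pos _).le (Real.exp_pos _) hν
    _ ≤ _ := by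
        rw [← Real.exp_sub, Real.exp_le_exp]
        have h4 : (1 : ℝ) ≤ M := by linarith
        have h5 : (M : ℝ) ^ 2 ≤ M ^ 5 := pow_le_pow_right₀ h4 (by norm_num)
        have h6 : (1 : ℝ) ≤ M ^ 5 := one_le_pow₀ h4
        have h7 : (10 : ℝ) ^ 6 * M ^ 5 ≤ M ^ 6 := by
          rw [pow_succ' (M : ℝ) 5]; exact mul_le_mul_of_nonneg_right hM' (by positivity)
        push_cast
        nlinarith

lemma sh_key {n M : ℕ} {K : Set (Sp n)} (hK : IsBody K) (hI : IsIso K) (hM : 10 ^ 6 ≤ M)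
    (hn : Real.exp ((M : ℝ) ^ 6) ≤ n) (s : Bool → ℝ) (hs : ∀ i, 1 / 5 ≤ s i ∧ s i ≤ 11)
    (hm : ∀ i, volume.real K / (100 * M) ≤
      volume.real (K ∩ {x | s i * √n ≤ ‖x‖ ∧ ‖x‖ ≤ (s i + 1 / M) * √n})) :
    (((s true + s false) / 2) ^ 2 / (s true * s false)) ^ M ≤
      4 * (200 * M) ^ 2 * Real.exp 120 := by
  have hν := tr_exp_sqrt (x := (M : ℝ) ^ 6 / 2) hn (by linarith)
  set ν := √(n : ℝ) with hνd
  have hν0 : 0 < ν := (Real.exp_pos _).trans_le hν
  have hM' : (10 : ℝ) ^ 6 ≤ M := by exact_mod_cast hM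
  have hM0 : (0 : ℝ) < M := by linarith
  have hV := iso_vol_pos hK
  have hg := gs_pos 1
  set c := (s true + s false) / 2 with hc
  have hc1 : 1 / 5 ≤ c := by linarith [(hs true).1, (hs false).1]
  have hc2 : c ≤ 11 := by linarith [(hs true).2, (hs false).2]
  set Λ := 2 * gs 1 / M with hΛ
  have hΛ0 : 0 < Λ := by positivity
  set δ := (Λ / 11) ^ M * Real.exp (-30) / (200 * M) with hδ
  have hb : 0 < ν / M ^ 2 := by positivity
  obtain ⟨g, hg⟩ := sudakov K hK hI (κ := Fin M) (Λ := Option Bool)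
    (fun o _ => o.elim (tz (c * ν) (ν / M + ν / M ^ 2) (ν / M ^ 2))
      fun i => tz (s i * ν) (ν / M) (ν / M ^ 2)) ⟨M ^ 2 / ν, by positivity⟩ δ (by positivity)
    (fun o _ t => by cases o <;> exact tz_nonneg _ _ _ _)
    (fun o _ t => by cases o <;> exact tz_le_one _ _ _ _)
    (fun o _ => by cases o <;> exact tz_lip _ _ hb (one_div_div _ _).le)
    (by
      simp only [Fintype.card_option, Fintype.card_bool, Fintype.card_fin]
      exact (by norm_num : ((2 + 1 : ℕ) : ℝ) = 3) ▸ sh_cond hM hν)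
  let Q : ℝ → Set (Sp n) := fun t => {x | ∀ i, |inner ℝ (g i) x - t * ν| ≤ ν / M}
  have hQ : ∀ t, MeasurableSet (Q t) := fun t => by
    simp only [Q, Set.ofPred_forall]
    exact MeasurableSet.iInter fun i => measurableSet_le (by fun_prop) measurable_const
  have hexp : ∀ a : ℝ, Real.exp (a / M) ^ M = Real.exp a := fun a => by
    rw [← Real.exp_nat_mul]; congr 1; field_simp
  have hδ' : ∀ t, 0 < t → t ≤ 11 → δ ≤ (Λ / t) ^ M * Real.exp (-30) / (200 * M) := fun t h0 h1 => by
    rw [hδ]; gcongr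
  have h1 : ∀ i, volume.real K * ((Λ / s i) ^ M * Real.exp (-30) / (200 * M)) ≤
      volume.real (K ∩ Q (s i)) := fun i => by
    have hs0 : 0 < s i := by linarith [(hs i).1]
    have e1 := (abs_le.mp (hg (some i))).1
    simp only [Option.elim_some, prod_const, card_univ, Fintype.card_fin] at e1
    have e2 := tr_le_vol hK (hQ (s i))
      (F := fun x => ∏ j, tz (s i * ν) (ν / M) (ν / M ^ 2) (inner ℝ (g j) x))
      (by have := tz_cont (s i * ν) (ν / M) (ν / M ^ 2); fun_prop)
      (fun x => prod_le_one (fun _ _ => tz_nonneg _ _ _ _) fun _ _ => tz_le_one _ _ _ _)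
      fun x hx => by
        simp only [Q, Set.mem_ofPred_eq, not_forall, not_le] at hx
        obtain ⟨j, hj⟩ := hx
        exact prod_eq_zero (mem_univ j) (tz_eq_zero hb hj.le)
    have e3 := tr_vol_le hK (S := {x | s i * ν ≤ ‖x‖ ∧ ‖x‖ ≤ (s i + 1 / M) * ν})
      ((measurableSet_le measurable_const measurable_norm).inter
        (measurableSet_le measurable_norm measurable_const))
      (F := fun x => (∫ t, tz (s i * ν) (ν / M) (ν / M ^ 2) (‖x‖ * t) ∂(gaussianReal 0 1)) ^ M)
      (((tz_int_cont _ _ _).comp continuous_norm).pow M)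
      (fun x => pow_nonneg (tz_int_nonneg _ _ _ _) M) (m := (Λ / s i) ^ M * Real.exp (-30))
      fun x hx => by
        have := pow_le_pow_left₀ (by positivity)
          (sh_lower hν0 (by linarith) (hs i).1 hx.1 hx.2) M
        rwa [mul_pow, ← neg_div, hexp] at this
    have e4 := mul_le_mul_of_nonneg_right (hm i)
      (show 0 ≤ (Λ / s i) ^ M * Real.exp (-30) by positivity)
    have e5 := mul_le_mul_of_nonneg_right (hδ' _ hs0 (hs i).2) hV.le
    have e6 : volume.real K / (100 * M) * ((Λ / s i) ^ M * Real.exp (-30)) =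
        2 * (volume.real K * ((Λ / s i) ^ M * Real.exp (-30) / (200 * M))) := by
      field_simp; ring
    linarith
  have h2 : volume.real (K ∩ Q c) ≤ 2 * volume.real K * ((Λ / c) ^ M * Real.exp 30) := by
    have e1 := (abs_le.mp (hg none)).2
    simp only [Option.elim_none, prod_const, card_univ, Fintype.card_fin] at e1
    have e2 := tr_vol_le hK (hQ c)
      (F := fun x => ∏ j, tz (c * ν) (ν / M + ν / M ^ 2) (ν / M ^ 2) (inner ℝ (g j) x))
      (by have := tz_cont (c * ν) (ν / M + ν / M ^ 2) (ν / M ^ 2); fun_prop)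
      (fun x => prod_nonneg fun _ _ => tz_nonneg _ _ _ _) (m := 1) fun x hx =>
        (prod_eq_one fun j _ => tz_eq_one hb (by rw [add_sub_cancel_right]; exact hx j)).ge
    have e3 : ∫ x in K, (∫ t, tz (c * ν) (ν / M + ν / M ^ 2) (ν / M ^ 2) (‖x‖ * t)
        ∂(gaussianReal 0 1)) ^ M ≤ ∫ x in K, (Λ / c) ^ M * Real.exp 30 :=
      integral_mono (iso_int hK (((tz_int_cont _ _ _).comp continuous_norm).pow M))
        (iso_int hK continuous_const) fun x => by
          have := pow_le_pow_left₀ (tz_int_nonneg _ _ _ _)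
            (sh_upper hν0 (by linarith : (20 : ℝ) ≤ M) hc1 (norm_nonneg x)) M
          rwa [mul_pow, hexp] at this
    simp only [integral_const, MeasurableSet.univ, measureReal_restrict_apply, Set.univ_inter,
      smul_eq_mul] at e3
    have e4 : δ ≤ (Λ / c) ^ M * Real.exp 30 := by
      refine (hδ' c (by linarith) hc2).trans ((div_le_self (by positivity) (by linarith)).trans ?_)
      gcongr
      norm_num
    have e5 := mul_le_mul_of_nonneg_right e4 hV.le
    linarith
  have h3 := iso_bm (hK.1.measurableSet.inter (hQ (s true))) (hK.1.measurableSet.inter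
    (hQ (s false))) (hK.1.measurableSet.inter (hQ c))
    ((measure_mono Set.inter_subset_left).trans_lt hK.1.measure_lt_top).ne 1 one_ne_zero
    fun x hx y hy => ⟨hK.2.1 hx.1 hy.1 (by positivity) (by positivity) (by norm_num), fun i => by
      have e1 := abs_le.mp (hx.2 i)
      have e2 := abs_le.mp (hy.2 i)
      rw [inner_add_right, real_inner_smul_right, real_inner_smul_right, abs_le, hc]
      push_cast
      constructor <;> linarith [e1.1, e1.2, e2.1, e2.2]⟩
  have ht : 0 < s true := by linarith [(hs true).1]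
  have hf : 0 < s false := by linarith [(hs false).1]
  have h4 := (mul_le_mul (h1 true) (h1 false) (by positivity) measureReal_nonneg).trans
    ((pow_one (volume.real (K ∩ Q (s true))) ▸ h3).trans
      (pow_le_pow_left₀ measureReal_nonneg h2 (1 + 1)))
  have h5 : Real.exp 120 = (Real.exp 30) ^ 4 := by rw [← Real.exp_nat_mul]; norm_num
  rw [Real.exp_neg] at h4
  have hE := Real.exp_pos 30
  have hc0 : 0 < c := by linarith
  rw [h5, div_pow, mul_pow, ← pow_mul, mul_comm 2 M, pow_mul]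
  simp only [div_pow] at h4
  have hΛM := pow_pos hΛ0 M
  have hcM := pow_pos hc0 M
  have htM := pow_pos ht M
  have hfM := pow_pos hf M
  generalize Λ ^ M = L at *
  generalize c ^ M = C at *
  generalize s true ^ M = A at *
  generalize s false ^ M = B at *
  generalize Real.exp 30 = E at *
  generalize volume.real K = V at *
  refine le_of_mul_le_mul_left (a := (V * L / (C * E * (200 * M))) ^ 2) ?_ (by positivity)
  calc _ = V * (L / A * E⁻¹ / (200 * M)) * (V * (L / B * E⁻¹ / (200 * M))) := by field_simp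
    _ ≤ (2 * V * (L / C * E)) ^ 2 := h4
    _ = _ := by field_simp; ring

lemma sh_num : ∃ k₀ : ℕ, 100 ≤ k₀ ∧ ∀ k : ℕ, k₀ ≤ k →
    4 * (200 * (k ^ 3 : ℕ) : ℝ) ^ 2 * Real.exp 120 < (1 + 1 / (48400 * k ^ 2)) ^ k ^ 3 := by
  have h := (tendsto_pow_const_div_const_pow_of_one_lt 6
    (show (1 : ℝ) < 1 + 1 / 48400 by norm_num)).eventually
    (gt_mem_nhds (show 0 < 1 / (160000 * Real.exp 120) by positivity))
  obtain ⟨k₀, hk⟩ := Filter.eventually_atTop.mp h
  refine ⟨max k₀ 100, le_max_right _ _, fun k hk' => ?_⟩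
  have h1 := hk k ((le_max_left _ _).trans hk')
  have h2 : (100 : ℝ) ≤ k := by exact_mod_cast (le_max_right _ _).trans hk'
  have h3 := one_add_mul_le_pow (a := (1 / (48400 * (k : ℝ) ^ 2) : ℝ))
    (le_trans (by norm_num) (show (0 : ℝ) ≤ _ by positivity)) (k ^ 2)
  have h4 : ((k ^ 2 : ℕ) : ℝ) * (1 / (48400 * (k : ℝ) ^ 2)) = 1 / 48400 := by
    push_cast; field_simp
  rw [h4] at h3
  rw [div_lt_div_iff₀ (by positivity) (by positivity), one_mul] at h1
  rw [pow_succ k 2, pow_mul]
  refine lt_of_lt_of_le (lt_of_eq_of_lt ?_ h1) (pow_le_pow_left₀ (by norm_num) h3 k)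
  push_cast
  ring

theorem shell : ∃ C k₀ : ℕ, ∀ (n k : ℕ) (K : Set (Sp n)), IsBody K → IsIso K → k₀ ≤ k →
    Real.exp ((k : ℝ) ^ C) ≤ n → ∃ σ : ℝ, √n / 5 ≤ σ ∧ σ ≤ 11 * √n ∧
      1 / 5 * volume.real K ≤ volume.real (K ∩ {x | σ ≤ ‖x‖ ∧ ‖x‖ ≤ σ * (1 + 1 / k)}) := by
  classical
  obtain ⟨k₀, hk₀, hnum⟩ := sh_num
  refine ⟨18, k₀, fun n k K hK hI hk hn => ?_⟩
  have hk1 : 100 ≤ k := hk₀.trans hk
  have hk2 : (100 : ℝ) ≤ k := by exact_mod_cast hk1
  have hn1 : 1 ≤ n := by
    have := (Real.exp_pos _).trans_le hn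
    exact Nat.one_le_iff_ne_zero.mpr fun h => by simp [h] at this
  have hν : 0 < √(n : ℝ) := Real.sqrt_pos.mpr (by exact_mod_cast hn1)
  have hV := iso_vol_pos hK
  have hnum' := hnum k hk
  have hM : 10 ^ 6 ≤ k ^ 3 := le_trans (by norm_num) (Nat.pow_le_pow_left hk1 3)
  have hMk : (10 : ℝ) * k ≤ (k ^ 3 : ℕ) := by push_cast; nlinarith
  have hn' : Real.exp (((k ^ 3 : ℕ) : ℝ) ^ 6) ≤ n := by
    push_cast; rwa [← pow_mul]
  generalize k ^ 3 = M at *
  have hM0 : (0 : ℝ) < M := by linarith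
  let W : ℕ → Set (Sp n) := fun j =>
    K ∩ {x | (1 / 5 + j / M) * √n ≤ ‖x‖ ∧ ‖x‖ ≤ (1 / 5 + j / M + 1 / M) * √n}
  have hfin : ∀ s : Set (Sp n), s ⊆ K → volume s ≠ ⊤ := fun s hs =>
    ((measure_mono hs).trans_lt hK.1.measure_lt_top).ne
  let H := (range (10 * M)).filter fun j => volume.real K / (100 * M) ≤ volume.real (W j)
  have hcov : ∀ S : Set (Sp n), S ⊆ K → (∀ j ∈ H, W j ⊆ S) →
      1 / 5 * volume.real K ≤ volume.real S := fun S hS h => by
    have h1 : K ∩ {x | √n / 5 ≤ ‖x‖ ∧ ‖x‖ ≤ 10 * √n} ⊆ S ∪ ⋃ j ∈ range (10 * M) \ H, W j := by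
      rintro x ⟨hx, h2, h3⟩
      set y := (‖x‖ / √n - 1 / 5) * M with hy
      have h4 : 1 / 5 ≤ ‖x‖ / √n := by rw [le_div_iff₀ hν]; linarith
      have h5 : ‖x‖ / √n ≤ 10 := by rwa [div_le_iff₀ hν]
      have hy0 : 0 ≤ y := mul_nonneg (by linarith) hM0.le
      have h6 : ⌊y⌋₊ < 10 * M := by
        rw [Nat.floor_lt hy0]; push_cast; nlinarith
      have h7 : x ∈ W ⌊y⌋₊ := by
        have e1 := Nat.floor_le hy0
        have e2 := (Nat.lt_floor_add_one y).le
        refine ⟨hx, ?_, ?_⟩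
        · rw [← le_div_iff₀ hν, ← le_sub_iff_add_le', div_le_iff₀ hM0]; exact e1
        · rw [← div_le_iff₀ hν, add_assoc, ← add_div, ← sub_le_iff_le_add', le_div_iff₀ hM0]
          exact e2
      by_cases h8 : ⌊y⌋₊ ∈ H
      · exact Or.inl (h _ h8 h7)
      · exact Or.inr (Set.mem_iUnion₂.mpr ⟨_, mem_sdiff.mpr ⟨mem_range.mpr h6, h8⟩, h7⟩)
    have h2 := (borell hn1 K hK hI).trans ((measureReal_mono h1 (hfin _ (Set.union_subset hS
      (Set.iUnion₂_subset fun _ _ => Set.inter_subset_left)))).trans (measureReal_union_le _ _))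
    have h3 := (measureReal_biUnion_finset_le (μ := volume) (range (10 * M) \ H) W).trans
      (sum_le_card_nsmul _ _ (volume.real K / (100 * M)) fun j hj => by
        have := mem_sdiff.mp hj
        simp only [H, mem_filter, not_and, not_le] at this
        exact (this.2 this.1).le)
    have h4 : ((range (10 * M) \ H).card : ℝ) ≤ 10 * M := by
      exact_mod_cast (card_le_card sdiff_subset).trans_eq (card_range _)
    rw [nsmul_eq_mul] at h3
    have h5 := mul_le_mul_of_nonneg_right h4 (show 0 ≤ volume.real K / (100 * M) by positivity)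
    have h6 : 10 * M * (volume.real K / (100 * M)) = volume.real K / 10 := by field_simp; ring
    linarith
  have hne : H.Nonempty := by
    by_contra h
    have := hcov ∅ (Set.empty_subset _) fun j hj => absurd ⟨j, hj⟩ h
    rw [measureReal_empty] at this
    linarith
  have hb : ∀ j ∈ H, (1 : ℝ) / 5 ≤ 1 / 5 + j / M ∧ (1 : ℝ) / 5 + j / M ≤ 11 := fun j hj => by
    have h1 : (j : ℝ) ≤ 10 * M := by exact_mod_cast (mem_range.mp (mem_filter.mp hj).1).le
    have h2 : (j : ℝ) / M ≤ 10 := by rwa [div_le_iff₀ hM0]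
    have : (0 : ℝ) ≤ j / M := by positivity
    constructor <;> linarith
  have h1 := H.min'_mem hne
  have h2 := H.max'_mem hne
  have hMk' : (1 : ℝ) / M ≤ 1 / (10 * k) := one_div_le_one_div_of_le (by positivity) hMk
  by_cases h3 : (H.max' hne : ℝ) / M - H.min' hne / M ≤ 1 / (10 * k)
  · refine ⟨(1 / 5 + H.min' hne / M) * √n, by nlinarith [(hb _ h1).1],
      mul_le_mul_of_nonneg_right (hb _ h1).2 hν.le, hcov _ Set.inter_subset_left ?_⟩
    rintro j hj x ⟨hx, h4, h5⟩
    have e1 : (H.min' hne : ℝ) / M ≤ j / M :=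
      div_le_div_of_nonneg_right (by exact_mod_cast H.min'_le j hj) hM0.le
    have e2 : (j : ℝ) / M ≤ H.max' hne / M :=
      div_le_div_of_nonneg_right (by exact_mod_cast H.le_max' j hj) hM0.le
    refine ⟨hx, le_trans (mul_le_mul_of_nonneg_right (by linarith) hν.le) h4, h5.trans ?_⟩
    rw [mul_right_comm]
    refine mul_le_mul_of_nonneg_right ?_ hν.le
    have e3 := mul_le_mul_of_nonneg_right (hb _ h1).1 (show (0 : ℝ) ≤ 1 / k by positivity)
    have e4 : (1 : ℝ) / 5 * (1 / k) = 2 * (1 / (10 * k)) := by field_simp; ring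
    linarith
  · exfalso
    have h4 := sh_key hK hI hM hn' (fun b => 1 / 5 + (cond b (H.max' hne) (H.min' hne) : ℕ) / M)
      (fun b => by cases b; exacts [hb _ h1, hb _ h2])
      fun b => by cases b; exacts [(mem_filter.mp h1).2, (mem_filter.mp h2).2]
    simp only [cond_true, cond_false] at h4
    refine absurd (hnum'.trans_le (pow_le_pow_left₀ (by positivity) ?_ M)) (not_lt.mpr h4)
    obtain ⟨a1, a2⟩ := hb _ h1
    obtain ⟨b1, b2⟩ := hb _ h2
    have h5 : 1 / (10 * (k : ℝ)) ≤ 1 / 5 + H.max' hne / M - (1 / 5 + H.min' hne / M) := by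
      linarith [not_le.mp h3]
    generalize (1 : ℝ) / 5 + H.max' hne / M = s at *
    generalize (1 : ℝ) / 5 + H.min' hne / M = t at *
    have h6 := pow_le_pow_left₀ (by positivity) h5 2
    have h7 : s * t ≤ 121 := by nlinarith
    have h8 : 1 / (48400 * (k : ℝ) ^ 2) * 121 = (1 / (10 * (k : ℝ))) ^ 2 / 4 := by
      field_simp; ring
    have h9 := mul_le_mul_of_nonneg_left h7 (show 0 ≤ 1 / (48400 * (k : ℝ) ^ 2) by positivity)
    rw [le_div_iff₀ (mul_pos (by linarith) (by linarith))]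
    nlinarith

end Vale.Agent.P230.Up
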