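import Vale.Agent.P230.UpDefs

/-! Averaging over random columns. -/

namespace Vale.Agent.P230.Up

open Finset

section
variable {ι F V : Type*} [Fintype ι] [DecidableEq ι] [Field F] [AddCommGroup V] [Module F V]

lemma exists_dual_vec {W : Submodule F (ι → F)} {v : ι → F} (hv : v ∉ W) :
    ∃ z : ι → F, ∑ i, v i * z i = 1 ∧ ∀ w ∈ W, ∑ i, w i * z i = 0 := by
  obtain ⟨f, hf1, hf2⟩ := Submodule.exists_dual_map_eq_bot_of_notMem hv inferInstance
  have key : ∀ w : ι → F, f w = ∑ i, w i * f (Pi.single i 1) := by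
    intro w
    conv_lhs => rw [pi_eq_sum_univ' w]
    simp [map_sum]
  refine ⟨fun i => (f v)⁻¹ * f (Pi.single i 1), ?_, fun w hw => ?_⟩
  · have : ∑ i, v i * ((f v)⁻¹ * f (Pi.single i 1)) = (f v)⁻¹ * f v := by
      rw [key v, mul_sum]; refine sum_congr rfl fun i _ => by rw [← key v]; ring
    rw [this, inv_mul_cancel₀ hf1]
  · have h0 : f w = 0 := by
      have : f w ∈ W.map f := Submodule.mem_map_of_mem hw
      rw [hf2] at this; simpa using this
    have : ∑ i, w i * ((f v)⁻¹ * f (Pi.single i 1)) = (f v)⁻¹ * f w := by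
      rw [key w, mul_sum]; refine sum_congr rfl fun i _ => by ring
    rw [this, h0, mul_zero]

omit [DecidableEq ι] in
lemma pr_outer (v z : ι → F) (t : V) : pr v (fun i => z i • t) = (∑ i, v i * z i) • t := by
  simp [pr, sum_smul, mul_smul]

/-- If `v` is outside the subspace `W` and `Φ` only depends on the combinations with
coefficients in `W`, then `pr v A` is uniform and independent of `Φ A`. -/
theorem shift_indep [Fintype V] {W : Submodule F (ι → F)} {v : ι → F} (hv : v ∉ W)
    (Φ : (ι → V) → ℝ) (hΦ : ∀ A A' : ι → V, (∀ w ∈ W, pr w A = pr w A') → Φ A = Φ A')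
    (g : V → ℝ) :
    (∑ A : ι → V, Φ A * g (pr v A)) * Fintype.card V = (∑ A : ι → V, Φ A) * ∑ t, g t := by
  obtain ⟨z, hz1, hz2⟩ := exists_dual_vec hv
  have h1 : ∀ t : V, ∑ A : ι → V, Φ A * g (pr v A) = ∑ A : ι → V, Φ A * g (pr v A + t) := by
    intro t
    rw [← Equiv.sum_comp (Equiv.addRight (fun i => z i • t))]
    refine sum_congr rfl fun A _ => ?_
    simp only [Equiv.coe_addRight]
    rw [pr_add, pr_outer, hz1, one_smul, hΦ (A + fun i => z i • t) A]
    intro w hw
    rw [pr_add, pr_outer, hz2 w hw, zero_smul, add_zero]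
  calc (∑ A : ι → V, Φ A * g (pr v A)) * Fintype.card V
      = ∑ t : V, ∑ A : ι → V, Φ A * g (pr v A + t) := by
        rw [sum_congr rfl fun t _ => (h1 t).symm]; simp [mul_comm]
    _ = ∑ A : ι → V, Φ A * ∑ t, g t := by
        rw [sum_comm]
        refine sum_congr rfl fun A _ => ?_
        rw [← mul_sum]
        congr 1
        exact Equiv.sum_comp (Equiv.addLeft (pr v A)) g
    _ = _ := by rw [sum_mul]

/-- A nonzero combination of uniform columns is uniform. -/
theorem shift_unif [Fintype V] {v : ι → F} (hv : v ≠ 0) (g : V → ℝ) :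
    (∑ A : ι → V, g (pr v A)) * Fintype.card V = Fintype.card (ι → V) * ∑ t, g t := by
  have := shift_indep (W := ⊥) (v := v) (by simpa using hv) (fun _ : ι → V => (1 : ℝ))
    (fun _ _ _ => rfl) g
  simpa using this

end

end Vale.Agent.P230.Up
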