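import Vale.Agent.P230.UpIso

/-! Concentration of random Gaussian marginals of an isotropic body. -/

namespace Vale.Agent.P230.Up

open Finset MeasureTheory ProbabilityTheory

section One

variable {E : Type*} [NormedAddCommGroup E] [InnerProductSpace ℝ E] [FiniteDimensional ℝ E]
  [MeasurableSpace E] [BorelSpace E]

lemma sud_map (x : E) : (stdGaussian E).map (fun g => inner ℝ g x) =
    (gaussianReal 0 1).map (fun t => ‖x‖ * t) := by
  have h1 : (fun g : E => inner ℝ g x) = innerSL ℝ x := by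
    ext g; simp [real_inner_comm]
  rw [h1, IsGaussian.map_eq_gaussianReal, gaussianReal_map_const_mul,
    integral_strongDual_stdGaussian, variance_dual_stdGaussian, innerSL_apply_norm]
  congr 1
  · simp
  · ext; simp

lemma sud_int (x : E) {f : ℝ → ℝ} (hf : Continuous f) :
    ∫ g, f (inner ℝ g x) ∂(stdGaussian E) = ∫ t, f (‖x‖ * t) ∂(gaussianReal 0 1) := by
  rw [← integral_map (φ := fun g : E => inner ℝ g x) (by fun_prop) hf.aestronglyMeasurable,
    sud_map, integral_map (by fun_prop) hf.aestronglyMeasurable]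

lemma sud_abs (x : E) : ∫ g, |inner ℝ g x| ∂(stdGaussian E) ≤ ‖x‖ := by
  rw [sud_int x continuous_abs]
  simp only [abs_mul, abs_norm, integral_const_mul]
  refine mul_le_of_le_one_right (norm_nonneg _) ?_
  have h1 : Integrable (fun t : ℝ => t ^ 2) (gaussianReal 0 1) :=
    (memLp_two_iff_integrable_sq (by fun_prop)).mp (memLp_id_gaussianReal 2)
  have h2 : ∫ t : ℝ, t ^ 2 ∂(gaussianReal 0 1) = 1 := by
    have := variance_id_gaussianReal (μ := 0) (v := 1)
    rw [variance_eq_integral (by fun_prop)] at this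
    simpa using this
  calc ∫ t : ℝ, |t| ∂(gaussianReal 0 1) ≤ ∫ t : ℝ, (1 + t ^ 2) / 2 ∂(gaussianReal 0 1) := by
        refine integral_mono ((memLp_id_gaussianReal 1).integrable le_rfl).abs
          (((integrable_const _).add h1).div_const _) fun t => ?_
        have := sq_nonneg (|t| - 1)
        have := sq_abs t
        show |t| ≤ (1 + t ^ 2) / 2
        nlinarith
    _ = 1 := by rw [integral_div, integral_add (integrable_const _) h1, h2]; simp

lemma sud_indep {x y : E} (h : inner ℝ x y = 0) :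
    IndepFun (fun g : E => inner ℝ g x) (fun g => inner ℝ g y) (stdGaussian E) := by
  refine HasGaussianLaw.indepFun_of_covariance_eq_zero ?_ ?_
  · have := (IsGaussian.hasGaussianLaw_id (μ := stdGaussian E)).map_fun
      ((innerSL ℝ x).prod (innerSL ℝ y))
    simpa [real_inner_comm] using this
  · have := covarianceBilin_apply_eq_cov (μ := stdGaussian E) IsGaussian.memLp_two_id x y
    rw [covarianceBilin_stdGaussian] at this
    simp only [real_inner_comm _ x, real_inner_comm _ y] at this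
    exact this.symm.trans h

lemma sud_cov {f : ℝ → ℝ} {L : NNReal} (h0 : ∀ t, 0 ≤ f t) (h1 : ∀ t, f t ≤ 1)
    (hL : LipschitzWith L f) (x y : E) :
    |∫ g, f (inner ℝ g x) * f (inner ℝ g y) ∂(stdGaussian E) -
      (∫ g, f (inner ℝ g x) ∂(stdGaussian E)) * ∫ g, f (inner ℝ g y) ∂(stdGaussian E)| ≤
      2 * L * |inner ℝ y (‖x‖⁻¹ • x)| := by
  have hf := hL.continuous
  rcases eq_or_ne x 0 with rfl | hx
  · simp [integral_const_mul]
  set c : ℝ := inner ℝ x y / ‖x‖ ^ 2 with hc
  have hx' : ‖x‖ ≠ 0 := norm_ne_zero_iff.mpr hx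
  have h2 : inner ℝ x (y - c • x) = 0 := by
    rw [inner_sub_right, real_inner_smul_right, real_inner_self_eq_norm_sq, hc]
    field_simp
    ring
  have hb : ∀ {F : E → ℝ}, Continuous F → (∀ g, |F g| ≤ 1) → Integrable F (stdGaussian E) :=
    fun hF h => Integrable.of_bound hF.aestronglyMeasurable 1 (Filter.Eventually.of_forall h)
  have ha : ∀ t, |f t| ≤ 1 := fun t => abs_le.mpr ⟨by linarith [h0 t], h1 t⟩
  have hm : ∀ s t, |f s * f t| ≤ 1 := fun s t => by
    rw [abs_mul]; exact mul_le_one₀ (ha s) (abs_nonneg _) (ha t)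
  have h3 := ((sud_indep h2).comp hf.measurable hf.measurable).integral_fun_mul_eq_mul_integral
    (by fun_prop) (by fun_prop)
  simp only [Function.comp_apply] at h3
  have h4 : ∀ g : E, |f (inner ℝ g y) - f (inner ℝ g (y - c • x))| ≤ L * |c| * |inner ℝ g x| :=
    fun g => by
      have := hL.dist_le_mul (inner ℝ g y) (inner ℝ g (y - c • x))
      rwa [Real.dist_eq, Real.dist_eq, inner_sub_right, sub_sub_cancel, real_inner_smul_right,
        abs_mul, ← mul_assoc, ← real_inner_smul_right, ← inner_sub_right] at this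
  have hi : Integrable (fun g : E => L * |c| * |inner ℝ g x|) (stdGaussian E) :=
    ((IsGaussian.integrable_id.inner_const x).abs).const_mul _
  have h5 : ∫ g : E, L * |c| * |inner ℝ g x| ∂(stdGaussian E) ≤ L * |inner ℝ y (‖x‖⁻¹ • x)| := by
    rw [integral_const_mul, real_inner_smul_right, real_inner_comm x y]
    refine (mul_le_mul_of_nonneg_left (sud_abs x) (by positivity)).trans_eq ?_
    rw [hc, abs_div, abs_mul, abs_inv, abs_norm, abs_of_nonneg (sq_nonneg ‖x‖)]
    field_simp
  have h6 : |∫ g, f (inner ℝ g x) * f (inner ℝ g y) ∂(stdGaussian E) -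
      ∫ g, f (inner ℝ g x) * f (inner ℝ g (y - c • x)) ∂(stdGaussian E)| ≤
      L * |inner ℝ y (‖x‖⁻¹ • x)| := by
    rw [← integral_sub (hb (by fun_prop) fun _ => hm _ _) (hb (by fun_prop) fun _ => hm _ _)]
    refine (abs_integral_le_integral_abs.trans (integral_mono_of_nonneg
      (Filter.Eventually.of_forall fun _ => abs_nonneg _) hi
      (Filter.Eventually.of_forall fun g => ?_))).trans h5
    show |_| ≤ _
    rw [← mul_sub, abs_mul]
    exact (mul_le_of_le_one_left (abs_nonneg _) (ha _)).trans (h4 g)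
  have h7 : |∫ g, f (inner ℝ g y) ∂(stdGaussian E) -
      ∫ g, f (inner ℝ g (y - c • x)) ∂(stdGaussian E)| ≤ L * |inner ℝ y (‖x‖⁻¹ • x)| := by
    rw [← integral_sub (hb (by fun_prop) fun _ => ha _) (hb (by fun_prop) fun _ => ha _)]
    exact (abs_integral_le_integral_abs.trans (integral_mono_of_nonneg
      (Filter.Eventually.of_forall fun _ => abs_nonneg _) hi
      (Filter.Eventually.of_forall h4))).trans h5
  have h8 : |∫ g, f (inner ℝ g x) ∂(stdGaussian E)| ≤ 1 := by
    simpa using norm_integral_le_of_norm_le_const (μ := stdGaussian E)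
      (f := fun g => f (inner ℝ g x)) (C := 1) (Filter.Eventually.of_forall fun _ => ha _)
  have h9 := (abs_mul _ _).trans_le ((mul_le_of_le_one_left (abs_nonneg _) h8).trans h7)
  rw [mul_sub, ← h3] at h9
  rw [abs_le] at h6 h9 ⊢
  constructor <;> linarith [h6.1, h6.2, h9.1, h9.2]

end One

lemma sud_prod {κ : Type*} (s : Finset κ) {a b : κ → ℝ} (ha : ∀ i, |a i| ≤ 1)
    (hb : ∀ i, |b i| ≤ 1) : |∏ i ∈ s, a i - ∏ i ∈ s, b i| ≤ ∑ i ∈ s, |a i - b i| := by
  classical
  induction s using Finset.induction_on with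
  | empty => simp
  | insert j s hj ih =>
    rw [prod_insert hj, prod_insert hj, sum_insert hj]
    have h1 : |∏ i ∈ s, b i| ≤ 1 := by
      rw [abs_prod]; exact prod_le_one (fun _ _ => abs_nonneg _) fun i _ => hb i
    calc _ = |a j * (∏ i ∈ s, a i - ∏ i ∈ s, b i) + (a j - b j) * ∏ i ∈ s, b i| := by
          congr 1; ring
      _ ≤ _ := abs_add_le _ _
      _ ≤ _ := by
          rw [abs_mul, abs_mul, add_comm]
          exact add_le_add (mul_le_of_le_one_right (abs_nonneg _) h1)
            ((mul_le_of_le_one_left (abs_nonneg _) (ha j)).trans ih)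

lemma sud_var {Ω X : Type*} [MeasurableSpace Ω] [MeasurableSpace X] (P : Measure Ω)
    [IsProbabilityMeasure P] (μ : Measure X) [IsFiniteMeasure μ] {H : Ω → X → ℝ}
    (hm : Measurable (Function.uncurry H)) (hb : ∀ ω x, |H ω x| ≤ 1) {B : ℝ} {G : X → X → ℝ}
    (hG : ∀ x y, ∫ ω, H ω x * H ω y ∂P ≤ G x y) (hGi : ∀ x, Integrable (G x) μ)
    (hB : ∀ x, ∫ y, G x y ∂μ ≤ B) :
    ∫ ω, (∫ x, H ω x ∂μ) ^ 2 ∂P ≤ μ.real Set.univ * B := by
  have hm2 : Measurable fun p : Ω × X × X => H p.1 p.2.1 * H p.1 p.2.2 :=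
    (hm.comp (f := fun p : Ω × X × X => (p.1, p.2.1)) (by fun_prop)).mul
      (hm.comp (f := fun p : Ω × X × X => (p.1, p.2.2)) (by fun_prop))
  have hb2 : ∀ ω x y, |H ω x * H ω y| ≤ 1 := fun ω x y => by
    rw [abs_mul]; exact mul_le_one₀ (hb _ _) (abs_nonneg _) (hb _ _)
  have hi : Integrable (fun p : Ω × X × X => H p.1 p.2.1 * H p.1 p.2.2) (P.prod (μ.prod μ)) :=
    Integrable.of_bound hm2.aestronglyMeasurable 1
      (Filter.Eventually.of_forall fun p => hb2 _ _ _)
  simp only [sq, ← integral_prod_mul]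
  rw [integral_integral_swap (f := fun ω (z : X × X) => H ω z.1 * H ω z.2) hi,
    integral_prod _ hi.integral_prod_right, ← smul_eq_mul, ← integral_const]
  refine integral_mono_ae hi.integral_prod_right.integral_prod_left (integrable_const _) ?_
  filter_upwards [hi.integral_prod_right.prod_right_ae] with x hx
  exact (integral_mono hx (hGi x) (hG x)).trans (hB x)

lemma sud_iso {n : ℕ} {K : Set (Sp n)} (hK : IsBody K) (hI : IsIso K) {u : Sp n}
    (hu : ‖u‖ ≤ 1) : ∫ y in K, |inner ℝ y u| ≤ volume.real K := by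
  have hV := iso_vol_pos hK
  calc _ ≤ ∫ y in K, (1 + inner ℝ y u ^ 2) / 2 := by
        refine integral_mono (iso_int hK (by fun_prop)) (iso_int hK (by fun_prop)) fun y => ?_
        have := sq_nonneg (|inner ℝ y u| - 1)
        have := sq_abs (inner ℝ y u)
        show |inner ℝ y u| ≤ (1 + inner ℝ y u ^ 2) / 2
        nlinarith
    _ ≤ _ := by
        rw [integral_div, integral_add (iso_int hK (by fun_prop)) (iso_int hK (by fun_prop)), hI]
        have : ‖u‖ ^ 2 ≤ 1 := pow_le_one₀ (norm_nonneg _) hu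
        simp only [integral_const, MeasurableSet.univ, measureReal_restrict_apply, Set.univ_inter,
          smul_eq_mul, mul_one]
        nlinarith

lemma sud_one {n : ℕ} {K : Set (Sp n)} (hK : IsBody K) (hI : IsIso K) {κ : Type*} [Fintype κ]
    {f : κ → ℝ → ℝ} {L : NNReal} (hf0 : ∀ i t, 0 ≤ f i t) (hf1 : ∀ i t, f i t ≤ 1)
    (hL : ∀ i, LipschitzWith L (f i)) :
    let F := fun g : κ → Sp n => ((∫ x in K, ∏ i, f i (inner ℝ (g i) x)) -
      ∫ x in K, ∏ i, ∫ t, f i (‖x‖ * t) ∂(gaussianReal 0 1)) ^ 2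
    Integrable F (Measure.pi fun _ => stdGaussian (Sp n)) ∧
      ∫ g, F g ∂(Measure.pi fun _ => stdGaussian (Sp n)) ≤
        2 * Fintype.card κ * L * volume.real K ^ 2 := by
  intro F
  have : IsFiniteMeasure (volume.restrict K) := isFiniteMeasure_restrict.mpr
    hK.1.measure_lt_top.ne
  have hc : ∀ i, Continuous (f i) := fun i => (hL i).continuous
  have ha : ∀ i t, |f i t| ≤ 1 := fun i t => abs_le.mpr ⟨by linarith [hf0 i t], hf1 i t⟩
  let φ : κ → Sp n → ℝ := fun i x => ∫ g, f i (inner ℝ g x) ∂(stdGaussian (Sp n))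
  have hφ0 : ∀ i x, 0 ≤ φ i x := fun i x => integral_nonneg fun _ => hf0 _ _
  have hφ1 : ∀ i x, |φ i x| ≤ 1 := fun i x => by
    simpa using norm_integral_le_of_norm_le_const (μ := stdGaussian (Sp n))
      (f := fun g => f i (inner ℝ g x)) (C := 1) (Filter.Eventually.of_forall fun _ => ha _ _)
  have hφm : ∀ i, Measurable (φ i) := fun i =>
    (StronglyMeasurable.integral_prod_left (f := fun g x : Sp n => f i (inner ℝ g x))
      (Continuous.stronglyMeasurable (by have := hc i; fun_prop))).measurable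
  let H : (κ → Sp n) → Sp n → ℝ := fun g x => ∏ i, f i (inner ℝ (g i) x) - ∏ i, φ i x
  have hP : Continuous fun p : (κ → Sp n) × Sp n => ∏ i, f i (inner ℝ (p.1 i) p.2) := by
    fun_prop
  have hP1 : ∀ (g : κ → Sp n) x, |∏ i, f i (inner ℝ (g i) x)| ≤ 1 := fun g x => by
    rw [abs_prod]; exact prod_le_one (fun _ _ => abs_nonneg _) fun i _ => ha _ _
  have hΦ1 : ∀ x, |∏ i, φ i x| ≤ 1 := fun x => by
    rw [abs_prod]; exact prod_le_one (fun _ _ => abs_nonneg _) fun i _ => hφ1 _ _
  have hHm : Measurable (Function.uncurry H) :=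
    hP.measurable.sub (Finset.measurable_prod _ fun i _ => (hφm i).comp measurable_snd)
  have hHb : ∀ g x, |H g x| ≤ 1 := fun g x => by
    have h1 : 0 ≤ ∏ i, f i (inner ℝ (g i) x) := prod_nonneg fun i _ => hf0 _ _
    have h2 : 0 ≤ ∏ i, φ i x := prod_nonneg fun i _ => hφ0 _ _
    have h3 := (abs_le.mp (hP1 g x)).2
    have h4 := (abs_le.mp (hΦ1 x)).2
    exact abs_le.mpr ⟨by simp only [H]; linarith, by simp only [H]; linarith⟩
  have hF : F = fun g => (∫ x in K, H g x) ^ 2 := by
    ext g
    simp only [F, H, φ, sud_int _ (hc _)]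
    rw [integral_sub (iso_int hK (by fun_prop))]
    simp only [← sud_int _ (hc _)]
    exact Integrable.of_bound (Finset.measurable_prod _ fun i _ => hφm i).aestronglyMeasurable 1
      (Filter.Eventually.of_forall hΦ1)
  rw [hF]
  constructor
  · refine Integrable.of_bound ((hHm.stronglyMeasurable.integral_prod_right).pow 2
      ).aestronglyMeasurable (((volume.restrict K).real Set.univ) ^ 2)
      (Filter.Eventually.of_forall fun g => ?_)
    rw [norm_pow]
    refine pow_le_pow_left₀ (norm_nonneg _) ?_ 2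
    simpa using norm_integral_le_of_norm_le_const (μ := volume.restrict K)
      (f := H g) (C := 1) (Filter.Eventually.of_forall fun _ => hHb _ _)
  refine (sud_var _ _ hHm hHb (B := 2 * Fintype.card κ * L * volume.real K)
    (G := fun x y => 2 * Fintype.card κ * L * |inner ℝ y (‖x‖⁻¹ • x)|) (fun x y => ?_)
    (fun x => iso_int hK (by fun_prop)) fun x => ?_).trans_eq (by simp; ring)
  · have hb : ∀ {G : (κ → Sp n) → ℝ}, Continuous G → (∀ g, |G g| ≤ 1) →
        Integrable G (Measure.pi fun _ => stdGaussian (Sp n)) :=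
      fun hG h => Integrable.of_bound hG.aestronglyMeasurable 1 (Filter.Eventually.of_forall h)
    have h1 : ∀ x, Integrable (fun g : κ → Sp n => ∏ i, f i (inner ℝ (g i) x))
        (Measure.pi fun _ => stdGaussian (Sp n)) := fun x => hb (by fun_prop) fun g => hP1 g x
    have h2 : ∀ x, ∫ g : κ → Sp n, ∏ i, f i (inner ℝ (g i) x)
        ∂(Measure.pi fun _ => stdGaussian (Sp n)) = ∏ i, φ i x := fun x =>
      integral_fintype_prod_eq_prod (f := fun i g => f i (inner ℝ g x))
    have h3 := integral_fintype_prod_eq_prod (μ := fun _ : κ => stdGaussian (Sp n))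
      (f := fun i g => f i (inner ℝ g x) * f i (inner ℝ g y))
    have h4 : Integrable (fun g : κ → Sp n => ∏ i, f i (inner ℝ (g i) x) * f i (inner ℝ (g i) y))
        (Measure.pi fun _ => stdGaussian (Sp n)) := hb (by fun_prop) fun g => by
      rw [prod_mul_distrib, abs_mul]
      exact mul_le_one₀ (hP1 _ _) (abs_nonneg _) (hP1 _ _)
    have h5 : ∀ g, H g x * H g y = ∏ i, f i (inner ℝ (g i) x) * f i (inner ℝ (g i) y) -
        (∏ i, φ i y) * ∏ i, f i (inner ℝ (g i) x) - (∏ i, φ i x) * ∏ i, f i (inner ℝ (g i) y) +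
        (∏ i, φ i x) * ∏ i, φ i y := fun g => by
      rw [prod_mul_distrib]; simp only [H]; ring
    simp only [h5]
    rw [integral_add (by exact (h4.sub ((h1 x).const_mul _)).sub ((h1 y).const_mul _))
      (integrable_const _), integral_sub (by exact h4.sub ((h1 x).const_mul _))
      ((h1 y).const_mul _),
      integral_sub h4 ((h1 x).const_mul _), integral_const_mul, integral_const_mul, h2, h2, h3]
    have h6 := sud_prod univ
      (a := fun i => ∫ g, f i (inner ℝ g x) * f i (inner ℝ g y) ∂(stdGaussian (Sp n)))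
      (b := fun i => φ i x * φ i y) (fun i => by
        simpa using norm_integral_le_of_norm_le_const (μ := stdGaussian (Sp n))
          (f := fun g => f i (inner ℝ g x) * f i (inner ℝ g y)) (C := 1)
          (Filter.Eventually.of_forall fun _ => by
            rw [norm_mul]; exact mul_le_one₀ (ha _ _) (norm_nonneg _) (ha _ _)))
      (fun i => by rw [abs_mul]; exact mul_le_one₀ (hφ1 _ _) (abs_nonneg _) (hφ1 _ _))
    have h7 := (le_abs_self _).trans (h6.trans (sum_le_sum fun i _ =>
      sud_cov (hf0 i) (hf1 i) (hL i) x y))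
    rw [prod_mul_distrib, sum_const, card_univ, nsmul_eq_mul] at h7
    simp only [integral_const, probReal_univ, smul_eq_mul, one_mul]
    linarith
  · rw [integral_const_mul]
    refine mul_le_mul_of_nonneg_left (sud_iso hK hI ?_) (by positivity)
    rw [norm_smul, norm_inv, norm_norm]
    exact inv_mul_le_one_of_le₀ le_rfl (norm_nonneg _)

theorem sudakov {n : ℕ} (K : Set (Sp n)) (hK : IsBody K) (hI : IsIso K) {κ Λ : Type*}
    [Fintype κ] [Fintype Λ] (f : Λ → κ → ℝ → ℝ) (L : NNReal) (δ : ℝ) (hδ : 0 < δ)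
    (hf0 : ∀ a i t, 0 ≤ f a i t) (hf1 : ∀ a i t, f a i t ≤ 1)
    (hL : ∀ a i, LipschitzWith L (f a i))
    (hcard : (Fintype.card Λ : ℝ) * (2 * Fintype.card κ * L) < δ ^ 2) :
    ∃ g : κ → Sp n, ∀ a, |(∫ x in K, ∏ i, f a i (inner ℝ (g i) x)) -
      ∫ x in K, ∏ i, ∫ t, f a i (‖x‖ * t) ∂(gaussianReal 0 1)| ≤ δ * volume.real K := by
  have hV := iso_vol_pos hK
  have h := fun a => sud_one hK hI (hf0 a) (hf1 a) (hL a)
  obtain ⟨g, hg⟩ := exists_le_integral (integrable_finsetSum univ fun a _ => (h a).1)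
  refine ⟨g, fun a => abs_le_of_sq_le_sq ?_ (by positivity)⟩
  rw [integral_finsetSum _ fun a _ => (h a).1] at hg
  have h1 := (single_le_sum (fun a _ => sq_nonneg _) (mem_univ a)).trans
    (hg.trans (sum_le_sum fun a _ => (h a).2))
  rw [sum_const, card_univ, nsmul_eq_mul, ← mul_assoc] at h1
  rw [mul_pow]
  exact h1.trans (mul_le_mul_of_nonneg_right hcard.le (by positivity))

end Vale.Agent.P230.Up
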