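import Vale.Agent.P230.UpBlock
import Vale.Agent.P230.UpCore0
import Vale.Agent.P230.UpTree

/-! Stages of the Gaussian tree lattice: definition, base case and small lemmas. -/

namespace Vale.Agent.P230.Up

open Finset

/-- The inductive invariant of the construction. -/
def Stage (t : ℕ) (c : ℝ) : Prop :=
  ∃ (ι : Type) (_ : Fintype ι) (_ : DecidableEq ι) (rk : ι → ℕ) (η : ι → ℝ) (G : Type)
    (_ : AddCommGroup G) (_ : Fintype G) (π : (ι → ℤ) →+ G) (L : Finset ι) (E : ℕ),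
    Function.Injective rk ∧ Function.Surjective π ∧ (∀ i, 0 < η i) ∧ (∀ i, η i ≤ t) ∧
    Fintype.card ι ≤ 6 * t ^ 30 ∧ (Fintype.card G : ℝ) ≤ Real.exp ((t : ℝ) ^ 62) ∧
    L.card ≤ 3 * t ^ 30 ∧ (E = 1 ∨ E.Prime) ∧
    ∀ s : ι → ℝ, ∃ (x : (ι → Bool) → ι → ℤ) (ω : (ι → Bool) → ℝ), Causal rk x ∧
      (∀ ε, π (x ε) = 0) ∧ (∀ ε i, |s i - η i * x ε i| ≤ t) ∧ (∀ ε, 0 ≤ ω ε) ∧
      (∀ ε, ω ε ≤ Fintype.card G * ∏ i, (η i * gs (s i - η i * x ε i))) ∧
      (∀ ε, ω ε ≤ Real.exp (-((t : ℝ) ^ 19 / 10))) ∧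
      ∀ (Φ : (ι → ℤ) → ℝ) (lam : ℝ), (∀ z, 0 ≤ Φ z) → 0 ≤ lam →
        (∀ z, ∀ J ⊆ L, J.card = 2 * (2 * t) ^ 18 → lam * 2 ^ (2 * (2 * t) ^ 18) ≤
          ∑ S ∈ J.powerset, Φ (z + fun i => if i ∈ S then (E : ℤ) else 0)) →
        c * lam ≤ ∑ ε, ω ε * Φ (x ε)

lemma Stage.mono {t : ℕ} {c c' : ℝ} (h : Stage t c) (hc : c' ≤ c) : Stage t c' := by
  obtain ⟨ι, i1, i2, rk, η, G, i3, i4, π, L, E, a1, a2, a3, a4, a5, a6, a7, a8, hs⟩ := h
  refine ⟨ι, i1, i2, rk, η, G, i3, i4, π, L, E, a1, a2, a3, a4, a5, a6, a7, a8, fun s => ?_⟩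
  obtain ⟨x, ω, b1, b2, b3, b4, b5, b6, b7⟩ := hs s
  exact ⟨x, ω, b1, b2, b3, b4, b5, b6, fun Φ lam h1 h2 h3 =>
    (mul_le_mul_of_nonneg_right hc h2).trans (b7 Φ lam h1 h2 h3)⟩

lemma mix_small {t : ℕ} (ht : 2 ^ 22 ≤ t) :
    (2 : ℝ) ^ (2 * (2 * t) ^ 18) * (3 / 4) ^ t ^ 19 ≤ 1 / (t : ℝ) ^ 2 := by
  have hT : (2 : ℝ) ^ 22 ≤ t := by exact_mod_cast ht
  have hT0 : (0 : ℝ) < t := lt_of_lt_of_le (by norm_num) hT
  have h1 := two_pow_le_exp (2 * (2 * t) ^ 18)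
  have h2 : (3 / 4 : ℝ) ^ t ^ 19 ≤ Real.exp (-(1 / 4)) ^ t ^ 19 := by
    gcongr; linarith [Real.add_one_le_exp (-(1 / 4))]
  rw [← Real.exp_nat_mul] at h2
  have h3 := pow_le_exp_mul hT0.le 2
  have h4 : 100000 * (t : ℝ) ^ 1 ≤ (t : ℝ) ^ 18 := pow_step (by linarith) (by norm_num)
  have h5 : (2 : ℝ) ^ 22 * (t : ℝ) ^ 18 ≤ (t : ℝ) ^ 19 := by
    calc (2 : ℝ) ^ 22 * (t : ℝ) ^ 18 ≤ t * (t : ℝ) ^ 18 := by gcongr
      _ = _ := by ring
  rw [le_div_iff₀ (by positivity)]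
  calc _ ≤ Real.exp ((2 * (2 * t) ^ 18 : ℕ)) * Real.exp ((t ^ 19 : ℕ) * -(1 / 4)) *
        Real.exp ((2 : ℕ) * t) := by gcongr
    _ ≤ Real.exp 0 := by
        rw [← Real.exp_add, ← Real.exp_add]
        refine Real.exp_le_exp.2 ?_
        push_cast
        rw [mul_pow]
        norm_num at h4 h5 ⊢
        linarith
    _ = 1 := Real.exp_zero

lemma gs_zero_le_three : gs 0 ≤ 3 * gs 1 := by
  rw [gs_eq 1]
  have h1 := Real.add_one_le_exp (-1 ^ 2 / 2 : ℝ)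
  have h2 := gs_pos 0
  norm_num at h1 ⊢
  nlinarith

lemma act_ratio {h u : ℝ} (hh : 0 < h) (hu : |u - h / 2| ≤ 1 / h) :
    gs u ≤ 3 * gs (u - h) ∧ gs (u - h) ≤ 3 * gs u := by
  have h1 : |h * (u - h / 2)| ≤ 1 := by
    rw [abs_mul, abs_of_pos hh]; rwa [le_div_iff₀ hh, mul_comm] at hu
  have h2 := abs_le.1 h1
  have h3 : Real.exp 1 ≤ 3 := by linarith [Real.exp_one_lt_d9]
  have h4 := gs_pos 0
  rw [gs_eq u, gs_eq (u - h)]
  constructor
  · have : Real.exp (-u ^ 2 / 2) ≤ Real.exp 1 * Real.exp (-(u - h) ^ 2 / 2) := by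
      rw [← Real.exp_add]; exact Real.exp_le_exp.2 (by nlinarith)
    have h5 := Real.exp_pos (-(u - h) ^ 2 / 2)
    calc _ ≤ gs 0 * (3 * Real.exp (-(u - h) ^ 2 / 2)) := by
          gcongr; exact this.trans (by gcongr)
      _ = _ := by ring
  · have : Real.exp (-(u - h) ^ 2 / 2) ≤ Real.exp 1 * Real.exp (-u ^ 2 / 2) := by
      rw [← Real.exp_add]; exact Real.exp_le_exp.2 (by nlinarith)
    have h5 := Real.exp_pos (-u ^ 2 / 2)
    calc _ ≤ gs 0 * (3 * Real.exp (-u ^ 2 / 2)) := by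
          gcongr; exact this.trans (by gcongr)
      _ = _ := by ring

lemma prod_leaf_le {ι : Type*} [Fintype ι] [DecidableEq ι] (p₀ p₁ : ι → ℝ) (h0 : ∀ i, 0 ≤ p₀ i)
    (h1 : ∀ i, 0 ≤ p₁ i) (D : ℕ) (act : Finset ι) (hD : D ≤ act.card)
    (hact : ∀ i ∈ act, p₀ i ≤ 3 * p₁ i ∧ p₁ i ≤ 3 * p₀ i) (ε : ι → Bool) :
    (∏ i, if ε i then p₁ i else p₀ i) ≤ (3 / 4) ^ D * ∏ i, (p₀ i + p₁ i) := by
  calc (∏ i, if ε i then p₁ i else p₀ i)
      ≤ ∏ i, ((if i ∈ act then 3 / 4 else 1) * (p₀ i + p₁ i)) := by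
        refine prod_le_prod (fun i _ => by split_ifs; exacts [h1 i, h0 i]) fun i _ => ?_
        have := h0 i
        have := h1 i
        by_cases hi : i ∈ act
        · have := hact i hi
          rw [if_pos hi]; split_ifs <;> linarith
        · rw [if_neg hi]; split_ifs <;> linarith
    _ = (3 / 4) ^ act.card * ∏ i, (p₀ i + p₁ i) := by
        rw [prod_mul_distrib, prod_ite_mem, univ_inter, prod_const]
    _ ≤ _ := by
        refine mul_le_mul_of_nonneg_right (pow_le_pow_of_le_one (by norm_num) (by norm_num) hD)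
          (prod_nonneg fun i _ => add_nonneg (h0 i) (h1 i))

lemma stage_base {t : ℕ} (ht : 2 ^ 22 ≤ t) : Stage t (gs 1 ^ t ^ 19 / 2) := by
  have hT : (2 : ℝ) ^ 22 ≤ t := by exact_mod_cast ht
  have ht1 : 1 ≤ t := le_trans (by norm_num) ht
  have hT1 : (1 : ℝ) ≤ t := by exact_mod_cast ht1
  have h19 : t ^ 19 ≤ t ^ 30 := Nat.pow_le_pow_right ht1 (by norm_num)
  refine ⟨Fin (t ^ 19), inferInstance, inferInstance, Fin.val, fun _ => 1, PUnit, inferInstance,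
    inferInstance, 0, univ, 1, Fin.val_injective, fun _ => ⟨0, rfl⟩, fun _ => one_pos,
    fun _ => hT1, by simp; omega, by simp, by simp; omega, Or.inl rfl, fun s => ?_⟩
  have f0 : ∀ i, 0 ≤ s i - ⌊s i⌋ := fun i => sub_nonneg.2 (Int.floor_le _)
  have f1 : ∀ i, s i - ⌊s i⌋ < 1 := fun i => by linarith [Int.lt_floor_add_one (s i)]
  let x : (Fin (t ^ 19) → Bool) → Fin (t ^ 19) → ℤ := fun ε i => ⌊s i⌋ + if ε i then 1 else 0
  let p₀ : Fin (t ^ 19) → ℝ := fun i => gs (s i - ⌊s i⌋)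
  let p₁ : Fin (t ^ 19) → ℝ := fun i => gs (s i - ⌊s i⌋ - 1)
  have l0 : ∀ i, gs 1 ≤ p₀ i := fun i => gs_le_of_abs_le (by
    rw [abs_of_nonneg (f0 i), abs_one]; exact (f1 i).le)
  have l1 : ∀ i, gs 1 ≤ p₁ i := fun i => gs_le_of_abs_le (by
    rw [abs_one, abs_le]; constructor <;> linarith [f0 i, f1 i])
  refine ⟨x, fun ε => ∏ i, if ε i then p₁ i else p₀ i, ⟨fun ε ε' i h => ?_, fun ε ε' i _ h => ?_⟩,
    fun _ => rfl, fun ε i => ?_, fun ε => ?_, fun ε => ?_, fun ε => ?_, fun Φ lam h1 h2 h3 => ?_⟩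
  · simp only [x, h i le_rfl]
  · simp only [x]
    cases h1 : ε i <;> cases h2 : ε' i <;> simp_all
  · simp only [x]
    have := f0 i
    have := f1 i
    rw [abs_le]
    split_ifs <;> push_cast <;> constructor <;> linarith
  · exact prod_nonneg fun i _ => by split_ifs <;> exact (gs_pos _).le
  · simp only [Fintype.card_punit, Nat.cast_one, one_mul, x]
    refine le_of_eq (prod_congr rfl fun i _ => ?_)
    split_ifs
    · simp only [p₁]; push_cast; ring_nf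
    · simp [p₀]
  · calc (∏ i, if ε i then p₁ i else p₀ i) ≤ ∏ _i : Fin (t ^ 19), Real.exp (-(1 / 10)) := by
          refine prod_le_prod (fun i _ => by split_ifs <;> exact (gs_pos _).le) fun i _ => ?_
          have h1 := Real.add_one_le_exp (-(1 / 10) : ℝ)
          have h2 := gs_zero_bounds.2
          split_ifs <;> exact (gs_le_zero _).trans (by linarith)
      _ = _ := by
          rw [prod_const, card_univ, Fintype.card_fin, ← Real.exp_nat_mul]; push_cast; ring_nf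
  · have := cube_mix p₀ p₁ (fun _ => (gs_pos _).le) (fun _ => (gs_pos _).le) (t ^ 19)
      (2 * (2 * t) ^ 18) univ (by simp) (fun i _ =>
        ⟨((gs_le_zero _).trans gs_zero_le_three).trans (by linarith [l1 i]),
          ((gs_le_zero _).trans gs_zero_le_three).trans (by linarith [l0 i])⟩)
      (fun ε => Φ (x ε)) (fun _ => h1 _) lam h2 (fun ε J hJ hε => by
        refine (h3 (x ε) J (subset_univ _) hJ).trans_eq (sum_congr rfl fun S hS => ?_)
        congr 1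
        funext i
        by_cases hi : i ∈ S
        · simp [x, hi, hε i (mem_powerset.1 hS hi)]
        · simp [x, hi])
    refine le_trans (mul_le_mul_of_nonneg_right ?_ h2) this
    have h4 : gs 1 ^ t ^ 19 ≤ ∏ i, (p₀ i + p₁ i) := by
      calc gs 1 ^ t ^ 19 = ∏ _i : Fin (t ^ 19), gs 1 := by simp
        _ ≤ _ := prod_le_prod (fun _ _ => (gs_pos _).le) fun i _ => by
            linarith [l0 i, l1 i, gs_pos 1]
    have h5 := mix_small ht
    have h6 : 1 / (t : ℝ) ^ 2 ≤ 1 / 2 := by gcongr; nlinarith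
    have h7 : 0 < gs 1 ^ t ^ 19 := pow_pos (gs_pos 1) _
    generalize (2 : ℝ) ^ (2 * (2 * t) ^ 18) * (3 / 4) ^ t ^ 19 = δ at h5 ⊢
    rw [div_eq_mul_one_div]
    exact mul_le_mul h4 (by linarith) (by norm_num) (h7.le.trans h4)

lemma sum_sumBool {ι κ : Type*} [Fintype ι] [Fintype κ] [DecidableEq ι] [DecidableEq κ]
    (f : (ι ⊕ κ → Bool) → ℝ) :
    ∑ ε, f ε = ∑ ε₁ : ι → Bool, ∑ ε₂ : κ → Bool, f (Sum.elim ε₁ ε₂) := by
  rw [← Fintype.sum_prod_type', ← (Equiv.sumArrowEquivProdArrow ι κ Bool).symm.sum_comp]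
  rfl

lemma sum_powerset_map {α β : Type*} (f : α ↪ β) (J : Finset α) (g : Finset β → ℝ) :
    ∑ S ∈ (J.map f).powerset, g S = ∑ S ∈ J.powerset, g (S.map f) := by
  classical
  rw [map_eq_image, powerset_image, sum_image]
  · exact sum_congr rfl fun S _ => by rw [map_eq_image]
  · exact fun S _ S' _ h => image_injective f.injective h

lemma evH_ind {ι V : Type*} [Fintype ι] [DecidableEq ι] (Q : ℕ) [AddCommGroup V]
    [Module (ZMod Q) V] (A : ι → V) (S : Finset ι) (E : ℕ) :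
    evH Q A (fun i => if i ∈ S then (E : ℤ) else 0) = (E : ZMod Q) • ∑ i ∈ S, A i := by
  rw [evH_apply, pr, smul_sum, ← sum_subset (subset_univ S)]
  · exact sum_congr rfl fun i hi => by simp [hi]
  · intro i _ hi; simp [hi]

lemma card_quot {q m : ℕ} [Fact q.Prime] (w : Fin m → ZMod q)
    [Fintype ((Fin m → ZMod q) ⧸ Submodule.span (ZMod q) {w})] :
    (q : ℝ) ^ m / q ≤ Fintype.card ((Fin m → ZMod q) ⧸ Submodule.span (ZMod q) {w}) ∧
    (Fintype.card ((Fin m → ZMod q) ⧸ Submodule.span (ZMod q) {w}) : ℝ) ≤ (q : ℝ) ^ m := by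
  have hq : (0 : ℝ) < q := by exact_mod_cast (Fact.out : q.Prime).pos
  constructor
  · have h1 := Submodule.card_eq_card_quotient_mul_card (Submodule.span (ZMod q) {w})
    have h2 : Nat.card (Submodule.span (ZMod q) {w}) ≤ Nat.card (ZMod q) := by
      refine Nat.card_le_card_of_surjective
        (fun a : ZMod q => (⟨a • w, Submodule.mem_span_singleton.2 ⟨a, rfl⟩⟩ :
          Submodule.span (ZMod q) {w})) ?_
      rintro ⟨v, hv⟩
      obtain ⟨a, rfl⟩ := Submodule.mem_span_singleton.1 hv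
      exact ⟨a, rfl⟩
    rw [div_le_iff₀ hq]
    have h3 : q ^ m ≤ Fintype.card ((Fin m → ZMod q) ⧸ Submodule.span (ZMod q) {w}) * q := by
      have e1 : Nat.card (Fin m → ZMod q) = q ^ m := by simp
      have e2 : Nat.card (ZMod q) = q := by simp
      rw [← e1, h1, ← Nat.card_eq_fintype_card, mul_comm]
      rw [e2] at h2
      gcongr
    exact_mod_cast h3
  · have h1 := Fintype.card_le_of_surjective _
      (Submodule.mkQ_surjective (Submodule.span (ZMod q) {w}))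
    have e1 : Fintype.card (Fin m → ZMod q) = q ^ m := by simp
    rw [e1] at h1
    exact_mod_cast h1

end Vale.Agent.P230.Up
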