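import Vale.Agent.P230.UpSudakov

/-! Trapezoid test functions and their Gaussian integrals. -/

namespace Vale.Agent.P230.Up

open Finset MeasureTheory ProbabilityTheory

/-- Trapezoid with centre `c`, half-width `a` and sides of width `b`. -/
noncomputable def tz (c a b t : ℝ) : ℝ := max 0 (min 1 ((a - |t - c|) / b))

lemma tz_nonneg (c a b t : ℝ) : 0 ≤ tz c a b t := le_max_left _ _

lemma tz_le_one (c a b t : ℝ) : tz c a b t ≤ 1 := max_le zero_le_one (min_le_left _ _)

lemma tz_eq_one {c a b t : ℝ} (hb : 0 < b) (h : |t - c| ≤ a - b) : tz c a b t = 1 := by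
  rw [tz, min_eq_left (by rw [le_div_iff₀ hb]; linarith), max_eq_right zero_le_one]

lemma tz_eq_zero {c a b t : ℝ} (hb : 0 < b) (h : a ≤ |t - c|) : tz c a b t = 0 :=
  max_eq_left ((min_le_right _ _).trans (div_nonpos_of_nonpos_of_nonneg (by linarith) hb.le))

lemma tz_lip (c a : ℝ) {b : ℝ} (hb : 0 < b) {L : NNReal} (hL : 1 / b ≤ L) :
    LipschitzWith L (tz c a b) := by
  refine LipschitzWith.const_max (LipschitzWith.const_min (LipschitzWith.of_dist_le_mul
    fun s t => ?_) 1) 0
  rw [Real.dist_eq, Real.dist_eq, ← sub_div, abs_div, abs_of_pos hb, div_eq_mul_one_div, mul_comm]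
  refine mul_le_mul hL ?_ (abs_nonneg _) L.2
  rw [sub_sub_sub_cancel_left, abs_sub_comm s t]
  simpa using abs_abs_sub_abs_le (t - c) (s - c)

lemma tz_cont (c a b : ℝ) : Continuous (tz c a b) := by unfold tz; fun_prop

lemma tr_gs : gs = gaussianPDFReal 0 1 := by ext t; simp [gaussianPDFReal, gs, div_eq_inv_mul]

lemma tr_gauss (F : ℝ → ℝ) : ∫ t, F t ∂(gaussianReal 0 1) = ∫ t, gs t * F t := by
  rw [integral_gaussianReal_eq_integral_smul one_ne_zero, tr_gs]
  rfl

lemma tr_int {F : ℝ → ℝ} (hF : Continuous F) (h0 : ∀ t, 0 ≤ F t) (h1 : ∀ t, F t ≤ 1) :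
    Integrable fun t => gs t * F t := by
  rw [tr_gs]
  exact (integrable_gaussianPDFReal 0 1).mul_bdd (c := 1) hF.aestronglyMeasurable
    (Filter.Eventually.of_forall fun t => by rw [Real.norm_of_nonneg (h0 t)]; exact h1 t)

lemma tz_lower {c a b r m : ℝ} (hb : 0 < b) (hab : b ≤ a) (hr : 0 < r)
    (h : ∀ t, |r * t - c| ≤ a → m ≤ gs t) :
    2 * (a - b) / r * m ≤ ∫ t, tz c a b (r * t) ∂(gaussianReal 0 1) := by
  have hc := tz_cont c a b
  have h1 : ∫ t, (Set.Icc ((c - (a - b)) / r) ((c + (a - b)) / r)).indicator (fun _ => m) t =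
      2 * (a - b) / r * m := by
    rw [integral_indicator_const _ measurableSet_Icc, Real.volume_real_Icc_of_le
      (div_le_div_of_nonneg_right (by linarith) hr.le), smul_eq_mul]
    ring
  rw [tr_gauss, ← h1]
  refine integral_mono ((integrable_indicator_iff measurableSet_Icc).mpr
    (continuousOn_const.integrableOn_Icc)) (tr_int (by fun_prop) (fun _ => tz_nonneg _ _ _ _)
    fun _ => tz_le_one _ _ _ _) fun t => ?_
  by_cases ht : t ∈ Set.Icc ((c - (a - b)) / r) ((c + (a - b)) / r)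
  · have h2 : |r * t - c| ≤ a - b := by
      have h3 := (div_le_iff₀ hr).mp ht.1
      have h4 := (le_div_iff₀ hr).mp ht.2
      rw [abs_le]; constructor <;> linarith
    simp only [Set.indicator_of_mem ht, tz_eq_one hb h2, mul_one]
    exact h t (by linarith)
  · simp only [Set.indicator_of_notMem ht]
    exact mul_nonneg (gs_pos _).le (tz_nonneg _ _ _ _)

lemma tr_mul_gs (y : ℝ) : y * gs y ≤ gs 1 := by
  rw [gs_eq y, gs_eq 1, mul_left_comm]
  refine mul_le_mul_of_nonneg_left ?_ (gs_pos 0).le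
  have h1 := Real.add_one_le_exp ((y ^ 2 - 1) / 2)
  have h2 : Real.exp (-1 ^ 2 / 2) = Real.exp ((y ^ 2 - 1) / 2) * Real.exp (-y ^ 2 / 2) := by
    rw [← Real.exp_add]; congr 1; ring
  rw [h2]
  exact mul_le_mul_of_nonneg_right (by nlinarith [sq_nonneg (y - 1)]) (Real.exp_pos _).le

lemma tz_upper {c a b r : ℝ} (hb : 0 < b) (ha : 0 ≤ a) (hac : a < c) (hr : 0 ≤ r) :
    ∫ t, tz c a b (r * t) ∂(gaussianReal 0 1) ≤ 2 * a * gs 1 / (c - a) := by
  have hg := gs_pos 1
  have hca : 0 < c - a := by linarith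
  rcases hr.eq_or_lt with rfl | hr
  · simp only [zero_mul]
    rw [tz_eq_zero hb (by rw [zero_sub, abs_neg]; exact hac.le.trans (le_abs_self _))]
    simp only [integral_zero]
    positivity
  have hc := tz_cont c a b
  have h1 : ∫ t, (Set.Icc ((c - a) / r) ((c + a) / r)).indicator (fun _ => gs ((c - a) / r)) t =
      2 * a / r * gs ((c - a) / r) := by
    rw [integral_indicator_const _ measurableSet_Icc, Real.volume_real_Icc_of_le
      (div_le_div_of_nonneg_right (by linarith) hr.le), smul_eq_mul]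
    ring
  have h2 : 2 * a / r * gs ((c - a) / r) ≤ 2 * a * gs 1 / (c - a) := by
    have := mul_le_mul_of_nonneg_left (tr_mul_gs ((c - a) / r))
      (show 0 ≤ 2 * a / (c - a) by positivity)
    calc _ = 2 * a / (c - a) * ((c - a) / r * gs ((c - a) / r)) := by field_simp
      _ ≤ _ := this
      _ = _ := by ring
  rw [tr_gauss]
  refine le_trans ?_ (h1.trans_le h2)
  refine integral_mono (tr_int (by fun_prop) (fun _ => tz_nonneg _ _ _ _)
    fun _ => tz_le_one _ _ _ _) ((integrable_indicator_iff measurableSet_Icc).mpr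
    (continuousOn_const.integrableOn_Icc)) fun t => ?_
  by_cases ht : t ∈ Set.Icc ((c - a) / r) ((c + a) / r)
  · simp only [Set.indicator_of_mem ht]
    refine (mul_le_of_le_one_right (gs_pos _).le (tz_le_one _ _ _ _)).trans (gs_le_of_abs_le ?_)
    rw [abs_of_nonneg (by positivity)]
    exact ht.1.trans (le_abs_self _)
  · have h3 : a ≤ |r * t - c| := by
      by_contra! h4
      rw [abs_lt] at h4
      exact ht ⟨(div_le_iff₀ hr).mpr (by linarith), (le_div_iff₀ hr).mpr (by linarith)⟩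
    simp only [Set.indicator_of_notMem ht, tz_eq_zero hb h3, mul_zero, le_rfl]

lemma tz_int_nonneg (c a b r : ℝ) : 0 ≤ ∫ t, tz c a b (r * t) ∂(gaussianReal 0 1) :=
  integral_nonneg fun _ => tz_nonneg _ _ _ _

lemma tz_int_cont (c a b : ℝ) :
    Continuous fun r : ℝ => ∫ t, tz c a b (r * t) ∂(gaussianReal 0 1) := by
  have hc := tz_cont c a b
  refine continuous_of_dominated (bound := fun _ => 1)
    (fun r => Continuous.aestronglyMeasurable (by fun_prop))
    (fun r => Filter.Eventually.of_forall fun t => ?_) (integrable_const _)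
    (Filter.Eventually.of_forall fun t => by fun_prop)
  rw [Real.norm_of_nonneg (tz_nonneg _ _ _ _)]
  exact tz_le_one _ _ _ _

lemma tr_le_vol {n : ℕ} {K S : Set (Sp n)} (hK : IsBody K) (hS : MeasurableSet S) {F : Sp n → ℝ}
    (hF : Continuous F) (h1 : ∀ x, F x ≤ 1) (h0 : ∀ x, x ∉ S → F x = 0) :
    ∫ x in K, F x ≤ volume.real (K ∩ S) := by
  have : IsFiniteMeasure (volume.restrict K) := isFiniteMeasure_restrict.mpr
    hK.1.measure_lt_top.ne
  rw [Set.inter_comm, ← measureReal_restrict_apply hS, ← integral_indicator_one hS]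
  refine integral_mono (iso_int hK hF) ((integrable_const _).indicator hS) fun x => ?_
  by_cases hx : x ∈ S
  · simpa [hx] using h1 x
  · simp [hx, h0 x hx]

lemma tr_vol_le {n : ℕ} {K S : Set (Sp n)} (hK : IsBody K) (hS : MeasurableSet S) {F : Sp n → ℝ}
    (hF : Continuous F) (h0 : ∀ x, 0 ≤ F x) {m : ℝ} (h1 : ∀ x ∈ S, m ≤ F x) :
    volume.real (K ∩ S) * m ≤ ∫ x in K, F x := by
  have : IsFiniteMeasure (volume.restrict K) := isFiniteMeasure_restrict.mpr
    hK.1.measure_lt_top.ne
  rw [Set.inter_comm, ← measureReal_restrict_apply hS, ← smul_eq_mul,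
    ← integral_indicator_const m hS]
  refine integral_mono ((integrable_const _).indicator hS) (iso_int hK hF) fun x => ?_
  by_cases hx : x ∈ S
  · simpa [hx] using h1 x hx
  · simpa [hx] using h0 x

lemma tr_exp_sqrt {x y z : ℝ} (h : Real.exp y ≤ z) (hx : 2 * x ≤ y) : Real.exp x ≤ √z := by
  refine Real.le_sqrt_of_sq_le (le_trans ?_ h)
  rw [← Real.exp_nat_mul]
  exact Real.exp_le_exp.mpr (by simpa using hx)

lemma tr_le_exp (x : ℝ) : x < Real.exp x := by linarith [Real.add_one_le_exp x]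

lemma tr_one_sub {x : ℝ} (h0 : 0 ≤ x) (h1 : x ≤ 1 / 2) : Real.exp (-(2 * x)) ≤ 1 - x := by
  rw [Real.exp_neg, inv_le_comm₀ (Real.exp_pos _) (by linarith), inv_le_iff_one_le_mul₀
    (by linarith)]
  have := Real.add_one_le_exp (2 * x)
  nlinarith

end Vale.Agent.P230.Up
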