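import Vale.Agent.P230.UpDefs

/-! Typical sets for product weights. -/

namespace Vale.Agent.P230.Up

open Finset

section
variable {F : Type*} [Fintype F]

lemma sum_prod_pow (W : F → ℝ) (m : ℕ) : ∑ y : Fin m → F, ∏ i, W (y i) = (∑ y, W y) ^ m := by
  classical
  rw [Finset.sum_pow', Fintype.piFinset_univ]

lemma sum_cons {m : ℕ} (g : (Fin (m + 1) → F) → ℝ) :
    ∑ y, g y = ∑ a : F, ∑ y : Fin m → F, g (Fin.cons a y) := by
  rw [← Fintype.sum_prod_type', ← (Fin.consEquiv fun _ => F).sum_comp]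
  rfl

lemma prod_mean (W f : F → ℝ) (hf : ∑ y, W y * f y = 0) (m : ℕ) :
    ∑ y : Fin m → F, (∏ i, W (y i)) * ∑ i, f (y i) = 0 := by
  induction m with
  | zero => simp
  | succ m ih =>
    rw [sum_cons]
    simp only [Fin.prod_univ_succ, Fin.sum_univ_succ, Fin.cons_zero, Fin.cons_succ]
    have : ∀ a, ∑ y : Fin m → F, (W a * ∏ i, W (y i)) * (f a + ∑ i, f (y i)) =
        W a * f a * (∑ y, W y) ^ m := by
      intro a
      rw [← sum_prod_pow, mul_sum]
      have h2 : W a * ∑ y : Fin m → F, (∏ i, W (y i)) * ∑ i, f (y i) = 0 := by rw [ih, mul_zero]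
      rw [← add_zero (∑ y : Fin m → F, W a * f a * ∏ i, W (y i)), ← h2, mul_sum, ← sum_add_distrib]
      exact sum_congr rfl fun y _ => by ring
    simp only [this, ← sum_mul, hf, zero_mul]

lemma prod_var (W f : F → ℝ) (hf : ∑ y, W y * f y = 0) (m : ℕ) :
    (∑ y : Fin m → F, (∏ i, W (y i)) * (∑ i, f (y i)) ^ 2) * ∑ y, W y =
      m * (∑ y, W y) ^ m * ∑ y, W y * f y ^ 2 := by
  induction m with
  | zero => simp
  | succ m ih =>
    rw [sum_cons]
    simp only [Fin.prod_univ_succ, Fin.sum_univ_succ, Fin.cons_zero, Fin.cons_succ]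
    have : ∀ a, ∑ y : Fin m → F, (W a * ∏ i, W (y i)) * (f a + ∑ i, f (y i)) ^ 2 =
        W a * f a ^ 2 * (∑ y, W y) ^ m +
          W a * ∑ y : Fin m → F, (∏ i, W (y i)) * (∑ i, f (y i)) ^ 2 := by
      intro a
      have h2 : 2 * W a * f a * ∑ y : Fin m → F, (∏ i, W (y i)) * ∑ i, f (y i) = 0 := by
        rw [prod_mean W f hf, mul_zero]
      rw [← sum_prod_pow, ← add_zero (W a * f a ^ 2 * _ + _), ← h2, mul_sum, mul_sum, mul_sum,
        ← sum_add_distrib, ← sum_add_distrib]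
      exact sum_congr rfl fun y _ => by ring
    simp only [this, sum_add_distrib, ← sum_mul]
    push_cast
    linear_combination (∑ y, W y) * ih

lemma prod_cheb (W f : F → ℝ) (hW : ∀ y, 0 < W y) [Nonempty F] (hf : ∑ y, W y * f y = 0) (m : ℕ)
    {σ Δ : ℝ} (hσ : ∑ y, W y * f y ^ 2 ≤ σ * ∑ y, W y) (hΔ : 0 < Δ)
    (B : Finset (Fin m → F)) (hB : ∀ y ∈ B, Δ ≤ |∑ i, f (y i)|) :
    ∑ y ∈ B, ∏ i, W (y i) ≤ m * σ / Δ ^ 2 * (∑ y, W y) ^ m := by
  have hZ : 0 < ∑ y, W y := sum_pos (fun y _ => hW y) univ_nonempty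
  have h1 : (∑ y ∈ B, ∏ i, W (y i)) * Δ ^ 2 ≤
      ∑ y : Fin m → F, (∏ i, W (y i)) * (∑ i, f (y i)) ^ 2 := by
    rw [sum_mul]
    refine le_trans (sum_le_sum fun y hy => ?_) (sum_le_sum_of_subset_of_nonneg (subset_univ B)
      fun y _ _ => mul_nonneg (prod_pos fun i _ => hW _).le (sq_nonneg _))
    refine mul_le_mul_of_nonneg_left ?_ (prod_pos fun i _ => hW _).le
    rw [← sq_abs (∑ i, f (y i))]
    exact pow_le_pow_left₀ hΔ.le (hB y hy) 2
  have h2 := prod_var W f hf m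
  have h3 : ∑ y : Fin m → F, (∏ i, W (y i)) * (∑ i, f (y i)) ^ 2 ≤ m * σ * (∑ y, W y) ^ m := by
    refine le_of_mul_le_mul_right ?_ hZ
    rw [h2]
    calc (m : ℝ) * (∑ y, W y) ^ m * ∑ y, W y * f y ^ 2
        ≤ m * (∑ y, W y) ^ m * (σ * ∑ y, W y) := by gcongr
      _ = _ := by ring
  rw [div_mul_eq_mul_div, le_div_iff₀ (by positivity)]
  exact h1.trans h3

theorem typical (W : F → ℝ) (act : F → Prop) [DecidablePred act] [Nonempty F] (m D : ℕ)
    {Δ c σ p a : ℝ} (hW : ∀ y, 0 < W y) (hΔ : 0 < Δ) (hD0 : 0 < D)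
    (ha : a * ∑ y, W y = ∑ y, W y * Real.log (W y))
    (hσ : ∑ y, W y * (Real.log (W y) - c) ^ 2 ≤ σ * ∑ y, W y)
    (hp : p * ∑ y, W y ≤ ∑ y ∈ univ.filter act, W y) (hD : 2 * (D : ℝ) ≤ m * p)
    (G : Finset (Fin m → F)) (hG : ∀ y, |∑ i, Real.log (W (y i)) - m * a| ≤ Δ →
      D ≤ (univ.filter fun i => act (y i)).card → y ∈ G) :
    (1 - m * σ / Δ ^ 2 - 2 / D) * (∑ y, W y) ^ m ≤ ∑ y ∈ G, ∏ i, W (y i) := by
  classical
  have hZ : 0 < ∑ y, W y := sum_pos (fun y _ => hW y) univ_nonempty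
  set Z := ∑ y, W y with hZdef
  set p' := (∑ y ∈ univ.filter act, W y) / Z with hp'
  have hpp : p ≤ p' := by rw [hp', le_div_iff₀ hZ]; exact hp
  have hD' : (0 : ℝ) < D := by exact_mod_cast hD0
  have hmp : 2 * (D : ℝ) ≤ m * p' := hD.trans (by gcongr)
  have hmp0 : 0 < m * p' := by linarith
  have hp'Z : p' * Z = ∑ y ∈ univ.filter act, W y := div_mul_cancel₀ _ hZ.ne'
  have hp'0 : 0 ≤ p' := div_nonneg (sum_nonneg fun y _ => (hW y).le) hZ.le
  let B₁ : Finset (Fin m → F) := univ.filter fun y => Δ ≤ |∑ i, (Real.log (W (y i)) - a)|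
  let B₂ : Finset (Fin m → F) :=
    univ.filter fun y => m * p' / 2 ≤ |∑ i, ((if act (y i) then 1 else 0) - p')|
  have h1 : ∑ y ∈ B₁, ∏ i, W (y i) ≤ m * σ / Δ ^ 2 * Z ^ m := by
    refine prod_cheb W (fun y => Real.log (W y) - a) hW ?_ m (le_trans ?_ hσ) hΔ B₁
      fun y hy => (mem_filter.1 hy).2
    · simp only [mul_sub, sum_sub_distrib, ← sum_mul]; linarith
    · have : ∑ y, W y * (Real.log (W y) - c) ^ 2 =
          ∑ y, W y * (Real.log (W y) - a) ^ 2 + (a - c) ^ 2 * Z +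
            2 * (a - c) * (∑ y, W y * Real.log (W y) - a * Z) := by
        rw [hZdef]
        simp only [mul_sum, ← sum_sub_distrib, ← sum_add_distrib]
        exact sum_congr rfl fun y _ => by ring
      rw [this, ha, sub_self, mul_zero, add_zero]
      have : 0 ≤ (a - c) ^ 2 * Z := by positivity
      linarith
  have e1 : ∑ y, W y * (if act y then 1 else 0) = p' * Z := by
    rw [hp'Z, sum_filter]; exact sum_congr rfl fun y _ => by split_ifs <;> simp
  have h2 : ∑ y ∈ B₂, ∏ i, W (y i) ≤ m * p' / (m * p' / 2) ^ 2 * Z ^ m := by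
    refine prod_cheb W (fun y => (if act y then 1 else 0) - p') hW ?_ m ?_ (by linarith) B₂
      fun y hy => (mem_filter.1 hy).2
    · simp only [mul_sub, sum_sub_distrib, ← sum_mul, e1]; ring
    · have : ∑ y, W y * ((if act y then 1 else 0) - p') ^ 2 =
          (1 - 2 * p') * ∑ y, W y * (if act y then 1 else 0) + p' ^ 2 * Z := by
        rw [hZdef]
        simp only [mul_sum, ← sum_add_distrib]
        exact sum_congr rfl fun y _ => by split_ifs <;> ring
      rw [this, e1]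
      have : 0 ≤ p' ^ 2 * Z := by positivity
      nlinarith
  have h3 : m * p' / (m * p' / 2) ^ 2 ≤ 2 / D := by
    rw [div_le_div_iff₀ (by positivity) hD']
    nlinarith
  have h4 : Z ^ m ≤ ∑ y ∈ G, ∏ i, W (y i) + ∑ y ∈ B₁, ∏ i, W (y i) + ∑ y ∈ B₂, ∏ i, W (y i) := by
    rw [hZdef, ← sum_prod_pow]
    have hsub : (univ : Finset (Fin m → F)) ⊆ G ∪ B₁ ∪ B₂ := by
      intro y _
      by_contra hc
      simp only [mem_union, not_or, B₁, B₂, mem_filter, mem_univ, true_and, not_le] at hc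
      obtain ⟨⟨c1, c2⟩, c3⟩ := hc
      refine c1 (hG y ?_ ?_)
      · simp only [sum_sub_distrib, sum_const, card_univ, Fintype.card_fin, nsmul_eq_mul] at c2
        exact c2.le
      · simp only [sum_sub_distrib, sum_const, card_univ, Fintype.card_fin, nsmul_eq_mul,
          sum_boole] at c3
        have := (abs_lt.1 c3).1
        have : (D : ℝ) ≤ (univ.filter fun i => act (y i)).card := by linarith
        exact_mod_cast this
    have hpos : ∀ y : Fin m → F, 0 ≤ ∏ i, W (y i) := fun y => (prod_pos fun i _ => hW _).le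
    have u1 : ∀ s t : Finset (Fin m → F), ∑ y ∈ s ∪ t, ∏ i, W (y i) ≤
        ∑ y ∈ s, ∏ i, W (y i) + ∑ y ∈ t, ∏ i, W (y i) := by
      intro s t
      rw [← sum_union_inter]
      exact le_add_of_nonneg_right (sum_nonneg fun y _ => hpos y)
    calc _ ≤ ∑ y ∈ G ∪ B₁ ∪ B₂, ∏ i, W (y i) :=
          sum_le_sum_of_subset_of_nonneg hsub fun y _ _ => hpos y
      _ ≤ _ := (u1 _ _).trans (by gcongr; exact u1 _ _)
  have h5 : m * p' / (m * p' / 2) ^ 2 * Z ^ m ≤ 2 / D * Z ^ m := by gcongr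
  linarith

lemma energy_prod [AddCommGroup F] (W : F → ℝ) (m : ℕ) :
    ∑ a : Fin m → F, (∑ y : Fin m → F, (∏ i, W (y i)) * ∏ i, W ((y - a) i)) ^ 2 =
      (∑ a, (∑ y, W y * W (y - a)) ^ 2) ^ m := by
  classical
  rw [← sum_prod_pow]
  refine sum_congr rfl fun a _ => ?_
  rw [prod_pow, prod_univ_sum, Fintype.piFinset_univ]
  congr 1
  exact sum_congr rfl fun y _ => by rw [← prod_mul_distrib]; rfl

end

end Vale.Agent.P230.Up
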